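import Vale.Agent.Lib.P074.Direc

open MeasureTheory Set
open scoped ENNReal NNReal RealInnerProductSpace

namespace Vale.Agent.Lib.P074

variable {d : ℕ}

theorem integral_uniformProb {K : Set (E d)} (f : E d → ℝ) :
    ∫ x, f x ∂(uniformProb K) = ((volume K).toReal)⁻¹ * ∫ x in K, f x := by
  unfold uniformProb
  rw [integral_smul_measure, smul_eq_mul, ENNReal.toReal_inv]

theorem norm_sq_le_sum (v : E d) {M : ℝ} (hv : ‖v‖ ≤ M) :
    ‖v‖ ^ 2 ≤ M * ∑ i : Fin d, |⟪(EuclideanSpace.single i (1 : ℝ) : E d), v⟫| := by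
  rw [EuclideanSpace.real_norm_sq_eq, Finset.mul_sum]
  apply Finset.sum_le_sum
  intro i _
  have e1 : ⟪(EuclideanSpace.single i (1 : ℝ) : E d), v⟫ = v i := by
    simp [EuclideanSpace.inner_single_left]
  rw [e1]
  have h1 : |v i| ≤ ‖v‖ := by
    have := PiLp.norm_apply_le v i
    simpa [Real.norm_eq_abs] using this
  have h2 : |v i| ≤ M := h1.trans hv
  calc v i ^ 2 = |v i| * |v i| := by rw [sq, abs_mul_abs_self]
    _ ≤ M * |v i| := by gcongr

/-- The real form of the stability estimate. -/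
theorem stability_real {K : Set (E d)} (hK : IsCompact K) (hconv : Convex ℝ K)
    {c : E d} {δ : ℝ} (hδ : 0 < δ) (hball : Metric.closedBall c δ ⊆ K) (hd : 1 ≤ d)
    {RK RY : ℝ} (hRK : ∀ x ∈ K, ‖x‖ ≤ RK)
    {T₀ T₁ : E d → E d} (hT₀ : Measurable T₀) (hT₁ : Measurable T₁)
    (hY₀ : ∀ x, ‖T₀ x‖ ≤ RY) (hY₁ : ∀ x, ‖T₁ x‖ ≤ RY) {φ₀ φ₁ : E d → ℝ}
    (hsub₀ : ∀ᵐ x ∂(volume.restrict K), IsSubgrad K φ₀ x (T₀ x))
    (hsub₁ : ∀ᵐ x ∂(volume.restrict K), IsSubgrad K φ₁ x (T₁ x))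
    (π : Measure (E d × E d)) (hπ₀ : π.map Prod.fst = (uniformProb K).map T₀)
    (hπ₁ : π.map Prod.snd = (uniformProb K).map T₁) :
    ∫ x, ‖T₀ x - T₁ x‖ ^ 2 ∂(uniformProb K) ≤
      (2 * RY * d * (2 * RK + 6 * RY * d / δ)) * Real.sqrt (∫ p, ‖p.1 - p.2‖ ∂π) := by
  classical
  have hKc : IsClosed K := hK.isClosed
  have hKm : MeasurableSet K := hKc.measurableSet
  have hKfin : volume K ≠ ∞ := hK.measure_lt_top.ne
  have hKpos : 0 < volume K := by
    refine lt_of_lt_of_le (Metric.measure_closedBall_pos volume c hδ) (measure_mono hball)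
  set m : ℝ := (volume K).toReal with hm
  have hm0 : 0 < m := ENNReal.toReal_pos hKpos.ne' hKfin
  have hRY0 : 0 ≤ RY := le_trans (norm_nonneg _) (hY₁ 0)
  have hcK : c ∈ K := hball (Metric.mem_closedBall_self hδ.le)
  have hRK0 : 0 ≤ RK := le_trans (norm_nonneg _) (hRK c hcK)
  -- good points
  have hνne : volume.restrict K ≠ 0 := by
    intro h
    rw [Measure.restrict_eq_zero] at h
    exact hKpos.ne' h
  have : (ae (volume.restrict K)).NeBot := ae_neBot.mpr hνne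
  obtain ⟨x₀, hx₀⟩ := hsub₀.exists
  obtain ⟨x₁, hx₁⟩ := hsub₁.exists
  set ψ₀ := conj K φ₀ with hψ₀
  set ψ₁ := conj K φ₁ with hψ₁
  have hcont₀ : Continuous ψ₀ := continuous_conj hRK hx₀
  have hcont₁ : Continuous ψ₁ := continuous_conj hRK hx₁
  set g : E d → ℝ := fun y => ψ₁ y - ψ₀ y with hg
  have hgc : Continuous g := hcont₁.sub hcont₀
  -- bounds on the compact ball
  have hcb : IsCompact (Metric.closedBall (0 : E d) RY) := isCompact_closedBall _ _
  obtain ⟨B₀, hB₀⟩ := hcb.exists_bound_of_continuousOn hcont₀.continuousOn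
  obtain ⟨B₁, hB₁⟩ := hcb.exists_bound_of_continuousOn hcont₁.continuousOn
  have hmem₀ : ∀ x, T₀ x ∈ Metric.closedBall (0 : E d) RY := fun x => by simpa using hY₀ x
  have hmem₁ : ∀ x, T₁ x ∈ Metric.closedBall (0 : E d) RY := fun x => by simpa using hY₁ x
  -- measurability and integrability of the gaps
  have hGen : ∀ (ψ : E d → ℝ), Continuous ψ → ∀ B, (∀ y ∈ Metric.closedBall (0 : E d) RY, ‖ψ y‖ ≤ B) →
      ∀ S₀ S₁ : E d → E d, Measurable S₀ → Measurable S₁ →
      (∀ x, S₀ x ∈ Metric.closedBall (0 : E d) RY) → (∀ x, S₁ x ∈ Metric.closedBall (0 : E d) RY) →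
      IntegrableOn (gapFn ψ S₀ S₁) K := by
    intro ψ hψ B hB S₀ S₁ hS₀ hS₁ hm₀ hm₁
    have hmeas : Measurable (gapFn ψ S₀ S₁) := by
      unfold gapFn
      have h1 : Measurable fun x => ψ (S₀ x) := hψ.measurable.comp hS₀
      have h2 : Measurable fun x => ψ (S₁ x) := hψ.measurable.comp hS₁
      have h3 : Measurable fun x : E d => ⟪x, S₀ x - S₁ x⟫ :=
        Measurable.inner measurable_id (hS₀.sub hS₁)
      exact (h1.sub h2).sub h3
    refine Measure.integrableOn_of_bounded (M := B + B + RK * (RY + RY)) hKfin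
      hmeas.aestronglyMeasurable ?_
    rw [ae_restrict_iff' hKm]
    filter_upwards with x hx
    unfold gapFn
    have h1 := hB _ (hm₀ x)
    have h2 := hB _ (hm₁ x)
    have h3 : ‖⟪x, S₀ x - S₁ x⟫‖ ≤ RK * (RY + RY) := by
      rw [Real.norm_eq_abs]
      calc |⟪x, S₀ x - S₁ x⟫| ≤ ‖x‖ * ‖S₀ x - S₁ x‖ := abs_real_inner_le_norm _ _
        _ ≤ RK * (RY + RY) := by
          have h4 : ‖S₀ x - S₁ x‖ ≤ RY + RY := by
            have h5 := norm_sub_le (S₀ x) (S₁ x)
            have h6 : ‖S₀ x‖ ≤ RY := by simpa using hm₀ x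
            have h7 : ‖S₁ x‖ ≤ RY := by simpa using hm₁ x
            linarith
          exact mul_le_mul (hRK x hx) h4 (norm_nonneg _) hRK0
    calc ‖ψ (S₀ x) - ψ (S₁ x) - ⟪x, S₀ x - S₁ x⟫‖
        ≤ ‖ψ (S₀ x) - ψ (S₁ x)‖ + ‖⟪x, S₀ x - S₁ x⟫‖ := norm_sub_le _ _
      _ ≤ ‖ψ (S₀ x)‖ + ‖ψ (S₁ x)‖ + ‖⟪x, S₀ x - S₁ x⟫‖ := by gcongr; exact norm_sub_le _ _
      _ ≤ B + B + RK * (RY + RY) := by gcongr
  have hG₁int : IntegrableOn (gapFn ψ₁ T₀ T₁) K :=
    hGen ψ₁ hcont₁ B₁ hB₁ T₀ T₁ hT₀ hT₁ hmem₀ hmem₁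
  have hG₀int : IntegrableOn (gapFn ψ₀ T₁ T₀) K :=
    hGen ψ₀ hcont₀ B₀ hB₀ T₁ T₀ hT₁ hT₀ hmem₁ hmem₀
  -- nonnegativity of `G₀` on `K`
  have hgood₀ : ∀ᵐ x ∂(volume.restrict K), 0 ≤ gapFn ψ₀ T₁ T₀ x := by
    filter_upwards [hsub₀] with x hx
    exact gap_nonneg hRK hx
  -- `∫_K G₁ ≤ ∫_K (g ∘ T₀ - g ∘ T₁)`
  have hsum : ∀ x, gapFn ψ₁ T₀ T₁ x + gapFn ψ₀ T₁ T₀ x = g (T₀ x) - g (T₁ x) := by
    intro x
    simp only [gapFn, hg]
    have : ⟪x, T₁ x - T₀ x⟫ = -⟪x, T₀ x - T₁ x⟫ := by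
      rw [← inner_neg_right, neg_sub]
    rw [this]; ring
  have hG₁le : ∫ x in K, gapFn ψ₁ T₀ T₁ x ≤ ∫ x in K, (g (T₀ x) - g (T₁ x)) := by
    have : ∫ x in K, (g (T₀ x) - g (T₁ x)) =
        (∫ x in K, gapFn ψ₁ T₀ T₁ x) + ∫ x in K, gapFn ψ₀ T₁ T₀ x := by
      rw [← integral_add hG₁int hG₀int]
      exact integral_congr_ae (Filter.Eventually.of_forall fun x => (hsum x).symm)
    rw [this]
    have : 0 ≤ ∫ x in K, gapFn ψ₀ T₁ T₀ x := integral_nonneg_of_ae hgood₀
    linarith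
  -- the coupling
  set ρ := uniformProb K with hρ
  have hρfin : IsFiniteMeasure ρ := by
    constructor
    simp only [hρ, uniformProb, Measure.smul_apply, smul_eq_mul, Measure.restrict_apply_univ]
    exact ENNReal.mul_lt_top (by simpa [ENNReal.inv_lt_top] using hKpos) hK.measure_lt_top
  have hgT : ∀ T : E d → E d, Measurable T → (∀ x, T x ∈ Metric.closedBall (0 : E d) RY) →
      Integrable (fun x => g (T x)) ρ := by
    intro T hT hmem
    have hmeas : Measurable fun x => g (T x) := hgc.measurable.comp hT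
    have hb : ∀ x, ‖g (T x)‖ ≤ B₁ + B₀ := fun x => by
      calc ‖g (T x)‖ ≤ ‖ψ₁ (T x)‖ + ‖ψ₀ (T x)‖ := norm_sub_le _ _
        _ ≤ B₁ + B₀ := by gcongr; exact hB₁ _ (hmem x); exact hB₀ _ (hmem x)
    exact Integrable.of_bound hmeas.aestronglyMeasurable _ (Filter.Eventually.of_forall hb)
  have hiρ₀ := hgT T₀ hT₀ hmem₀
  have hiρ₁ := hgT T₁ hT₁ hmem₁
  have hgmeas : AEStronglyMeasurable g π.fst := hgc.aestronglyMeasurable
  have hiπ₀ : Integrable (fun p : E d × E d => g p.1) π := by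
    have h1 : Integrable g ((uniformProb K).map T₀) := by
      rw [integrable_map_measure hgc.aestronglyMeasurable hT₀.aemeasurable]
      exact hiρ₀
    rw [← hπ₀] at h1
    rw [integrable_map_measure hgc.aestronglyMeasurable measurable_fst.aemeasurable] at h1
    exact h1
  have hiπ₁ : Integrable (fun p : E d × E d => g p.2) π := by
    have h1 : Integrable g ((uniformProb K).map T₁) := by
      rw [integrable_map_measure hgc.aestronglyMeasurable hT₁.aemeasurable]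
      exact hiρ₁
    rw [← hπ₁] at h1
    rw [integrable_map_measure hgc.aestronglyMeasurable measurable_snd.aemeasurable] at h1
    exact h1
  have hint₀ : ∫ x, g (T₀ x) ∂ρ = ∫ p, g p.1 ∂π := by
    have h1 : ∫ y, g y ∂((uniformProb K).map T₀) = ∫ x, g (T₀ x) ∂ρ :=
      integral_map hT₀.aemeasurable hgc.aestronglyMeasurable
    have h2 : ∫ y, g y ∂(π.map Prod.fst) = ∫ p, g p.1 ∂π :=
      integral_map measurable_fst.aemeasurable hgc.aestronglyMeasurable
    rw [← h1, ← h2, hπ₀]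
  have hint₁ : ∫ x, g (T₁ x) ∂ρ = ∫ p, g p.2 ∂π := by
    have h1 : ∫ y, g y ∂((uniformProb K).map T₁) = ∫ x, g (T₁ x) ∂ρ :=
      integral_map hT₁.aemeasurable hgc.aestronglyMeasurable
    have h2 : ∫ y, g y ∂(π.map Prod.snd) = ∫ p, g p.2 ∂π :=
      integral_map measurable_snd.aemeasurable hgc.aestronglyMeasurable
    rw [← h1, ← h2, hπ₁]
  -- Lipschitz bound for `g`
  have hglip : ∀ y z, g y - g z ≤ 2 * RK * ‖y - z‖ := by
    intro y z
    have h1 := conj_sub_le hRK hx₁ y z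
    have h2 := conj_sub_le hRK hx₀ z y
    rw [norm_sub_rev] at h2
    simp only [hg]
    have e1 : conj K φ₁ = ψ₁ := rfl
    have e0 : conj K φ₀ = ψ₀ := rfl
    rw [e1] at h1
    rw [e0] at h2
    linarith
  set W : ℝ := ∫ p, ‖p.1 - p.2‖ ∂π with hW
  have hW0 : 0 ≤ W := integral_nonneg fun _ => norm_nonneg _
  -- integrability of `‖p.1 - p.2‖` under `π`
  have hnormint : Integrable (fun p : E d × E d => ‖p.1 - p.2‖) π := by
    have hcl : MeasurableSet (Metric.closedBall (0 : E d) RY) := Metric.isClosed_closedBall.measurableSet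
    have hae₀ : ∀ᵐ p ∂π, p.1 ∈ Metric.closedBall (0 : E d) RY := by
      have h1 : ∀ᵐ y ∂(π.map Prod.fst), y ∈ Metric.closedBall (0 : E d) RY := by
        rw [hπ₀]
        exact (ae_map_iff (p := fun y => y ∈ Metric.closedBall (0 : E d) RY) hT₀.aemeasurable
          hcl).mpr (Filter.Eventually.of_forall hmem₀)
      exact (ae_map_iff (p := fun y => y ∈ Metric.closedBall (0 : E d) RY)
        measurable_fst.aemeasurable hcl).mp h1
    have hae₁ : ∀ᵐ p ∂π, p.2 ∈ Metric.closedBall (0 : E d) RY := by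
      have h1 : ∀ᵐ y ∂(π.map Prod.snd), y ∈ Metric.closedBall (0 : E d) RY := by
        rw [hπ₁]
        exact (ae_map_iff (p := fun y => y ∈ Metric.closedBall (0 : E d) RY) hT₁.aemeasurable
          hcl).mpr (Filter.Eventually.of_forall hmem₁)
      exact (ae_map_iff (p := fun y => y ∈ Metric.closedBall (0 : E d) RY)
        measurable_snd.aemeasurable hcl).mp h1
    have : IsFiniteMeasure π := by
      constructor
      have h1 : (π.map Prod.fst) univ = π univ := by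
        rw [Measure.map_apply measurable_fst MeasurableSet.univ, preimage_univ]
      rw [← h1, hπ₀, Measure.map_apply hT₀ MeasurableSet.univ, preimage_univ]
      exact measure_lt_top ρ univ
    refine Integrable.of_bound (C := RY + RY) (by fun_prop) ?_
    filter_upwards [hae₀, hae₁] with p h0 h1
    rw [norm_norm]
    have h2 : ‖p.1‖ ≤ RY := by simpa using h0
    have h3 : ‖p.2‖ ≤ RY := by simpa using h1
    have := norm_sub_le p.1 p.2
    linarith
  have hgapW : ∫ x in K, gapFn ψ₁ T₀ T₁ x ≤ m * (2 * RK * W) := by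
    have h1 : ∫ x in K, (g (T₀ x) - g (T₁ x)) = m * (∫ x, g (T₀ x) ∂ρ - ∫ x, g (T₁ x) ∂ρ) := by
      rw [← integral_sub hiρ₀ hiρ₁, hρ, integral_uniformProb, ← mul_assoc, mul_inv_cancel₀ hm0.ne',
        one_mul]
    have h2 : ∫ x, g (T₀ x) ∂ρ - ∫ x, g (T₁ x) ∂ρ ≤ 2 * RK * W := by
      rw [hint₀, hint₁, ← integral_sub hiπ₀ hiπ₁, hW, ← integral_const_mul]
      apply integral_mono (hiπ₀.sub hiπ₁) (hnormint.const_mul _)
      intro p
      exact hglip p.1 p.2
    calc ∫ x in K, gapFn ψ₁ T₀ T₁ x ≤ ∫ x in K, (g (T₀ x) - g (T₁ x)) := hG₁le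
      _ = m * (∫ x, g (T₀ x) ∂ρ - ∫ x, g (T₁ x) ∂ρ) := h1
      _ ≤ m * (2 * RK * W) := by gcongr
  -- coordinate estimates
  have hd0 : (0 : ℝ) < d := by exact_mod_cast hd
  have hcoord : ∀ r : ℝ, 0 < r → ∀ i : Fin d,
      ∫ x in K, |⟪(EuclideanSpace.single i (1 : ℝ) : E d), T₀ x - T₁ x⟫| ≤
        (1 / r) * (m * (2 * RK * W)) + 6 * RY * ((d * (r / δ)) * m) := by
    intro r hr i
    have he : ‖(EuclideanSpace.single i (1 : ℝ) : E d)‖ = 1 := by simp
    have h1 := directional_bound hKm hKc hKfin hRK hT₀ hT₁ hY₀ hY₁ hsub₁ hG₁int he hr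
    have h2 := volume_diff_shrinkSet_le hK hconv hδ hball he hr hd
    have hrinv : 0 ≤ 1 / r := by positivity
    have h3 : (1 / r) * ∫ x in K, gapFn ψ₁ T₀ T₁ x ≤ (1 / r) * (m * (2 * RK * W)) :=
      mul_le_mul_of_nonneg_left hgapW hrinv
    have h4 : 6 * RY * (volume (K \ shrinkSet K r (EuclideanSpace.single i (1 : ℝ)))).toReal ≤
        6 * RY * ((d * (r / δ)) * m) := mul_le_mul_of_nonneg_left h2 (by positivity)
    linarith
  -- the square integral
  have hnsq : ∀ x, ‖T₀ x - T₁ x‖ ^ 2 ≤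
      (RY + RY) * ∑ i : Fin d, |⟪(EuclideanSpace.single i (1 : ℝ) : E d), T₀ x - T₁ x⟫| := by
    intro x
    apply norm_sq_le_sum
    have := norm_sub_le (T₀ x) (T₁ x)
    have h0 := hY₀ x
    have h1 := hY₁ x
    linarith
  have hwint : ∀ i : Fin d, IntegrableOn
      (fun x => |⟪(EuclideanSpace.single i (1 : ℝ) : E d), T₀ x - T₁ x⟫|) K := by
    intro i
    have hmeas : Measurable fun x => |⟪(EuclideanSpace.single i (1 : ℝ) : E d), T₀ x - T₁ x⟫| :=
      (Measurable.inner measurable_const (hT₀.sub hT₁)).abs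
    refine Measure.integrableOn_of_bounded (M := RY + RY) hKfin hmeas.aestronglyMeasurable ?_
    filter_upwards with x
    rw [Real.norm_eq_abs, abs_abs]
    have he : ‖(EuclideanSpace.single i (1 : ℝ) : E d)‖ = 1 := by simp
    refine (abs_inner_le_of_norm he).trans ?_
    have := norm_sub_le (T₀ x) (T₁ x)
    have h0 := hY₀ x
    have h1 := hY₁ x
    linarith
  have hsqint : IntegrableOn (fun x => ‖T₀ x - T₁ x‖ ^ 2) K := by
    have hmeas : Measurable fun x => ‖T₀ x - T₁ x‖ ^ 2 := by fun_prop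
    refine Measure.integrableOn_of_bounded (M := (RY + RY) ^ 2) hKfin hmeas.aestronglyMeasurable ?_
    filter_upwards with x
    rw [Real.norm_eq_abs, abs_of_nonneg (by positivity)]
    have := norm_sub_le (T₀ x) (T₁ x)
    have h0 := hY₀ x
    have h1 := hY₁ x
    gcongr
    linarith
  have hfinal : ∀ r : ℝ, 0 < r → ∫ x, ‖T₀ x - T₁ x‖ ^ 2 ∂ρ ≤
      (RY + RY) * d * ((1 / r) * (2 * RK * W) + 6 * RY * (d * (r / δ))) := by
    intro r hr
    rw [hρ, integral_uniformProb]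
    have h1 : ∫ x in K, ‖T₀ x - T₁ x‖ ^ 2 ≤ ∫ x in K, (RY + RY) *
        ∑ i : Fin d, |⟪(EuclideanSpace.single i (1 : ℝ) : E d), T₀ x - T₁ x⟫| := by
      apply integral_mono hsqint
      · exact (integrable_finsetSum _ fun i _ => hwint i).const_mul _
      · exact hnsq
    have h2 : ∫ x in K, (RY + RY) *
        ∑ i : Fin d, |⟪(EuclideanSpace.single i (1 : ℝ) : E d), T₀ x - T₁ x⟫| ≤
        (RY + RY) * (d * ((1 / r) * (m * (2 * RK * W)) + 6 * RY * ((d * (r / δ)) * m))) := by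
      rw [integral_const_mul, integral_finsetSum _ fun i _ => hwint i]
      apply mul_le_mul_of_nonneg_left _ (by positivity)
      calc ∑ i : Fin d, ∫ x in K, |⟪(EuclideanSpace.single i (1 : ℝ) : E d), T₀ x - T₁ x⟫|
          ≤ ∑ _i : Fin d, ((1 / r) * (m * (2 * RK * W)) + 6 * RY * ((d * (r / δ)) * m)) :=
            Finset.sum_le_sum fun i _ => hcoord r hr i
        _ = d * ((1 / r) * (m * (2 * RK * W)) + 6 * RY * ((d * (r / δ)) * m)) := by
            rw [Finset.sum_const, Finset.card_univ, Fintype.card_fin, nsmul_eq_mul]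
    have h3 : m⁻¹ * ((RY + RY) * (d * ((1 / r) * (m * (2 * RK * W)) + 6 * RY * ((d * (r / δ)) * m))))
        = (RY + RY) * d * ((1 / r) * (2 * RK * W) + 6 * RY * (d * (r / δ))) := by
      field_simp
    rw [← hm, ← h3]
    apply mul_le_mul_of_nonneg_left (h1.trans h2)
    exact inv_nonneg.mpr hm0.le
  -- choose `r`
  rcases hW0.eq_or_lt with hW00 | hWpos
  · -- `W = 0`
    have hle : ∫ x, ‖T₀ x - T₁ x‖ ^ 2 ∂ρ ≤ 0 := by
      apply le_of_forall_pos_le_add
      intro ε hε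
      set A : ℝ := (RY + RY) * d * (6 * RY * (d / δ)) with hA
      have hA0 : 0 ≤ A := by positivity
      set r : ℝ := ε / (A + 1) with hr
      have hr0 : 0 < r := by positivity
      have h1 := hfinal r hr0
      rw [← hW00] at h1
      have h2 : (RY + RY) * d * ((1 / r) * (2 * RK * 0) + 6 * RY * (d * (r / δ))) = A * r := by
        rw [hA]; field_simp; ring
      rw [h2] at h1
      have h3 : A * r ≤ ε := by
        rw [hr, ← mul_div_assoc, div_le_iff₀ (by positivity)]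
        nlinarith
      linarith
    rw [← hW00, Real.sqrt_zero, mul_zero]
    exact hle
  · -- `W > 0`
    have hs : 0 < Real.sqrt W := Real.sqrt_pos.mpr hWpos
    have h1 := hfinal (Real.sqrt W) hs
    have hsq : Real.sqrt W * Real.sqrt W = W := Real.mul_self_sqrt hW0
    have h2 : (1 / Real.sqrt W) * (2 * RK * W) = 2 * RK * Real.sqrt W := by
      have h3 : (1 / Real.sqrt W) * (2 * RK * W) =
          (1 / Real.sqrt W) * (2 * RK * (Real.sqrt W * Real.sqrt W)) := by rw [hsq]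
      rw [h3]
      field_simp
    rw [h2] at h1
    calc ∫ x, ‖T₀ x - T₁ x‖ ^ 2 ∂ρ ≤ (RY + RY) * d * (2 * RK * Real.sqrt W +
          6 * RY * (d * (Real.sqrt W / δ))) := h1
      _ = (2 * RY * d * (2 * RK + 6 * RY * d / δ)) * Real.sqrt W := by
          field_simp
          ring

end Vale.Agent.Lib.P074
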