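import Vale.Agent.Lib.P074.OscL2
import Vale.Agent.Lib.P074.Core

open MeasureTheory Set Filter Topology
open scoped ENNReal NNReal RealInnerProductSpace

namespace Vale.Agent.Lib.P074

variable {d : ℕ}

/-- **Oscillation controls the `L²` distance of the gradients.** -/
theorem osc_L2 {K : Set (E d)} (hK : IsCompact K) (hconv : Convex ℝ K) {c : E d} {δ : ℝ} (hδ : 0 < δ)
    (hball : Metric.closedBall c δ ⊆ K) {RK RY : ℝ} (hRK : ∀ x ∈ K, ‖x‖ ≤ RK)
    {T₀ T₁ : E d → E d} (hT₀ : Measurable T₀) (hT₁ : Measurable T₁)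
    (hY₀ : ∀ x, ‖T₀ x‖ ≤ RY) (hY₁ : ∀ x, ‖T₁ x‖ ≤ RY)
    {φ₀ φ₁ : E d → ℝ} (hφ₀ : Measurable φ₀) (hφ₁ : Measurable φ₁)
    (hsub₀ : ∀ x ∈ K, IsSubgrad K φ₀ x (T₀ x)) (hsub₁ : ∀ x ∈ K, IsSubgrad K φ₁ x (T₁ x))
    {c₀ e : ℝ} (hosc : ∀ x ∈ K, |φ₁ x - φ₀ x - c₀| ≤ e) :
    ∫ x, ‖T₀ x - T₁ x‖ ^ 2 ∂(uniformProb K) ≤
      (d / δ ^ 2) * ((8 * d + 6) * (RY * (2 * RK)) * e) := by
  have hKm : MeasurableSet K := hK.isClosed.measurableSet
  have hKfin : volume K ≠ ∞ := hK.measure_lt_top.ne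
  have hKpos : 0 < volume K :=
    lt_of_lt_of_le (Metric.measure_closedBall_pos volume c hδ) (measure_mono hball)
  have hV : 0 < (volume K).toReal := ENNReal.toReal_pos hKpos.ne' hKfin
  have hDD : ∀ p ∈ K, ∀ x ∈ K, ‖p - x‖ ≤ 2 * RK := by
    intro p hp x hx
    have := norm_sub_le p x
    linarith [hRK p hp, hRK x hx]
  set A : ℝ := (8 * d + 6) * (RY * (2 * RK)) * e * (volume K).toReal with hA
  have hcentre : ∀ p ∈ K, ∫ x in K, (⟪p - x, T₁ x⟫ - ⟪p - x, T₀ x⟫) ^ 2 ≤ A := by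
    intro p hp
    exact osc_bound_center hK hconv hp hT₀ hT₁ hY₀ hY₁ (hDD p hp) hφ₀ hφ₁ hsub₀ hsub₁ hosc
  have hRY0 : 0 ≤ RY := (norm_nonneg _).trans (hY₀ 0)
  have hcK : c ∈ K := hball (Metric.mem_closedBall_self hδ.le)
  have hRK0 : 0 ≤ RK := (norm_nonneg _).trans (hRK c hcK)
  -- bounded integrands
  have hintb : ∀ f : E d → ℝ, Measurable f → ∀ M : ℝ, (∀ x ∈ K, |f x| ≤ M) → IntegrableOn f K := by
    intro f hf M hM
    refine Measure.integrableOn_of_bounded (M := M) hKfin hf.aestronglyMeasurable ?_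
    rw [ae_restrict_iff' hKm]
    filter_upwards with x hx
    exact hM x hx
  have hFsq : ∀ p ∈ K, IntegrableOn (fun x => (⟪p - x, T₁ x⟫ - ⟪p - x, T₀ x⟫) ^ 2) K := by
    intro p hp
    have hm1 : Measurable fun x : E d => ⟪p - x, T₁ x⟫ :=
      Measurable.inner (measurable_const.sub measurable_id) hT₁
    have hm0 : Measurable fun x : E d => ⟪p - x, T₀ x⟫ :=
      Measurable.inner (measurable_const.sub measurable_id) hT₀
    refine hintb _ ((hm1.sub hm0).pow_const 2) ((2 * (2 * RK) * RY) ^ 2) ?_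
    intro x hx
    rw [abs_pow]
    apply pow_le_pow_left₀ (abs_nonneg _)
    have h1 : |⟪p - x, T₁ x⟫| ≤ 2 * RK * RY := by
      calc |⟪p - x, T₁ x⟫| ≤ ‖p - x‖ * ‖T₁ x‖ := abs_real_inner_le_norm _ _
        _ ≤ 2 * RK * RY := mul_le_mul (hDD p hp x hx) (hY₁ x) (norm_nonneg _) (by positivity)
    have h2 : |⟪p - x, T₀ x⟫| ≤ 2 * RK * RY := by
      calc |⟪p - x, T₀ x⟫| ≤ ‖p - x‖ * ‖T₀ x‖ := abs_real_inner_le_norm _ _
        _ ≤ 2 * RK * RY := mul_le_mul (hDD p hp x hx) (hY₀ x) (norm_nonneg _) (by positivity)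
    have := abs_sub ⟪p - x, T₁ x⟫ ⟪p - x, T₀ x⟫
    linarith
  -- points on the coordinate axes
  have hplus : ∀ i : Fin d, c + δ • (EuclideanSpace.single i (1 : ℝ) : E d) ∈ K := by
    intro i
    apply hball
    simp [norm_smul, abs_of_pos hδ]
  have hminus : ∀ i : Fin d, c - δ • (EuclideanSpace.single i (1 : ℝ) : E d) ∈ K := by
    intro i
    apply hball
    simp [norm_smul, abs_of_pos hδ]
  -- the pointwise inequality
  have hpt : ∀ x, ‖T₀ x - T₁ x‖ ^ 2 ≤ ∑ i : Fin d, (1 / (2 * δ ^ 2)) *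
      ((⟪c + δ • (EuclideanSpace.single i (1 : ℝ) : E d) - x, T₁ x⟫ -
          ⟪c + δ • (EuclideanSpace.single i (1 : ℝ) : E d) - x, T₀ x⟫) ^ 2 +
        (⟪c - δ • (EuclideanSpace.single i (1 : ℝ) : E d) - x, T₁ x⟫ -
          ⟪c - δ • (EuclideanSpace.single i (1 : ℝ) : E d) - x, T₀ x⟫) ^ 2) := by
    intro x
    rw [EuclideanSpace.real_norm_sq_eq]
    apply Finset.sum_le_sum
    intro i _
    set a := ⟪c + δ • (EuclideanSpace.single i (1 : ℝ) : E d) - x, T₁ x⟫ -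
          ⟪c + δ • (EuclideanSpace.single i (1 : ℝ) : E d) - x, T₀ x⟫ with ha
    set b := ⟪c - δ • (EuclideanSpace.single i (1 : ℝ) : E d) - x, T₁ x⟫ -
          ⟪c - δ • (EuclideanSpace.single i (1 : ℝ) : E d) - x, T₀ x⟫ with hb
    have hdiff : a - b = 2 * δ * (T₁ x i - T₀ x i) := by
      simp only [ha, hb, inner_sub_left, inner_add_left, inner_smul_left,
        EuclideanSpace.inner_single_left]
      simp
      ring
    have e1 : (T₀ x - T₁ x) i = -(T₁ x i - T₀ x i) := by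
      simp
    rw [e1, neg_sq]
    have hδ2 : 0 < δ ^ 2 := by positivity
    have h3 : (T₁ x i - T₀ x i) = (a - b) / (2 * δ) := by
      rw [hdiff]; field_simp
    rw [h3, div_pow, mul_pow, div_le_iff₀ (by positivity)]
    have : 1 / (2 * δ ^ 2) * (a ^ 2 + b ^ 2) * (2 ^ 2 * δ ^ 2) = 2 * (a ^ 2 + b ^ 2) := by
      field_simp
    rw [this]
    nlinarith [sq_nonneg (a + b)]
  -- integrate
  have hsqK : IntegrableOn (fun x => ‖T₀ x - T₁ x‖ ^ 2) K := by
    refine hintb _ (by fun_prop) ((RY + RY) ^ 2) ?_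
    intro x _
    rw [abs_pow, abs_norm]
    apply pow_le_pow_left₀ (norm_nonneg _)
    have := norm_sub_le (T₀ x) (T₁ x)
    linarith [hY₀ x, hY₁ x]
  have hI : ∫ x in K, ‖T₀ x - T₁ x‖ ^ 2 ≤ (d / δ ^ 2) * A := by
    have h1 : ∫ x in K, ‖T₀ x - T₁ x‖ ^ 2 ≤ ∫ x in K, ∑ i : Fin d, (1 / (2 * δ ^ 2)) *
      ((⟪c + δ • (EuclideanSpace.single i (1 : ℝ) : E d) - x, T₁ x⟫ -
          ⟪c + δ • (EuclideanSpace.single i (1 : ℝ) : E d) - x, T₀ x⟫) ^ 2 +
        (⟪c - δ • (EuclideanSpace.single i (1 : ℝ) : E d) - x, T₁ x⟫ -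
          ⟪c - δ • (EuclideanSpace.single i (1 : ℝ) : E d) - x, T₀ x⟫) ^ 2) := by
      apply setIntegral_mono_on hsqK _ hKm (fun x _ => hpt x)
      apply integrable_finsetSum
      intro i _
      exact ((hFsq _ (hplus i)).add (hFsq _ (hminus i))).const_mul _
    refine h1.trans ?_
    rw [integral_finsetSum]
    · calc ∑ i : Fin d, ∫ x in K, (1 / (2 * δ ^ 2)) *
            ((⟪c + δ • (EuclideanSpace.single i (1 : ℝ) : E d) - x, T₁ x⟫ -
              ⟪c + δ • (EuclideanSpace.single i (1 : ℝ) : E d) - x, T₀ x⟫) ^ 2 +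
            (⟪c - δ • (EuclideanSpace.single i (1 : ℝ) : E d) - x, T₁ x⟫ -
              ⟪c - δ • (EuclideanSpace.single i (1 : ℝ) : E d) - x, T₀ x⟫) ^ 2)
          ≤ ∑ _i : Fin d, (1 / (2 * δ ^ 2)) * (A + A) := by
            apply Finset.sum_le_sum
            intro i _
            rw [integral_const_mul]
            apply mul_le_mul_of_nonneg_left _ (by positivity)
            rw [integral_add (hFsq _ (hplus i)) (hFsq _ (hminus i))]
            exact add_le_add (hcentre _ (hplus i)) (hcentre _ (hminus i))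
        _ = (d / δ ^ 2) * A := by
            rw [Finset.sum_const, Finset.card_univ, Fintype.card_fin, nsmul_eq_mul]
            field_simp
            ring
    · intro i _
      exact ((hFsq _ (hplus i)).add (hFsq _ (hminus i))).const_mul _
  rw [integral_uniformProb]
  have hVne : (volume K).toReal ≠ 0 := hV.ne'
  calc ((volume K).toReal)⁻¹ * ∫ x in K, ‖T₀ x - T₁ x‖ ^ 2
      ≤ ((volume K).toReal)⁻¹ * ((d / δ ^ 2) * A) :=
        mul_le_mul_of_nonneg_left hI (inv_nonneg.mpr hV.le)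
    _ = _ := by
        rw [hA]
        field_simp

end Vale.Agent.Lib.P074
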