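import Vale.Agent.Lib.P074.Defs

open MeasureTheory Set Filter Topology
open scoped ENNReal NNReal RealInnerProductSpace

namespace Vale.Agent.Lib.P074

variable {d : ℕ} {ι : Type*} [Fintype ι] [Nonempty ι]

/-- The maximum of the affine functions `⟪x, b i⟫ - ψ i`. -/
noncomputable def Mx (b : ι → E d) (ψ : ι → ℝ) (x : E d) : ℝ :=
  Finset.univ.sup' Finset.univ_nonempty fun i => ⟪x, b i⟫ - ψ i

theorem le_Mx (b : ι → E d) (ψ : ι → ℝ) (x : E d) (i : ι) : ⟪x, b i⟫ - ψ i ≤ Mx b ψ x :=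
  Finset.le_sup' (fun i => ⟪x, b i⟫ - ψ i) (Finset.mem_univ i)

theorem Mx_le {b : ι → E d} {ψ : ι → ℝ} {x : E d} {A : ℝ} (h : ∀ i, ⟪x, b i⟫ - ψ i ≤ A) :
    Mx b ψ x ≤ A :=
  Finset.sup'_le _ _ fun i _ => h i

theorem exists_eq_Mx (b : ι → E d) (ψ : ι → ℝ) (x : E d) : ∃ i, Mx b ψ x = ⟪x, b i⟫ - ψ i := by
  obtain ⟨i, _, hi⟩ := Finset.exists_mem_eq_sup' Finset.univ_nonempty
    (fun i => ⟪x, b i⟫ - ψ i)
  exact ⟨i, hi⟩

theorem continuous_Mx (b : ι → E d) (ψ : ι → ℝ) : Continuous (Mx b ψ) := by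
  unfold Mx
  apply Continuous.finset_sup'_apply
  intro i _
  fun_prop

theorem Mx_le_add_dist (b : ι → E d) (ψ ψ' : ι → ℝ) (x : E d) :
    Mx b ψ x ≤ Mx b ψ' x + dist ψ ψ' := by
  apply Mx_le
  intro i
  have h1 := le_Mx b ψ' x i
  have h2 : |ψ i - ψ' i| ≤ dist ψ ψ' := by
    rw [← Real.dist_eq]
    exact dist_le_pi_dist ψ ψ' i
  have h3 := (abs_le.mp h2).1
  linarith

theorem abs_Mx_sub_le (b : ι → E d) (ψ ψ' : ι → ℝ) (x : E d) :
    |Mx b ψ x - Mx b ψ' x| ≤ dist ψ ψ' := by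
  rw [abs_le]
  have h1 := Mx_le_add_dist b ψ ψ' x
  have h2 := Mx_le_add_dist b ψ' ψ x
  rw [dist_comm] at h2
  constructor <;> linarith

theorem Mx_shift (b : ι → E d) (ψ : ι → ℝ) (c : ℝ) (x : E d) :
    Mx b (fun i => ψ i - c) x = Mx b ψ x + c := by
  apply le_antisymm
  · apply Mx_le
    intro i
    have := le_Mx b ψ x i
    linarith
  · have h1 : Mx b ψ x ≤ Mx b (fun i => ψ i - c) x - c := by
      apply Mx_le
      intro i
      have := le_Mx b (fun i => ψ i - c) x i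
      linarith
    linarith

section functional

variable {ρ : Measure (E d)} [IsProbabilityMeasure ρ] {RK : ℝ}

/-- Boundedness of `Mx` on the ball. -/
theorem Mx_bound (b : ι → E d) (ψ : ι → ℝ) {Rb : ℝ} (hRb : ∀ i, ‖b i‖ ≤ Rb) {B : ℝ}
    (hB : ∀ i, |ψ i| ≤ B) {x : E d} (hx : ‖x‖ ≤ RK) (hRK : 0 ≤ RK) :
    |Mx b ψ x| ≤ RK * Rb + B := by
  obtain ⟨i, hi⟩ := exists_eq_Mx b ψ x
  have hin : ∀ j, |⟪x, b j⟫| ≤ RK * Rb := by
    intro j
    calc |⟪x, b j⟫| ≤ ‖x‖ * ‖b j‖ := abs_real_inner_le_norm _ _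
      _ ≤ RK * Rb := mul_le_mul hx (hRb j) (norm_nonneg _) hRK
  rw [abs_le]
  constructor
  · have h1 := le_Mx b ψ x i
    have h2 := abs_le.mp (hin i)
    have h3 := abs_le.mp (hB i)
    linarith [h2.1, h3.2]
  · rw [hi]
    have h2 := abs_le.mp (hin i)
    have h3 := abs_le.mp (hB i)
    linarith [h2.2, h3.1]

theorem integrable_Mx (hρ : ∀ᵐ x ∂ρ, ‖x‖ ≤ RK) (hRK : 0 ≤ RK) (b : ι → E d) (ψ : ι → ℝ) :
    Integrable (Mx b ψ) ρ := by
  obtain ⟨Rb, hRb⟩ : ∃ Rb, ∀ i, ‖b i‖ ≤ Rb :=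
    ⟨∑ i, ‖b i‖, fun i => Finset.single_le_sum (f := fun i => ‖b i‖) (fun _ _ => norm_nonneg _)
      (Finset.mem_univ i)⟩
  obtain ⟨B, hB⟩ : ∃ B, ∀ i, |ψ i| ≤ B :=
    ⟨∑ i, |ψ i|, fun i => Finset.single_le_sum (f := fun i => |ψ i|) (fun _ _ => abs_nonneg _)
      (Finset.mem_univ i)⟩
  refine Integrable.of_bound (continuous_Mx b ψ).aestronglyMeasurable (RK * Rb + B) ?_
  filter_upwards [hρ] with x hx
  rw [Real.norm_eq_abs]
  exact Mx_bound b ψ hRb hB hx hRK

/-- The Kantorovich functional. -/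
noncomputable def Fn (ρ : Measure (E d)) (b : ι → E d) (m ψ : ι → ℝ) : ℝ :=
  ∫ x, Mx b ψ x ∂ρ + ∑ i, m i * ψ i

theorem Fn_shift (hρ : ∀ᵐ x ∂ρ, ‖x‖ ≤ RK) (hRK : 0 ≤ RK) (b : ι → E d) {m : ι → ℝ}
    (hsum : ∑ i, m i = 1) (ψ : ι → ℝ) (c : ℝ) : Fn ρ b m (fun i => ψ i - c) = Fn ρ b m ψ := by
  unfold Fn
  have e1 : ∫ x, Mx b (fun i => ψ i - c) x ∂ρ = ∫ x, Mx b ψ x ∂ρ + c := by
    simp_rw [Mx_shift]
    rw [integral_add (integrable_Mx hρ hRK b ψ) (integrable_const c)]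
    simp
  have e2 : ∑ i, m i * (ψ i - c) = ∑ i, m i * ψ i - c := by
    simp_rw [mul_sub]
    rw [Finset.sum_sub_distrib, ← Finset.sum_mul, hsum, one_mul]
  rw [e1, e2]
  ring

theorem continuous_Fn (hρ : ∀ᵐ x ∂ρ, ‖x‖ ≤ RK) (hRK : 0 ≤ RK) (b : ι → E d) (m : ι → ℝ) :
    Continuous (Fn ρ b m) := by
  have h1 : Continuous fun ψ : ι → ℝ => ∫ x, Mx b ψ x ∂ρ := by
    have : LipschitzWith 1 fun ψ : ι → ℝ => ∫ x, Mx b ψ x ∂ρ := by
      apply LipschitzWith.of_dist_le_mul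
      intro ψ ψ'
      rw [Real.dist_eq, ← integral_sub (integrable_Mx hρ hRK b ψ) (integrable_Mx hρ hRK b ψ')]
      have h2 : ‖∫ x, (Mx b ψ x - Mx b ψ' x) ∂ρ‖ ≤ dist ψ ψ' * ρ.real univ :=
        norm_integral_le_of_norm_le_const (Filter.Eventually.of_forall fun x => by
          rw [Real.norm_eq_abs]
          exact abs_Mx_sub_le b ψ ψ' x)
      simp only [Real.norm_eq_abs, Measure.real, measure_univ, ENNReal.toReal_one, mul_one] at h2
      simpa using h2
    exact this.continuous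
  unfold Fn
  apply h1.add
  apply continuous_finsetSum
  intro i _
  fun_prop

/-- The first order condition at a minimiser, at positive distance. -/
theorem first_order_mass (hρ : ∀ᵐ x ∂ρ, ‖x‖ ≤ RK) (hRK : 0 ≤ RK) (b : ι → E d) {m ψ : ι → ℝ}
    (hmin : ∀ ψ', Fn ρ b m ψ ≤ Fn ρ b m ψ') (i : ι) {t : ℝ} (ht : 0 < t) :
    ENNReal.ofReal (m i) ≤ ρ {x | Mx b ψ x ≤ ⟪x, b i⟫ - ψ i + t} := by
  classical
  set C : Set (E d) := {x | Mx b ψ x ≤ ⟪x, b i⟫ - ψ i + t} with hC
  have hCc : IsClosed C := isClosed_le (continuous_Mx b ψ) (by fun_prop)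
  have hCm : MeasurableSet C := hCc.measurableSet
  set ψ' : ι → ℝ := Function.update ψ i (ψ i - t) with hψ'
  have h1 := hmin ψ'
  have hsum : ∑ j, m j * ψ' j = ∑ j, m j * ψ j - m i * t := by
    have e : ∀ j, m j * ψ' j = m j * ψ j - (if j = i then m j * t else 0) := by
      intro j
      by_cases hj : j = i
      · subst hj
        simp only [hψ', Function.update_self, if_true]
        ring
      · simp only [hψ', Function.update_of_ne hj, if_neg hj]
        ring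
    simp_rw [e]
    rw [Finset.sum_sub_distrib, Finset.sum_ite_eq' Finset.univ i]
    simp
  have hpt : ∀ x, Mx b ψ' x - Mx b ψ x ≤ C.indicator (fun _ => t) x := by
    intro x
    by_cases hx : x ∈ C
    · rw [indicator_of_mem hx]
      have : Mx b ψ' x ≤ Mx b ψ x + t := by
        apply Mx_le
        intro j
        have h2 := le_Mx b ψ x j
        by_cases hj : j = i
        · subst hj
          simp only [hψ', Function.update_self]
          linarith
        · simp only [hψ', Function.update_of_ne hj]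
          linarith
      linarith
    · rw [indicator_of_notMem hx]
      have hx' : ⟪x, b i⟫ - ψ i + t < Mx b ψ x := by
        simpa [hC] using hx
      have : Mx b ψ' x ≤ Mx b ψ x := by
        apply Mx_le
        intro j
        by_cases hj : j = i
        · subst hj
          simp only [hψ', Function.update_self]
          linarith
        · simp only [hψ', Function.update_of_ne hj]
          exact le_Mx b ψ x j
      linarith
  have hint : ∫ x, (Mx b ψ' x - Mx b ψ x) ∂ρ ≤ t * (ρ C).toReal := by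
    have hi : Integrable (C.indicator fun _ => t) ρ :=
      (integrable_const t).indicator hCm
    calc ∫ x, (Mx b ψ' x - Mx b ψ x) ∂ρ ≤ ∫ x, C.indicator (fun _ => t) x ∂ρ :=
          integral_mono ((integrable_Mx hρ hRK b ψ').sub (integrable_Mx hρ hRK b ψ)) hi hpt
      _ = t * (ρ C).toReal := by
          rw [integral_indicator hCm, setIntegral_const, smul_eq_mul, Measure.real, mul_comm]
  unfold Fn at h1
  rw [hsum] at h1
  rw [integral_sub (integrable_Mx hρ hRK b ψ') (integrable_Mx hρ hRK b ψ)] at hint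
  have h2 : t * m i ≤ t * (ρ C).toReal := by nlinarith
  have h3 : m i ≤ (ρ C).toReal := le_of_mul_le_mul_left h2 ht
  calc ENNReal.ofReal (m i) ≤ ENNReal.ofReal ((ρ C).toReal) := ENNReal.ofReal_le_ofReal h3
    _ = ρ C := ENNReal.ofReal_toReal (measure_ne_top ρ C)

/-- The first order condition at a minimiser. -/
theorem first_order_closed (hρ : ∀ᵐ x ∂ρ, ‖x‖ ≤ RK) (hRK : 0 ≤ RK) (b : ι → E d) {m ψ : ι → ℝ}
    (hmin : ∀ ψ', Fn ρ b m ψ ≤ Fn ρ b m ψ') (i : ι) :
    ENNReal.ofReal (m i) ≤ ρ {x | Mx b ψ x ≤ ⟪x, b i⟫ - ψ i} := by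
  set A : ℕ → Set (E d) := fun n => {x | Mx b ψ x ≤ ⟪x, b i⟫ - ψ i + 1 / ((n : ℝ) + 1)} with hA
  have hAm : ∀ n, MeasurableSet (A n) := fun n =>
    (isClosed_le (continuous_Mx b ψ) (by fun_prop)).measurableSet
  have hanti : Antitone A := by
    intro n k hnk x hx
    have h1 : 1 / ((k : ℝ) + 1) ≤ 1 / ((n : ℝ) + 1) := by
      apply one_div_le_one_div_of_le (by positivity)
      have : (n : ℝ) ≤ k := by exact_mod_cast hnk
      linarith
    have hx' : Mx b ψ x ≤ ⟪x, b i⟫ - ψ i + 1 / ((k : ℝ) + 1) := hx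
    change Mx b ψ x ≤ ⟪x, b i⟫ - ψ i + 1 / ((n : ℝ) + 1)
    linarith
  have hinter : ⋂ n, A n = {x | Mx b ψ x ≤ ⟪x, b i⟫ - ψ i} := by
    ext x
    simp only [mem_iInter, hA, Set.mem_ofPred_eq]
    constructor
    · intro h
      apply le_of_forall_pos_le_add
      intro ε hε
      obtain ⟨n, hn⟩ := exists_nat_one_div_lt hε
      linarith [h n]
    · intro h n
      have : 0 < 1 / ((n : ℝ) + 1) := by positivity
      linarith
  have hlim := tendsto_measure_iInter_atTop (μ := ρ) (fun n => (hAm n).nullMeasurableSet) hanti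
    ⟨0, measure_ne_top ρ _⟩
  rw [hinter] at hlim
  apply ge_of_tendsto' hlim
  intro n
  exact first_order_mass hρ hRK b hmin i (by positivity)

/-- Existence of a minimiser of the Kantorovich functional. -/
theorem exists_min_Fn (hρ : ∀ᵐ x ∂ρ, ‖x‖ ≤ RK) (hRK : 0 ≤ RK) (b : ι → E d) {m : ι → ℝ}
    (hm : ∀ i, 0 < m i) (hsum : ∑ i, m i = 1) : ∃ ψ, ∀ ψ', Fn ρ b m ψ ≤ Fn ρ b m ψ' := by
  obtain ⟨Rb, hRb⟩ : ∃ Rb, ∀ i, ‖b i‖ ≤ Rb :=
    ⟨∑ i, ‖b i‖, fun i => Finset.single_le_sum (f := fun i => ‖b i‖) (fun _ _ => norm_nonneg _)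
      (Finset.mem_univ i)⟩
  have hRb0 : 0 ≤ Rb := (norm_nonneg _).trans (hRb (Classical.arbitrary ι))
  set C₀ : ℝ := RK * Rb with hC₀
  have hC₀0 : 0 ≤ C₀ := mul_nonneg hRK hRb0
  obtain ⟨m₀, hm₀pos, hm₀⟩ : ∃ m₀, 0 < m₀ ∧ ∀ i, m₀ ≤ m i := by
    obtain ⟨i, _, hi⟩ := Finset.exists_min_image Finset.univ m Finset.univ_nonempty
    exact ⟨m i, hm i, fun j => hi j (Finset.mem_univ j)⟩
  set L : ℝ := (2 * C₀ + 1) / m₀ with hL
  have hL0 : 0 ≤ L := by positivity
  -- compact box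
  have hbox : IsCompact (Icc (fun _ : ι => (0 : ℝ)) (fun _ => L)) := isCompact_Icc
  have h0mem : (fun _ : ι => (0 : ℝ)) ∈ Icc (fun _ : ι => (0 : ℝ)) (fun _ => L) :=
    ⟨le_rfl, fun _ => hL0⟩
  obtain ⟨ψ, hψmem, hψmin⟩ := hbox.exists_isMinOn ⟨_, h0mem⟩
    (continuous_Fn hρ hRK b m).continuousOn
  refine ⟨ψ, ?_⟩
  -- bound for the value at zero
  have hF0 : Fn ρ b m (fun _ => 0) ≤ C₀ := by
    unfold Fn
    simp only [mul_zero, Finset.sum_const_zero, add_zero]
    have h1 : ∫ x, Mx b (fun _ => 0) x ∂ρ ≤ ∫ _, C₀ ∂ρ := by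
      apply integral_mono_ae (integrable_Mx hρ hRK b _) (integrable_const _)
      filter_upwards [hρ] with x hx
      have := Mx_bound (RK := RK) b (fun _ => 0) hRb (B := 0) (by simp) hx hRK
      exact (le_abs_self _).trans (by simpa [hC₀] using this)
    simpa using h1
  -- lower bound in terms of the normalised potential
  have hlow : ∀ ψ' : ι → ℝ, (∀ i, 0 ≤ ψ' i) → ∀ j, ψ' j = 0 → ∀ i, -C₀ + m₀ * ψ' i ≤ Fn ρ b m ψ' := by
    intro ψ' h0 j hj i
    unfold Fn
    have h1 : -C₀ ≤ ∫ x, Mx b ψ' x ∂ρ := by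
      have h2 : ∫ _ : E d, -C₀ ∂ρ ≤ ∫ x, Mx b ψ' x ∂ρ := by
        apply integral_mono_ae (integrable_const _) (integrable_Mx hρ hRK b _)
        filter_upwards [hρ] with x hx
        have h3 := le_Mx b ψ' x j
        rw [hj] at h3
        have h4 : |⟪x, b j⟫| ≤ C₀ := by
          calc |⟪x, b j⟫| ≤ ‖x‖ * ‖b j‖ := abs_real_inner_le_norm _ _
            _ ≤ C₀ := mul_le_mul hx (hRb j) (norm_nonneg _) hRK
        have h5 := (abs_le.mp h4).1
        linarith
      simpa using h2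
    have h2 : m i * ψ' i ≤ ∑ k, m k * ψ' k :=
      Finset.single_le_sum (f := fun k => m k * ψ' k)
        (fun k _ => mul_nonneg (hm k).le (h0 k)) (Finset.mem_univ i)
    have h3 : m₀ * ψ' i ≤ m i * ψ' i := mul_le_mul_of_nonneg_right (hm₀ i) (h0 i)
    linarith
  intro ψ'
  obtain ⟨j, _, hj⟩ := Finset.exists_min_image Finset.univ ψ' Finset.univ_nonempty
  set ψ'' : ι → ℝ := fun i => ψ' i - ψ' j with hψ''
  have hshift : Fn ρ b m ψ'' = Fn ρ b m ψ' := Fn_shift hρ hRK b hsum ψ' (ψ' j)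
  rw [← hshift]
  have hnn : ∀ i, 0 ≤ ψ'' i := fun i => by
    simp only [hψ'']
    linarith [hj i (Finset.mem_univ i)]
  have hzero : ψ'' j = 0 := by simp [hψ'']
  by_cases hin : ∀ i, ψ'' i ≤ L
  · exact hψmin ⟨hnn, hin⟩
  · push Not at hin
    obtain ⟨i, hi⟩ := hin
    have h1 := hlow ψ'' hnn j hzero i
    have h2 : m₀ * L = 2 * C₀ + 1 := by
      rw [hL]; field_simp
    have h3 : m₀ * L ≤ m₀ * ψ'' i := mul_le_mul_of_nonneg_left hi.le hm₀pos.le
    have h4 := hψmin h0mem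
    simp only [Set.mem_ofPred_eq] at h4
    linarith

end functional

/-- Hyperplanes are Lebesgue null. -/
theorem volume_hyperplane {v : E d} (hv : v ≠ 0) (α : ℝ) :
    volume {x : E d | ⟪x, v⟫ = α} = 0 := by
  by_cases hne : {x : E d | ⟪x, v⟫ = α}.Nonempty
  · obtain ⟨x₀, hx₀⟩ := hne
    set s : Submodule ℝ (E d) := (ℝ ∙ v)ᗮ with hs
    have hsne : s ≠ ⊤ := by
      intro h
      have hvs : v ∈ s := by rw [h]; trivial
      rw [hs, Submodule.mem_orthogonal_singleton_iff_inner_right] at hvs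
      exact hv (inner_self_eq_zero.mp hvs)
    have hnull : volume (s : Set (E d)) = 0 := Measure.addHaar_submodule volume s hsne
    have hsub : {x : E d | ⟪x, v⟫ = α} ⊆ (fun x => x + (-x₀)) ⁻¹' (s : Set (E d)) := by
      intro x hx
      simp only [mem_preimage, SetLike.mem_coe]
      rw [hs, Submodule.mem_orthogonal_singleton_iff_inner_right, real_inner_comm, inner_add_left,
        inner_neg_left]
      have hx' : ⟪x, v⟫ = α := hx
      have hx₀' : ⟪x₀, v⟫ = α := hx₀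
      rw [hx', hx₀']
      ring
    apply measure_mono_null hsub
    rw [measure_preimage_add_right]
    exact hnull
  · rw [not_nonempty_iff_eq_empty] at hne
    rw [hne]
    simp

/-- **Semi-discrete optimal transport**: for a probability measure `ρ` with bounded support that
charges no hyperplane, and finitely many distinct sites with positive masses, there are potentials
and a measurable selection of the maximisers with exactly the prescribed masses. -/
theorem exists_semidiscrete {ρ : Measure (E d)} [IsProbabilityMeasure ρ] {RK : ℝ}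
    (hρ : ∀ᵐ x ∂ρ, ‖x‖ ≤ RK) (hRK : 0 ≤ RK) (hnull : ρ ≪ volume)
    {b : ι → E d} (hb : Function.Injective b) {m : ι → ℝ} (hm : ∀ i, 0 < m i)
    (hsum : ∑ i, m i = 1) :
    ∃ (ψ : ι → ℝ) (sel : E d → ι), (∀ i, MeasurableSet (sel ⁻¹' {i})) ∧
      (∀ x, Mx b ψ x = ⟪x, b (sel x)⟫ - ψ (sel x)) ∧
      ∀ i, ρ (sel ⁻¹' {i}) = ENNReal.ofReal (m i) := by
  classical
  obtain ⟨ψ, hψ⟩ := exists_min_Fn hρ hRK b hm hsum
  set C : ι → Set (E d) := fun i => {x | Mx b ψ x ≤ ⟪x, b i⟫ - ψ i} with hC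
  have hCm : ∀ i, MeasurableSet (C i) := fun i =>
    (isClosed_le (continuous_Mx b ψ) (by fun_prop)).measurableSet
  have hCmass : ∀ i, ENNReal.ofReal (m i) ≤ ρ (C i) := fun i =>
    first_order_closed hρ hRK b hψ i
  -- a linear rank on `ι`
  set e : ι ≃ Fin (Fintype.card ι) := Fintype.equivFin ι with he
  have hex : ∀ x, ∃ i, x ∈ C i ∧ ∀ j, x ∈ C j → e i ≤ e j := by
    intro x
    obtain ⟨i₀, hi₀⟩ := exists_eq_Mx b ψ x
    have hne : (Finset.univ.filter fun i => x ∈ C i).Nonempty :=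
      ⟨i₀, by simp [hC, hi₀]⟩
    obtain ⟨i, hi, himin⟩ := Finset.exists_min_image _ e hne
    refine ⟨i, (Finset.mem_filter.mp hi).2, fun j hj => himin j (Finset.mem_filter.mpr ⟨Finset.mem_univ j, hj⟩)⟩
  choose sel hsel1 hsel2 using hex
  have hpre : ∀ i, sel ⁻¹' {i} = C i \ ⋃ j ∈ Finset.univ.filter (fun j => e j < e i), C j := by
    intro i
    ext x
    simp only [mem_preimage, mem_singleton_iff, Set.mem_sdiff, mem_iUnion, Finset.mem_filter,
      Finset.mem_univ, true_and, not_exists, not_and, exists_prop]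
    constructor
    · rintro rfl
      refine ⟨hsel1 x, fun j hj hx => ?_⟩
      exact absurd (hsel2 x j hx) (not_le.mpr hj)
    · rintro ⟨h1, h2⟩
      have h3 := hsel2 x i h1
      rcases h3.eq_or_lt with h4 | h4
      · exact e.injective h4
      · exact absurd (hsel1 x) (h2 _ h4)
  have hselm : ∀ i, MeasurableSet (sel ⁻¹' {i}) := by
    intro i
    rw [hpre]
    exact (hCm i).diff (Finset.measurableSet_biUnion _ fun j _ => hCm j)
  have hval : ∀ x, Mx b ψ x = ⟪x, b (sel x)⟫ - ψ (sel x) := by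
    intro x
    exact le_antisymm (hsel1 x) (le_Mx b ψ x _)
  -- the overlaps are null
  have hover : ∀ i j, i ≠ j → ρ (C i ∩ C j) = 0 := by
    intro i j hij
    apply hnull
    apply measure_mono_null _ (volume_hyperplane (v := b i - b j)
      (sub_ne_zero.mpr fun h => hij (hb h)) (ψ i - ψ j))
    rintro x ⟨h1, h2⟩
    have h3 : Mx b ψ x ≤ ⟪x, b i⟫ - ψ i := h1
    have h4 : Mx b ψ x ≤ ⟪x, b j⟫ - ψ j := h2
    have h5 := le_Mx b ψ x i
    have h6 := le_Mx b ψ x j
    change ⟪x, b i - b j⟫ = ψ i - ψ j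
    rw [inner_sub_right]
    linarith
  -- each preimage has at least the prescribed mass
  have hge : ∀ i, ENNReal.ofReal (m i) ≤ ρ (sel ⁻¹' {i}) := by
    intro i
    refine (hCmass i).trans ?_
    have hsub : C i ⊆ sel ⁻¹' {i} ∪ ⋃ j ∈ Finset.univ.filter (fun j => j ≠ i), (C i ∩ C j) := by
      intro x hx
      by_cases h : sel x = i
      · exact Or.inl h
      · refine Or.inr ?_
        simp only [mem_iUnion, Finset.mem_filter, Finset.mem_univ, true_and, exists_prop]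
        exact ⟨sel x, h, hx, hsel1 x⟩
    refine (measure_mono hsub).trans ((measure_union_le _ _).trans ?_)
    have h0 : ρ (⋃ j ∈ Finset.univ.filter (fun j => j ≠ i), (C i ∩ C j)) = 0 := by
      apply (measure_biUnion_null_iff (Finset.countable_toSet _)).mpr
      intro j hj
      have hj' : j ≠ i := (Finset.mem_filter.mp hj).2
      exact hover i j hj'.symm
    rw [h0, add_zero]
  -- total mass
  have htot : ∑ i, ρ (sel ⁻¹' {i}) = 1 := by
    have := sum_measure_preimage_singleton (μ := ρ) (f := sel) Finset.univ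
      (fun i _ => hselm i)
    rw [this]
    simp
  have hreal : ∑ i, (ρ (sel ⁻¹' {i})).toReal = 1 := by
    rw [← ENNReal.toReal_sum (fun i _ => measure_ne_top ρ _), htot]
    simp
  have hle : ∀ i ∈ Finset.univ, m i ≤ (ρ (sel ⁻¹' {i})).toReal := by
    intro i _
    have := ENNReal.toReal_mono (measure_ne_top ρ _) (hge i)
    rwa [ENNReal.toReal_ofReal (hm i).le] at this
  have heq := (Finset.sum_eq_sum_iff_of_le hle).mp (hsum.trans hreal.symm)
  refine ⟨ψ, sel, hselm, hval, fun i => ?_⟩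
  rw [heq i (Finset.mem_univ i), ENNReal.ofReal_toReal (measure_ne_top ρ _)]

end Vale.Agent.Lib.P074
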