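import Vale.Agent.Lib.P074.Horiz
import Vale.Agent.Lib.P074.Semi
import Vale.Agent.Lib.P074.OscL2b

open MeasureTheory Set Filter Topology
open scoped ENNReal NNReal RealInnerProductSpace

namespace Vale.Agent.Lib.P074

/-- A linear measure preserving coordinate system of the Euclidean plane, preserving the inner
product. -/
structure PlaneCoord where
  toFun : E 2 → ℝ × ℝ
  invFun : ℝ × ℝ → E 2
  left : ∀ x, invFun (toFun x) = x
  right : ∀ p, toFun (invFun p) = p
  cont : Continuous toFun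
  contInv : Continuous invFun
  lin : ∀ (a b : ℝ) (x y : E 2), toFun (a • x + b • y) = a • toFun x + b • toFun y
  mp : MeasurePreserving toFun volume volume
  inner_eq : ∀ x y : E 2, ⟪x, y⟫ = (toFun x).1 * (toFun y).1 + (toFun x).2 * (toFun y).2

theorem inner_two (x y : E 2) : ⟪x, y⟫ = x 0 * y 0 + x 1 * y 1 := by
  simp [PiLp.inner_apply, Fin.sum_univ_two]
  ring

theorem mp_coord : MeasurePreserving (fun x : E 2 => (x 0, x 1)) volume volume :=
  (volume_preserving_finTwoArrow ℝ).comp (PiLp.volume_preserving_ofLp (Fin 2))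

/-- The standard coordinates. -/
noncomputable def coordA : PlaneCoord where
  toFun := fun x => (x 0, x 1)
  invFun := fun p => !₂[p.1, p.2]
  left := fun x => by
    ext i
    fin_cases i <;> simp
  right := fun p => by
    ext <;> simp
  cont := by fun_prop
  contInv := by
    apply (PiLp.continuous_toLp 2 _).comp
    apply continuous_pi
    intro i
    fin_cases i
    · exact continuous_fst
    · exact continuous_snd
  lin := fun a b x y => by
    ext <;> simp
  mp := mp_coord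
  inner_eq := inner_two

/-- The exchanged coordinates. -/
noncomputable def coordB : PlaneCoord where
  toFun := fun x => (x 1, x 0)
  invFun := fun p => !₂[p.2, p.1]
  left := fun x => by
    ext i
    fin_cases i <;> simp
  right := fun p => by
    ext <;> simp
  cont := by fun_prop
  contInv := by
    apply (PiLp.continuous_toLp 2 _).comp
    apply continuous_pi
    intro i
    fin_cases i
    · exact continuous_snd
    · exact continuous_fst
  lin := fun a b x y => by
    ext <;> simp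
  mp := by
    have h := (Measure.measurePreserving_swap (μ := (volume : Measure ℝ))
      (ν := (volume : Measure ℝ))).comp mp_coord
    exact h
  inner_eq := fun x y => by
    rw [inner_two]
    ring

variable {ι : Type*} [Fintype ι] [Nonempty ι]

/-- The horizontal lemma in a coordinate system of the plane. -/
theorem bridge (Θ : PlaneCoord) {K : Set (E 2)} (hK : IsCompact K) (hconv : Convex ℝ K)
    (hint : (interior K).Nonempty) {b b' : ι → E 2} {ψ ψ' : ι → ℝ} {sel sel' : E 2 → ι}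
    (hm : ∀ i, MeasurableSet (sel ⁻¹' {i})) (hm' : ∀ i, MeasurableSet (sel' ⁻¹' {i}))
    (hsel : ∀ x, Mx b ψ x = ⟪x, b (sel x)⟫ - ψ (sel x))
    (hsel' : ∀ x, Mx b' ψ' x = ⟪x, b' (sel' x)⟫ - ψ' (sel' x))
    (hmass : ∀ i, volume (K ∩ sel ⁻¹' {i}) = volume (K ∩ sel' ⁻¹' {i})) {ε w₀ : ℝ}
    (hsame : ∀ i, (Θ.toFun (b i)).2 = (Θ.toFun (b' i)).2)
    (hmove : ∀ i, |(Θ.toFun (b i)).1 - (Θ.toFun (b' i)).1| ≤ ε)
    (hw : ∀ x ∈ K, ∀ x' ∈ K, (Θ.toFun x).1 - (Θ.toFun x').1 ≤ w₀) :
    ∃ c : ℝ, ∀ x ∈ K, |Mx b' ψ' x - Mx b ψ x - c| ≤ ε * w₀ / 2 := by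
  set t : ι → ℝ := fun i => (Θ.toFun (b i)).1 with ht
  set t' : ι → ℝ := fun i => (Θ.toFun (b' i)).1 with ht'
  set y : ι → ℝ := fun i => (Θ.toFun (b i)).2 with hy
  have hpot : ∀ x, colPot t y ψ (Θ.toFun x) = Mx b ψ x := by
    intro x
    unfold colPot Mx
    apply Finset.sup'_congr Finset.univ_nonempty rfl
    intro i _
    rw [Θ.inner_eq x (b i)]
  have hpot' : ∀ x, colPot t' y ψ' (Θ.toFun x) = Mx b' ψ' x := by
    intro x
    unfold colPot Mx
    apply Finset.sup'_congr Finset.univ_nonempty rfl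
    intro i _
    rw [Θ.inner_eq x (b' i)]
    simp only [ht', hy]
    rw [hsame i]
  set K' : Set (ℝ × ℝ) := Θ.toFun '' K with hK'
  have hK'pre : K' = Θ.invFun ⁻¹' K := by
    ext p
    constructor
    · rintro ⟨x, hx, rfl⟩
      simpa [Θ.left] using hx
    · intro hp
      exact ⟨_, hp, Θ.right p⟩
  have hK'c : IsCompact K' := hK.image Θ.cont
  have hK'conv : Convex ℝ K' := by
    rintro _ ⟨x, hx, rfl⟩ _ ⟨x', hx', rfl⟩ a c ha hc hac
    refine ⟨a • x + c • x', hconv hx hx' ha hc hac, ?_⟩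
    exact Θ.lin a c x x'
  have hK'int : (interior K').Nonempty := by
    obtain ⟨x₀, hx₀⟩ := hint
    refine ⟨Θ.toFun x₀, ?_⟩
    rw [mem_interior]
    refine ⟨Θ.invFun ⁻¹' interior K, ?_, isOpen_interior.preimage Θ.contInv, ?_⟩
    · rw [hK'pre]
      exact preimage_mono interior_subset
    · simpa [Θ.left] using hx₀
  set s : ℝ × ℝ → ι := fun p => sel (Θ.invFun p) with hs
  set s' : ℝ × ℝ → ι := fun p => sel' (Θ.invFun p) with hs'
  have hsm : ∀ i, MeasurableSet (s ⁻¹' {i}) := fun i => Θ.contInv.measurable (hm i)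
  have hsm' : ∀ i, MeasurableSet (s' ⁻¹' {i}) := fun i => Θ.contInv.measurable (hm' i)
  have hsSel : IsSel K' t y ψ s := by
    intro p _
    have e1 : Θ.toFun (Θ.invFun p) = p := Θ.right p
    have h1 := hpot (Θ.invFun p)
    rw [e1, hsel, Θ.inner_eq, e1] at h1
    rw [h1]
  have hsSel' : IsSel K' t' y ψ' s' := by
    intro p _
    have e1 : Θ.toFun (Θ.invFun p) = p := Θ.right p
    have h1 := hpot' (Θ.invFun p)
    rw [e1, hsel', Θ.inner_eq, e1] at h1
    rw [h1]
    simp only [hy, hsame, hs', ht']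
  have hvol : ∀ (S : E 2 → ι) (hSm : ∀ i, MeasurableSet (S ⁻¹' {i})) (i : ι),
      volume (K' ∩ (fun p => S (Θ.invFun p)) ⁻¹' {i}) = volume (K ∩ S ⁻¹' {i}) := by
    intro S hSm i
    have hms : MeasurableSet (K' ∩ (fun p => S (Θ.invFun p)) ⁻¹' {i}) :=
      hK'c.isClosed.measurableSet.inter (Θ.contInv.measurable (hSm i))
    rw [← Θ.mp.measure_preimage hms.nullMeasurableSet]
    congr 1
    ext x
    simp only [mem_preimage, mem_inter_iff, mem_singleton_iff, Θ.left]
    constructor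
    · rintro ⟨h1, h2⟩
      refine ⟨?_, h2⟩
      rw [hK'pre] at h1
      simpa [Θ.left] using h1
    · rintro ⟨h1, h2⟩
      exact ⟨⟨x, h1, rfl⟩, h2⟩
  have hmass' : ∀ i, volume (K' ∩ s ⁻¹' {i}) = volume (K' ∩ s' ⁻¹' {i}) := by
    intro i
    rw [hs, hs', hvol sel hm, hvol sel' hm', hmass]
  have hmove' : ∀ i, |t i - t' i| ≤ ε := hmove
  have hw' : ∀ p ∈ K', ∀ p' ∈ K', p.1 - p'.1 ≤ w₀ := by
    rintro _ ⟨x, hx, rfl⟩ _ ⟨x', hx', rfl⟩
    exact hw x hx x' hx'
  obtain ⟨c, hc⟩ := horizontal_lemma hK'c hK'conv hK'int hsm hsm' hsSel hsSel' hmass' hmove' hw'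
  refine ⟨c, fun x hx => ?_⟩
  have := hc (Θ.toFun x) ⟨x, hx, rfl⟩
  rwa [hpot, hpot'] at this

end Vale.Agent.Lib.P074
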