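import Mathlib

open MeasureTheory Set Filter Topology

namespace Vale.Agent.Lib.P074

/-- A function with a subgradient selection `ρ` on an interval: `ρ` is monotone. -/
theorem subgrad_monotoneOn {g ρ : ℝ → ℝ} {b c : ℝ}
    (hsub : ∀ z ∈ Icc b c, ∀ z' ∈ Icc b c, g z + ρ z * (z' - z) ≤ g z') :
    MonotoneOn ρ (Icc b c) := by
  intro z hz z' hz' hzz
  rcases hzz.eq_or_lt with h | h
  · rw [h]
  · have h1 := hsub z hz z' hz'
    have h2 := hsub z' hz' z hz
    have h3 : 0 < z' - z := sub_pos.mpr h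
    nlinarith

/-- Fundamental theorem of calculus for a function with a subgradient selection. -/
theorem integral_eq_of_subgrad {g ρ : ℝ → ℝ} {b c : ℝ} (hbc : b ≤ c)
    (hsub : ∀ z ∈ Icc b c, ∀ z' ∈ Icc b c, g z + ρ z * (z' - z) ≤ g z') :
    ∫ z in b..c, ρ z = g c - g b := by
  have hmono := subgrad_monotoneOn hsub
  have hint : ∀ u v, u ∈ Icc b c → v ∈ Icc b c → IntervalIntegrable ρ volume u v := by
    intro u v hu hv
    apply MonotoneOn.intervalIntegrable
    exact hmono.mono (uIcc_subset_Icc hu hv)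
  have hbm : b ∈ Icc b c := ⟨le_rfl, hbc⟩
  have hcm : c ∈ Icc b c := ⟨hbc, le_rfl⟩
  have hρ : 0 ≤ ρ c - ρ b := sub_nonneg.mpr (hmono hbm hcm hbc)
  have hbound : ∀ N : ℕ, 0 < N →
      |(∫ z in b..c, ρ z) - (g c - g b)| ≤ ((c - b) / N) * (ρ c - ρ b) := by
    intro N hN
    have hNr : (0 : ℝ) < N := by exact_mod_cast hN
    set Δ : ℝ := (c - b) / N with hΔ
    have hΔ0 : 0 ≤ Δ := div_nonneg (by linarith) hNr.le
    set z : ℕ → ℝ := fun k => b + k * Δ with hz
    have hzN : z N = c := by
      simp only [hz, hΔ]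
      field_simp
      ring
    have hz0 : z 0 = b := by simp [hz]
    have hzm : ∀ k, k ≤ N → z k ∈ Icc b c := by
      intro k hk
      have hkr : (k : ℝ) ≤ N := by exact_mod_cast hk
      constructor
      · simp only [hz]
        have : 0 ≤ (k : ℝ) * Δ := by positivity
        linarith
      · rw [← hzN]
        simp only [hz]
        have : (k : ℝ) * Δ ≤ N * Δ := mul_le_mul_of_nonneg_right hkr hΔ0
        linarith
    have hstep : ∀ k, z (k + 1) - z k = Δ := by
      intro k
      simp only [hz]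
      push_cast
      ring
    have hsum : ∑ k ∈ Finset.range N, ∫ x in z k..z (k + 1), ρ x = ∫ x in z 0..z N, ρ x := by
      apply intervalIntegral.sum_integral_adjacent_intervals
      intro k hk
      exact hint _ _ (hzm k hk.le) (hzm (k + 1) hk)
    rw [hz0, hzN] at hsum
    have hpiece : ∀ k ∈ Finset.range N,
        |(∫ x in z k..z (k + 1), ρ x) - (g (z (k + 1)) - g (z k))| ≤
          Δ * (ρ (z (k + 1)) - ρ (z k)) := by
      intro k hk
      have hk' : k < N := Finset.mem_range.mp hk
      have hu := hzm k hk'.le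
      have hv := hzm (k + 1) hk'
      have huv : z k ≤ z (k + 1) := by linarith [hstep k]
      have huvs : Icc (z k) (z (k + 1)) ⊆ Icc b c := Icc_subset_Icc hu.1 hv.2
      have hi := hint _ _ hu hv
      have p1 : Δ * ρ (z k) ≤ ∫ x in z k..z (k + 1), ρ x := by
        have := intervalIntegral.integral_mono_on (μ := volume) huv
          (intervalIntegrable_const (c := ρ (z k))) hi
          (fun x hx => hmono hu (huvs hx) hx.1)
        rw [intervalIntegral.integral_const, hstep k, smul_eq_mul] at this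
        exact this
      have p2 : ∫ x in z k..z (k + 1), ρ x ≤ Δ * ρ (z (k + 1)) := by
        have := intervalIntegral.integral_mono_on (μ := volume) huv hi
          (intervalIntegrable_const (c := ρ (z (k + 1))))
          (fun x hx => hmono (huvs hx) hv hx.2)
        rw [intervalIntegral.integral_const, hstep k, smul_eq_mul] at this
        exact this
      have p3 := hsub _ hu _ hv
      have p4 := hsub _ hv _ hu
      rw [hstep k] at p3
      have e : z k - z (k + 1) = -Δ := by linarith [hstep k]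
      rw [e] at p4
      rw [abs_le]
      constructor <;> nlinarith
    have htele : ∑ k ∈ Finset.range N, (ρ (z (k + 1)) - ρ (z k)) = ρ c - ρ b := by
      have := Finset.sum_range_sub (fun k => ρ (z k)) N
      rw [this, hzN, hz0]
    have htele2 : ∑ k ∈ Finset.range N, (g (z (k + 1)) - g (z k)) = g c - g b := by
      have := Finset.sum_range_sub (fun k => g (z k)) N
      rw [this, hzN, hz0]
    rw [← hsum, ← htele2, ← Finset.sum_sub_distrib]
    calc |∑ k ∈ Finset.range N, ((∫ x in z k..z (k + 1), ρ x) - (g (z (k + 1)) - g (z k)))|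
        ≤ ∑ k ∈ Finset.range N, |(∫ x in z k..z (k + 1), ρ x) - (g (z (k + 1)) - g (z k))| :=
          Finset.abs_sum_le_sum_abs _ _
      _ ≤ ∑ k ∈ Finset.range N, Δ * (ρ (z (k + 1)) - ρ (z k)) := Finset.sum_le_sum hpiece
      _ = Δ * (ρ c - ρ b) := by rw [← Finset.mul_sum, htele]
  by_contra hne
  have hX : 0 < |(∫ z in b..c, ρ z) - (g c - g b)| := abs_pos.mpr (sub_ne_zero.mpr hne)
  set X := |(∫ z in b..c, ρ z) - (g c - g b)| with hXdef
  set A : ℝ := (c - b) * (ρ c - ρ b) with hA
  have hA0 : 0 ≤ A := mul_nonneg (by linarith) hρ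
  obtain ⟨N, hN⟩ := exists_nat_gt (A / X)
  have hNr : (0 : ℝ) < N := lt_of_le_of_lt (div_nonneg hA0 hX.le) hN
  have hN0 : 0 < N := by exact_mod_cast hNr
  have h1 := hbound N hN0
  have h2 : ((c - b) / N) * (ρ c - ρ b) = A / N := by rw [hA]; ring
  rw [h2] at h1
  have h3 : A / X * X < N * X := mul_lt_mul_of_pos_right hN hX
  rw [div_mul_cancel₀ _ hX.ne'] at h3
  have h4 : X * N ≤ A := by
    rwa [le_div_iff₀ hNr] at h1
  nlinarith

/-- The supremum formula on a column. -/
theorem sup_eq_integral_pos {g ρ : ℝ → ℝ} {b c y zs : ℝ}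
    (hsub : ∀ z ∈ Icc b c, ∀ z' ∈ Icc b c, g z + ρ z * (z' - z) ≤ g z')
    (hzs : zs ∈ Icc b c) (hmax : ∀ z ∈ Icc b c, z * y - g z ≤ zs * y - g zs)
    (hint : IntervalIntegrable (fun z => max (y - ρ z) 0) volume b c) :
    zs * y - g zs = b * y - g b + ∫ z in b..c, max (y - ρ z) 0 := by
  have hmono := subgrad_monotoneOn hsub
  have hb : b ∈ Icc b c := ⟨le_rfl, hzs.1.trans hzs.2⟩
  have hc : c ∈ Icc b c := ⟨hzs.1.trans hzs.2, le_rfl⟩
  have hsub1 : uIcc b zs ⊆ uIcc b c := uIcc_subset_uIcc left_mem_uIcc (by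
    rw [uIcc_of_le (hzs.1.trans hzs.2)]; exact hzs)
  have hsub2 : uIcc zs c ⊆ uIcc b c := uIcc_subset_uIcc (by
    rw [uIcc_of_le (hzs.1.trans hzs.2)]; exact hzs) right_mem_uIcc
  have hsplit := intervalIntegral.integral_add_adjacent_intervals (hint.mono_set hsub1)
    (hint.mono_set hsub2)
  have h2 : ∫ z in zs..c, max (y - ρ z) 0 = 0 := by
    rw [intervalIntegral.integral_of_le hzs.2, integral_Ioc_eq_integral_Ioo]
    rw [setIntegral_congr_fun measurableSet_Ioo (g := fun _ => (0 : ℝ))]
    · simp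
    · intro z hz
      have hzm : z ∈ Icc b c := ⟨by linarith [hz.1, hzs.1], hz.2.le⟩
      have h3 := hsub z hzm zs hzs
      have h4 := hmax z hzm
      have h5 : 0 < z - zs := sub_pos.mpr hz.1
      have h6 : y ≤ ρ z := by
        by_contra hc
        push Not at hc
        nlinarith
      exact max_eq_right (by linarith)
  have h1 : ∫ z in b..zs, max (y - ρ z) 0 = ∫ z in b..zs, (y - ρ z) := by
    rw [intervalIntegral.integral_of_le hzs.1, intervalIntegral.integral_of_le hzs.1,
      integral_Ioc_eq_integral_Ioo, integral_Ioc_eq_integral_Ioo]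
    apply setIntegral_congr_fun measurableSet_Ioo
    intro z hz
    have hzm : z ∈ Icc b c := ⟨hz.1.le, by linarith [hz.2, hzs.2]⟩
    have h3 := hsub z hzm zs hzs
    have h4 := hmax z hzm
    have h5 : 0 < zs - z := sub_pos.mpr hz.2
    have h6 : ρ z ≤ y := by
      by_contra hc
      push Not at hc
      nlinarith
    exact max_eq_left (by linarith)
  have hsub' : ∀ z ∈ Icc b zs, ∀ z' ∈ Icc b zs, g z + ρ z * (z' - z) ≤ g z' := by
    intro z hz z' hz'
    exact hsub z ⟨hz.1, hz.2.trans hzs.2⟩ z' ⟨hz'.1, hz'.2.trans hzs.2⟩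
  have hftc := integral_eq_of_subgrad hzs.1 hsub'
  have hmonoI : IntervalIntegrable ρ volume b zs := by
    apply MonotoneOn.intervalIntegrable
    rw [uIcc_of_le hzs.1]
    exact (subgrad_monotoneOn hsub')
  have h3 : ∫ z in b..zs, (y - ρ z) = y * (zs - b) - (g zs - g b) := by
    rw [intervalIntegral.integral_sub intervalIntegrable_const hmonoI, hftc,
      intervalIntegral.integral_const, smul_eq_mul]
    ring
  rw [← hsplit, h2, h1, h3]
  ring

end Vale.Agent.Lib.P074
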