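import Vale.Agent.Lib.P074.OneD2
import Vale.Agent.Lib.P074.FtcConvex

open MeasureTheory Set Filter Topology
open scoped ENNReal

namespace Vale.Agent.Lib.P074

section colPot

variable {ι : Type*} [Fintype ι] [Nonempty ι]

/-- The maximum of the affine functions `x₁ t i + x₂ y i - ψ i` on the plane. -/
noncomputable def colPot (t y ψ : ι → ℝ) (x : ℝ × ℝ) : ℝ :=
  Finset.univ.sup' Finset.univ_nonempty fun i => x.1 * t i + x.2 * y i - ψ i

theorem aff_le_pot (t y ψ : ι → ℝ) (x : ℝ × ℝ) (i : ι) :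
    x.1 * t i + x.2 * y i - ψ i ≤ colPot t y ψ x :=
  Finset.le_sup' (fun i => x.1 * t i + x.2 * y i - ψ i) (Finset.mem_univ i)

theorem pot_le_of {t y ψ : ι → ℝ} {x : ℝ × ℝ} {A : ℝ}
    (h : ∀ i, x.1 * t i + x.2 * y i - ψ i ≤ A) : colPot t y ψ x ≤ A :=
  Finset.sup'_le _ _ fun i _ => h i

theorem continuous_pot (t y ψ : ι → ℝ) : Continuous (colPot t y ψ) := by
  unfold colPot
  apply Continuous.finset_sup'_apply
  intro i _
  fun_prop

theorem pot_convex (t y ψ : ι → ℝ) (x x' : ℝ × ℝ) {a b : ℝ} (ha : 0 ≤ a) (hb : 0 ≤ b)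
    (hab : a + b = 1) : colPot t y ψ (a • x + b • x') ≤ a * colPot t y ψ x + b * colPot t y ψ x' := by
  apply pot_le_of
  intro i
  have h1 := aff_le_pot t y ψ x i
  have h2 := aff_le_pot t y ψ x' i
  have h3 := mul_le_mul_of_nonneg_left h1 ha
  have h4 := mul_le_mul_of_nonneg_left h2 hb
  have e : (a • x + b • x').1 * t i + (a • x + b • x').2 * y i - ψ i =
      a * (x.1 * t i + x.2 * y i - ψ i) + b * (x'.1 * t i + x'.2 * y i - ψ i) + (a + b - 1) * ψ i := by
    simp only [Prod.fst_add, Prod.snd_add, Prod.smul_fst, Prod.smul_snd, smul_eq_mul]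
    ring
  rw [e, hab]
  linarith

end colPot

section col

variable {K : Set (ℝ × ℝ)}

/-- The column of `K` above `s`. -/
def col (K : Set (ℝ × ℝ)) (s : ℝ) : Set ℝ := Prod.mk s ⁻¹' K

theorem isCompact_col (hK : IsCompact K) (s : ℝ) : IsCompact (col K s) := by
  have h1 : IsClosed (col K s) := hK.isClosed.preimage (by fun_prop)
  refine (hK.image continuous_snd).of_isClosed_subset h1 ?_
  intro z hz
  exact ⟨(s, z), hz, rfl⟩

theorem convex_col (hconv : Convex ℝ K) (s : ℝ) : Convex ℝ (col K s) := by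
  intro z hz z' hz' a b ha hb hab
  have h := hconv hz hz' ha hb hab
  have e : a • (s, z) + b • (s, z') = (s, a • z + b • z') := by
    ext
    · simp only [Prod.fst_add, Prod.smul_fst, smul_eq_mul]
      rw [← add_mul, hab, one_mul]
    · simp
  rw [e] at h
  exact h

/-- The partial Legendre transform in the second variable. -/
noncomputable def Phi (K : Set (ℝ × ℝ)) (φ : ℝ × ℝ → ℝ) (s y₀ : ℝ) : ℝ :=
  sSup ((fun z => z * y₀ - φ (s, z)) '' col K s)

variable {φ : ℝ × ℝ → ℝ} {s y₀ : ℝ}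

theorem Phi_attained (hK : IsCompact K) (hφ : Continuous φ) (hne : (col K s).Nonempty) (y₀ : ℝ) :
    ∃ z ∈ col K s, Phi K φ s y₀ = z * y₀ - φ (s, z) ∧
      ∀ z' ∈ col K s, z' * y₀ - φ (s, z') ≤ z * y₀ - φ (s, z) := by
  have hcont : ContinuousOn (fun z => z * y₀ - φ (s, z)) (col K s) := by
    apply Continuous.continuousOn
    fun_prop
  obtain ⟨z, hz, hmax⟩ := (isCompact_col hK s).exists_isMaxOn hne hcont
  refine ⟨z, hz, ?_, fun z' hz' => hmax hz'⟩
  have hgr : IsGreatest ((fun z => z * y₀ - φ (s, z)) '' col K s) (z * y₀ - φ (s, z)) := by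
    refine ⟨⟨z, hz, rfl⟩, ?_⟩
    rintro _ ⟨z', hz', rfl⟩
    exact hmax hz'
  exact hgr.csSup_eq

theorem le_Phi (hK : IsCompact K) (hφ : Continuous φ) {z : ℝ} (hz : z ∈ col K s) (y₀ : ℝ) :
    z * y₀ - φ (s, z) ≤ Phi K φ s y₀ := by
  obtain ⟨z', _, h1, h2⟩ := Phi_attained hK hφ ⟨z, hz⟩ y₀
  rw [h1]
  exact h2 z hz

theorem Phi_le (hK : IsCompact K) (hφ : Continuous φ) (hne : (col K s).Nonempty) {A : ℝ}
    (h : ∀ z ∈ col K s, z * y₀ - φ (s, z) ≤ A) : Phi K φ s y₀ ≤ A := by
  obtain ⟨z', hz', h1, _⟩ := Phi_attained hK hφ hne y₀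
  rw [h1]
  exact h z' hz'

theorem Phi_bound (hK : IsCompact K) (hφ : Continuous φ) (y₀ : ℝ) :
    ∃ B : ℝ, ∀ s, (col K s).Nonempty → |Phi K φ s y₀| ≤ B := by
  have hc : ContinuousOn (fun x : ℝ × ℝ => x.2 * y₀ - φ x) K := by
    apply Continuous.continuousOn
    fun_prop
  obtain ⟨B, hB⟩ := hK.exists_bound_of_continuousOn hc
  refine ⟨B, fun s hs => ?_⟩
  obtain ⟨z, hz, h1, _⟩ := Phi_attained hK hφ hs y₀
  rw [h1]
  have := hB (s, z) hz
  simpa [Real.norm_eq_abs] using this

end col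

section proj

variable {K : Set (ℝ × ℝ)}

/-- The projection of a convex body to the first coordinate is a nondegenerate compact interval. -/
theorem exists_proj (hK : IsCompact K) (hconv : Convex ℝ K) (hint : (interior K).Nonempty) :
    ∃ l r : ℝ, l < r ∧ Prod.fst '' K = Icc l r := by
  have hc : IsCompact (Prod.fst '' K) := hK.image continuous_fst
  obtain ⟨x₀, hx₀⟩ := hint
  have hne : (Prod.fst '' K).Nonempty := ⟨x₀.1, x₀, interior_subset hx₀, rfl⟩
  have hconvp : Convex ℝ (Prod.fst '' K) := hconv.linear_image (LinearMap.fst ℝ ℝ ℝ)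
  set l := sInf (Prod.fst '' K)
  set r := sSup (Prod.fst '' K)
  have hl : l ∈ Prod.fst '' K := hc.sInf_mem hne
  have hr : r ∈ Prod.fst '' K := hc.sSup_mem hne
  have hsub : Prod.fst '' K ⊆ Icc l r := fun s hs =>
    ⟨csInf_le hc.bddBelow hs, le_csSup hc.bddAbove hs⟩
  have hsup : Icc l r ⊆ Prod.fst '' K := hconvp.ordConnected.out hl hr
  refine ⟨l, r, ?_, Subset.antisymm hsub hsup⟩
  -- interior gives strict inequality
  obtain ⟨δ, hδ, hball⟩ := Metric.isOpen_iff.mp isOpen_interior x₀ hx₀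
  have h1 : (x₀.1 + δ / 2, x₀.2) ∈ K := by
    apply interior_subset
    apply hball
    rw [Metric.mem_ball, Prod.dist_eq]
    simp only [Real.dist_eq, sub_self, abs_zero, add_sub_cancel_left]
    rw [abs_of_pos (by positivity)]
    simp only [max_lt_iff]
    constructor <;> linarith
  have h2 : (x₀.1 - δ / 2, x₀.2) ∈ K := by
    apply interior_subset
    apply hball
    rw [Metric.mem_ball, Prod.dist_eq]
    simp only [Real.dist_eq, sub_self, abs_zero]
    have e : x₀.1 - δ / 2 - x₀.1 = -(δ / 2) := by ring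
    rw [e, abs_neg, abs_of_pos (by positivity)]
    simp only [max_lt_iff]
    constructor <;> linarith
  have h3 := (hsub ⟨_, h1, rfl⟩).2
  have h4 := (hsub ⟨_, h2, rfl⟩).1
  simp only at h3 h4
  linarith

theorem col_nonempty {l r s : ℝ} (hproj : Prod.fst '' K = Icc l r) (hs : s ∈ Icc l r) :
    (col K s).Nonempty := by
  rw [← hproj] at hs
  obtain ⟨x, hx, hxs⟩ := hs
  refine ⟨x.2, ?_⟩
  change (s, x.2) ∈ K
  rw [← hxs]
  exact hx

theorem mem_Icc_of_mem {l r : ℝ} (hproj : Prod.fst '' K = Icc l r) {x : ℝ × ℝ} (hx : x ∈ K) :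
    x.1 ∈ Icc l r := by
  rw [← hproj]
  exact ⟨x, hx, rfl⟩

theorem col_empty {l r s : ℝ} (hproj : Prod.fst '' K = Icc l r) (hs : s ∉ Icc l r) :
    col K s = ∅ := by
  ext z
  simp only [mem_empty_iff_false, iff_false]
  intro hz
  exact hs (mem_Icc_of_mem hproj hz)

/-- Columns over the open interval have positive length. -/
theorem col_pos (hK : IsCompact K) (hconv : Convex ℝ K) (hint : (interior K).Nonempty) {l r s : ℝ}
    (hproj : Prod.fst '' K = Icc l r) (hs : s ∈ Ioo l r) : 0 < (volume (col K s)).toReal := by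
  obtain ⟨x₀, hx₀⟩ := hint
  obtain ⟨δ, hδ, hball⟩ := Metric.isOpen_iff.mp isOpen_interior x₀ hx₀
  have hu : (x₀.1, x₀.2 + δ / 2) ∈ K := by
    apply interior_subset
    apply hball
    rw [Metric.mem_ball, Prod.dist_eq]
    simp only [Real.dist_eq, sub_self, abs_zero, add_sub_cancel_left]
    rw [abs_of_pos (by positivity)]
    simp only [max_lt_iff]
    constructor <;> linarith
  have hd : (x₀.1, x₀.2 - δ / 2) ∈ K := by
    apply interior_subset
    apply hball
    rw [Metric.mem_ball, Prod.dist_eq]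
    simp only [Real.dist_eq, sub_self, abs_zero]
    have e : x₀.2 - δ / 2 - x₀.2 = -(δ / 2) := by ring
    rw [e, abs_neg, abs_of_pos (by positivity)]
    simp only [max_lt_iff]
    constructor <;> linarith
  have hmem := mem_Icc_of_mem hproj (interior_subset hx₀)
  -- the convex combination
  have key : ∀ (p : ℝ × ℝ) (lam : ℝ), p ∈ K → 0 ≤ lam → lam < 1 →
      s = lam * p.1 + (1 - lam) * x₀.1 → 0 < (volume (col K s)).toReal := by
    intro p lam hp h0 h1 hsform
    set z₁ : ℝ := lam * p.2 + (1 - lam) * (x₀.2 - δ / 2) with hz₁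
    set z₂ : ℝ := lam * p.2 + (1 - lam) * (x₀.2 + δ / 2) with hz₂
    have hz₁m : z₁ ∈ col K s := by
      have := hconv hp hd h0 (by linarith : 0 ≤ 1 - lam) (add_sub_cancel lam 1)
      have e : lam • p + (1 - lam) • (x₀.1, x₀.2 - δ / 2) = (s, z₁) := by
        ext
        · simp [hsform]
        · simp [hz₁]
      rw [e] at this
      exact this
    have hz₂m : z₂ ∈ col K s := by
      have := hconv hp hu h0 (by linarith : 0 ≤ 1 - lam) (add_sub_cancel lam 1)
      have e : lam • p + (1 - lam) • (x₀.1, x₀.2 + δ / 2) = (s, z₂) := by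
        ext
        · simp [hsform]
        · simp [hz₂]
      rw [e] at this
      exact this
    have hlt : z₁ < z₂ := by
      have : 0 < (1 - lam) * δ := mul_pos (by linarith) hδ
      rw [hz₁, hz₂]
      nlinarith
    have hsubI : Icc z₁ z₂ ⊆ col K s := (convex_col hconv s).ordConnected.out hz₁m hz₂m
    have hvol : ENNReal.ofReal (z₂ - z₁) ≤ volume (col K s) := by
      rw [← Real.volume_Icc]
      exact measure_mono hsubI
    have hpos : 0 < volume (col K s) :=
      lt_of_lt_of_le (ENNReal.ofReal_pos.mpr (by linarith)) hvol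
    exact ENNReal.toReal_pos hpos.ne' (isCompact_col hK s).measure_lt_top.ne
  -- choose the extreme point
  have hl : l ∈ Prod.fst '' K := by rw [hproj]; exact ⟨le_rfl, (hs.1.trans hs.2).le⟩
  have hr : r ∈ Prod.fst '' K := by rw [hproj]; exact ⟨(hs.1.trans hs.2).le, le_rfl⟩
  obtain ⟨pl, hpl, hpl1⟩ := hl
  obtain ⟨pr, hpr, hpr1⟩ := hr
  rcases le_total s x₀.1 with hc | hc
  · have hd0 : 0 < x₀.1 - l := by linarith [hs.1]
    apply key pl ((x₀.1 - s) / (x₀.1 - l)) hpl (div_nonneg (by linarith) hd0.le)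
    · rw [div_lt_one hd0]
      linarith [hs.1]
    · rw [hpl1]
      field_simp
      ring
  · have hd0 : 0 < r - x₀.1 := by linarith [hs.2]
    apply key pr ((s - x₀.1) / (r - x₀.1)) hpr (div_nonneg (by linarith) hd0.le)
    · rw [div_lt_one hd0]
      linarith [hs.2]
    · rw [hpr1]
      field_simp
      ring

end proj

end Vale.Agent.Lib.P074
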