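import Vale.Agent.Lib.P074.Column

open MeasureTheory Set Filter Topology
open scoped ENNReal

namespace Vale.Agent.Lib.P074

section mass

set_option linter.unusedSectionVars false

variable {ι : Type*} [Fintype ι] {K : Set (ℝ × ℝ)} {sel : ℝ × ℝ → ι}

/-- The part of the column above `s` where `sel = i`. -/
def colPart (K : Set (ℝ × ℝ)) (sel : ℝ × ℝ → ι) (i : ι) (s : ℝ) : Set ℝ :=
  Prod.mk s ⁻¹' (K ∩ sel ⁻¹' {i})

/-- The length of the part of the column above `s` where `sel = i`. -/
noncomputable def colMass (K : Set (ℝ × ℝ)) (sel : ℝ × ℝ → ι) (i : ι) (s : ℝ) : ℝ :=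
  (volume (colPart K sel i s)).toReal

theorem colPart_subset (i : ι) (s : ℝ) : colPart K sel i s ⊆ col K s := fun _ hz => hz.1

theorem colMass_nonneg (i : ι) (s : ℝ) : 0 ≤ colMass K sel i s := ENNReal.toReal_nonneg

theorem measurableSet_colPart (hK : IsCompact K) (hm : ∀ i, MeasurableSet (sel ⁻¹' {i})) (i : ι)
    (s : ℝ) : MeasurableSet (colPart K sel i s) :=
  measurable_prodMk_left (hK.isClosed.measurableSet.inter (hm i))

theorem colPart_fin (hK : IsCompact K) (i : ι) (s : ℝ) : volume (colPart K sel i s) ≠ ∞ :=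
  measure_ne_top_of_subset (colPart_subset i s) (isCompact_col hK s).measure_lt_top.ne

/-- Integrating the column masses gives the area. -/
theorem colMass_integral (hK : IsCompact K) (hm : ∀ i, MeasurableSet (sel ⁻¹' {i}))
    {l r : ℝ} (hlr : l ≤ r) (hproj : Prod.fst '' K = Icc l r) (i : ι) :
    IntervalIntegrable (colMass K sel i) volume l r ∧
      ∫ s in l..r, colMass K sel i s = (volume (K ∩ sel ⁻¹' {i})).toReal := by
  have hA : MeasurableSet (K ∩ sel ⁻¹' {i}) := hK.isClosed.measurableSet.inter (hm i)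
  have hvol : volume (K ∩ sel ⁻¹' {i}) = ∫⁻ s, volume (colPart K sel i s) := by
    rw [Measure.volume_eq_prod, Measure.prod_apply hA]
    rfl
  have hfin : volume (K ∩ sel ⁻¹' {i}) ≠ ∞ :=
    measure_ne_top_of_subset inter_subset_left hK.measure_lt_top.ne
  have hmeas : Measurable fun s => volume (colPart K sel i s) := measurable_measure_prodMk_left hA
  have hint : Integrable (colMass K sel i) volume := by
    unfold colMass
    apply integrable_toReal_of_lintegral_ne_top hmeas.aemeasurable
    rw [← hvol]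
    exact hfin
  refine ⟨hint.intervalIntegrable, ?_⟩
  have hzero : ∀ s, s ∉ Icc l r → colMass K sel i s = 0 := by
    intro s hs
    unfold colMass
    have : colPart K sel i s = ∅ := by
      apply subset_empty_iff.mp
      rw [← col_empty hproj hs]
      exact colPart_subset i s
    rw [this]
    simp
  rw [intervalIntegral.integral_of_le hlr, ← integral_Icc_eq_integral_Ioc,
    setIntegral_eq_integral_of_forall_compl_eq_zero hzero, hvol]
  unfold colMass
  rw [integral_toReal hmeas.aemeasurable (Filter.Eventually.of_forall fun s =>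
    (colPart_fin hK i s).lt_top)]

/-- The parts partition the column. -/
theorem iUnion_colPart (s : ℝ) : ⋃ i, colPart K sel i s = col K s := by
  ext z
  simp only [mem_iUnion]
  constructor
  · rintro ⟨i, hi⟩
    exact colPart_subset i s hi
  · intro hz
    exact ⟨sel (s, z), hz, rfl⟩

theorem disjoint_colPart (s : ℝ) : Pairwise (Function.onFun Disjoint fun i => colPart K sel i s) := by
  intro i j hij
  apply Set.disjoint_left.mpr
  intro z hz hz'
  exact hij (hz.2.symm.trans hz'.2)

/-- The column masses sum up to the column length. -/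
theorem sum_colMass (hK : IsCompact K) (hm : ∀ i, MeasurableSet (sel ⁻¹' {i})) (s : ℝ) :
    ∑ i, colMass K sel i s = (volume (col K s)).toReal := by
  rw [← iUnion_colPart (sel := sel) s, measure_iUnion (disjoint_colPart s)
    (fun i => measurableSet_colPart hK hm i s), tsum_fintype, ENNReal.toReal_sum]
  · rfl
  · intro i _
    exact colPart_fin hK i s

/-- Integrals over columns of functions of the label. -/
theorem integral_col_label (hK : IsCompact K) (hm : ∀ i, MeasurableSet (sel ⁻¹' {i})) (s : ℝ)
    (ξ : ι → ℝ) :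
    ∫ z in col K s, ξ (sel (s, z)) = ∑ j, ξ j * colMass K sel j s := by
  rw [← iUnion_colPart (sel := sel) s, integral_iUnion_fintype
    (fun i => measurableSet_colPart hK hm i s) (disjoint_colPart s)]
  · apply Finset.sum_congr rfl
    intro j _
    rw [setIntegral_congr_fun (g := fun _ => ξ j) (measurableSet_colPart hK hm j s)]
    · rw [setIntegral_const, smul_eq_mul, mul_comm]
      rfl
    · intro z hz
      have : sel (s, z) = j := hz.2
      simp only [this]
  · intro j
    have h1 : IntegrableOn (fun _ : ℝ => ξ j) (colPart K sel j s) :=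
      integrableOn_const (colPart_fin hK j s)
    refine h1.congr_fun ?_ (measurableSet_colPart hK hm j s)
    intro z hz
    have : sel (s, z) = j := hz.2
    simp only [this]

end mass

section formula

variable {ι : Type*} [Fintype ι] [Nonempty ι] {K : Set (ℝ × ℝ)} {sel : ℝ × ℝ → ι}
  {t y ψ : ι → ℝ}

/-- `sel` selects a maximiser on `K`. -/
def IsSel (K : Set (ℝ × ℝ)) (t y ψ : ι → ℝ) (sel : ℝ × ℝ → ι) : Prop :=
  ∀ x ∈ K, colPot t y ψ x = x.1 * t (sel x) + x.2 * y (sel x) - ψ (sel x)

/-- The bottom of the column. -/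
noncomputable def colLo (K : Set (ℝ × ℝ)) (s : ℝ) : ℝ := sInf (col K s)

/-- The top of the column. -/
noncomputable def colHi (K : Set (ℝ × ℝ)) (s : ℝ) : ℝ := sSup (col K s)

theorem col_eq_Icc (hK : IsCompact K) (hconv : Convex ℝ K) {s : ℝ} (hne : (col K s).Nonempty) :
    col K s = Icc (colLo K s) (colHi K s) := by
  have hc := isCompact_col hK s
  have hl := hc.sInf_mem hne
  have hr := hc.sSup_mem hne
  apply Subset.antisymm
  · intro z hz
    exact ⟨csInf_le hc.bddBelow hz, le_csSup hc.bddAbove hz⟩
  · exact (convex_col hconv s).ordConnected.out hl hr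

/-- The formula for the partial Legendre transform in terms of the column masses. -/
theorem Phi_formula (hK : IsCompact K) (hconv : Convex ℝ K) (hm : ∀ i, MeasurableSet (sel ⁻¹' {i}))
    (hsel : IsSel K t y ψ sel) {s : ℝ} (hne : (col K s).Nonempty) (y₀ : ℝ) :
    Phi K (colPot t y ψ) s y₀ = colLo K s * y₀ - colPot t y ψ (s, colLo K s) +
      ∑ j, max (y₀ - y j) 0 * colMass K sel j s := by
  have hφ := continuous_pot t y ψ
  have hIcc := col_eq_Icc hK hconv hne
  set lo := colLo K s with hlo
  set hi := colHi K s with hhi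
  obtain ⟨zs, hzs, h1, h2⟩ := Phi_attained hK hφ hne y₀
  rw [hIcc] at hzs h2
  set g : ℝ → ℝ := fun z => colPot t y ψ (s, z) with hg
  set ρ : ℝ → ℝ := fun z => y (sel (s, z)) with hρ
  have hsub : ∀ z ∈ Icc lo hi, ∀ z' ∈ Icc lo hi, g z + ρ z * (z' - z) ≤ g z' := by
    intro z hz z' hz'
    have hzK : (s, z) ∈ K := by
      have : z ∈ col K s := by rw [hIcc]; exact hz
      exact this
    have e1 := hsel (s, z) hzK
    have e2 := aff_le_pot t y ψ (s, z') (sel (s, z))
    simp only at e1 e2
    simp only [hg, hρ]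
    rw [e1]
    nlinarith
  have hmono := subgrad_monotoneOn hsub
  have hint : IntervalIntegrable (fun z => max (y₀ - ρ z) 0) volume lo hi := by
    apply AntitoneOn.intervalIntegrable
    rw [uIcc_of_le (hzs.1.trans hzs.2)]
    intro a ha b hb hab
    have := hmono ha hb hab
    apply max_le_max _ le_rfl
    linarith
  have hf := sup_eq_integral_pos hsub hzs h2 hint
  rw [h1]
  simp only [hg] at hf ⊢
  rw [hf]
  congr 1
  rw [intervalIntegral.integral_of_le (hzs.1.trans hzs.2), ← integral_Icc_eq_integral_Ioc, ← hIcc]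
  exact integral_col_label hK hm s (fun j => max (y₀ - y j) 0)

/-- The level function is at most the supporting line. -/
theorem Phi_le_line (hK : IsCompact K) {s : ℝ} (hne : (col K s).Nonempty) (i : ι) :
    Phi K (colPot t y ψ) s (y i) ≤ ψ i - s * t i := by
  apply Phi_le hK (continuous_pot t y ψ) hne
  intro z _
  have := aff_le_pot t y ψ (s, z) i
  simp only at this
  linarith

/-- At a contact point the level function is on the supporting line. -/
theorem Phi_contact (hK : IsCompact K) (hsel : IsSel K t y ψ sel) {s z : ℝ} (hz : (s, z) ∈ K)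
    {i : ι} (hi : sel (s, z) = i) : Phi K (colPot t y ψ) s (y i) = ψ i - s * t i := by
  apply le_antisymm (Phi_le_line hK ⟨z, hz⟩ i)
  have h1 := le_Phi hK (continuous_pot t y ψ) (s := s) (z := z) hz (y i)
  have h2 := hsel (s, z) hz
  rw [hi] at h2
  simp only at h2
  rw [h2] at h1
  linarith

/-- The supporting line at a point of positive column mass. -/
theorem Phi_sup (hK : IsCompact K) (hsel : IsSel K t y ψ sel) {s₀ s : ℝ} {i : ι}
    (hℓ : 0 < colMass K sel i s₀) (hs : (col K s).Nonempty) :
    Phi K (colPot t y ψ) s (y i) ≤ Phi K (colPot t y ψ) s₀ (y i) - t i * (s - s₀) := by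
  have hne : (colPart K sel i s₀).Nonempty := by
    by_contra hc
    rw [not_nonempty_iff_eq_empty] at hc
    unfold colMass at hℓ
    rw [hc] at hℓ
    simp at hℓ
  obtain ⟨z, hz⟩ := hne
  have hzK : (s₀, z) ∈ K := hz.1
  have hzi : sel (s₀, z) = i := hz.2
  rw [Phi_contact hK hsel hzK hzi]
  have := Phi_le_line (t := t) (y := y) (ψ := ψ) hK hs i
  linarith

/-- Concavity of the partial Legendre transform in the first variable. -/
theorem Phi_concave (hK : IsCompact K) (hconv : Convex ℝ K) {l r : ℝ}
    (hproj : Prod.fst '' K = Icc l r) (t y ψ : ι → ℝ) (y₀ : ℝ) :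
    ConcaveOn ℝ (Icc l r) (fun s => Phi K (colPot t y ψ) s y₀) := by
  refine ⟨convex_Icc l r, ?_⟩
  intro s₁ h₁ s₂ h₂ a b ha hb hab
  have hφ := continuous_pot t y ψ
  obtain ⟨z₁, hz₁, e₁, _⟩ := Phi_attained hK hφ (col_nonempty hproj h₁) y₀
  obtain ⟨z₂, hz₂, e₂, _⟩ := Phi_attained hK hφ (col_nonempty hproj h₂) y₀
  have hz : a • z₁ + b • z₂ ∈ col K (a • s₁ + b • s₂) := by
    have := hconv hz₁ hz₂ ha hb hab
    have e : a • (s₁, z₁) + b • (s₂, z₂) = (a • s₁ + b • s₂, a • z₁ + b • z₂) := by
      ext <;> simp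
    rw [e] at this
    exact this
  have h1 := le_Phi hK hφ hz y₀
  have e : (a • s₁ + b • s₂, a • z₁ + b • z₂) = a • (s₁, z₁) + b • (s₂, z₂) := by
    ext <;> simp
  rw [e] at h1
  have h2 := pot_convex t y ψ (s₁, z₁) (s₂, z₂) ha hb hab
  simp only [smul_eq_mul] at h1 ⊢
  rw [e₁, e₂]
  have e3 : (a * z₁ + b * z₂) * y₀ = a * (z₁ * y₀) + b * (z₂ * y₀) := by ring
  rw [e3] at h1
  have e4 : a • (s₁, z₁) + b • (s₂, z₂) = (a * s₁ + b * s₂, a * z₁ + b * z₂) := by
    ext <;> simp
  linarith

/-- Interval integrability of a bounded concave function. -/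
theorem Phi_intervalIntegrable (hK : IsCompact K) (hconv : Convex ℝ K) {l r : ℝ} (hlr : l ≤ r)
    (hproj : Prod.fst '' K = Icc l r) (t y ψ : ι → ℝ) (y₀ : ℝ) :
    IntervalIntegrable (fun s => Phi K (colPot t y ψ) s y₀) volume l r := by
  rw [intervalIntegrable_iff_integrableOn_Ioo_of_le hlr]
  obtain ⟨B, hB⟩ := Phi_bound hK (continuous_pot t y ψ) y₀
  have hc : ContinuousOn (fun s => Phi K (colPot t y ψ) s y₀) (Ioo l r) := by
    have := (Phi_concave hK hconv hproj t y ψ y₀).continuousOn_interior
    rwa [interior_Icc] at this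
  haveI : IsFiniteMeasure (volume.restrict (Ioo l r)) := ⟨by simp⟩
  refine Integrable.of_bound (hc.aestronglyMeasurable measurableSet_Ioo) B ?_
  rw [ae_restrict_iff' measurableSet_Ioo]
  filter_upwards with s hs
  rw [Real.norm_eq_abs]
  exact hB s (col_nonempty hproj ⟨hs.1.le, hs.2.le⟩)

end formula

end Vale.Agent.Lib.P074
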