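import Vale.Agent.Lib.P074.Defs

open MeasureTheory Set
open scoped ENNReal NNReal RealInnerProductSpace

namespace Vale.Agent.Lib.P074

variable {d : ℕ}

/-- `y` is a subgradient of `φ` at `x ∈ K`, relative to `K`. -/
def IsSubgrad (K : Set (E d)) (φ : E d → ℝ) (x y : E d) : Prop :=
  x ∈ K ∧ ∀ z ∈ K, φ x + ⟪y, z - x⟫ ≤ φ z

/-- The Legendre conjugate of `φ` relative to `K`. -/
noncomputable def conj (K : Set (E d)) (φ : E d → ℝ) (y : E d) : ℝ :=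
  ⨆ x : K, (⟪(x : E d), y⟫ - φ x)

section

variable {K : Set (E d)} {φ : E d → ℝ} {R : ℝ}

theorem conj_bddAbove (hR : ∀ x ∈ K, ‖x‖ ≤ R) {x₀ y₀ : E d} (h₀ : IsSubgrad K φ x₀ y₀) (y : E d) :
    BddAbove (range fun x : K => ⟪(x : E d), y⟫ - φ x) := by
  refine ⟨R * ‖y‖ - φ x₀ + ⟪y₀, x₀⟫ + R * ‖y₀‖, ?_⟩
  rintro _ ⟨⟨x, hx⟩, rfl⟩
  have h1 := h₀.2 x hx
  have h2 : ⟪x, y⟫ ≤ R * ‖y‖ := by
    calc ⟪x, y⟫ ≤ ‖x‖ * ‖y‖ := real_inner_le_norm _ _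
      _ ≤ R * ‖y‖ := by gcongr; exact hR x hx
  have h3 : -⟪y₀, x⟫ ≤ R * ‖y₀‖ := by
    have : -⟪y₀, x⟫ ≤ ‖y₀‖ * ‖x‖ := by
      have := abs_real_inner_le_norm y₀ x
      linarith [neg_abs_le ⟪y₀, x⟫]
    calc -⟪y₀, x⟫ ≤ ‖y₀‖ * ‖x‖ := this
      _ ≤ ‖y₀‖ * R := by gcongr; exact hR x hx
      _ = R * ‖y₀‖ := mul_comm _ _
  have h4 : ⟪y₀, x - x₀⟫ = ⟪y₀, x⟫ - ⟪y₀, x₀⟫ := inner_sub_right _ _ _
  simp only
  linarith

theorem le_conj (hR : ∀ x ∈ K, ‖x‖ ≤ R) {x₀ y₀ : E d} (h₀ : IsSubgrad K φ x₀ y₀) {x : E d}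
    (hx : x ∈ K) (y : E d) : ⟪x, y⟫ - φ x ≤ conj K φ y :=
  le_ciSup (f := fun x : K => ⟪(x : E d), y⟫ - φ x) (conj_bddAbove hR h₀ y) ⟨x, hx⟩

/-- Fenchel equality. -/
theorem conj_eq_of_subgrad {x y : E d} (h : IsSubgrad K φ x y) (hR : ∀ x ∈ K, ‖x‖ ≤ R) :
    conj K φ y = ⟪x, y⟫ - φ x := by
  apply le_antisymm
  · have : Nonempty K := ⟨⟨x, h.1⟩⟩
    apply ciSup_le
    rintro ⟨z, hz⟩
    have h1 := h.2 z hz
    have h2 : ⟪y, z - x⟫ = ⟪z, y⟫ - ⟪x, y⟫ := by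
      rw [inner_sub_right, real_inner_comm z y, real_inner_comm x y]
    simp only
    linarith
  · exact le_conj hR h h.1 y

/-- The conjugate is `R`-Lipschitz. -/
theorem conj_sub_le (hR : ∀ x ∈ K, ‖x‖ ≤ R) {x₀ y₀ : E d} (h₀ : IsSubgrad K φ x₀ y₀)
    (y y' : E d) : conj K φ y - conj K φ y' ≤ R * ‖y - y'‖ := by
  have : Nonempty K := ⟨⟨x₀, h₀.1⟩⟩
  have : conj K φ y ≤ conj K φ y' + R * ‖y - y'‖ := by
    apply ciSup_le
    rintro ⟨z, hz⟩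
    have h1 := le_conj hR h₀ hz y'
    have h2 : ⟪z, y⟫ - ⟪z, y'⟫ ≤ R * ‖y - y'‖ := by
      rw [← inner_sub_right]
      calc ⟪z, y - y'⟫ ≤ ‖z‖ * ‖y - y'‖ := real_inner_le_norm _ _
        _ ≤ R * ‖y - y'‖ := by gcongr; exact hR z hz
    simp only
    linarith
  linarith

theorem continuous_conj (hR : ∀ x ∈ K, ‖x‖ ≤ R) {x₀ y₀ : E d} (h₀ : IsSubgrad K φ x₀ y₀) :
    Continuous (conj K φ) := by
  have hR0 : 0 ≤ R := le_trans (norm_nonneg _) (hR x₀ h₀.1)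
  have : LipschitzWith R.toNNReal (conj K φ) := by
    apply LipschitzWith.of_dist_le_mul
    intro y y'
    rw [Real.dist_eq, dist_eq_norm, abs_le, Real.coe_toNNReal _ hR0]
    constructor
    · have := conj_sub_le hR h₀ y' y
      rw [norm_sub_rev] at this
      linarith
    · exact conj_sub_le hR h₀ y y'
  exact this.continuous

/-- The pointwise inequality for the Bregman gap. -/
theorem inner_le_gap (hR : ∀ x ∈ K, ‖x‖ ≤ R) {x x' a b b' : E d}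
    (hb : IsSubgrad K φ x b) (hb' : IsSubgrad K φ x' b') :
    ⟪x' - x, a - b'⟫ ≤ conj K φ a - conj K φ b - ⟪x, a - b⟫ := by
  have h1 := le_conj hR hb hb'.1 a
  have h2 := conj_eq_of_subgrad hb hR
  have h3 := hb'.2 x hb.1
  have e1 : ⟪x' - x, a - b'⟫ = ⟪x', a⟫ - ⟪x, a⟫ + ⟪b', x - x'⟫ := by
    simp only [inner_sub_left, inner_sub_right]
    rw [real_inner_comm b' x, real_inner_comm b' x']
    ring
  have e2 : ⟪x, a - b⟫ = ⟪x, a⟫ - ⟪x, b⟫ := inner_sub_right _ _ _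
  rw [e1, e2, h2]
  linarith

/-- Nonnegativity of the Bregman gap. -/
theorem gap_nonneg (hR : ∀ x ∈ K, ‖x‖ ≤ R) {x a b : E d} (hb : IsSubgrad K φ x b) :
    0 ≤ conj K φ a - conj K φ b - ⟪x, a - b⟫ := by
  have h1 := le_conj hR hb hb.1 a
  have h2 := conj_eq_of_subgrad hb hR
  have e2 : ⟪x, a - b⟫ = ⟪x, a⟫ - ⟪x, b⟫ := inner_sub_right _ _ _
  rw [e2, h2]
  linarith

/-- Monotonicity of the subdifferential. -/
theorem subgrad_monotone {x x' b b' : E d} (hb : IsSubgrad K φ x b) (hb' : IsSubgrad K φ x' b') :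
    0 ≤ ⟪b' - b, x' - x⟫ := by
  have h1 := hb.2 x' hb'.1
  have h2 := hb'.2 x hb.1
  have e : ⟪b', x - x'⟫ = -⟪b', x' - x⟫ := by
    rw [← inner_neg_right, neg_sub]
  rw [inner_sub_left]
  linarith

end

end Vale.Agent.Lib.P074
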