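import Vale.Agent.Lib.P074.Swap

open MeasureTheory Set Filter Topology
open scoped ENNReal NNReal RealInnerProductSpace

namespace Vale.Agent.Lib.P074

variable {d : ℕ}

/-- `x` is a Lebesgue point of `S`, for closed balls centred at `x`. -/
def IsLebPt (S : E d → E d) (x : E d) : Prop :=
  Tendsto (fun r : ℝ => ⨍ y in Metric.closedBall x r, S y) (𝓝[>] 0) (𝓝 (S x))

theorem ae_isLebPt {S : E d → E d} (hS : Measurable S) {R : ℝ} (hSb : ∀ x, ‖S x‖ ≤ R) :
    ∀ᵐ x ∂(volume : Measure (E d)), IsLebPt S x := by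
  have hloc : LocallyIntegrable S (volume : Measure (E d)) := by
    intro x
    refine ⟨Metric.closedBall x 1, Metric.closedBall_mem_nhds x one_pos, ?_⟩
    refine Measure.integrableOn_of_bounded (M := R) measure_closedBall_lt_top.ne
      hS.aestronglyMeasurable ?_
    exact Filter.Eventually.of_forall fun y => hSb y
  filter_upwards [IsUnifLocDoublingMeasure.ae_tendsto_average volume hloc 1] with x hx
  refine hx (fun _ => x) id tendsto_id ?_
  filter_upwards [self_mem_nhdsWithin] with r hr
  simp only [id, one_mul, Metric.mem_closedBall, dist_self]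
  exact (mem_Ioi.mp hr).le

/-- The inequality for permutations of Lebesgue points. -/
theorem perm_inequality {K : Set (E d)} (hK : IsCompact K) (hpos : volume K ≠ 0)
    {S : E d → E d} (hS : Measurable S) {R : ℝ} (hSb : ∀ x, ‖S x‖ ≤ R)
    (hopt : ∀ T' : E d → E d, Measurable T' → (uniformProb K).map T' = (uniformProb K).map S →
      mapCost (uniformProb K) S ≤ mapCost (uniformProb K) T')
    {ι : Type*} [Fintype ι] {p : ι → E d} (hinj : Function.Injective p)
    (hint : ∀ i, p i ∈ interior K) (hleb : ∀ i, IsLebPt S (p i)) (τ : Equiv.Perm ι) :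
    ∑ j, ⟪S (p j), p (τ j) - p j⟫ ≤ 0 := by
  classical
  -- eventually in `r` the balls are disjoint and inside `K`
  have hev1 : ∀ᶠ r : ℝ in 𝓝[>] 0, ∀ i, Metric.closedBall (p i) r ⊆ K := by
    rw [Filter.eventually_all]
    intro i
    obtain ⟨ε, hε, hball⟩ :=
      Metric.nhds_basis_closedBall.mem_iff.mp (mem_interior_iff_mem_nhds.mp (hint i))
    filter_upwards [Ioo_mem_nhdsGT hε] with r hr
    exact (Metric.closedBall_subset_closedBall hr.2.le).trans hball
  have hev2 : ∀ᶠ r : ℝ in 𝓝[>] 0,
      Pairwise (Function.onFun Disjoint fun i => Metric.closedBall (p i) r) := by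
    have : ∀ᶠ r : ℝ in 𝓝[>] 0, ∀ ij : ι × ι, ij.1 ≠ ij.2 →
        Disjoint (Metric.closedBall (p ij.1) r) (Metric.closedBall (p ij.2) r) := by
      rw [Filter.eventually_all]
      intro ij
      by_cases hij : ij.1 = ij.2
      · exact Filter.Eventually.of_forall fun r h => absurd hij h
      · have hpos : 0 < dist (p ij.1) (p ij.2) / 2 := by
          have := dist_pos.mpr (fun h => hij (hinj h))
          positivity
        filter_upwards [Ioo_mem_nhdsGT hpos] with r hr _
        apply Metric.closedBall_disjoint_closedBall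
        linarith [hr.2]
    filter_upwards [this] with r hr i j hij
    exact hr (i, j) hij
  have hev3 : ∀ᶠ r : ℝ in 𝓝[>] 0,
      0 ≤ ∑ j, ⟪p j - p (τ j), ⨍ y in Metric.closedBall (p j) r, S y⟫ := by
    filter_upwards [hev1, hev2, self_mem_nhdsWithin] with r h1 h2 h3
    have hr : 0 < r := h3
    have h4 := swap_inequality (σ := τ⁻¹) hK hpos hS hSb hopt h1 h2
    rw [← Equiv.sum_comp τ] at h4
    have hinv : ∀ j, τ⁻¹ (τ j) = j := fun j => by simp
    simp only [hinv] at h4
    set v : ℝ := (volume (Metric.closedBall (0 : E d) r)).toReal with hv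
    have hv0 : 0 ≤ v := ENNReal.toReal_nonneg
    have havg : ∀ j, ⨍ y in Metric.closedBall (p j) r, S y =
        v⁻¹ • ∫ y in Metric.closedBall (p j) r, S y := by
      intro j
      rw [setAverage_eq, measureReal_def, Measure.addHaar_closedBall_center]
    have : ∑ j, ⟪p j - p (τ j), ⨍ y in Metric.closedBall (p j) r, S y⟫ =
        v⁻¹ * ∑ j, ⟪p j - p (τ j), ∫ y in Metric.closedBall (p j) r, S y⟫ := by
      rw [Finset.mul_sum]
      refine Finset.sum_congr rfl fun j _ => ?_
      rw [havg, inner_smul_right]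
    rw [this]
    exact mul_nonneg (inv_nonneg.mpr hv0) h4
  have hlim : Tendsto (fun r : ℝ => ∑ j, ⟪p j - p (τ j), ⨍ y in Metric.closedBall (p j) r, S y⟫)
      (𝓝[>] 0) (𝓝 (∑ j, ⟪p j - p (τ j), S (p j)⟫)) := by
    refine tendsto_finsetSum _ fun j _ => ?_
    exact Tendsto.inner tendsto_const_nhds (hleb j)
  have h5 := ge_of_tendsto hlim hev3
  have h6 : ∑ j, ⟪S (p j), p (τ j) - p j⟫ = - ∑ j, ⟪p j - p (τ j), S (p j)⟫ := by
    rw [← Finset.sum_neg_distrib]
    refine Finset.sum_congr rfl fun j _ => ?_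
    rw [real_inner_comm, ← neg_sub, inner_neg_left]
  rw [h6]
  linarith

/-! ### Chain sums -/

/-- The sum `⟪S a, c₁ - a⟫ + ⟪S c₁, c₂ - c₁⟫ + ... + ⟪S c_n, b - c_n⟫` along `a, c₁, ..., c_n, b`. -/
noncomputable def chainSum (S : E d → E d) : E d → List (E d) → E d → ℝ
  | a, [], b => ⟪S a, b - a⟫
  | a, c :: l, b => ⟪S a, c - a⟫ + chainSum S c l b

theorem chainSum_append (S : E d → E d) (a : E d) (l₁ : List (E d)) (c : E d) (l₂ : List (E d))
    (b : E d) : chainSum S a (l₁ ++ c :: l₂) b = chainSum S a l₁ c + chainSum S c l₂ b := by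
  induction l₁ generalizing a with
  | nil => simp [chainSum]
  | cons e l ih => simp [chainSum, ih, add_assoc]

theorem chainSum_last_change (S : E d → E d) (a : E d) (l : List (E d)) (y z : E d) :
    ∃ w, (w = a ∨ w ∈ l) ∧ chainSum S a l z = chainSum S a l y + ⟪S w, z - y⟫ := by
  induction l generalizing a with
  | nil =>
    refine ⟨a, Or.inl rfl, ?_⟩
    simp only [chainSum]
    rw [← inner_add_right]
    congr 1
    abel
  | cons c l ih =>
    obtain ⟨w, hw, h⟩ := ih c
    refine ⟨w, Or.inr ?_, ?_⟩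
    · rcases hw with rfl | hw
      · exact List.mem_cons_self
      · exact List.mem_cons_of_mem _ hw
    · simp only [chainSum, h, add_assoc]

theorem chainSum_eq_sum (S : E d → E d) (a : E d) (l : List (E d)) (b : E d) :
    chainSum S a l b = ∑ k ∈ Finset.range (l.length + 1),
      ⟪S ((a :: l).getD k b), (a :: l).getD (k + 1) b - (a :: l).getD k b⟫ := by
  induction l generalizing a with
  | nil => simp [chainSum]
  | cons c l ih =>
    rw [List.length_cons, Finset.sum_range_succ']
    simp only [chainSum, ih c, List.getD_cons_succ, List.getD_cons_zero]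
    rw [add_comm]

theorem chainSum_cycle_nodup {S : E d → E d} {G : Set (E d)}
    (hperm : ∀ (n : ℕ) (p : Fin n → E d), Function.Injective p → (∀ i, p i ∈ G) →
      ∀ τ : Equiv.Perm (Fin n), ∑ j, ⟪S (p j), p (τ j) - p j⟫ ≤ 0)
    {a : E d} {l : List (E d)} (hnd : (a :: l).Nodup) (hG : ∀ c ∈ a :: l, c ∈ G) :
    chainSum S a l a ≤ 0 := by
  set g : ℕ → E d := fun k => (a :: l).getD k a with hg
  have hlen : (a :: l).length = l.length + 1 := rfl
  have hlt : ∀ k (hk : k < l.length + 1), g k = (a :: l)[k]'(by simpa using hk) := by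
    intro k hk
    simp only [hg]
    exact List.getD_eq_getElem _ _ _
  have hh := hperm (l.length + 1) (fun j => g j) ?_ ?_ (finRotate (l.length + 1))
  · rw [chainSum_eq_sum, ← Fin.sum_univ_eq_sum_range
      (fun k => ⟪S ((a :: l).getD k a), (a :: l).getD (k + 1) a - (a :: l).getD k a⟫)]
    refine le_of_eq_of_le (Finset.sum_congr rfl fun j _ => ?_) hh
    simp only [hg]
    congr 2
    rw [coe_finRotate]
    split_ifs with hj
    · subst hj
      simp only [Fin.val_last]
      rw [List.getD_eq_default _ _ (by simp), List.getD_cons_zero]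
    · rfl
  · intro i j hij
    simp only at hij
    rw [hlt i i.2, hlt j j.2] at hij
    exact Fin.ext ((List.Nodup.getElem_inj_iff hnd).mp hij)
  · intro i
    rw [hlt i i.2]
    exact hG _ (List.getElem_mem _)

theorem exists_dup_of_not_nodup {α : Type*} {l : List α} (h : ¬ l.Nodup) :
    ∃ (l₁ : List α) (c : α) (l₂ l₃ : List α), l = l₁ ++ c :: (l₂ ++ c :: l₃) := by
  classical
  induction l with
  | nil => simp at h
  | cons a l ih =>
    by_cases ha : a ∈ l
    · obtain ⟨s, t, rfl⟩ := List.append_of_mem ha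
      exact ⟨[], a, s, t, rfl⟩
    · have hl : ¬ l.Nodup := fun hl => h (List.nodup_cons.mpr ⟨ha, hl⟩)
      obtain ⟨l₁, c, l₂, l₃, rfl⟩ := ih hl
      exact ⟨a :: l₁, c, l₂, l₃, rfl⟩

/-- Cyclic monotonicity. -/
theorem chainSum_cycle {S : E d → E d} {G : Set (E d)}
    (hperm : ∀ (n : ℕ) (p : Fin n → E d), Function.Injective p → (∀ i, p i ∈ G) →
      ∀ τ : Equiv.Perm (Fin n), ∑ j, ⟪S (p j), p (τ j) - p j⟫ ≤ 0)
    (n : ℕ) : ∀ (a : E d) (l : List (E d)), l.length = n → a ∈ G → (∀ c ∈ l, c ∈ G) →
      chainSum S a l a ≤ 0 := by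
  induction n using Nat.strong_induction_on with
  | _ n ih =>
    intro a l hn ha hl
    by_cases hal : a ∈ l
    · obtain ⟨s, t, rfl⟩ := List.append_of_mem hal
      rw [chainSum_append]
      have hlen : (s ++ a :: t).length = s.length + t.length + 1 := by
        simp; omega
      have h1 := ih s.length (by omega) a s rfl ha
        (fun c hc => hl c (List.mem_append_left _ hc))
      have h2 := ih t.length (by omega) a t rfl ha
        (fun c hc => hl c (List.mem_append_right _ (List.mem_cons_of_mem _ hc)))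
      linarith
    · by_cases hnd : l.Nodup
      · exact chainSum_cycle_nodup hperm (List.nodup_cons.mpr ⟨hal, hnd⟩) (by
          intro c hc
          rcases List.mem_cons.mp hc with rfl | hc
          · exact ha
          · exact hl c hc)
      · obtain ⟨l₁, c, l₂, l₃, rfl⟩ := exists_dup_of_not_nodup hnd
        have hc : c ∈ G := hl c (List.mem_append_right _ List.mem_cons_self)
        have hlen : (l₁ ++ c :: (l₂ ++ c :: l₃)).length = l₁.length + l₂.length + l₃.length + 2 := by
          simp; omega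
        have h1 := ih (l₁ ++ c :: l₃).length (by simp; omega) a (l₁ ++ c :: l₃) rfl ha (by
          intro e he
          rcases List.mem_append.mp he with he | he
          · exact hl e (List.mem_append_left _ he)
          · rcases List.mem_cons.mp he with rfl | he
            · exact hc
            · exact hl e (by simp [he]))
        have h2 := ih l₂.length (by omega) c l₂ rfl hc (by
          intro e he
          exact hl e (by simp [he]))
        rw [chainSum_append] at h1 ⊢
        rw [chainSum_append]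
        linarith

/-- Rockafellar's potential. -/
noncomputable def rockPot (S : E d → E d) (G : Set (E d)) (x₀ z : E d) : ℝ :=
  ⨆ l : {l : List (E d) // ∀ c ∈ l, c ∈ G}, chainSum S x₀ l.1 z

theorem rockPot_bdd {S : E d → E d} {G : Set (E d)} {R : ℝ} (hSb : ∀ x, ‖S x‖ ≤ R)
    (hperm : ∀ (n : ℕ) (p : Fin n → E d), Function.Injective p → (∀ i, p i ∈ G) →
      ∀ τ : Equiv.Perm (Fin n), ∑ j, ⟪S (p j), p (τ j) - p j⟫ ≤ 0)
    {x₀ : E d} (hx₀ : x₀ ∈ G) (z : E d) :
    BddAbove (range fun l : {l : List (E d) // ∀ c ∈ l, c ∈ G} => chainSum S x₀ l.1 z) := by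
  refine ⟨R * ‖z - x₀‖, ?_⟩
  rintro _ ⟨⟨l, hl⟩, rfl⟩
  obtain ⟨w, -, h⟩ := chainSum_last_change S x₀ l x₀ z
  have h1 := chainSum_cycle hperm l.length x₀ l rfl hx₀ hl
  have h2 : ⟪S w, z - x₀⟫ ≤ R * ‖z - x₀‖ :=
    (real_inner_le_norm _ _).trans (mul_le_mul_of_nonneg_right (hSb w) (norm_nonneg _))
  simp only
  linarith

theorem rockPot_subgrad {S : E d → E d} {G : Set (E d)} {R : ℝ} (hSb : ∀ x, ‖S x‖ ≤ R)
    (hperm : ∀ (n : ℕ) (p : Fin n → E d), Function.Injective p → (∀ i, p i ∈ G) →
      ∀ τ : Equiv.Perm (Fin n), ∑ j, ⟪S (p j), p (τ j) - p j⟫ ≤ 0)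
    {x₀ : E d} (hx₀ : x₀ ∈ G) {K : Set (E d)} {x : E d} (hx : x ∈ G) (hxK : x ∈ K) :
    IsSubgrad K (rockPot S G x₀) x (S x) := by
  refine ⟨hxK, fun z _ => ?_⟩
  have hne : Nonempty {l : List (E d) // ∀ c ∈ l, c ∈ G} := ⟨⟨[], by simp⟩⟩
  have h1 : rockPot S G x₀ x ≤ rockPot S G x₀ z - ⟪S x, z - x⟫ := by
    refine ciSup_le fun l => ?_
    have hl' : ∀ c ∈ l.1 ++ [x], c ∈ G := by
      intro c hc
      rcases List.mem_append.mp hc with hc | hc
      · exact l.2 c hc
      · rw [List.mem_singleton] at hc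
        exact hc ▸ hx
    have h2 := le_ciSup (rockPot_bdd hSb hperm hx₀ z) ⟨l.1 ++ [x], hl'⟩
    simp only [chainSum_append, chainSum] at h2
    unfold rockPot
    linarith
  linarith

/-- **Brenier's theorem, the direction we need**: the optimal map from the uniform measure on a
convex body to a measure carried by a compact set is the gradient of a convex function. -/
theorem isGradConvex_of_optimal {K : Set (E d)} (hK : IsCompact K) (hconv : Convex ℝ K)
    (hint : (interior K).Nonempty) {Y : Set (E d)} (hY : IsCompact Y) (hYne : Y.Nonempty)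
    {μ : Measure (E d)} (hμ : ∀ᵐ y ∂μ, y ∈ Y) {T : E d → E d}
    (hT : IsOptimalMap (uniformProb K) μ T) : IsGradConvex K T := by
  classical
  obtain ⟨hTm, hTmap, hTopt⟩ := hT
  obtain ⟨c, hc⟩ := hint
  obtain ⟨δ, hδ, hball⟩ := Metric.nhds_basis_closedBall.mem_iff.mp (mem_interior_iff_mem_nhds.mp hc)
  obtain ⟨R, hR⟩ := hY.isBounded.exists_norm_le
  obtain ⟨y₀, hy₀⟩ := hYne
  have hKfin : volume K ≠ ∞ := hK.measure_lt_top.ne
  have hKpos : volume K ≠ 0 :=
    (lt_of_lt_of_le (Metric.measure_closedBall_pos volume c hδ) (measure_mono hball)).ne'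
  have hYm : MeasurableSet Y := hY.isClosed.measurableSet
  -- truncation
  set S : E d → E d := fun x => if T x ∈ Y then T x else y₀ with hSdef
  have hS : Measurable S := Measurable.ite (hTm hYm) hTm measurable_const
  have hSb : ∀ x, ‖S x‖ ≤ R := by
    intro x
    by_cases h : T x ∈ Y
    · simp only [hSdef, h, if_true]; exact hR _ h
    · simp only [hSdef, h, if_false]; exact hR _ hy₀
  have hae : ∀ᵐ x ∂(uniformProb K), T x ∈ Y := by
    rw [← hTmap] at hμ
    exact (ae_map_iff (p := fun y => y ∈ Y) hTm.aemeasurable hYm).mp hμ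
  have heq : S =ᵐ[uniformProb K] T := by
    filter_upwards [hae] with x hx
    simp [hSdef, hx]
  have hSmap : (uniformProb K).map S = μ := by
    rw [← hTmap]; exact Measure.map_congr heq
  have hcost : mapCost (uniformProb K) S = mapCost (uniformProb K) T := by
    unfold mapCost
    apply lintegral_congr_ae
    filter_upwards [heq] with x hx
    rw [hx]
  have hopt : ∀ T' : E d → E d, Measurable T' → (uniformProb K).map T' = (uniformProb K).map S →
      mapCost (uniformProb K) S ≤ mapCost (uniformProb K) T' := by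
    intro T' hT' hmap
    rw [hcost]
    exact hTopt T' hT' (hmap.trans hSmap)
  -- the good set
  set G : Set (E d) := {x | x ∈ interior K ∧ IsLebPt S x} with hG
  have hperm : ∀ (n : ℕ) (p : Fin n → E d), Function.Injective p → (∀ i, p i ∈ G) →
      ∀ τ : Equiv.Perm (Fin n), ∑ j, ⟪S (p j), p (τ j) - p j⟫ ≤ 0 := by
    intro n p hinj hp τ
    exact perm_inequality hK hKpos hS hSb hopt hinj (fun i => (hp i).1) (fun i => (hp i).2) τ
  have haeG : ∀ᵐ x ∂(volume.restrict K), x ∈ G := by
    have h1 : ∀ᵐ x ∂(volume : Measure (E d)), x ∉ frontier K := by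
      have := hconv.addHaar_frontier (volume : Measure (E d))
      exact measure_eq_zero_iff_ae_notMem.mp this
    have h2 := ae_isLebPt hS hSb
    filter_upwards [ae_restrict_mem hK.isClosed.measurableSet, ae_restrict_of_ae h1,
      ae_restrict_of_ae h2] with x hxK hxf hxL
    refine ⟨?_, hxL⟩
    by_contra hxi
    exact hxf ⟨subset_closure hxK, hxi⟩
  have hae' : ∀ᵐ x ∂(volume.restrict K), S x = T x :=
    (volume_restrict_ac_uniformProb hKfin).ae_le heq
  by_cases hGne : G.Nonempty
  · obtain ⟨x₀, hx₀⟩ := hGne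
    refine ⟨rockPot S G x₀, ?_⟩
    filter_upwards [haeG, hae', ae_restrict_mem hK.isClosed.measurableSet] with x hx h1 h2
    rw [← h1]
    exact rockPot_subgrad hSb hperm hx₀ hx h2
  · refine ⟨0, ?_⟩
    filter_upwards [haeG] with x hx
    exact absurd ⟨x, hx⟩ hGne

/-- The exponent `1/4` is admissible in every dimension. -/
theorem admissible_quarter (hd : 1 ≤ d) : Admissible d (1 / 4) := by
  intro K hK hconv hint Y hY hYne
  obtain ⟨C, hC⟩ := quarter_gradient hd hK hconv hint hY hYne
  refine ⟨C, fun μ ν _ _ hμ hν Tμ Tν hTμ hTν => ?_⟩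
  exact hC μ ν hμ hν Tμ Tν hTμ.1 hTν.1 hTμ.2.1 hTν.2.1
    (isGradConvex_of_optimal hK hconv hint hY hYne hμ hTμ)
    (isGradConvex_of_optimal hK hconv hint hY hYne hν hTν)

end Vale.Agent.Lib.P074
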