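import Mathlib

open MeasureTheory
open scoped ENNReal NNReal

namespace Vale.Agent.Lib.P074

/-- The Euclidean space `ℝ^d` with its Euclidean norm and Lebesgue measure `volume`. -/
abbrev E (d : ℕ) := EuclideanSpace ℝ (Fin d)

/-- The uniform probability measure `ρ = |K|⁻¹ 1_K dx` on `K`. -/
noncomputable def uniformProb {d : ℕ} (K : Set (E d)) : Measure (E d) :=
  (volume K)⁻¹ • volume.restrict K

/-- The quadratic transport cost `∫ |x - T x|² dρ(x)` of a map `T`. -/
noncomputable def mapCost {d : ℕ} (ρ : Measure (E d)) (T : E d → E d) : ℝ≥0∞ :=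
  ∫⁻ x, ENNReal.ofReal (‖x - T x‖ ^ 2) ∂ρ

/-- `T` is a quadratic optimal transport map from `ρ` to `μ`: it is Borel, `T_# ρ = μ`, and its
cost is minimal among all Borel maps pushing `ρ` to `μ`. -/
def IsOptimalMap {d : ℕ} (ρ μ : Measure (E d)) (T : E d → E d) : Prop :=
  Measurable T ∧ ρ.map T = μ ∧
    ∀ T' : E d → E d, Measurable T' → ρ.map T' = μ → mapCost ρ T ≤ mapCost ρ T'

/-- The Wasserstein distance `W₂(μ, ν) = inf_π (∫ |y - z|² dπ(y, z))^(1/2)`, the infimum over all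
couplings `π` of `μ` and `ν`, that is, all measures on the product with marginals `μ` and `ν`. -/
noncomputable def W2 {d : ℕ} (μ ν : Measure (E d)) : ℝ≥0∞ :=
  (⨅ (π : Measure (E d × E d)) (_ : π.map Prod.fst = μ ∧ π.map Prod.snd = ν),
    ∫⁻ p, ENNReal.ofReal (‖p.1 - p.2‖ ^ 2) ∂π) ^ (1 / 2 : ℝ)

/-- The distance `‖S - T‖_{L²(ρ)} = (∫ |S x - T x|² dρ(x))^(1/2)`. -/
noncomputable def L2Dist {d : ℕ} (ρ : Measure (E d)) (S T : E d → E d) : ℝ≥0∞ :=
  (∫⁻ x, ENNReal.ofReal (‖S x - T x‖ ^ 2) ∂ρ) ^ (1 / 2 : ℝ)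

/-- `α` is admissible in dimension `d`: for every compact convex `K ⊆ ℝ^d` with nonempty interior
and every nonempty compact `Y ⊆ ℝ^d` there is a finite constant `C` such that, for all Borel
probability measures `μ, ν` supported in `Y` and their optimal transport maps `Tμ, Tν` from the
uniform probability measure on `K`, one has `‖Tμ - Tν‖_{L²(ρ)} ≤ C W₂(μ, ν)^α`. -/
def Admissible (d : ℕ) (α : ℝ) : Prop :=
  ∀ K : Set (E d), IsCompact K → Convex ℝ K → (interior K).Nonempty →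
    ∀ Y : Set (E d), IsCompact Y → Y.Nonempty →
      ∃ C : ℝ≥0, ∀ μ ν : Measure (E d), IsProbabilityMeasure μ → IsProbabilityMeasure ν →
        (∀ᵐ y ∂μ, y ∈ Y) → (∀ᵐ y ∂ν, y ∈ Y) →
        ∀ Tμ Tν : E d → E d,
          IsOptimalMap (uniformProb K) μ Tμ → IsOptimalMap (uniformProb K) ν Tν →
            L2Dist (uniformProb K) Tμ Tν ≤ C * W2 μ ν ^ α

end Vale.Agent.Lib.P074
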