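import Vale.Agent.Lib.P074.Defs

open MeasureTheory
open scoped ENNReal NNReal

namespace Vale.Agent.Lib.P074

/-- The Wasserstein distance `W₁(μ, ν) = inf_π ∫ |y - z| dπ(y, z)`, the infimum over all couplings
`π` of `μ` and `ν`, that is, all measures on the product with marginals `μ` and `ν`. -/
noncomputable def W1 {d : ℕ} (μ ν : Measure (E d)) : ℝ≥0∞ :=
  ⨅ (π : Measure (E d × E d)) (_ : π.map Prod.fst = μ ∧ π.map Prod.snd = ν),
    ∫⁻ p, ENNReal.ofReal ‖p.1 - p.2‖ ∂π

/-- `α` is admissible for `W₁` in dimension `d`: for every compact convex `K ⊆ ℝ^d` with nonempty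
interior and every nonempty compact `Y ⊆ ℝ^d` there is a finite constant `C` such that, for all
Borel probability measures `μ, ν` supported in `Y` and their optimal transport maps `Tμ, Tν` from
the uniform probability measure on `K`, one has `‖Tμ - Tν‖_{L²(ρ)} ≤ C W₁(μ, ν)^α`. -/
def AdmissibleW1 (d : ℕ) (α : ℝ) : Prop :=
  ∀ K : Set (E d), IsCompact K → Convex ℝ K → (interior K).Nonempty →
    ∀ Y : Set (E d), IsCompact Y → Y.Nonempty →
      ∃ C : ℝ≥0, ∀ μ ν : Measure (E d), IsProbabilityMeasure μ → IsProbabilityMeasure ν →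
        (∀ᵐ y ∂μ, y ∈ Y) → (∀ᵐ y ∂ν, y ∈ Y) →
        ∀ Tμ Tν : E d → E d,
          IsOptimalMap (uniformProb K) μ Tμ → IsOptimalMap (uniformProb K) ν Tν →
            L2Dist (uniformProb K) Tμ Tν ≤ C * W1 μ ν ^ α

end Vale.Agent.Lib.P074
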