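import Vale.Agent.Lib.P074.Shrink

open MeasureTheory Set
open scoped ENNReal NNReal RealInnerProductSpace

namespace Vale.Agent.Lib.P074

variable {d : ℕ}

/-- Translation bound: if `S ⊆ K`, `S + v ⊆ K` and `|f| ≤ M`, then
`∫_S (f(x+v) - f(x)) dx ≤ 2 M vol(K \ S)`. -/
theorem setIntegral_transl_sub_le {K S : Set (E d)} (hKm : MeasurableSet K) (hKfin : volume K ≠ ∞)
    (hSm : MeasurableSet S) (hSK : S ⊆ K) {v : E d} (hv : ∀ x ∈ S, x + v ∈ K)
    {f : E d → ℝ} (hf : Measurable f) {M : ℝ} (hM : ∀ x, |f x| ≤ M) :
    ∫ x in S, (f (x + v) - f x) ≤ 2 * M * (volume (K \ S)).toReal := by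
  have hM0 : 0 ≤ M := le_trans (abs_nonneg _) (hM 0)
  set g : E d → ℝ := fun x => f x + M with hg
  have hg0 : ∀ x, 0 ≤ g x := fun x => by
    have := neg_abs_le (f x)
    have := hM x
    simp only [hg]; linarith
  have hg1 : ∀ x, g x ≤ 2 * M := fun x => by
    have := le_abs_self (f x)
    have := hM x
    simp only [hg]; linarith
  have hgm : Measurable g := hf.add_const M
  -- integrability of bounded functions on finite measure sets
  have hint : ∀ (A : Set (E d)), volume A ≠ ∞ → IntegrableOn g A := by
    intro A hA
    refine Measure.integrableOn_of_bounded (M := 2 * M) hA hgm.aestronglyMeasurable ?_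
    filter_upwards with x
    rw [Real.norm_eq_abs, abs_of_nonneg (hg0 x)]
    exact hg1 x
  have hSfin : volume S ≠ ∞ := measure_ne_top_of_subset hSK hKfin
  set S' : Set (E d) := (fun x => x + v) '' S with hS'
  have hS'eq : S' = (fun x => x - v) ⁻¹' S := by
    ext x; constructor
    · rintro ⟨y, hy, rfl⟩; simpa using hy
    · intro hx; exact ⟨x - v, hx, by simp⟩
  have hS'm : MeasurableSet S' := by
    rw [hS'eq]; exact (measurable_id.sub_const v) hSm
  have hS'K : S' ⊆ K := by
    rintro _ ⟨y, hy, rfl⟩; exact hv y hy
  -- change of variables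
  have hcv : ∫ x in S, g (x + v) = ∫ x in S', g x := by
    have hmp := measurePreserving_add_right (volume : Measure (E d)) v
    have hemb : MeasurableEmbedding (fun x : E d => x + v) := measurableEmbedding_addRight v
    have := hmp.setIntegral_preimage_emb hemb g S'
    rw [← this]
    congr 2
    ext x
    simp only [hS'eq, mem_preimage, add_sub_cancel_right]
  have h1 : ∫ x in S', g x ≤ ∫ x in K, g x :=
    setIntegral_mono_set (hint K hKfin) (Filter.Eventually.of_forall hg0) hS'K.eventuallyLE
  have h2 : ∫ x in K, g x = (∫ x in S, g x) + ∫ x in K \ S, g x := by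
    rw [← setIntegral_union (disjoint_sdiff_right) (hKm.diff hSm)
      ((hint S hSfin)) ((hint _ (measure_ne_top_of_subset sdiff_subset hKfin)))]
    rw [union_sdiff_cancel hSK]
  have h3 : ∫ x in K \ S, g x ≤ 2 * M * (volume (K \ S)).toReal := by
    have hfin : volume (K \ S) ≠ ∞ := measure_ne_top_of_subset sdiff_subset hKfin
    calc ∫ x in K \ S, g x ≤ ∫ _ in K \ S, 2 * M := by
          apply setIntegral_mono (hint _ hfin) (integrableOn_const hfin) (fun x => hg1 x)
      _ = 2 * M * (volume (K \ S)).toReal := by
          rw [setIntegral_const, smul_eq_mul, Measure.real, mul_comm]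
  have hconst : ∀ A : Set (E d), volume A ≠ ∞ → ∫ _ in A, M = M * (volume A).toReal := by
    intro A hA
    rw [setIntegral_const, smul_eq_mul, Measure.real, mul_comm]
  -- putting it together
  have hfint : IntegrableOn f S := by
    refine Measure.integrableOn_of_bounded (M := M) hSfin hf.aestronglyMeasurable ?_
    filter_upwards with x
    exact hM x
  have hftrans : IntegrableOn (fun x => f (x + v)) S := by
    refine Measure.integrableOn_of_bounded (M := M) hSfin
      (hf.comp (measurable_id.add_const v)).aestronglyMeasurable ?_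
    filter_upwards with x
    exact hM _
  have e1 : ∫ x in S, (f (x + v) - f x) = (∫ x in S, g (x + v)) - ∫ x in S, g x := by
    rw [← integral_sub]
    · congr 1
      ext x
      simp only [hg]; ring
    · exact hftrans.add (integrableOn_const hSfin)
    · exact hint S hSfin
  rw [e1, hcv]
  linarith

end Vale.Agent.Lib.P074
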