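import Vale.Agent.Lib.P074.Conj
import Vale.Agent.Lib.P074.Transl

open MeasureTheory Set
open scoped ENNReal NNReal RealInnerProductSpace

namespace Vale.Agent.Lib.P074

variable {d : ℕ}

/-- The Bregman gap of the conjugate `ψ`. -/
noncomputable def gapFn (ψ : E d → ℝ) (T₀ T₁ : E d → E d) (x : E d) : ℝ :=
  ψ (T₀ x) - ψ (T₁ x) - ⟪x, T₀ x - T₁ x⟫

theorem abs_inner_le_of_norm {e y : E d} (he : ‖e‖ = 1) : |⟪e, y⟫| ≤ ‖y‖ := by
  have := abs_real_inner_le_norm e y
  rwa [he, one_mul] at this

/-- Directional `L¹` estimate: the main analytic step. -/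
theorem directional_bound {K : Set (E d)} (hKm : MeasurableSet K) (hKc : IsClosed K)
    (hKfin : volume K ≠ ∞) {RK RY : ℝ} (hRK : ∀ x ∈ K, ‖x‖ ≤ RK)
    {T₀ T₁ : E d → E d} (hT₀ : Measurable T₀) (hT₁ : Measurable T₁)
    (hY₀ : ∀ x, ‖T₀ x‖ ≤ RY) (hY₁ : ∀ x, ‖T₁ x‖ ≤ RY) {φ : E d → ℝ}
    (hsub : ∀ᵐ x ∂(volume.restrict K), IsSubgrad K φ x (T₁ x))
    (hGint : IntegrableOn (gapFn (conj K φ) T₀ T₁) K)
    {e : E d} (he : ‖e‖ = 1) {r : ℝ} (hr : 0 < r) :
    ∫ x in K, |⟪e, T₀ x - T₁ x⟫| ≤
      (1 / r) * (∫ x in K, gapFn (conj K φ) T₀ T₁ x) +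
        6 * RY * (volume (K \ shrinkSet K r e)).toReal := by
  set S := shrinkSet K r e with hS
  have hSm : MeasurableSet S := measurableSet_shrinkSet hKc r e
  have hSK : S ⊆ K := shrinkSet_subset K r e
  have hSfin : volume S ≠ ∞ := measure_ne_top_of_subset hSK hKfin
  have hRY0 : 0 ≤ RY := le_trans (norm_nonneg _) (hY₁ 0)
  set G := gapFn (conj K φ) T₀ T₁ with hG
  set f : E d → ℝ := fun x => ⟪e, T₁ x⟫ with hf
  have hfm : Measurable f := by
    have : Measurable fun y : E d => ⟪e, y⟫ := by fun_prop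
    exact this.comp hT₁
  have hfb : ∀ x, |f x| ≤ RY := fun x =>
    (abs_inner_le_of_norm he).trans (hY₁ x)
  set w : E d → ℝ := fun x => ⟪e, T₀ x - T₁ x⟫ with hw
  have hwm : Measurable w := by
    have : Measurable fun y : E d => ⟪e, y⟫ := by fun_prop
    exact this.comp (hT₀.sub hT₁)
  have hwb : ∀ x, |w x| ≤ 2 * RY := fun x => by
    refine (abs_inner_le_of_norm he).trans ?_
    have := norm_sub_le (T₀ x) (T₁ x)
    have h0 := hY₀ x
    have h1 := hY₁ x
    linarith
  -- good points and translates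
  have hgood : ∀ᵐ x ∂(volume : Measure (E d)), x ∈ K → IsSubgrad K φ x (T₁ x) :=
    (ae_restrict_iff' hKm).mp hsub
  have htr : ∀ v : E d, ∀ᵐ x ∂(volume : Measure (E d)),
      x + v ∈ K → IsSubgrad K φ (x + v) (T₁ (x + v)) := fun v =>
    (quasiMeasurePreserving_add_right (volume : Measure (E d)) v).ae hgood
  -- existence of a good point for the Lipschitz lemma is implicit in `hb`
  have hkey : ∀ᵐ x ∂(volume.restrict S), 0 ≤ G x ∧
      |w x| ≤ (1 / r) * G x + (f (x + r • e) - f x) + (f (x + -(r • e)) - f x) * (-1) := by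
    rw [ae_restrict_iff' hSm]
    filter_upwards [hgood, htr (r • e), htr (-(r • e))] with x h0 h1 h2 hxS
    have hxK : x ∈ K := hxS.1
    have hxp : x + r • e ∈ K := hxS.2.1
    have hxm : x + -(r • e) ∈ K := by
      rw [← sub_eq_add_neg]; exact hxS.2.2
    have hb := h0 hxK
    have hbp := h1 hxp
    have hbm := h2 hxm
    have hGnn : 0 ≤ G x := gap_nonneg hRK hb
    have e1 := inner_le_gap (a := T₀ x) hRK hb hbp
    have e2 := inner_le_gap (a := T₀ x) hRK hb hbm
    have m1 := subgrad_monotone hb hbp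
    have m2 := subgrad_monotone hb hbm
    have c1 : x + r • e - x = r • e := by abel
    have c2 : x + -(r • e) - x = -(r • e) := by abel
    rw [c1] at e1 m1
    rw [c2] at e2 m2
    simp only [inner_smul_left, inner_neg_left, inner_smul_right, inner_neg_right, inner_sub_left,
      inner_sub_right] at e1 e2 m1 m2
    have ee1 : ⟪T₁ (x + r • e), e⟫ = f (x + r • e) := real_inner_comm _ _
    have ee2 : ⟪T₁ x, e⟫ = f x := real_inner_comm _ _
    have ee3 : ⟪T₁ (x + -(r • e)), e⟫ = f (x + -(r • e)) := real_inner_comm _ _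
    rw [ee1, ee2] at m1
    rw [ee3, ee2] at m2
    simp only [RCLike.conj_to_real] at e1 e2 m1 m2
    have hwx : w x = ⟪e, T₀ x⟫ - f x := inner_sub_right _ _ _
    have gx : G x = conj K φ (T₀ x) - conj K φ (T₁ x) - (⟪x, T₀ x⟫ - ⟪x, T₁ x⟫) := by
      simp [hG, gapFn, inner_sub_right]
    have e1' : r * (⟪e, T₀ x⟫ - f (x + r • e)) ≤ G x := by
      rw [gx]; simp only [hf]; linarith [e1]
    have e2' : -(r * (⟪e, T₀ x⟫ - f (x + -(r • e)))) ≤ G x := by
      rw [gx]; simp only [hf]; linarith [e2]
    have m1' : 0 ≤ f (x + r • e) - f x := by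
      have : 0 ≤ r * (f (x + r • e) - f x) := by linarith
      exact nonneg_of_mul_nonneg_right this hr
    have m2' : 0 ≤ f x - f (x + -(r • e)) := by
      have : 0 ≤ r * (f x - f (x + -(r • e))) := by nlinarith
      exact nonneg_of_mul_nonneg_right this hr
    refine ⟨hGnn, ?_⟩
    have hrinv : (1 / r) * G x * r = G x := by field_simp
    rw [abs_le]
    constructor
    · have : -(w x) * r ≤ ((1 / r) * G x + (f (x + r • e) - f x) +
          (f (x + -(r • e)) - f x) * (-1)) * r := by
        rw [hwx]; nlinarith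
      have := le_of_mul_le_mul_right this hr
      linarith
    · have : (w x) * r ≤ ((1 / r) * G x + (f (x + r • e) - f x) +
          (f (x + -(r • e)) - f x) * (-1)) * r := by
        rw [hwx]; nlinarith
      exact le_of_mul_le_mul_right this hr
  -- integrate over `S`
  have hftr : ∀ v : E d, IntegrableOn (fun x => f (x + v) - f x) S := fun v => by
    refine Measure.integrableOn_of_bounded (M := 2 * RY) hSfin
      ((hfm.comp (measurable_id.add_const v)).sub hfm).aestronglyMeasurable ?_
    filter_upwards with x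
    rw [Real.norm_eq_abs]
    have h1 := hfb (x + v)
    have h2 := hfb x
    have := abs_sub (f (x + v)) (f x)
    linarith
  have hGS : IntegrableOn G S := hGint.mono_set hSK
  have hwS : IntegrableOn (fun x => |w x|) S := by
    refine Measure.integrableOn_of_bounded (M := 2 * RY) hSfin hwm.abs.aestronglyMeasurable ?_
    filter_upwards with x
    rw [Real.norm_eq_abs, abs_abs]
    exact hwb x
  have hint1 : ∫ x in S, |w x| ≤ ∫ x in S, ((1 / r) * G x + (f (x + r • e) - f x) +
      (f (x + -(r • e)) - f x) * (-1)) := by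
    apply integral_mono_ae hwS
    · exact ((hGS.const_mul _).add (hftr _)).add ((hftr _).mul_const _)
    · filter_upwards [hkey] with x hx using hx.2
  have hsplit : ∫ x in S, ((1 / r) * G x + (f (x + r • e) - f x) +
      (f (x + -(r • e)) - f x) * (-1)) =
      (1 / r) * (∫ x in S, G x) + (∫ x in S, (f (x + r • e) - f x)) +
        (∫ x in S, ((-f) (x + -(r • e)) - (-f) x)) := by
    rw [integral_add, integral_add, integral_const_mul]
    · congr 1
      apply integral_congr_ae
      filter_upwards with x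
      simp only [Pi.neg_apply]; ring
    · exact hGS.const_mul _
    · exact hftr _
    · exact (hGS.const_mul _).add (hftr _)
    · exact (hftr _).mul_const _
  have hS1 : ∫ x in S, (f (x + r • e) - f x) ≤ 2 * RY * (volume (K \ S)).toReal :=
    setIntegral_transl_sub_le hKm hKfin hSm hSK (fun x hx => hx.2.1) hfm hfb
  have hS2 : ∫ x in S, ((-f) (x + -(r • e)) - (-f) x) ≤ 2 * RY * (volume (K \ S)).toReal := by
    apply setIntegral_transl_sub_le hKm hKfin hSm hSK
    · intro x hx
      rw [← sub_eq_add_neg]; exact hx.2.2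
    · exact hfm.neg
    · intro x
      simpa using hfb x
  have hGmono : ∫ x in S, G x ≤ ∫ x in K, G x := by
    apply setIntegral_mono_set hGint
    · -- nonnegativity of `G` on `K`
      rw [Filter.EventuallyLE, ae_restrict_iff' hKm]
      filter_upwards [hgood] with x h0 hxK
      exact gap_nonneg hRK (h0 hxK)
    · exact hSK.eventuallyLE
  -- the part outside `S`
  have hdfin : volume (K \ S) ≠ ∞ := measure_ne_top_of_subset sdiff_subset hKfin
  have hwK : IntegrableOn (fun x => |w x|) K := by
    refine Measure.integrableOn_of_bounded (M := 2 * RY) hKfin hwm.abs.aestronglyMeasurable ?_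
    filter_upwards with x
    rw [Real.norm_eq_abs, abs_abs]
    exact hwb x
  have hout : ∫ x in K \ S, |w x| ≤ 2 * RY * (volume (K \ S)).toReal := by
    calc ∫ x in K \ S, |w x| ≤ ∫ _ in K \ S, 2 * RY := by
          apply setIntegral_mono (hwK.mono_set sdiff_subset) (integrableOn_const hdfin) (fun x => hwb x)
      _ = 2 * RY * (volume (K \ S)).toReal := by
          rw [setIntegral_const, smul_eq_mul, Measure.real, mul_comm]
  have hdecomp : ∫ x in K, |w x| = (∫ x in S, |w x|) + ∫ x in K \ S, |w x| := by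
    rw [← setIntegral_union (disjoint_sdiff_right) (hKm.diff hSm) hwS (hwK.mono_set sdiff_subset)]
    rw [union_sdiff_cancel hSK]
  have hrinv : 0 ≤ 1 / r := by positivity
  have : (1 / r) * (∫ x in S, G x) ≤ (1 / r) * ∫ x in K, G x :=
    mul_le_mul_of_nonneg_left hGmono hrinv
  rw [hdecomp]
  linarith

end Vale.Agent.Lib.P074
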