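import Vale.Agent.Lib.P074.Stage

open MeasureTheory Set Filter Topology
open scoped ENNReal NNReal RealInnerProductSpace

namespace Vale.Agent.Lib.P074

/-- A measurable selection from a finite measurable cover. -/
theorem exists_first_sel {X ι : Type*} [MeasurableSpace X] [Fintype ι] (C : ι → Set X)
    (hC : ∀ i, MeasurableSet (C i)) (hcover : ∀ x, ∃ i, x ∈ C i) :
    ∃ sel : X → ι, (∀ i, MeasurableSet (sel ⁻¹' {i})) ∧ ∀ x, x ∈ C (sel x) := by
  classical
  set e : ι ≃ Fin (Fintype.card ι) := Fintype.equivFin ι with he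
  have hex : ∀ x, ∃ i, x ∈ C i ∧ ∀ j, x ∈ C j → e i ≤ e j := by
    intro x
    obtain ⟨i₀, hi₀⟩ := hcover x
    have hne : (Finset.univ.filter fun i => x ∈ C i).Nonempty :=
      ⟨i₀, by simp [hi₀]⟩
    obtain ⟨i, hi, himin⟩ := Finset.exists_min_image _ e hne
    exact ⟨i, (Finset.mem_filter.mp hi).2,
      fun j hj => himin j (Finset.mem_filter.mpr ⟨Finset.mem_univ j, hj⟩)⟩
  choose sel hsel1 hsel2 using hex
  refine ⟨sel, ?_, hsel1⟩
  intro i
  have hpre : sel ⁻¹' {i} = C i \ ⋃ j ∈ Finset.univ.filter (fun j => e j < e i), C j := by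
    ext x
    simp only [mem_preimage, mem_singleton_iff, Set.mem_sdiff, mem_iUnion, Finset.mem_filter,
      Finset.mem_univ, true_and, not_exists, not_and, exists_prop]
    constructor
    · rintro rfl
      refine ⟨hsel1 x, fun j hj hx => ?_⟩
      exact absurd (hsel2 x j hx) (not_le.mpr hj)
    · rintro ⟨h1, h2⟩
      have h3 := hsel2 x i h1
      rcases h3.eq_or_lt with h4 | h4
      · exact e.injective h4
      · exact absurd (hsel1 x) (h2 _ h4)
  rw [hpre]
  exact (hC i).diff (Finset.measurableSet_biUnion _ fun j _ => hC j)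

variable {d : ℕ}

/-- A finite measurable labelling of the space with small cells on a ball. -/
theorem exists_label (d : ℕ) (RY : ℝ) {η : ℝ} (hη : 0 < η) :
    ∃ (J : Type) (_ : Fintype J) (lab : E d → J) (c : J → E d),
      (∀ j, MeasurableSet (lab ⁻¹' {j})) ∧ ∀ y, ‖y‖ ≤ RY → ‖y - c (lab y)‖ ≤ η := by
  classical
  have hcomp : IsCompact (Metric.closedBall (0 : E d) RY) := isCompact_closedBall _ _
  obtain ⟨t, -, htfin, hcov⟩ := hcomp.finite_cover_balls hη
  -- one more centre, so that the label type is nonempty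
  set t' : Finset (E d) := insert 0 htfin.toFinset with ht'
  set J : Type := {z : E d // z ∈ t'} with hJ
  have hJne : ∃ z, z ∈ t' := ⟨0, Finset.mem_insert_self _ _⟩
  set C : J → Set (E d) := fun z => Metric.ball z.1 η ∪ (Metric.closedBall (0 : E d) RY)ᶜ with hC
  have hCm : ∀ j, MeasurableSet (C j) := fun j =>
    Metric.isOpen_ball.measurableSet.union Metric.isClosed_closedBall.measurableSet.compl
  have hcover : ∀ x, ∃ j, x ∈ C j := by
    intro x
    by_cases hx : x ∈ Metric.closedBall (0 : E d) RY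
    · have := hcov hx
      simp only [mem_iUnion, exists_prop] at this
      obtain ⟨z, hz, hxz⟩ := this
      have hz' : z ∈ t' := Finset.mem_insert_of_mem (htfin.mem_toFinset.mpr hz)
      exact ⟨⟨z, hz'⟩, Or.inl hxz⟩
    · exact ⟨⟨0, Finset.mem_insert_self _ _⟩, Or.inr hx⟩
  obtain ⟨lab, hlabm, hlab⟩ := exists_first_sel C hCm hcover
  refine ⟨J, inferInstance, lab, fun z => z.1, hlabm, ?_⟩
  intro y hy
  have hmem : y ∈ Metric.closedBall (0 : E d) RY := by simpa using hy
  rcases hlab y with h | h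
  · have := Metric.mem_ball.mp h
    rw [dist_eq_norm] at this
    exact this.le
  · exact absurd hmem h

/-- Generic perturbation: a finite family of reals can be made injective by a small perturbation. -/
theorem exists_perturb {A : Type*} [Fintype A] (r : A → ℝ) {η : ℝ} (hη : 0 < η) :
    ∃ ξ : A → ℝ, (∀ a, |ξ a| ≤ η) ∧ Function.Injective fun a => r a + ξ a := by
  classical
  set e : A ≃ Fin (Fintype.card A) := Fintype.equivFin A with he
  set N : ℝ := (Fintype.card A : ℝ) + 1 with hN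
  have hN0 : 0 < N := by positivity
  set g : A → ℝ := fun a => ((e a : ℕ) : ℝ) / N with hg
  have hg0 : ∀ a, 0 ≤ g a := fun a => by simp only [hg]; positivity
  have hg1 : ∀ a, g a ≤ 1 := fun a => by
    simp only [hg]
    rw [div_le_one hN0, hN]
    have : ((e a : ℕ) : ℝ) ≤ Fintype.card A := by
      exact_mod_cast (e a).2.le
    linarith
  have hginj : Function.Injective g := by
    intro a a' h
    simp only [hg] at h
    have h2 : ((e a : ℕ) : ℝ) = ((e a' : ℕ) : ℝ) := by
      field_simp at h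
      exact h
    have h3 : (e a : ℕ) = (e a' : ℕ) := by exact_mod_cast h2
    exact e.injective (Fin.ext h3)
  set B : Finset ℝ := Finset.univ.image (fun p : A × A => (r p.2 - r p.1) / (g p.1 - g p.2)) with hB
  obtain ⟨θ, hθmem, hθB⟩ := (Set.Ioo_infinite hη).exists_notMem_finset B
  refine ⟨fun a => θ * g a, ?_, ?_⟩
  · intro a
    rw [abs_mul, abs_of_pos hθmem.1, abs_of_nonneg (hg0 a)]
    calc θ * g a ≤ η * 1 := mul_le_mul hθmem.2.le (hg1 a) (hg0 a) hη.le
      _ = η := mul_one η
  · intro a a' h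
    by_contra hne
    apply hθB
    simp only at h
    have hgne : g a - g a' ≠ 0 := sub_ne_zero.mpr fun h' => hne (hginj h')
    rw [hB, Finset.mem_image]
    refine ⟨(a, a'), Finset.mem_univ _, ?_⟩
    simp only
    rw [div_eq_iff hgne]
    linarith

/-- The discretisation of a coupling in the plane. -/
theorem exists_disc (RY δ : ℝ) {η : ℝ} (hη : 0 < η) :
    ∃ (I : Type) (_ : Fintype I) (κ : E 2 × E 2 → I) (a e : I → E 2) (f : I → Bool),
      (∀ k, MeasurableSet (κ ⁻¹' {k})) ∧
      Function.Injective (fun q : I × Bool => if q.2 then e q.1 0 else a q.1 0) ∧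
      ∀ p : E 2 × E 2, ‖p.1‖ ≤ RY → ‖p.2‖ ≤ RY → ‖p.1 - a (κ p)‖ ≤ 2 * η ∧ ‖p.2 - e (κ p)‖ ≤ 2 * η ∧
        (f (κ p) = true ↔ ‖p.1 - p.2‖ ≤ δ) := by
  classical
  obtain ⟨J, _, lab, c, hlabm, hlab⟩ := exists_label 2 RY hη
  set κ : E 2 × E 2 → J × J × Bool := fun p => (lab p.1, lab p.2, decide (‖p.1 - p.2‖ ≤ δ)) with hκ
  set r : (J × J × Bool) × Bool → ℝ := fun q => if q.2 then c q.1.2.1 0 else c q.1.1 0 with hr
  obtain ⟨ξ, hξ1, hξ2⟩ := exists_perturb r hη
  set u : E 2 := EuclideanSpace.single 0 (1 : ℝ) with hu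
  have hu1 : ‖u‖ = 1 := by simp [hu]
  have hu0 : u 0 = 1 := by simp [hu]
  set a : J × J × Bool → E 2 := fun k => c k.1 + ξ (k, false) • u with ha
  set e : J × J × Bool → E 2 := fun k => c k.2.1 + ξ (k, true) • u with he
  refine ⟨J × J × Bool, inferInstance, κ, a, e, fun k => k.2.2, ?_, ?_, ?_⟩
  · rintro ⟨j, j', b⟩
    have hdec : MeasurableSet {p : E 2 × E 2 | decide (‖p.1 - p.2‖ ≤ δ) = b} := by
      have hcl : MeasurableSet {p : E 2 × E 2 | ‖p.1 - p.2‖ ≤ δ} :=
        (isClosed_le (by fun_prop) continuous_const).measurableSet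
      cases b
      · have : {p : E 2 × E 2 | decide (‖p.1 - p.2‖ ≤ δ) = false} = {p | ‖p.1 - p.2‖ ≤ δ}ᶜ := by
          ext p
          simp
        rw [this]
        exact hcl.compl
      · have : {p : E 2 × E 2 | decide (‖p.1 - p.2‖ ≤ δ) = true} = {p | ‖p.1 - p.2‖ ≤ δ} := by
          ext p
          simp
        rw [this]
        exact hcl
    have : κ ⁻¹' {(j, j', b)} = Prod.fst ⁻¹' (lab ⁻¹' {j}) ∩ (Prod.snd ⁻¹' (lab ⁻¹' {j'}) ∩
        {p : E 2 × E 2 | decide (‖p.1 - p.2‖ ≤ δ) = b}) := by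
      ext p
      simp [hκ]
    rw [this]
    exact (measurable_fst (hlabm j)).inter ((measurable_snd (hlabm j')).inter hdec)
  · rintro ⟨k, b⟩ ⟨k', b'⟩ h
    simp only at h
    apply hξ2
    simp only [hr]
    cases b <;> cases b' <;> simp_all [ha, he, hu0]
  · intro p h1 h2
    have hξb : ∀ q, ‖ξ q • u‖ ≤ η := by
      intro q
      rw [norm_smul, hu1, mul_one, Real.norm_eq_abs]
      exact hξ1 q
    refine ⟨?_, ?_, ?_⟩
    · have h3 := hlab p.1 h1
      have e1 : p.1 - a (κ p) = (p.1 - c (lab p.1)) - ξ (κ p, false) • u := by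
        simp only [ha, hκ]
        abel
      rw [e1]
      calc _ ≤ ‖p.1 - c (lab p.1)‖ + ‖ξ (κ p, false) • u‖ := norm_sub_le _ _
        _ ≤ 2 * η := by linarith [hξb (κ p, false)]
    · have h3 := hlab p.2 h2
      have e1 : p.2 - e (κ p) = (p.2 - c (lab p.2)) - ξ (κ p, true) • u := by
        simp only [he, hκ]
        abel
      rw [e1]
      calc _ ≤ ‖p.2 - c (lab p.2)‖ + ‖ξ (κ p, true) • u‖ := norm_sub_le _ _
        _ ≤ 2 * η := by linarith [hξb (κ p, true)]
    · simp [hκ]

end Vale.Agent.Lib.P074
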