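import Vale.Agent.Lib.P074.Master2

open MeasureTheory Set Filter Topology
open scoped ENNReal NNReal RealInnerProductSpace

namespace Vale.Agent.Lib.P074

/-- Passing to the limit in the discretisation parameter. -/
theorem master_lim {K : Set (E 2)} (hK : IsCompact K) (hconv : Convex ℝ K)
    {c : E 2} {δ₀ : ℝ} (hδ₀ : 0 < δ₀) (hball : Metric.closedBall c δ₀ ⊆ K)
    {RK RY : ℝ} (hRK : ∀ x ∈ K, ‖x‖ ≤ RK) (hRY : 0 ≤ RY)
    {S₀ S₁ : E 2 → E 2} (hS₀ : Measurable S₀) (hS₁ : Measurable S₁)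
    (hb₀ : ∀ x, ‖S₀ x‖ ≤ RY) (hb₁ : ∀ x, ‖S₁ x‖ ≤ RY) {φ₀ φ₁ : E 2 → ℝ}
    (hsub₀ : ∀ᵐ x ∂(volume.restrict K), IsSubgrad K φ₀ x (S₀ x))
    (hsub₁ : ∀ᵐ x ∂(volume.restrict K), IsSubgrad K φ₁ x (S₁ x))
    {π : Measure (E 2 × E 2)} [IsProbabilityMeasure π]
    (hae : ∀ᵐ p ∂π, ‖p.1‖ ≤ RY ∧ ‖p.2‖ ≤ RY)
    (hπ₀ : (uniformProb K).map S₀ = π.map Prod.fst)
    (hπ₁ : (uniformProb K).map S₁ = π.map Prod.snd) {δ : ℝ} (hδ : 0 < δ) :
    ∫ x, ‖S₀ x - S₁ x‖ ^ 2 ∂(uniformProb K) ≤ 4 *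
      (((2 : ℕ) / δ₀ ^ 2) * ((8 * (2 : ℕ) + 6) * ((RY + 1) * (2 * RK)) * (2 * RK)) * δ +
       (2 * (RY + 1) * (2 : ℕ) * (2 * RK + 6 * (RY + 1) * (2 : ℕ) / δ₀)) *
          Real.sqrt ((∫ p, ‖p.1 - p.2‖ ^ 2 ∂π) / δ)) := by
  set C₂ : ℝ := 2 * (RY + 1) * (2 : ℕ) * (2 * RK + 6 * (RY + 1) * (2 : ℕ) / δ₀) with hC₂
  set Ā : ℝ := ∫ p, ‖p.1 - p.2‖ ^ 2 ∂π with hĀ
  set g : ℝ → ℝ := fun η => 4 *
      (C₂ * Real.sqrt (2 * η) +
       ((2 : ℕ) / δ₀ ^ 2) * ((8 * (2 : ℕ) + 6) * ((RY + 1) * (2 * RK)) * ((δ + 4 * η) * (2 * RK))) +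
       C₂ * Real.sqrt (Ā / δ + 4 * η) + C₂ * Real.sqrt (2 * η)) with hg
  have hcont : Continuous g := by
    simp only [hg]
    fun_prop
  have hlim : Tendsto g (𝓝[>] 0) (𝓝 (g 0)) := (hcont.tendsto 0).mono_left nhdsWithin_le_nhds
  have hev : ∀ᶠ η in 𝓝[>] (0 : ℝ), ∫ x, ‖S₀ x - S₁ x‖ ^ 2 ∂(uniformProb K) ≤ g η := by
    filter_upwards [Ioc_mem_nhdsGT (show (0 : ℝ) < 1 / 2 by norm_num)] with η hη
    exact master hK hconv hδ₀ hball hRK hRY hS₀ hS₁ hb₀ hb₁ hsub₀ hsub₁ hae hπ₀ hπ₁ hδ hη.1 hη.2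
  have h := ge_of_tendsto hlim hev
  refine h.trans (le_of_eq ?_)
  simp only [hg, mul_zero, Real.sqrt_zero, add_zero, zero_add]
  ring

/-- The optimisation in the threshold. -/
theorem opt_threshold {I Ā A B : ℝ} (hĀ : 0 ≤ Ā) (hA : 0 ≤ A) (hB : 0 ≤ B)
    (h : ∀ δ : ℝ, 0 < δ → I ≤ 4 * (A * δ + B * Real.sqrt (Ā / δ))) :
    I ≤ 4 * (A + B) * Ā ^ (1 / 3 : ℝ) := by
  rcases hĀ.eq_or_lt with h0 | hpos
  · subst h0
    rw [Real.zero_rpow (by norm_num), mul_zero]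
    have h1 : ∀ δ : ℝ, 0 < δ → I ≤ 4 * A * δ := by
      intro δ hδ
      have := h δ hδ
      simp only [zero_div, Real.sqrt_zero, mul_zero, add_zero] at this
      linarith
    by_contra hI
    push Not at hI
    have hApos : 0 < 4 * A + 1 := by positivity
    have h2 := h1 (I / (2 * (4 * A + 1))) (by positivity)
    have h3 : 4 * A * (I / (2 * (4 * A + 1))) = (4 * A / (4 * A + 1)) * (I / 2) := by
      field_simp
    have h4 : 4 * A / (4 * A + 1) ≤ 1 := by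
      rw [div_le_one hApos]
      linarith
    have h5 : (4 * A / (4 * A + 1)) * (I / 2) ≤ 1 * (I / 2) :=
      mul_le_mul_of_nonneg_right h4 (by positivity)
    rw [h3] at h2
    linarith
  · set t : ℝ := Ā ^ (1 / 3 : ℝ) with ht
    have ht0 : 0 < t := Real.rpow_pos_of_pos hpos _
    have ht3 : t ^ 3 = Ā := by
      rw [ht, ← Real.rpow_natCast, ← Real.rpow_mul hpos.le]
      norm_num
    have h1 := h t ht0
    have h2 : Real.sqrt (Ā / t) = t := by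
      have e : Ā / t = t ^ 2 := by
        rw [← ht3]
        field_simp
      rw [e, Real.sqrt_sq ht0.le]
    rw [h2] at h1
    calc I ≤ 4 * (A * t + B * t) := h1
      _ = 4 * (A + B) * t := by ring

variable {d : ℕ}

/-- Passing from single couplings to `W₂`, with the exponent `1/3`. -/
theorem le_mul_W2_of_coupling_third {μ ν : Measure (E d)} {L : ℝ≥0∞} {C : ℝ≥0} (hC : C ≠ 0)
    (h : ∀ π : Measure (E d × E d), π.map Prod.fst = μ → π.map Prod.snd = ν →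
      L ≤ C * (∫⁻ p, ENNReal.ofReal (‖p.1 - p.2‖ ^ 2) ∂π) ^ (1 / 6 : ℝ)) :
    L ≤ C * W2 μ ν ^ (1 / 3 : ℝ) := by
  have hC0 : (C : ℝ≥0∞) ≠ 0 := by exact_mod_cast hC
  have hCt : (C : ℝ≥0∞) ≠ ∞ := ENNReal.coe_ne_top
  set X : ℝ≥0∞ := (C : ℝ≥0∞)⁻¹ * L with hX
  have hLX : L = C * X := by
    rw [hX, ← mul_assoc, ENNReal.mul_inv_cancel hC0 hCt, one_mul]
  have h6 : X ^ (6 : ℝ) ≤ ⨅ (π : Measure (E d × E d)) (_ : π.map Prod.fst = μ ∧ π.map Prod.snd = ν),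
      ∫⁻ p, ENNReal.ofReal (‖p.1 - p.2‖ ^ 2) ∂π := by
    refine le_iInf₂ fun π hπ => ?_
    have h1 := h π hπ.1 hπ.2
    rw [hLX] at h1
    have h2 : X ≤ (∫⁻ p, ENNReal.ofReal (‖p.1 - p.2‖ ^ 2) ∂π) ^ (1 / 6 : ℝ) :=
      (ENNReal.mul_le_mul_iff_right hC0 hCt).mp h1
    calc X ^ (6 : ℝ) ≤ ((∫⁻ p, ENNReal.ofReal (‖p.1 - p.2‖ ^ 2) ∂π) ^ (1 / 6 : ℝ)) ^ (6 : ℝ) :=
          ENNReal.rpow_le_rpow h2 (by norm_num)
      _ = ∫⁻ p, ENNReal.ofReal (‖p.1 - p.2‖ ^ 2) ∂π := by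
          rw [← ENNReal.rpow_mul]; norm_num
  rw [hLX]
  gcongr
  unfold W2
  rw [← ENNReal.rpow_mul]
  have e : (1 / 2 : ℝ) * (1 / 3 : ℝ) = 1 / 6 := by norm_num
  rw [e]
  calc X = (X ^ (6 : ℝ)) ^ (1 / 6 : ℝ) := by rw [← ENNReal.rpow_mul]; norm_num
    _ ≤ _ := ENNReal.rpow_le_rpow h6 (by norm_num)

/-- Stability with exponent `1/3` in the plane, for gradients of convex functions with everywhere
bounded maps, against a single coupling. -/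
theorem L2Dist_third_of_coupling {K : Set (E 2)} (hK : IsCompact K) (hconv : Convex ℝ K)
    {c : E 2} {δ₀ : ℝ} (hδ₀ : 0 < δ₀) (hball : Metric.closedBall c δ₀ ⊆ K)
    {RK RY : ℝ} (hRK : ∀ x ∈ K, ‖x‖ ≤ RK)
    {T₀ T₁ : E 2 → E 2} (hT₀ : Measurable T₀) (hT₁ : Measurable T₁)
    (hY₀ : ∀ x, ‖T₀ x‖ ≤ RY) (hY₁ : ∀ x, ‖T₁ x‖ ≤ RY)
    (h₀ : IsGradConvex K T₀) (h₁ : IsGradConvex K T₁)
    (π : Measure (E 2 × E 2)) (hπ₀ : π.map Prod.fst = (uniformProb K).map T₀)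
    (hπ₁ : π.map Prod.snd = (uniformProb K).map T₁) :
    L2Dist (uniformProb K) T₀ T₁ ≤
      ENNReal.ofReal (Real.sqrt (4 * (((2 : ℕ) / δ₀ ^ 2) * ((8 * (2 : ℕ) + 6) * ((RY + 1) * (2 * RK)) * (2 * RK)) +
       (2 * (RY + 1) * (2 : ℕ) * (2 * RK + 6 * (RY + 1) * (2 : ℕ) / δ₀))))) *
        (∫⁻ p, ENNReal.ofReal (‖p.1 - p.2‖ ^ 2) ∂π) ^ (1 / 6 : ℝ) := by
  obtain ⟨φ₀, hφ₀⟩ := h₀
  obtain ⟨φ₁, hφ₁⟩ := h₁
  have hKfin : volume K ≠ ∞ := hK.measure_lt_top.ne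
  have hKpos : volume K ≠ 0 :=
    (lt_of_lt_of_le (Metric.measure_closedBall_pos volume c hδ₀) (measure_mono hball)).ne'
  have hprob := isProb_uniformProb hKpos hKfin
  have hRY0 : 0 ≤ RY := le_trans (norm_nonneg _) (hY₁ 0)
  have hcK : c ∈ K := hball (Metric.mem_closedBall_self hδ₀.le)
  have hRK0 : 0 ≤ RK := le_trans (norm_nonneg _) (hRK c hcK)
  have hπprob : IsProbabilityMeasure π := by
    constructor
    have h1 : (π.map Prod.fst) univ = π univ := by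
      rw [Measure.map_apply measurable_fst MeasurableSet.univ, preimage_univ]
    rw [← h1, hπ₀, Measure.map_apply hT₀ MeasurableSet.univ, preimage_univ]
    exact measure_univ
  have hcl : MeasurableSet (Metric.closedBall (0 : E 2) RY) :=
    Metric.isClosed_closedBall.measurableSet
  have hmem₀ : ∀ x, T₀ x ∈ Metric.closedBall (0 : E 2) RY := fun x => by simpa using hY₀ x
  have hmem₁ : ∀ x, T₁ x ∈ Metric.closedBall (0 : E 2) RY := fun x => by simpa using hY₁ x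
  have hae₀ : ∀ᵐ p ∂π, p.1 ∈ Metric.closedBall (0 : E 2) RY := by
    have h1 : ∀ᵐ y ∂(π.map Prod.fst), y ∈ Metric.closedBall (0 : E 2) RY := by
      rw [hπ₀]
      exact (ae_map_iff (p := fun y => y ∈ Metric.closedBall (0 : E 2) RY) hT₀.aemeasurable
        hcl).mpr (Filter.Eventually.of_forall hmem₀)
    exact (ae_map_iff (p := fun y => y ∈ Metric.closedBall (0 : E 2) RY)
      measurable_fst.aemeasurable hcl).mp h1
  have hae₁ : ∀ᵐ p ∂π, p.2 ∈ Metric.closedBall (0 : E 2) RY := by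
    have h1 : ∀ᵐ y ∂(π.map Prod.snd), y ∈ Metric.closedBall (0 : E 2) RY := by
      rw [hπ₁]
      exact (ae_map_iff (p := fun y => y ∈ Metric.closedBall (0 : E 2) RY) hT₁.aemeasurable
        hcl).mpr (Filter.Eventually.of_forall hmem₁)
    exact (ae_map_iff (p := fun y => y ∈ Metric.closedBall (0 : E 2) RY)
      measurable_snd.aemeasurable hcl).mp h1
  have hae : ∀ᵐ p ∂π, ‖p.1‖ ≤ RY ∧ ‖p.2‖ ≤ RY := by
    filter_upwards [hae₀, hae₁] with p h0 h1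
    exact ⟨by simpa using h0, by simpa using h1⟩
  have hfb : ∀ᵐ p ∂π, ‖p.1 - p.2‖ ≤ RY + RY := by
    filter_upwards [hae] with p h0
    have := norm_sub_le p.1 p.2
    linarith [h0.1, h0.2]
  have hf2int : Integrable (fun p : E 2 × E 2 => ‖p.1 - p.2‖ ^ 2) π := by
    refine Integrable.of_bound (C := (RY + RY) ^ 2) (by fun_prop) ?_
    filter_upwards [hfb] with p hp
    rw [Real.norm_eq_abs, abs_of_nonneg (by positivity)]
    gcongr
  set Ar : ℝ := ∫ p, ‖p.1 - p.2‖ ^ 2 ∂π with hAr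
  have hAr0 : 0 ≤ Ar := integral_nonneg fun _ => by positivity
  have hA : ∫⁻ p, ENNReal.ofReal (‖p.1 - p.2‖ ^ 2) ∂π = ENNReal.ofReal Ar :=
    (ofReal_integral_eq_lintegral_ofReal hf2int (Filter.Eventually.of_forall fun _ => by positivity)).symm
  have hI2int : Integrable (fun x => ‖T₀ x - T₁ x‖ ^ 2) (uniformProb K) := by
    refine Integrable.of_bound (C := (RY + RY) ^ 2) (by fun_prop) ?_
    filter_upwards with x
    rw [Real.norm_eq_abs, abs_of_nonneg (by positivity)]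
    have := norm_sub_le (T₀ x) (T₁ x)
    have h0 := hY₀ x
    have h1 := hY₁ x
    gcongr
    linarith
  set I : ℝ := ∫ x, ‖T₀ x - T₁ x‖ ^ 2 ∂(uniformProb K) with hI
  have hI0 : 0 ≤ I := integral_nonneg fun _ => by positivity
  have hL : L2Dist (uniformProb K) T₀ T₁ = ENNReal.ofReal (I ^ (1 / 2 : ℝ)) := by
    unfold L2Dist
    rw [← ofReal_integral_eq_lintegral_ofReal hI2int
      (Filter.Eventually.of_forall fun _ => by positivity),
      ENNReal.ofReal_rpow_of_nonneg hI0 (by norm_num)]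
  rw [hL, hA, ENNReal.ofReal_rpow_of_nonneg hAr0 (by norm_num),
    ← ENNReal.ofReal_mul (Real.sqrt_nonneg _)]
  apply ENNReal.ofReal_le_ofReal
  have hmain : ∀ δ : ℝ, 0 < δ → I ≤ 4 *
      (((2 : ℕ) / δ₀ ^ 2) * ((8 * (2 : ℕ) + 6) * ((RY + 1) * (2 * RK)) * (2 * RK)) * δ +
       (2 * (RY + 1) * (2 : ℕ) * (2 * RK + 6 * (RY + 1) * (2 : ℕ) / δ₀)) *
          Real.sqrt (Ar / δ)) := fun δ hδ =>
    master_lim hK hconv hδ₀ hball hRK hRY0 hT₀ hT₁ hY₀ hY₁ hφ₀ hφ₁ hae hπ₀.symm hπ₁.symm hδ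
  have hopt := opt_threshold hAr0 (by positivity) (by positivity) hmain
  set Cc : ℝ := 4 * (((2 : ℕ) / δ₀ ^ 2) * ((8 * (2 : ℕ) + 6) * ((RY + 1) * (2 * RK)) * (2 * RK)) +
       (2 * (RY + 1) * (2 : ℕ) * (2 * RK + 6 * (RY + 1) * (2 : ℕ) / δ₀))) with hCc
  have hCc0 : 0 ≤ Cc := by positivity
  set a : ℝ := Ar ^ (1 / 6 : ℝ) with ha
  have ha0 : 0 ≤ a := Real.rpow_nonneg hAr0 _
  have ha2 : Ar ^ (1 / 3 : ℝ) = a ^ 2 := by
    rw [ha, ← Real.rpow_natCast, ← Real.rpow_mul hAr0]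
    norm_num
  rw [ha2] at hopt
  rw [← Real.sqrt_eq_rpow]
  calc Real.sqrt I ≤ Real.sqrt (Cc * a ^ 2) := Real.sqrt_le_sqrt hopt
    _ = Real.sqrt Cc * a := by
      rw [Real.sqrt_mul hCc0, Real.sqrt_sq ha0]

/-- The stability estimate with exponent `1/3` for gradients of convex functions in the plane. -/
theorem third_gradient {K : Set (E 2)} (hK : IsCompact K) (hconv : Convex ℝ K)
    (hint : (interior K).Nonempty) {Y : Set (E 2)} (hY : IsCompact Y) (hYne : Y.Nonempty) :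
    ∃ C : ℝ≥0, ∀ μ ν : Measure (E 2), (∀ᵐ y ∂μ, y ∈ Y) → (∀ᵐ y ∂ν, y ∈ Y) →
      ∀ Tμ Tν : E 2 → E 2, Measurable Tμ → Measurable Tν →
        (uniformProb K).map Tμ = μ → (uniformProb K).map Tν = ν →
        IsGradConvex K Tμ → IsGradConvex K Tν →
          L2Dist (uniformProb K) Tμ Tν ≤ C * W2 μ ν ^ (1 / 3 : ℝ) := by
  classical
  obtain ⟨c, hc⟩ := hint
  obtain ⟨δ, hδ, hball⟩ := Metric.nhds_basis_closedBall.mem_iff.mp (mem_interior_iff_mem_nhds.mp hc)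
  obtain ⟨RK, hRK⟩ := hK.isBounded.exists_norm_le
  obtain ⟨RY, hRY⟩ := hY.isBounded.exists_norm_le
  obtain ⟨y₀, hy₀⟩ := hYne
  have hKfin : volume K ≠ ∞ := hK.measure_lt_top.ne
  have hKpos : volume K ≠ 0 :=
    (lt_of_lt_of_le (Metric.measure_closedBall_pos volume c hδ) (measure_mono hball)).ne'
  have hYm : MeasurableSet Y := hY.isClosed.measurableSet
  set C₃ : ℝ≥0 := (Real.sqrt (4 * (((2 : ℕ) / δ ^ 2) * ((8 * (2 : ℕ) + 6) * ((RY + 1) * (2 * RK)) * (2 * RK)) +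
       (2 * (RY + 1) * (2 : ℕ) * (2 * RK + 6 * (RY + 1) * (2 : ℕ) / δ))))).toNNReal + 1 with hC₃
  refine ⟨C₃, ?_⟩
  intro μ ν hμ hν Tμ Tν hTμ hTν hmapμ hmapν hgμ hgν
  -- truncation
  have hTrunc : ∀ (T : E 2 → E 2) (η : Measure (E 2)), Measurable T → (∀ᵐ y ∂η, y ∈ Y) →
      (uniformProb K).map T = η → IsGradConvex K T →
      ∃ S : E 2 → E 2, Measurable S ∧ (∀ x, ‖S x‖ ≤ RY) ∧ (S =ᵐ[uniformProb K] T) ∧
        (uniformProb K).map S = η ∧ IsGradConvex K S := by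
    intro T η hT hη hmap hg
    refine ⟨fun x => if T x ∈ Y then T x else y₀, ?_, ?_, ?_, ?_, ?_⟩
    · exact Measurable.ite (hT hYm) hT measurable_const
    · intro x
      by_cases h : T x ∈ Y
      · simp only [h, if_true]; exact hRY _ h
      · simp only [h, if_false]; exact hRY _ hy₀
    all_goals
      have hae : ∀ᵐ x ∂(uniformProb K), T x ∈ Y := by
        rw [← hmap] at hη
        exact (ae_map_iff (p := fun y => y ∈ Y) hT.aemeasurable hYm).mp hη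
      have heq : (fun x => if T x ∈ Y then T x else y₀) =ᵐ[uniformProb K] T := by
        filter_upwards [hae] with x hx
        simp [hx]
    · exact heq
    · rw [← hmap]; exact Measure.map_congr heq
    · obtain ⟨φ, hφ⟩ := hg
      refine ⟨φ, ?_⟩
      have hae' : ∀ᵐ x ∂(volume.restrict K), T x ∈ Y :=
        (volume_restrict_ac_uniformProb hKfin).ae_le hae
      filter_upwards [hφ, hae'] with x h1 h2
      simpa [h2] using h1
  obtain ⟨S₀, hS₀m, hS₀b, hS₀e, hS₀map, hS₀g⟩ := hTrunc Tμ μ hTμ hμ hmapμ hgμ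
  obtain ⟨S₁, hS₁m, hS₁b, hS₁e, hS₁map, hS₁g⟩ := hTrunc Tν ν hTν hν hmapν hgν
  have hL : L2Dist (uniformProb K) Tμ Tν = L2Dist (uniformProb K) S₀ S₁ := by
    unfold L2Dist
    congr 1
    apply lintegral_congr_ae
    filter_upwards [hS₀e, hS₁e] with x h0 h1
    rw [h0, h1]
  rw [hL]
  have hC₃ne : C₃ ≠ 0 := by
    rw [hC₃]; exact (by positivity : (0 : ℝ≥0) < _).ne'
  apply le_mul_W2_of_coupling_third hC₃ne
  intro π hπ₀ hπ₁
  have hmain := L2Dist_third_of_coupling hK hconv hδ hball hRK hS₀m hS₁m hS₀b hS₁b hS₀g hS₁g π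
    (by rw [hπ₀, hS₀map]) (by rw [hπ₁, hS₁map])
  refine hmain.trans ?_
  gcongr
  rw [hC₃, ENNReal.ofReal]
  push_cast
  exact le_self_add

/-- In dimension two the exponent `1/3` is admissible. -/
theorem admissible_third : Admissible 2 (1 / 3) := by
  intro K hK hconv hint Y hY hYne
  obtain ⟨C, hC⟩ := third_gradient hK hconv hint hY hYne
  refine ⟨C, fun μ ν _ _ hμ hν Tμ Tν hTμ hTν => ?_⟩
  exact hC μ ν hμ hν Tμ Tν hTμ.1 hTν.1 hTμ.2.1 hTν.2.1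
    (isGradConvex_of_optimal hK hconv hint hY hYne hμ hTμ)
    (isGradConvex_of_optimal hK hconv hint hY hYne hν hTν)

end Vale.Agent.Lib.P074
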