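import Vale.Agent.Lib.P074.Column2

open MeasureTheory Set Filter Topology
open scoped ENNReal

namespace Vale.Agent.Lib.P074

variable {ι : Type*} [Fintype ι] [Nonempty ι] {K : Set (ℝ × ℝ)}

/-- The one-dimensional data attached to a horizontal move. -/
noncomputable def horizData (hK : IsCompact K) (hconv : Convex ℝ K) (hint : (interior K).Nonempty)
    {t t' y ψ ψ' : ι → ℝ} {sel sel' : ℝ × ℝ → ι}
    (hm : ∀ i, MeasurableSet (sel ⁻¹' {i})) (hm' : ∀ i, MeasurableSet (sel' ⁻¹' {i}))
    (hsel : IsSel K t y ψ sel) (hsel' : IsSel K t' y ψ' sel')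
    (hmass : ∀ i, volume (K ∩ sel ⁻¹' {i}) = volume (K ∩ sel' ⁻¹' {i}))
    {l r : ℝ} (hlr : l < r) (hproj : Prod.fst '' K = Icc l r) : Col1D ι where
  l := l
  r := r
  hlr := hlr
  y := y
  t := t
  t' := t'
  f := fun i s => Phi K (colPot t y ψ) s (y i)
  f' := fun i s => Phi K (colPot t' y ψ') s (y i)
  ℓ := colMass K sel
  ℓ' := colMass K sel'
  W₀ := fun s => colPot t y ψ (s, colLo K s) - colPot t' y ψ' (s, colLo K s)
  conc := fun i => Phi_concave hK hconv hproj t y ψ (y i)
  conc' := fun i => Phi_concave hK hconv hproj t' y ψ' (y i)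
  sup := fun i s₀ _ hp s hs => Phi_sup hK hsel hp (col_nonempty hproj hs)
  sup' := fun i s₀ _ hp s hs => Phi_sup hK hsel' hp (col_nonempty hproj hs)
  link := fun i s hs => by
    have hne := col_nonempty hproj hs
    rw [Phi_formula hK hconv hm hsel hne, Phi_formula hK hconv hm' hsel' hne]
    have e : ∑ j, (colMass K sel' j s - colMass K sel j s) * max (y i - y j) 0 =
        ∑ j, max (y i - y j) 0 * colMass K sel' j s - ∑ j, max (y i - y j) 0 * colMass K sel j s := by
      rw [← Finset.sum_sub_distrib]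
      apply Finset.sum_congr rfl
      intro j _
      ring
    rw [e]
    ring
  nonneg := colMass_nonneg
  nonneg' := colMass_nonneg
  intℓ := fun i => (colMass_integral hK hm hlr.le hproj i).1
  intℓ' := fun i => (colMass_integral hK hm' hlr.le hproj i).1
  intW₀ := by
    obtain ⟨Ylo, hYlo⟩ := (Set.finite_range y).bddBelow
    have hlo : ∀ j, Ylo ≤ y j := fun j => hYlo ⟨j, rfl⟩
    have h1 := (Phi_intervalIntegrable hK hconv hlr.le hproj t' y ψ' Ylo).sub
      (Phi_intervalIntegrable hK hconv hlr.le hproj t y ψ Ylo)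
    refine h1.congr ?_
    intro s hs
    have hs' : s ∈ Icc l r := by
      rw [uIoc_of_le hlr.le] at hs
      exact ⟨hs.1.le, hs.2⟩
    have hne := col_nonempty hproj hs'
    simp only
    rw [Phi_formula hK hconv hm hsel hne, Phi_formula hK hconv hm' hsel' hne]
    have e : ∀ (L : ι → ℝ), ∑ j, max (Ylo - y j) 0 * L j = 0 := by
      intro L
      apply Finset.sum_eq_zero
      intro j _
      rw [max_eq_right (by linarith [hlo j]), zero_mul]
    rw [e, e]
    ring
  mass := fun i => by
    rw [(colMass_integral hK hm hlr.le hproj i).2, (colMass_integral hK hm' hlr.le hproj i).2, hmass]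
  len := fun s _ => by
    rw [sum_colMass hK hm, sum_colMass hK hm']
  lenpos := fun s hs => by
    rw [sum_colMass hK hm]
    exact col_pos hK hconv hint hproj hs

/-- **The horizontal lemma**: moving the atoms horizontally by at most `ε`, keeping the masses,
moves the potential by at most `ε w / 2` around a constant, `w` being the width of `K`. -/
theorem horizontal_lemma (hK : IsCompact K) (hconv : Convex ℝ K) (hint : (interior K).Nonempty)
    {t t' y ψ ψ' : ι → ℝ} {sel sel' : ℝ × ℝ → ι}
    (hm : ∀ i, MeasurableSet (sel ⁻¹' {i})) (hm' : ∀ i, MeasurableSet (sel' ⁻¹' {i}))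
    (hsel : IsSel K t y ψ sel) (hsel' : IsSel K t' y ψ' sel')
    (hmass : ∀ i, volume (K ∩ sel ⁻¹' {i}) = volume (K ∩ sel' ⁻¹' {i}))
    {ε w₀ : ℝ} (hmove : ∀ i, |t i - t' i| ≤ ε) (hw : ∀ x ∈ K, ∀ x' ∈ K, x.1 - x'.1 ≤ w₀) :
    ∃ c : ℝ, ∀ x ∈ K, |colPot t' y ψ' x - colPot t y ψ x - c| ≤ ε * w₀ / 2 := by
  obtain ⟨l, r, hlr, hproj⟩ := exists_proj hK hconv hint
  set C := horizData hK hconv hint hm hm' hsel hsel' hmass hlr hproj with hC
  have hmove' : ∀ i, |C.t i - C.t' i| ≤ ε := hmove
  have htwo := fun (i : ι) (s : ℝ) (hs : s ∈ Ioo l r) => C.two_sided hmove' i (s := s) hs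
  set κ : ℝ := (∫ x in C.l..C.r, C.W₀ x) / C.w with hκ
  have hε0 : 0 ≤ ε := (abs_nonneg _).trans (hmove' (Classical.arbitrary ι))
  -- width
  have hww : C.w ≤ w₀ := by
    have h1 : l ∈ Prod.fst '' K := by rw [hproj]; exact ⟨le_rfl, hlr.le⟩
    have h2 : r ∈ Prod.fst '' K := by rw [hproj]; exact ⟨hlr.le, le_rfl⟩
    obtain ⟨p, hp, hp1⟩ := h1
    obtain ⟨p', hp', hp1'⟩ := h2
    have := hw p' hp' p hp
    rw [hp1, hp1'] at this
    exact this
  have hbound : ε * C.w / 2 ≤ ε * w₀ / 2 := by
    have := mul_le_mul_of_nonneg_left hww hε0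
    linarith
  have hinner : ∀ x ∈ K, x.1 ∈ Ioo l r →
      |colPot t' y ψ' x - colPot t y ψ x - (-κ)| ≤ ε * w₀ / 2 := by
    intro x hx hxs
    obtain ⟨s, z⟩ := x
    simp only at hxs
    have hxm : z ∈ col K s := hx
    rw [abs_le]
    constructor
    · -- lower bound with `sel`
      have hi := Phi_contact hK hsel hx (rfl : sel (s, z) = sel (s, z))
      have h1 := hsel (s, z) hx
      have h2 := le_Phi hK (continuous_pot t' y ψ') hxm (y (sel (s, z)))
      have h3 := abs_le.mp (htwo (sel (s, z)) s hxs)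
      have h3' := h3.2
      change Phi K (colPot t' y ψ') s (y (sel (s, z))) - Phi K (colPot t y ψ) s (y (sel (s, z))) - κ ≤ _
        at h3'
      simp only at h1
      linarith
    · -- upper bound with `sel'`
      have hi := Phi_contact hK hsel' hx (rfl : sel' (s, z) = sel' (s, z))
      have h1 := hsel' (s, z) hx
      have h2 := le_Phi hK (continuous_pot t y ψ) hxm (y (sel' (s, z)))
      have h3 := abs_le.mp (htwo (sel' (s, z)) s hxs)
      have h3' := h3.1
      change _ ≤ Phi K (colPot t' y ψ') s (y (sel' (s, z))) - Phi K (colPot t y ψ) s (y (sel' (s, z))) - κ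
        at h3'
      simp only at h1
      linarith
  refine ⟨-κ, ?_⟩
  -- extension by continuity
  intro x hx
  obtain ⟨x₀, hx₀⟩ := hint
  have hx₀K := interior_subset hx₀
  have hx₀s : x₀.1 ∈ Ioo l r := by
    obtain ⟨δ, hδ, hball⟩ := Metric.isOpen_iff.mp isOpen_interior x₀ hx₀
    have h1 : (x₀.1 + δ / 2, x₀.2) ∈ K := by
      apply interior_subset
      apply hball
      rw [Metric.mem_ball, Prod.dist_eq]
      simp only [Real.dist_eq, sub_self, abs_zero, add_sub_cancel_left]
      rw [abs_of_pos (by positivity)]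
      simp only [max_lt_iff]
      constructor <;> linarith
    have h2 : (x₀.1 - δ / 2, x₀.2) ∈ K := by
      apply interior_subset
      apply hball
      rw [Metric.mem_ball, Prod.dist_eq]
      simp only [Real.dist_eq, sub_self, abs_zero]
      have e : x₀.1 - δ / 2 - x₀.1 = -(δ / 2) := by ring
      rw [e, abs_neg, abs_of_pos (by positivity)]
      simp only [max_lt_iff]
      constructor <;> linarith
    have h3 := (mem_Icc_of_mem hproj h1).2
    have h4 := (mem_Icc_of_mem hproj h2).1
    simp only at h3 h4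
    constructor <;> linarith
  have hxs := mem_Icc_of_mem hproj hx
  set γ : ℝ → ℝ × ℝ := fun lam => (1 - lam) • x + lam • x₀ with hγ
  have hγc : Continuous γ := by
    simp only [hγ]
    fun_prop
  have hγ0 : γ 0 = x := by simp [hγ]
  set u : ℝ → ℝ := fun lam => |colPot t' y ψ' (γ lam) - colPot t y ψ (γ lam) - (-κ)| with hu
  have huc : Continuous u := by
    simp only [hu]
    have h1 := continuous_pot t' y ψ'
    have h2 := continuous_pot t y ψ
    fun_prop
  have hlim : Tendsto u (𝓝[>] 0) (𝓝 (u 0)) := huc.continuousAt.tendsto.mono_left nhdsWithin_le_nhds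
  have hev : ∀ᶠ lam in 𝓝[>] (0 : ℝ), u lam ≤ ε * w₀ / 2 := by
    filter_upwards [Ioo_mem_nhdsGT (zero_lt_one' ℝ)] with lam hlam
    have hK' : γ lam ∈ K := hconv hx hx₀K (by linarith [hlam.2]) hlam.1.le (by ring)
    apply hinner _ hK'
    simp only [hγ, Prod.fst_add, Prod.smul_fst, smul_eq_mul]
    have h1 : 0 < lam := hlam.1
    have h2 : 0 < 1 - lam := by linarith [hlam.2]
    constructor
    · have : (1 - lam) * l ≤ (1 - lam) * x.1 := mul_le_mul_of_nonneg_left hxs.1 h2.le
      have h3 : lam * l < lam * x₀.1 := mul_lt_mul_of_pos_left hx₀s.1 h1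
      nlinarith
    · have : (1 - lam) * x.1 ≤ (1 - lam) * r := mul_le_mul_of_nonneg_left hxs.2 h2.le
      have h3 : lam * x₀.1 < lam * r := mul_lt_mul_of_pos_left hx₀s.2 h1
      nlinarith
  have := le_of_tendsto hlim hev
  simp only [hu, hγ0] at this
  exact this

end Vale.Agent.Lib.P074
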