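import Vale.Agent.Lib.P074.Defs

open MeasureTheory
open scoped ENNReal NNReal

namespace Vale.Agent.Lib.P074

section general

variable {d : ℕ}

/-- General optimality criterion by a Kantorovich potential `ψ`. -/
theorem isOptimalMap_of_potential (ρ : Measure (E d)) (T : E d → E d) (hT : Measurable T)
    (ψ : E d → ℝ) (hψ : Measurable ψ) (S : Set (E d)) (hS : MeasurableSet S)
    (hTS : ∀ x, T x ∈ S)
    (hfin : ∫⁻ x, ENNReal.ofReal (ψ (T x)) ∂ρ ≠ ∞)
    (h : ∀ x, ∀ y ∈ S, ‖x - T x‖ ^ 2 + ψ y ≤ ‖x - y‖ ^ 2 + ψ (T x))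
    (hψ0 : ∀ y, 0 ≤ ψ y) :
    IsOptimalMap ρ (ρ.map T) T := by
  refine ⟨hT, rfl, ?_⟩
  intro T' hT' hmap
  have hae : ∀ᵐ x ∂ρ, T' x ∈ S := by
    have h1 : (ρ.map T') Sᶜ = (ρ.map T) Sᶜ := by rw [hmap]
    rw [Measure.map_apply hT' hS.compl, Measure.map_apply hT hS.compl] at h1
    have h2 : T ⁻¹' Sᶜ = ∅ := by
      ext x; simp [hTS x]
    rw [h2, measure_empty] at h1
    exact ae_iff.mpr (by simpa [Set.preimage, Set.compl_def] using h1)
  have hψ1 : ∫⁻ x, ENNReal.ofReal (ψ (T' x)) ∂ρ = ∫⁻ x, ENNReal.ofReal (ψ (T x)) ∂ρ := by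
    have hm : Measurable fun y => ENNReal.ofReal (ψ y) := hψ.ennreal_ofReal
    rw [← lintegral_map hm hT', hmap, lintegral_map hm hT]
  have hmeas1 : Measurable fun x => ENNReal.ofReal (‖x - T x‖ ^ 2) := by fun_prop
  have hmeas2 : Measurable fun x => ENNReal.ofReal (‖x - T' x‖ ^ 2) := by fun_prop
  have hmeas3 : Measurable fun x => ENNReal.ofReal (ψ (T x)) := (hψ.comp hT).ennreal_ofReal
  have hmeas4 : Measurable fun x => ENNReal.ofReal (ψ (T' x)) := (hψ.comp hT').ennreal_ofReal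
  have key : ∫⁻ x, (ENNReal.ofReal (‖x - T x‖ ^ 2) + ENNReal.ofReal (ψ (T' x))) ∂ρ
      ≤ ∫⁻ x, (ENNReal.ofReal (‖x - T' x‖ ^ 2) + ENNReal.ofReal (ψ (T x))) ∂ρ := by
    apply lintegral_mono_ae
    filter_upwards [hae] with x hx
    rw [← ENNReal.ofReal_add (by positivity) (hψ0 _), ← ENNReal.ofReal_add (by positivity) (hψ0 _)]
    exact ENNReal.ofReal_le_ofReal (h x _ hx)
  rw [lintegral_add_left hmeas1, lintegral_add_left hmeas2, hψ1] at key
  exact (ENNReal.add_le_add_iff_right hfin).mp key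

/-- A coupling upper bound for `W₂`. -/
theorem W2_le_of_map (μ : Measure (E d)) (R : E d → E d) (hR : Measurable R) :
    W2 μ (μ.map R) ≤ (∫⁻ y, ENNReal.ofReal (‖y - R y‖ ^ 2) ∂μ) ^ (1 / 2 : ℝ) := by
  unfold W2
  apply ENNReal.rpow_le_rpow _ (by norm_num)
  have hp : Measurable fun y : E d => (y, R y) := measurable_id.prodMk hR
  refine iInf₂_le_of_le (μ.map fun y => (y, R y)) ⟨?_, ?_⟩ ?_
  · rw [Measure.map_map measurable_fst hp]
    exact Measure.map_id
  · rw [Measure.map_map measurable_snd hp]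
    rfl
  · rw [lintegral_map (by fun_prop) hp]

end general

section explicit

variable {n : ℕ}

/-- The first coordinate vector. -/
noncomputable def e0 : E (n + 2) := EuclideanSpace.single 0 1

/-- The second coordinate vector. -/
noncomputable def e1 : E (n + 2) := EuclideanSpace.single 1 1

@[simp] theorem e0_apply_zero : (e0 : E (n + 2)) 0 = 1 := by simp [e0]
@[simp] theorem e0_apply_one : (e0 : E (n + 2)) 1 = 0 := by simp [e0]
@[simp] theorem e1_apply_zero : (e1 : E (n + 2)) 0 = 0 := by simp [e1]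
@[simp] theorem e1_apply_one : (e1 : E (n + 2)) 1 = 1 := by simp [e1]

theorem inner_e0 (x : E (n + 2)) : inner ℝ x (e0 : E (n + 2)) = x 0 := by
  simp [e0, EuclideanSpace.inner_single_right]

theorem inner_e1 (x : E (n + 2)) : inner ℝ x (e1 : E (n + 2)) = x 1 := by
  simp [e1, EuclideanSpace.inner_single_right]

theorem norm_e0 : ‖(e0 : E (n + 2))‖ = 1 := by simp [e0]

theorem norm_e1 : ‖(e1 : E (n + 2))‖ = 1 := by simp [e1]

/-- The cube `[-1, 1]^(n+2)`. -/
def cube : Set (E (n + 2)) := {x | ∀ i, |x i| ≤ 1}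

/-- The explicit three-site map: the site `θ e1` serves the thin wedge `|x₀| ≤ c + θ x₁`, and the
sites `± e0` serve what is left on their side. -/
noncomputable def wedgeMap (c θ : ℝ) (x : E (n + 2)) : E (n + 2) :=
  if |x 0| ≤ c + θ * x 1 then θ • e1 else if 0 < x 0 then e0 else -e0

/-- The wedge. -/
def wedge (c θ : ℝ) : Set (E (n + 2)) := {x | |x 0| ≤ c + θ * x 1}

theorem measurableSet_wedge (c θ : ℝ) : MeasurableSet (wedge c θ : Set (E (n + 2))) := by
  apply measurableSet_le <;> fun_prop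

theorem measurable_wedgeMap (c θ : ℝ) : Measurable (wedgeMap c θ : E (n + 2) → E (n + 2)) := by
  unfold wedgeMap
  refine Measurable.ite (measurableSet_wedge c θ) measurable_const ?_
  refine Measurable.ite ?_ measurable_const measurable_const
  exact measurableSet_lt measurable_const (by fun_prop)

/-- The potential used to certify optimality of `wedgeMap`. -/
noncomputable def pot (c θ : ℝ) (y : E (n + 2)) : ℝ :=
  ‖y‖ ^ 2 + 2 * (if y = θ • e1 then c else 0)

theorem measurable_pot (c θ : ℝ) : Measurable (pot c θ : E (n + 2) → ℝ) := by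
  unfold pot
  refine (by fun_prop : Measurable fun y : E (n + 2) => ‖y‖ ^ 2).add ?_
  refine Measurable.const_mul ?_ 2
  exact Measurable.ite (measurableSet_singleton _) measurable_const measurable_const

theorem e0_ne (θ : ℝ) : (e0 : E (n + 2)) ≠ θ • e1 := by
  intro h
  have := congrArg (fun v : E (n + 2) => v 0) h
  simp at this

theorem neg_e0_ne (θ : ℝ) : -(e0 : E (n + 2)) ≠ θ • e1 := by
  intro h
  have := congrArg (fun v : E (n + 2) => v 0) h
  simp at this

theorem pot_site (c θ : ℝ) : pot c θ (θ • e1 : E (n + 2)) = θ ^ 2 + 2 * c := by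
  simp [pot, norm_smul, norm_e1]

theorem pot_e0 (c θ : ℝ) : pot c θ (e0 : E (n + 2)) = 1 := by
  simp [pot, e0_ne, norm_e0]

theorem pot_neg_e0 (c θ : ℝ) : pot c θ (-e0 : E (n + 2)) = 1 := by
  simp [pot, neg_e0_ne, norm_e0]

/-- The set of sites. -/
noncomputable def sites (θ : ℝ) : Set (E (n + 2)) := {θ • e1, e0, -e0}

theorem measurableSet_sites (θ : ℝ) : MeasurableSet (sites θ : Set (E (n + 2))) := by
  unfold sites
  exact (Set.toFinite _).measurableSet

theorem wedgeMap_mem (c θ : ℝ) (x : E (n + 2)) : wedgeMap c θ x ∈ sites θ := by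
  unfold wedgeMap sites
  split_ifs <;> simp

theorem pot_nonneg (c θ : ℝ) (hc : 0 ≤ c) (y : E (n + 2)) : 0 ≤ pot c θ y := by
  unfold pot
  split_ifs <;> positivity

theorem pot_wedge_le (c θ : ℝ) (hc : 0 ≤ c) (x : E (n + 2)) :
    pot c θ (wedgeMap c θ x) ≤ θ ^ 2 + 2 * c + 1 := by
  have := wedgeMap_mem c θ x
  rcases this with h | h | h
  · rw [h, pot_site]; linarith
  · rw [h, pot_e0]; nlinarith [sq_nonneg θ]
  · rw [h, pot_neg_e0]; nlinarith [sq_nonneg θ]

/-- Pointwise Kantorovich inequality for the wedge map. -/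
theorem wedge_kantorovich (c θ : ℝ) (x y : E (n + 2)) (hy : y ∈ sites θ) :
    ‖x - wedgeMap c θ x‖ ^ 2 + pot c θ y ≤ ‖x - y‖ ^ 2 + pot c θ (wedgeMap c θ x) := by
  have hexp : ∀ z : E (n + 2), ‖x - z‖ ^ 2 = ‖x‖ ^ 2 - 2 * inner ℝ x z + ‖z‖ ^ 2 := fun z =>
    norm_sub_sq_real x z
  have in1 : inner ℝ x (θ • e1 : E (n + 2)) = θ * x 1 := by
    rw [inner_smul_right, inner_e1]
  have in2 : inner ℝ x (e0 : E (n + 2)) = x 0 := inner_e0 x
  have in3 : inner ℝ x (-e0 : E (n + 2)) = - x 0 := by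
    rw [inner_neg_right, inner_e0]
  have p1 : pot c θ (θ • e1 : E (n + 2)) = ‖(θ • e1 : E (n + 2))‖ ^ 2 + 2 * c := by
    simp [pot]
  have p2 : pot c θ (e0 : E (n + 2)) = ‖(e0 : E (n + 2))‖ ^ 2 := by
    simp [pot, e0_ne]
  have p3 : pot c θ (-e0 : E (n + 2)) = ‖(-e0 : E (n + 2))‖ ^ 2 := by
    simp [pot, neg_e0_ne]
  have n3 : ‖(-e0 : E (n + 2))‖ = ‖(e0 : E (n + 2))‖ := norm_neg _
  have habs1 := le_abs_self (x 0)
  have habs2 := neg_abs_le (x 0)
  rcases hy with rfl | rfl | rfl <;> unfold wedgeMap <;> split_ifs with h1 h2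
  all_goals
    simp only [hexp, p1, p2, p3, in1, in2, in3]
  all_goals
    (try push Not at h1)
    (try push Not at h2)
    first
      | linarith
      | (rcases abs_cases (x 0) with ⟨h, _⟩ | ⟨h, _⟩ <;> linarith)

/-- The volume of a coordinate box. -/
theorem volume_box (a b : Fin (n + 2) → ℝ) :
    volume {x : E (n + 2) | ∀ i, a i ≤ x i ∧ x i ≤ b i} = ∏ i, ENNReal.ofReal (b i - a i) := by
  have hset : {x : E (n + 2) | ∀ i, a i ≤ x i ∧ x i ≤ b i}
      = (@WithLp.ofLp 2 (Fin (n + 2) → ℝ)) ⁻¹' (Set.Icc a b) := by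
    ext x
    simp [Set.mem_Icc, Pi.le_def, forall_and]
  rw [hset, (PiLp.volume_preserving_ofLp (Fin (n + 2))).measure_preimage
    measurableSet_Icc.nullMeasurableSet, Real.volume_Icc_pi]

theorem cube_eq_box : (cube : Set (E (n + 2)))
    = {x : E (n + 2) | ∀ i, (fun _ => (-1 : ℝ)) i ≤ x i ∧ x i ≤ (fun _ => (1 : ℝ)) i} := by
  ext x
  simp [cube, abs_le]

theorem volume_cube : volume (cube : Set (E (n + 2))) = ENNReal.ofReal (2 ^ (n + 2)) := by
  rw [cube_eq_box, volume_box]
  norm_num [Finset.prod_const, ENNReal.ofReal_pow]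

theorem measurableSet_cube : MeasurableSet (cube : Set (E (n + 2))) := by
  have : (cube : Set (E (n + 2))) = ⋂ i, {x : E (n + 2) | |x i| ≤ 1} := by
    ext x; simp [cube]
  rw [this]
  exact MeasurableSet.iInter fun i => measurableSet_le (by fun_prop) measurable_const

theorem isClosed_cube : IsClosed (cube : Set (E (n + 2))) := by
  have : (cube : Set (E (n + 2))) = ⋂ i, {x : E (n + 2) | |x i| ≤ 1} := by
    ext x; simp [cube]
  rw [this]
  exact isClosed_iInter fun i => isClosed_le (by fun_prop) continuous_const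

theorem isCompact_cube : IsCompact (cube : Set (E (n + 2))) := by
  refine Metric.isCompact_of_isClosed_isBounded isClosed_cube ?_
  refine (Metric.isBounded_closedBall (x := (0 : E (n + 2))) (r := Real.sqrt (n + 2))).subset ?_
  intro x hx
  rw [mem_closedBall_zero_iff, EuclideanSpace.norm_eq]
  apply Real.sqrt_le_sqrt
  calc ∑ i, ‖x i‖ ^ 2 ≤ ∑ _i : Fin (n + 2), (1 : ℝ) := by
        apply Finset.sum_le_sum
        intro i _
        have h := hx i
        rw [Real.norm_eq_abs]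
        nlinarith [abs_nonneg (x i)]
    _ = n + 2 := by simp

theorem convex_cube : Convex ℝ (cube : Set (E (n + 2))) := by
  intro x hx y hy a b ha hb hab i
  have h1 := hx i
  have h2 := hy i
  simp only [PiLp.add_apply, PiLp.smul_apply, smul_eq_mul]
  calc |a * x i + b * y i| ≤ |a * x i| + |b * y i| := abs_add_le _ _
    _ = a * |x i| + b * |y i| := by rw [abs_mul, abs_mul, abs_of_nonneg ha, abs_of_nonneg hb]
    _ ≤ a * 1 + b * 1 := by gcongr
    _ = 1 := by linarith

theorem interior_cube_nonempty : (interior (cube : Set (E (n + 2)))).Nonempty := by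
  refine ⟨0, mem_interior.mpr ⟨Metric.ball 0 1, ?_, Metric.isOpen_ball, Metric.mem_ball_self one_pos⟩⟩
  intro x hx i
  rw [mem_ball_zero_iff] at hx
  have := PiLp.norm_apply_le x i
  rw [Real.norm_eq_abs] at this
  linarith

/-- The uniform probability measure on the cube. -/
noncomputable def rho : Measure (E (n + 2)) := uniformProb cube

theorem rho_apply (A : Set (E (n + 2))) (hA : MeasurableSet A) :
    (rho : Measure (E (n + 2))) A
      = (ENNReal.ofReal (2 ^ (n + 2)))⁻¹ * volume (A ∩ cube) := by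
  simp only [rho, uniformProb, Measure.smul_apply, smul_eq_mul, Measure.restrict_apply hA,
    volume_cube]

instance rho_isProb : IsProbabilityMeasure (rho : Measure (E (n + 2))) := by
  constructor
  rw [rho_apply _ MeasurableSet.univ, Set.univ_inter, volume_cube]
  apply ENNReal.inv_mul_cancel
  · simp
  · simp

/-- The reflection `x₁ ↦ -x₁`. -/
noncomputable def refl1 : E (n + 2) ≃ₗᵢ[ℝ] E (n + 2) :=
  LinearIsometryEquiv.piLpCongrRight 2 fun i =>
    if i = 1 then LinearIsometryEquiv.neg ℝ else LinearIsometryEquiv.refl ℝ ℝ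

@[simp] theorem refl1_one (x : E (n + 2)) : refl1 x 1 = - x 1 := by
  simp [refl1, LinearIsometryEquiv.piLpCongrRight_apply]

theorem refl1_ne (x : E (n + 2)) (i : Fin (n + 2)) (hi : i ≠ 1) : refl1 x i = x i := by
  simp [refl1, LinearIsometryEquiv.piLpCongrRight_apply, hi]

@[simp] theorem refl1_zero (x : E (n + 2)) : refl1 x 0 = x 0 :=
  refl1_ne x 0 (by simp)

theorem refl1_e0 : refl1 (e0 : E (n + 2)) = e0 := by
  ext i
  by_cases hi : i = 1
  · subst hi; simp
  · rw [refl1_ne _ _ hi]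

theorem refl1_e1 : refl1 (e1 : E (n + 2)) = -e1 := by
  ext i
  by_cases hi : i = 1
  · subst hi; simp
  · rw [refl1_ne _ _ hi]; simp [e1, hi]

theorem refl1_refl1 (x : E (n + 2)) : refl1 (refl1 x) = x := by
  ext i
  by_cases hi : i = 1
  · subst hi; simp
  · rw [refl1_ne _ _ hi, refl1_ne _ _ hi]

theorem refl1_preimage_cube : refl1 ⁻¹' (cube : Set (E (n + 2))) = cube := by
  ext x
  simp only [Set.mem_preimage, cube, Set.mem_ofPred_eq]
  refine forall_congr' fun i => ?_
  by_cases hi : i = 1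
  · subst hi; simp
  · rw [refl1_ne _ _ hi]

theorem map_refl1_rho : (rho : Measure (E (n + 2))).map refl1 = rho := by
  have hmp : MeasurePreserving (refl1 : E (n + 2) → E (n + 2)) volume volume :=
    LinearIsometryEquiv.measurePreserving _
  have h := hmp.restrict_preimage (s := cube) measurableSet_cube
  rw [refl1_preimage_cube] at h
  unfold rho uniformProb
  rw [Measure.map_smul, h.map_eq]

theorem wedgeMap_neg (c θ : ℝ) (x : E (n + 2)) :
    wedgeMap c (-θ) x = refl1 (wedgeMap c θ (refl1 x)) := by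
  unfold wedgeMap
  simp only [refl1_zero, refl1_one]
  have : (c + θ * -x 1) = c + -θ * x 1 := by ring
  rw [this]
  split_ifs
  · rw [map_smul, refl1_e1]; simp
  · rw [refl1_e0]
  · rw [map_neg, refl1_e0]

theorem map_wedgeMap_neg (c θ : ℝ) :
    (rho : Measure (E (n + 2))).map (wedgeMap c (-θ))
      = ((rho : Measure (E (n + 2))).map (wedgeMap c θ)).map refl1 := by
  have h1 : wedgeMap c (-θ) = (refl1 ∘ wedgeMap c θ) ∘ (refl1 : E (n + 2) → E (n + 2)) := by
    funext x
    exact wedgeMap_neg c θ x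
  have hR : Measurable (refl1 : E (n + 2) → E (n + 2)) := refl1.continuous.measurable
  rw [h1, ← Measure.map_map ((hR.comp (measurable_wedgeMap c θ))) hR, map_refl1_rho,
    Measure.map_map hR (measurable_wedgeMap c θ)]

/-- Measure of the wedge: upper bound by a slab. -/
theorem rho_wedge_le (c θ : ℝ) (hc : 0 ≤ c) (hθ : 0 ≤ θ) :
    (rho : Measure (E (n + 2))) (wedge c θ) ≤ ENNReal.ofReal (c + θ) := by
  rw [rho_apply _ (measurableSet_wedge c θ)]
  let a : Fin (n + 2) → ℝ := Fin.cons (-(c + θ)) (fun _ => -1)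
  let b : Fin (n + 2) → ℝ := Fin.cons (c + θ) (fun _ => 1)
  have hsub : wedge c θ ∩ cube ⊆ {x : E (n + 2) | ∀ i, a i ≤ x i ∧ x i ≤ b i} := by
    rintro x ⟨hx1, hx2⟩ i
    refine Fin.cases ?_ (fun j => ?_) i
    · have h1 : |x 0| ≤ c + θ * x 1 := hx1
      have h2 : |x 1| ≤ 1 := hx2 1
      have h3 : θ * x 1 ≤ θ := by
        have := (abs_le.mp h2).2
        nlinarith
      have h4 := abs_le.mp (h1.trans (by linarith : c + θ * x 1 ≤ c + θ))
      simpa [a, b] using h4
    · have h2 := abs_le.mp (hx2 j.succ)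
      simpa [a, b] using h2
  have hvol : volume {x : E (n + 2) | ∀ i, a i ≤ x i ∧ x i ≤ b i}
      = ENNReal.ofReal (2 * (c + θ) * 2 ^ (n + 1)) := by
    rw [volume_box, Fin.prod_univ_succ]
    simp only [a, b, Fin.cons_zero, Fin.cons_succ, Finset.prod_const, Finset.card_univ,
      Fintype.card_fin]
    rw [ENNReal.ofReal_mul (by positivity), ENNReal.ofReal_pow (by norm_num)]
    congr 2
    · ring_nf
    · norm_num
  calc (ENNReal.ofReal (2 ^ (n + 2)))⁻¹ * volume (wedge c θ ∩ cube)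
      ≤ (ENNReal.ofReal (2 ^ (n + 2)))⁻¹ * ENNReal.ofReal (2 * (c + θ) * 2 ^ (n + 1)) := by
        gcongr
        rw [← hvol]
        exact measure_mono hsub
    _ = ENNReal.ofReal (c + θ) := by
        rw [← ENNReal.ofReal_inv_of_pos (by positivity), ← ENNReal.ofReal_mul (by positivity)]
        congr 1
        field_simp
        ring

/-- The explicit box where the two wedge maps differ by at least one. -/
def diffBox (c θ : ℝ) : Set (E (n + 2)) :=
  {x : E (n + 2) | ∀ i, (Fin.cons c (Fin.cons (1 / 2) fun _ => -1) : Fin (n + 2) → ℝ) i ≤ x i ∧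
    x i ≤ (Fin.cons (c + θ / 2) (Fin.cons 1 fun _ => 1) : Fin (n + 2) → ℝ) i}

theorem measurableSet_diffBox (c θ : ℝ) : MeasurableSet (diffBox c θ : Set (E (n + 2))) := by
  have : (diffBox c θ : Set (E (n + 2))) = ⋂ i, {x : E (n + 2) |
      (Fin.cons c (Fin.cons (1 / 2) fun _ => -1) : Fin (n + 2) → ℝ) i ≤ x i ∧
      x i ≤ (Fin.cons (c + θ / 2) (Fin.cons 1 fun _ => 1) : Fin (n + 2) → ℝ) i} := by
    ext x; simp [diffBox]
  rw [this]
  refine MeasurableSet.iInter fun i => ?_
  exact measurableSet_Icc.preimage (by fun_prop : Measurable fun x : E (n + 2) => x i)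

theorem diffBox_sub_cube (c θ : ℝ) (hc : 0 ≤ c) (h1 : c + θ / 2 ≤ 1) :
    (diffBox c θ : Set (E (n + 2))) ⊆ cube := by
  intro x hx i
  refine Fin.cases ?_ (fun j => ?_) i
  · have h := hx 0
    simp only [Fin.cons_zero] at h
    rw [abs_le]
    constructor <;> linarith [h.1, h.2]
  · refine Fin.cases ?_ (fun k => ?_) j
    · have h := hx 1
      have e1 : (1 : Fin (n + 2)) = Fin.succ 0 := rfl
      simp only [e1, Fin.cons_succ, Fin.cons_zero] at h
      rw [abs_le]
      constructor <;> linarith [h.1, h.2]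
    · have h := hx k.succ.succ
      simp only [Fin.cons_succ] at h
      rw [abs_le]
      exact ⟨h.1, h.2⟩

theorem rho_diffBox (c θ : ℝ) (hc : 0 ≤ c) (hθ : 0 ≤ θ) (h1 : c + θ / 2 ≤ 1) :
    (rho : Measure (E (n + 2))) (diffBox c θ) = ENNReal.ofReal (θ / 16) := by
  rw [rho_apply _ (measurableSet_diffBox c θ), Set.inter_eq_left.mpr (diffBox_sub_cube c θ hc h1)]
  unfold diffBox
  rw [volume_box, Fin.prod_univ_succ, Fin.prod_univ_succ]
  simp only [Fin.cons_zero, Fin.cons_succ, Finset.prod_const, Finset.card_univ, Fintype.card_fin]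
  have h2 : c + θ / 2 - c = θ / 2 := by ring
  have h3 : (1 : ℝ) - 1 / 2 = 1 / 2 := by norm_num
  have h4 : (1 : ℝ) - -1 = 2 := by norm_num
  rw [h2, h3, h4, ← ENNReal.ofReal_pow (by norm_num), ← ENNReal.ofReal_mul (by norm_num),
    ← ENNReal.ofReal_mul (by positivity), ← ENNReal.ofReal_inv_of_pos (by positivity),
    ← ENNReal.ofReal_mul (by positivity)]
  congr 1
  rw [pow_add]
  field_simp
  norm_num
  ring

/-- The `L²` distance between the two wedge maps is at least `(θ / 16)^(1/2)`. -/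
theorem L2Dist_ge (c θ : ℝ) (hc : 0 < c) (hθ : 0 < θ) (h1 : c + θ / 2 ≤ 1) :
    ENNReal.ofReal (θ / 16) ^ (1 / 2 : ℝ) ≤
      L2Dist (rho : Measure (E (n + 2))) (wedgeMap c θ) (wedgeMap c (-θ)) := by
  unfold L2Dist
  apply ENNReal.rpow_le_rpow _ (by norm_num)
  rw [← rho_diffBox c θ hc.le hθ.le h1, ← lintegral_indicator_one (measurableSet_diffBox c θ)]
  apply lintegral_mono
  intro x
  by_cases hx : x ∈ (diffBox c θ : Set (E (n + 2)))
  · rw [Set.indicator_of_mem hx]
    have h0 := hx 0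
    have h1' := hx 1
    have e1' : (1 : Fin (n + 2)) = Fin.succ 0 := rfl
    simp only [Fin.cons_zero] at h0
    simp only [e1', Fin.cons_succ, Fin.cons_zero] at h1'
    simp only [← e1'] at h1'
    have hpos : 0 < x 0 := by linarith [h0.1]
    have hw : |x 0| ≤ c + θ * x 1 := by
      rw [abs_of_pos hpos]
      nlinarith [h0.2, h1'.1]
    have hnw : ¬ |x 0| ≤ c + -θ * x 1 := by
      rw [abs_of_pos hpos]
      push Not
      nlinarith [h0.1, h1'.1]
    have hT1 : wedgeMap c θ x = θ • e1 := by simp [wedgeMap, hw]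
    have hT2 : wedgeMap c (-θ) x = e0 := by
      unfold wedgeMap
      rw [if_neg hnw, if_pos hpos]
    change (1 : ℝ≥0∞) ≤ ENNReal.ofReal (‖wedgeMap c θ x - wedgeMap c (-θ) x‖ ^ 2)
    rw [hT1, hT2]
    have hle : (1 : ℝ) ≤ ‖(θ • e1 - e0 : E (n + 2))‖ := by
      have := PiLp.norm_apply_le (θ • e1 - e0 : E (n + 2)) 0
      simpa using this
    have : (1 : ℝ) ≤ ‖(θ • e1 - e0 : E (n + 2))‖ ^ 2 := by nlinarith
    simpa using ENNReal.ofReal_le_ofReal this
  · rw [Set.indicator_of_notMem hx]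
    exact zero_le

/-- The `W₂` distance between the two targets is at most `(4 θ² (c + θ))^(1/2)`. -/
theorem W2_le (c θ : ℝ) (hc : 0 ≤ c) (hθ : 0 ≤ θ) :
    W2 ((rho : Measure (E (n + 2))).map (wedgeMap c θ))
        ((rho : Measure (E (n + 2))).map (wedgeMap c (-θ)))
      ≤ ENNReal.ofReal (4 * θ ^ 2 * (c + θ)) ^ (1 / 2 : ℝ) := by
  rw [map_wedgeMap_neg]
  have hR : Measurable (refl1 : E (n + 2) → E (n + 2)) := refl1.continuous.measurable
  refine (W2_le_of_map _ _ hR).trans ?_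
  apply ENNReal.rpow_le_rpow _ (by norm_num)
  rw [lintegral_map (by fun_prop) (measurable_wedgeMap c θ)]
  have hle : ∀ x : E (n + 2), ENNReal.ofReal (‖wedgeMap c θ x - refl1 (wedgeMap c θ x)‖ ^ 2)
      ≤ (wedge c θ).indicator (fun _ => ENNReal.ofReal (4 * θ ^ 2)) x := by
    intro x
    by_cases hx : x ∈ (wedge c θ : Set (E (n + 2)))
    · rw [Set.indicator_of_mem hx]
      have hx' : |x 0| ≤ c + θ * x 1 := hx
      have hT : wedgeMap c θ x = θ • e1 := by simp [wedgeMap, hx']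
      rw [hT, map_smul, refl1_e1]
      apply ENNReal.ofReal_le_ofReal
      have : (θ • e1 - θ • (-e1) : E (n + 2)) = (2 * θ) • e1 := by
        rw [smul_neg, sub_neg_eq_add, two_mul, add_smul]
      rw [this, norm_smul, norm_e1]
      simp only [Real.norm_eq_abs, abs_mul, mul_one]
      rw [abs_of_pos (by norm_num : (0 : ℝ) < 2), mul_pow, sq_abs]
      norm_num
    · rw [Set.indicator_of_notMem hx]
      have hx' : ¬ |x 0| ≤ c + θ * x 1 := hx
      unfold wedgeMap
      rw [if_neg hx']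
      split_ifs
      · rw [refl1_e0]; simp
      · rw [map_neg, refl1_e0]; simp
  calc ∫⁻ x, ENNReal.ofReal (‖wedgeMap c θ x - refl1 (wedgeMap c θ x)‖ ^ 2) ∂rho
      ≤ ∫⁻ x, (wedge c θ).indicator (fun _ => ENNReal.ofReal (4 * θ ^ 2)) x ∂rho :=
        lintegral_mono hle
    _ = ENNReal.ofReal (4 * θ ^ 2) * (rho : Measure (E (n + 2))) (wedge c θ) :=
        lintegral_indicator_const (measurableSet_wedge c θ) _
    _ ≤ ENNReal.ofReal (4 * θ ^ 2) * ENNReal.ofReal (c + θ) := by
        gcongr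
        exact rho_wedge_le c θ hc hθ
    _ = ENNReal.ofReal (4 * θ ^ 2 * (c + θ)) := by
        rw [← ENNReal.ofReal_mul (by positivity)]

/-- Optimality of the wedge map. -/
theorem isOptimalMap_wedgeMap (c θ : ℝ) (hc : 0 ≤ c) :
    IsOptimalMap (rho : Measure (E (n + 2))) ((rho : Measure (E (n + 2))).map (wedgeMap c θ))
      (wedgeMap c θ) := by
  refine isOptimalMap_of_potential rho (wedgeMap c θ) (measurable_wedgeMap c θ) (pot c θ)
    (measurable_pot c θ) (sites θ) (measurableSet_sites θ) (wedgeMap_mem c θ) ?_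
    (wedge_kantorovich c θ) (pot_nonneg c θ hc)
  have hle : ∀ x : E (n + 2), ENNReal.ofReal (pot c θ (wedgeMap c θ x))
      ≤ ENNReal.ofReal (θ ^ 2 + 2 * c + 1) := fun x =>
    ENNReal.ofReal_le_ofReal (pot_wedge_le c θ hc x)
  refine ne_of_lt (lt_of_le_of_lt (lintegral_mono hle) ?_)
  simp

/-- Support of the targets in the ball of radius two. -/
theorem map_wedgeMap_compl_ball (c θ : ℝ) (hθ : |θ| ≤ 2) :
    ((rho : Measure (E (n + 2))).map (wedgeMap c θ)) (Metric.closedBall 0 2)ᶜ = 0 := by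
  rw [Measure.map_apply (measurable_wedgeMap c θ) Metric.isClosed_closedBall.measurableSet.compl]
  have : wedgeMap c θ ⁻¹' (Metric.closedBall (0 : E (n + 2)) 2)ᶜ = ∅ := by
    ext x
    simp only [Set.mem_preimage, Set.mem_compl_iff, mem_closedBall_zero_iff, Set.mem_empty_iff_false,
      iff_false, not_not]
    rcases wedgeMap_mem c θ x with h | h | h
    · rw [h, norm_smul, norm_e1]; simpa using hθ
    · rw [h, norm_e0]; norm_num
    · rw [h, norm_neg, norm_e0]; norm_num
  rw [this, measure_empty]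

/-- The quantitative estimate in real numbers: for `0 < c ≤ 1/2`, the admissibility bound with
constant `C` forces `(c / 16)^(1/2) ≤ C (8 c³)^(α/2)`. -/
theorem real_bound (α : ℝ) (hα : 0 < α) (C : ℝ≥0)
    (hC : ∀ μ ν : Measure (E (n + 2)), IsProbabilityMeasure μ → IsProbabilityMeasure ν →
        (∀ᵐ y ∂μ, y ∈ Metric.closedBall (0 : E (n + 2)) 2) →
        (∀ᵐ y ∂ν, y ∈ Metric.closedBall (0 : E (n + 2)) 2) →
        ∀ Tμ Tν : E (n + 2) → E (n + 2),
          IsOptimalMap (uniformProb cube) μ Tμ → IsOptimalMap (uniformProb cube) ν Tν →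
            L2Dist (uniformProb cube) Tμ Tν ≤ C * W2 μ ν ^ α)
    (c : ℝ) (hc : 0 < c) (hc2 : c ≤ 1 / 2) :
    (c / 16) ^ (1 / 2 : ℝ) ≤ (C : ℝ) * (8 * c ^ 3) ^ (α / 2) := by
  have hT := measurable_wedgeMap (n := n) c c
  have hT' := measurable_wedgeMap (n := n) c (-c)
  have h1 := hC ((rho : Measure (E (n + 2))).map (wedgeMap c c))
    ((rho : Measure (E (n + 2))).map (wedgeMap c (-c)))
    (Measure.isProbabilityMeasure_map hT.aemeasurable)
    (Measure.isProbabilityMeasure_map hT'.aemeasurable)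
    (mem_ae_iff.mpr (map_wedgeMap_compl_ball c c (by rw [abs_of_pos hc]; linarith)))
    (mem_ae_iff.mpr (map_wedgeMap_compl_ball c (-c) (by rw [abs_neg, abs_of_pos hc]; linarith)))
    (wedgeMap c c) (wedgeMap c (-c))
    (isOptimalMap_wedgeMap c c hc.le) (isOptimalMap_wedgeMap c (-c) hc.le)
  have h2 := L2Dist_ge (n := n) c c hc hc (by linarith)
  have h3 := W2_le (n := n) c c hc.le hc.le
  have h4 : ENNReal.ofReal (c / 16) ^ (1 / 2 : ℝ) ≤
      (C : ℝ≥0∞) * (ENNReal.ofReal (8 * c ^ 3) ^ (1 / 2 : ℝ)) ^ α := by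
    refine h2.trans (h1.trans ?_)
    have e : 4 * c ^ 2 * (c + c) = 8 * c ^ 3 := by ring
    rw [e] at h3
    gcongr
  rw [← ENNReal.rpow_mul, ENNReal.ofReal_rpow_of_nonneg (by positivity) (by norm_num),
    ENNReal.ofReal_rpow_of_nonneg (by positivity) (by positivity)] at h4
  have e2 : (1 / 2 : ℝ) * α = α / 2 := by ring
  rw [e2, ← ENNReal.ofReal_coe_nnreal, ← ENNReal.ofReal_mul (by positivity),
    ENNReal.ofReal_le_ofReal_iff (by positivity)] at h4
  exact h4

theorem not_admissible (n : ℕ) (α : ℝ) (hα : 1 / 3 < α) : ¬ Admissible (n + 2) α := by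
  intro h
  obtain ⟨C, hC⟩ := h cube isCompact_cube convex_cube interior_cube_nonempty
    (Metric.closedBall 0 2) (isCompact_closedBall _ _) ⟨0, by simp⟩
  have hα0 : 0 < α := by linarith
  have hb := real_bound (n := n) α hα0 C hC
  -- the exponent gained
  set β : ℝ := (3 * α - 1) / 2 with hβ
  have hβ0 : 0 < β := by rw [hβ]; linarith
  set k : ℝ := (1 / 16 : ℝ) ^ (1 / 2 : ℝ) with hk
  have hk0 : 0 < k := by rw [hk]; positivity
  set M : ℝ := (C : ℝ) * (8 : ℝ) ^ (α / 2) with hM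
  have hM0 : 0 ≤ M := by rw [hM]; positivity
  have hreduced : ∀ c : ℝ, 0 < c → c ≤ 1 / 2 → k ≤ M * c ^ β := by
    intro c hc hc2
    have h1 := hb c hc hc2
    have e1 : (c / 16) ^ (1 / 2 : ℝ) = c ^ (1 / 2 : ℝ) * k := by
      rw [hk, ← Real.mul_rpow hc.le (by norm_num)]
      congr 1
      ring
    have e2 : (8 * c ^ 3) ^ (α / 2) = (8 : ℝ) ^ (α / 2) * (c ^ (1 / 2 : ℝ) * c ^ β) := by
      rw [Real.mul_rpow (by norm_num) (by positivity), ← Real.rpow_add hc]
      congr 1
      rw [← Real.rpow_natCast c 3, ← Real.rpow_mul hc.le, hβ]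
      congr 1
      push_cast
      ring
    rw [e1, e2] at h1
    have hpos : 0 < c ^ (1 / 2 : ℝ) := by positivity
    have h2 : c ^ (1 / 2 : ℝ) * k ≤ c ^ (1 / 2 : ℝ) * (M * c ^ β) := by
      calc c ^ (1 / 2 : ℝ) * k ≤ (C : ℝ) * ((8 : ℝ) ^ (α / 2) * (c ^ (1 / 2 : ℝ) * c ^ β)) := h1
        _ = c ^ (1 / 2 : ℝ) * (M * c ^ β) := by rw [hM]; ring
    exact le_of_mul_le_mul_left h2 hpos
  -- choose `c` small
  set ε : ℝ := k / (2 * (M + 1)) with hε
  have hε0 : 0 < ε := by rw [hε]; positivity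
  set c : ℝ := min (1 / 2) (ε ^ (1 / β)) with hc
  have hc0 : 0 < c := lt_min (by norm_num) (by positivity)
  have hcβ : c ^ β ≤ ε := by
    calc c ^ β ≤ (ε ^ (1 / β)) ^ β := Real.rpow_le_rpow hc0.le (min_le_right _ _) hβ0.le
      _ = ε := by
        rw [← Real.rpow_mul hε0.le, one_div, inv_mul_cancel₀ hβ0.ne', Real.rpow_one]
  have hfinal := hreduced c hc0 (min_le_left _ _)
  have hlt : M * c ^ β < k := by
    calc M * c ^ β ≤ M * ε := by gcongr
      _ = k * (M / (2 * (M + 1))) := by rw [hε]; field_simp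
      _ < k * 1 := by
        apply mul_lt_mul_of_pos_left _ hk0
        rw [div_lt_one (by positivity)]
        linarith
      _ = k := mul_one k
  linarith

/-- Main theorem: no exponent above `1/3` is admissible in any dimension `d ≥ 2`. -/
theorem main (d : ℕ) (hd : 2 ≤ d) :
    (∀ α : ℝ, 1 / 3 < α → ¬ Admissible d α) ∧
      sSup {α : ℝ | 0 < α ∧ α ≤ 1 ∧ Admissible d α} ≤ 1 / 3 ∧ ¬ Admissible d (1 / 2) := by
  obtain ⟨n, rfl⟩ : ∃ n, d = n + 2 := ⟨d - 2, by omega⟩
  have h := fun α hα => not_admissible n α hα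
  refine ⟨h, ?_, h _ (by norm_num)⟩
  refine Real.sSup_le ?_ (by norm_num)
  rintro α ⟨_, _, hadm⟩
  by_contra hlt
  exact h α (not_le.mp hlt) hadm

end explicit

end Vale.Agent.Lib.P074
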