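import Vale.Agent.Lib.P074.Disc
import Vale.Agent.Lib.P074.Cyc

open MeasureTheory Set Filter Topology
open scoped ENNReal NNReal RealInnerProductSpace

namespace Vale.Agent.Lib.P074

/-- Pushforwards under maps that factor through a finite set are determined by the masses. -/
theorem map_finite_eq {X X' I Z : Type*} [MeasurableSpace X] [MeasurableSpace X'] [MeasurableSpace Z]
    [Fintype I] {ν : Measure X} {ν' : Measure X'} {L : X → I} {L' : X' → I}
    (hL : ∀ k, MeasurableSet (L ⁻¹' {k})) (hL' : ∀ k, MeasurableSet (L' ⁻¹' {k}))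
    (h : ∀ k, ν (L ⁻¹' {k}) = ν' (L' ⁻¹' {k})) (G : I → Z) :
    ν.map (fun x => G (L x)) = ν'.map (fun x => G (L' x)) := by
  classical
  ext S hS
  rw [Measure.map_apply (measurable_of_fibers hL G) hS,
    Measure.map_apply (measurable_of_fibers hL' G) hS]
  have e1 : (fun x => G (L x)) ⁻¹' S = L ⁻¹' ↑(Finset.univ.filter fun k => G k ∈ S) := by
    ext x
    simp
  have e2 : (fun x => G (L' x)) ⁻¹' S = L' ⁻¹' ↑(Finset.univ.filter fun k => G k ∈ S) := by
    ext x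
    simp
  rw [e1, e2, ← sum_measure_preimage_singleton _ (fun y _ => hL y),
    ← sum_measure_preimage_singleton _ (fun y _ => hL' y)]
  exact Finset.sum_congr rfl fun k _ => h k

variable {d : ℕ}

/-- The stability estimate against a coupling presented through two maps. -/
theorem stab_pull (hd : 1 ≤ d) {K : Set (E d)} (hK : IsCompact K) (hconv : Convex ℝ K)
    {c : E d} {δ : ℝ} (hδ : 0 < δ) (hball : Metric.closedBall c δ ⊆ K)
    {RK RY : ℝ} (hRK : ∀ x ∈ K, ‖x‖ ≤ RK)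
    {T₀ T₁ : E d → E d} (hT₀ : Measurable T₀) (hT₁ : Measurable T₁)
    (hY₀ : ∀ x, ‖T₀ x‖ ≤ RY) (hY₁ : ∀ x, ‖T₁ x‖ ≤ RY) {φ₀ φ₁ : E d → ℝ}
    (hsub₀ : ∀ᵐ x ∂(volume.restrict K), IsSubgrad K φ₀ x (T₀ x))
    (hsub₁ : ∀ᵐ x ∂(volume.restrict K), IsSubgrad K φ₁ x (T₁ x))
    {X : Type*} [MeasurableSpace X] {π : Measure X} {f₀ f₁ : X → E d} (hf₀ : Measurable f₀)
    (hf₁ : Measurable f₁) (h₀ : (uniformProb K).map T₀ = π.map f₀)
    (h₁ : (uniformProb K).map T₁ = π.map f₁) :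
    ∫ x, ‖T₀ x - T₁ x‖ ^ 2 ∂(uniformProb K) ≤
      (2 * RY * d * (2 * RK + 6 * RY * d / δ)) * Real.sqrt (∫ p, ‖f₀ p - f₁ p‖ ∂π) := by
  set π' : Measure (E d × E d) := π.map fun p => (f₀ p, f₁ p) with hπ'
  have hm : Measurable fun p => (f₀ p, f₁ p) := hf₀.prodMk hf₁
  have hπ₀ : π'.map Prod.fst = (uniformProb K).map T₀ := by
    rw [hπ', Measure.map_map measurable_fst hm, h₀]
    rfl
  have hπ₁ : π'.map Prod.snd = (uniformProb K).map T₁ := by
    rw [hπ', Measure.map_map measurable_snd hm, h₁]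
    rfl
  have hmain := stability_real hK hconv hδ hball hd hRK hT₀ hT₁ hY₀ hY₁ hsub₀ hsub₁ π' hπ₀ hπ₁
  have e : ∫ q, ‖q.1 - q.2‖ ∂π' = ∫ p, ‖f₀ p - f₁ p‖ ∂π := by
    rw [hπ', integral_map hm.aemeasurable (by fun_prop)]
  rwa [e] at hmain

/-- The four term inequality. -/
theorem four_term {ρ : Measure (E d)} [IsFiniteMeasure ρ] {A B C D F : E d → E d}
    (hA : Measurable A) (hB : Measurable B) (hC : Measurable C) (hD : Measurable D)
    (hF : Measurable F) {R : ℝ} (hAb : ∀ x, ‖A x‖ ≤ R) (hBb : ∀ x, ‖B x‖ ≤ R) (hCb : ∀ x, ‖C x‖ ≤ R)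
    (hDb : ∀ x, ‖D x‖ ≤ R) (hFb : ∀ x, ‖F x‖ ≤ R) :
    ∫ x, ‖A x - F x‖ ^ 2 ∂ρ ≤ 4 * (∫ x, ‖A x - B x‖ ^ 2 ∂ρ + ∫ x, ‖B x - C x‖ ^ 2 ∂ρ +
      ∫ x, ‖C x - D x‖ ^ 2 ∂ρ + ∫ x, ‖D x - F x‖ ^ 2 ∂ρ) := by
  have hint : ∀ P Q : E d → E d, Measurable P → Measurable Q → (∀ x, ‖P x‖ ≤ R) → (∀ x, ‖Q x‖ ≤ R) →
      Integrable (fun x => ‖P x - Q x‖ ^ 2) ρ := by
    intro P Q hP hQ hPb hQb
    refine Integrable.of_bound (C := (R + R) ^ 2) ((hP.sub hQ).norm.pow_const 2).aestronglyMeasurable ?_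
    filter_upwards with x
    rw [Real.norm_eq_abs, abs_of_nonneg (by positivity)]
    have := norm_sub_le (P x) (Q x)
    gcongr
    linarith [hPb x, hQb x]
  have i1 := hint A B hA hB hAb hBb
  have i2 := hint B C hB hC hBb hCb
  have i3 := hint C D hC hD hCb hDb
  have i4 := hint D F hD hF hDb hFb
  have i0 := hint A F hA hF hAb hFb
  have i12 : Integrable (fun x => ‖A x - B x‖ ^ 2 + ‖B x - C x‖ ^ 2) ρ := i1.add i2
  have i123 : Integrable (fun x => ‖A x - B x‖ ^ 2 + ‖B x - C x‖ ^ 2 + ‖C x - D x‖ ^ 2) ρ := i12.add i3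
  have i1234 : Integrable (fun x => ‖A x - B x‖ ^ 2 + ‖B x - C x‖ ^ 2 + ‖C x - D x‖ ^ 2 +
      ‖D x - F x‖ ^ 2) ρ := i123.add i4
  have e0 : ∫ x, (‖A x - B x‖ ^ 2 + ‖B x - C x‖ ^ 2 + ‖C x - D x‖ ^ 2 + ‖D x - F x‖ ^ 2) ∂ρ =
      ∫ x, ‖A x - B x‖ ^ 2 ∂ρ + ∫ x, ‖B x - C x‖ ^ 2 ∂ρ + ∫ x, ‖C x - D x‖ ^ 2 ∂ρ +
        ∫ x, ‖D x - F x‖ ^ 2 ∂ρ := by
    rw [integral_add i123 i4, integral_add i12 i3, integral_add i1 i2]
  rw [← e0, ← integral_const_mul]
  apply integral_mono i0 (i1234.const_mul 4)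
  intro x
  simp only
  have e : A x - F x = (A x - B x) + (B x - C x) + (C x - D x) + (D x - F x) := by abel
  have h1 : ‖A x - F x‖ ≤ ‖A x - B x‖ + ‖B x - C x‖ + ‖C x - D x‖ + ‖D x - F x‖ := by
    rw [e]
    calc _ ≤ ‖(A x - B x) + (B x - C x) + (C x - D x)‖ + ‖D x - F x‖ := norm_add_le _ _
      _ ≤ ‖(A x - B x) + (B x - C x)‖ + ‖C x - D x‖ + ‖D x - F x‖ := by gcongr; exact norm_add_le _ _
      _ ≤ _ := by gcongr; exact norm_add_le _ _
  generalize ‖A x - B x‖ = a at *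
  generalize ‖B x - C x‖ = b at *
  generalize ‖C x - D x‖ = c at *
  generalize ‖D x - F x‖ = g at *
  have h0 : 0 ≤ ‖A x - F x‖ := norm_nonneg _
  have h2 : ‖A x - F x‖ ^ 2 ≤ (a + b + c + g) ^ 2 := pow_le_pow_left₀ h0 h1 2
  nlinarith [sq_nonneg (a - b), sq_nonneg (a - c), sq_nonneg (a - g), sq_nonneg (b - c),
    sq_nonneg (b - g), sq_nonneg (c - g)]

/-- The mass of a label. -/
noncomputable def massOf {I : Type*} (π : Measure (E 2 × E 2)) (κ : E 2 × E 2 → I) (k : I) : ℝ :=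
  (π (κ ⁻¹' {k})).toReal

variable {I : Type*} [Fintype I]

omit [Fintype I] in
theorem massOf_nonneg (π : Measure (E 2 × E 2)) (κ : E 2 × E 2 → I) (k : I) : 0 ≤ massOf π κ k :=
  ENNReal.toReal_nonneg

open Classical in
theorem sum_massOf {π : Measure (E 2 × E 2)} [IsProbabilityMeasure π] {κ : E 2 × E 2 → I}
    (hκ : ∀ k, MeasurableSet (κ ⁻¹' {k})) : ∑ k : {k // 0 < massOf π κ k}, massOf π κ k.1 = 1 := by
  have h1 : ∑ k, π (κ ⁻¹' {k}) = 1 := by
    rw [sum_measure_preimage_singleton _ (fun y _ => hκ y)]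
    simp
  have h2 : ∑ k, massOf π κ k = 1 := by
    unfold massOf
    rw [← ENNReal.toReal_sum (fun k _ => measure_ne_top π _), h1]
    simp
  rw [← h2, ← Finset.sum_subtype (Finset.univ.filter fun k => 0 < massOf π κ k)
    (by simp) (massOf π κ)]
  apply Finset.sum_filter_of_ne
  intro k _ hk
  exact lt_of_le_of_ne (massOf_nonneg π κ k) (Ne.symm hk)

/-- Pushforward under a map into a subtype of a finite type. -/
theorem push_subtype {X X' Z : Type*} [MeasurableSpace X] [MeasurableSpace X'] [MeasurableSpace Z]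
    {p : I → Prop} [Fintype {k // p k}] {ν : Measure X} {ν' : Measure X'}
    {sel : X → {k // p k}} {κ : X' → I}
    (hm : ∀ i, MeasurableSet (sel ⁻¹' {i})) (hκ : ∀ k, MeasurableSet (κ ⁻¹' {k}))
    (hmass : ∀ i : {k // p k}, ν (sel ⁻¹' {i}) = ν' (κ ⁻¹' {i.1}))
    (hzero : ∀ k, ¬ p k → ν' (κ ⁻¹' {k}) = 0) (G : I → Z) :
    ν.map (fun x => G (sel x).1) = ν'.map (fun x => G (κ x)) := by
  classical
  set L : X → I := fun x => (sel x).1 with hL
  have hfib : ∀ k, L ⁻¹' {k} = if h : p k then sel ⁻¹' {⟨k, h⟩} else ∅ := by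
    intro k
    by_cases h : p k
    · rw [dif_pos h]
      ext x
      simp only [hL, mem_preimage, mem_singleton_iff]
      constructor
      · intro hx
        exact Subtype.ext hx
      · intro hx
        rw [hx]
    · rw [dif_neg h]
      ext x
      simp only [hL, mem_preimage, mem_singleton_iff, mem_empty_iff_false, iff_false]
      intro hx
      apply h
      rw [← hx]
      exact (sel x).2
  have hLm : ∀ k, MeasurableSet (L ⁻¹' {k}) := by
    intro k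
    rw [hfib]
    by_cases h : p k
    · rw [dif_pos h]
      exact hm _
    · rw [dif_neg h]
      exact MeasurableSet.empty
  have hLmass : ∀ k, ν (L ⁻¹' {k}) = ν' (κ ⁻¹' {k}) := by
    intro k
    rw [hfib]
    by_cases h : p k
    · rw [dif_pos h, hmass]
    · rw [dif_neg h, measure_empty, hzero k h]
  exact map_finite_eq hLm hκ hLmass G

theorem measure_eq_zero_of_not_pos {π : Measure (E 2 × E 2)} [IsFiniteMeasure π]
    {κ : E 2 × E 2 → I} {k : I} (h : ¬ 0 < massOf π κ k) : π (κ ⁻¹' {k}) = 0 := by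
  have h0 : massOf π κ k = 0 := le_antisymm (not_lt.mp h) (massOf_nonneg π κ k)
  unfold massOf at h0
  rcases (ENNReal.toReal_eq_zero_iff _).mp h0 with h1 | h1
  · exact h1
  · exact absurd h1 (measure_ne_top π _)

open Classical in
/-- Existence of the potentials of a configuration of atoms labelled by the masses of a coupling, and
their pushforward. -/
theorem stage_exists {K : Set (E 2)} (hK : IsCompact K) (hKpos : volume K ≠ 0) {RK : ℝ}
    (hRK : ∀ x ∈ K, ‖x‖ ≤ RK) (hRK0 : 0 ≤ RK)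
    {π : Measure (E 2 × E 2)} [IsProbabilityMeasure π] {κ : E 2 × E 2 → I}
    (hκ : ∀ k, MeasurableSet (κ ⁻¹' {k})) [Nonempty {k // 0 < massOf π κ k}] {G : I → E 2}
    (hG : Function.Injective fun k : {k // 0 < massOf π κ k} => G k.1) :
    ∃ (ψ : {k // 0 < massOf π κ k} → ℝ) (sel : E 2 → {k // 0 < massOf π κ k}),
      (∀ i, MeasurableSet (sel ⁻¹' {i})) ∧
      (∀ x, Mx (fun k : {k // 0 < massOf π κ k} => G k.1) ψ x =
        ⟪x, G (sel x).1⟫ - ψ (sel x)) ∧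
      (∀ i, uniformProb K (sel ⁻¹' {i}) = ENNReal.ofReal (massOf π κ i.1)) ∧
      (uniformProb K).map (fun x => G (sel x).1) = π.map (fun p => G (κ p)) := by
  have hKm : MeasurableSet K := hK.isClosed.measurableSet
  have hKfin : volume K ≠ ∞ := hK.measure_lt_top.ne
  have hprob : IsProbabilityMeasure (uniformProb K) := by
    constructor
    simp only [uniformProb, Measure.smul_apply, smul_eq_mul, Measure.restrict_apply_univ]
    exact ENNReal.inv_mul_cancel hKpos hKfin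
  have h1 : ∀ᵐ x ∂(uniformProb K), ‖x‖ ≤ RK := uniformProb_ae_norm_le hKm hRK
  have hsum : ∑ k : {k // 0 < massOf π κ k}, massOf π κ k.1 = 1 := sum_massOf hκ
  have hpos : ∀ k : {k // 0 < massOf π κ k}, 0 < massOf π κ k.1 := fun k => k.2
  have hac : uniformProb K ≪ volume := uniformProb_ac_volume
  obtain ⟨ψ, sel, hm, hval, hmass⟩ := exists_semidiscrete h1 hRK0 hac hG hpos hsum
  refine ⟨ψ, sel, hm, hval, hmass, ?_⟩
  apply push_subtype hm hκ _ (fun k h => measure_eq_zero_of_not_pos h) G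
  intro i
  rw [hmass i]
  exact ENNReal.ofReal_toReal (measure_ne_top π _)

end Vale.Agent.Lib.P074
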