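import Vale.Agent.Lib.P074.Master

open MeasureTheory Set Filter Topology
open scoped ENNReal NNReal RealInnerProductSpace

namespace Vale.Agent.Lib.P074

/-- Integrals of functions bounded almost everywhere with respect to a probability measure. -/
theorem integral_le_of_ae_le {X : Type*} [MeasurableSpace X] {π : Measure X} [IsProbabilityMeasure π]
    {f : X → ℝ} {B : ℝ} (hB : ∀ᵐ p ∂π, f p ≤ B) (hf0 : ∀ p, 0 ≤ f p) (hfm : Measurable f) :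
    ∫ p, f p ∂π ≤ B := by
  have h1 : Integrable f π := by
    refine Integrable.of_bound hfm.aestronglyMeasurable B ?_
    filter_upwards [hB] with p hp
    rw [Real.norm_eq_abs, abs_of_nonneg (hf0 p)]
    exact hp
  have := integral_mono_ae h1 (integrable_const B) hB
  simpa using this

variable {I : Type*} [Fintype I]

/-- One application of the stability estimate, for a finite stage and an almost everywhere bound. -/
theorem stab_ae {K : Set (E 2)} (hK : IsCompact K) (hconv : Convex ℝ K)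
    {c : E 2} {δ₀ : ℝ} (hδ₀ : 0 < δ₀) (hball : Metric.closedBall c δ₀ ⊆ K)
    {RK RY : ℝ} (hRK : ∀ x ∈ K, ‖x‖ ≤ RK) (hRK0 : 0 ≤ RK) (hRY : 0 ≤ RY)
    {T₀ T₁ : E 2 → E 2} (hT₀ : Measurable T₀) (hT₁ : Measurable T₁)
    (hY₀ : ∀ x, ‖T₀ x‖ ≤ RY) (hY₁ : ∀ x, ‖T₁ x‖ ≤ RY) {φ₀ φ₁ : E 2 → ℝ}
    (hsub₀ : ∀ᵐ x ∂(volume.restrict K), IsSubgrad K φ₀ x (T₀ x))
    (hsub₁ : ∀ᵐ x ∂(volume.restrict K), IsSubgrad K φ₁ x (T₁ x))
    {X : Type*} [MeasurableSpace X] {π : Measure X} {f₀ f₁ : X → E 2} (hf₀ : Measurable f₀)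
    (hf₁ : Measurable f₁) (h₀ : (uniformProb K).map T₀ = π.map f₀)
    (h₁ : (uniformProb K).map T₁ = π.map f₁) {B : ℝ} (hB : ∫ p, ‖f₀ p - f₁ p‖ ∂π ≤ B) :
    ∫ x, ‖T₀ x - T₁ x‖ ^ 2 ∂(uniformProb K) ≤
      (2 * RY * (2 : ℕ) * (2 * RK + 6 * RY * (2 : ℕ) / δ₀)) * Real.sqrt B := by
  refine (stab_pull (by norm_num) hK hconv hδ₀ hball hRK hT₀ hT₁ hY₀ hY₁ hsub₀ hsub₁ hf₀ hf₁ h₀ h₁).trans ?_
  apply mul_le_mul_of_nonneg_left (Real.sqrt_le_sqrt hB)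
  positivity

open Classical in
/-- A nonempty set of labels of positive mass. -/
theorem nonempty_massOf {π : Measure (E 2 × E 2)} [IsProbabilityMeasure π] {κ : E 2 × E 2 → I}
    (hκ : ∀ k, MeasurableSet (κ ⁻¹' {k})) : Nonempty {k // 0 < massOf π κ k} := by
  by_contra hne
  rw [not_nonempty_iff] at hne
  have h := sum_massOf (π := π) hκ
  rw [Fintype.sum_empty] at h
  exact zero_ne_one h

omit [Fintype I] in
/-- Labels of positive mass contain a good point. -/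
theorem exists_pt_of_mass {π : Measure (E 2 × E 2)} [IsProbabilityMeasure π] {κ : E 2 × E 2 → I}
    {RY : ℝ} (hae : ∀ᵐ p ∂π, ‖p.1‖ ≤ RY ∧ ‖p.2‖ ≤ RY) (k : I) (hk : 0 < massOf π κ k) :
    ∃ p : E 2 × E 2, κ p = k ∧ ‖p.1‖ ≤ RY ∧ ‖p.2‖ ≤ RY := by
  by_contra hno
  push Not at hno
  have h0 : π (κ ⁻¹' {k}) = 0 := by
    apply measure_mono_null _ (ae_iff.mp hae)
    intro p hp
    simp only [mem_ofPred_eq, not_and, not_le]
    exact fun h1 => hno p hp h1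
  unfold massOf at hk
  rw [h0] at hk
  simp at hk

/-- The intermediate configuration. -/
noncomputable def mixG (f : I → Bool) (a e : I → E 2) : I → E 2 := fun k => if f k then e k else a k

omit [Fintype I] in
theorem mixG_cases (f : I → Bool) (a e : I → E 2) (k : I) :
    mixG f a e k = a k ∨ mixG f a e k = e k := by
  unfold mixG
  split_ifs
  · exact Or.inr rfl
  · exact Or.inl rfl

omit [Fintype I] in
/-- Bounds on the atoms. -/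
theorem atoms_bound {π : Measure (E 2 × E 2)} [IsProbabilityMeasure π] {κ : E 2 × E 2 → I}
    {a e : I → E 2} {f : I → Bool} {RY δ η : ℝ} (hη2 : η ≤ 1 / 2)
    (hae : ∀ᵐ p ∂π, ‖p.1‖ ≤ RY ∧ ‖p.2‖ ≤ RY)
    (hgood : ∀ p : E 2 × E 2, ‖p.1‖ ≤ RY → ‖p.2‖ ≤ RY → ‖p.1 - a (κ p)‖ ≤ 2 * η ∧
      ‖p.2 - e (κ p)‖ ≤ 2 * η ∧ (f (κ p) = true ↔ ‖p.1 - p.2‖ ≤ δ))
    (k : I) (hk : 0 < massOf π κ k) :
    ‖a k‖ ≤ RY + 1 ∧ ‖e k‖ ≤ RY + 1 ∧ ‖mixG f a e k‖ ≤ RY + 1 := by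
  obtain ⟨p, hp, h1, h2⟩ := exists_pt_of_mass hae k hk
  obtain ⟨h3, h4, -⟩ := hgood p h1 h2
  rw [hp] at h3 h4
  have ha : ‖a k‖ ≤ RY + 1 := by
    have h5 : ‖a k‖ ≤ ‖p.1‖ + ‖p.1 - a k‖ := by
      have := norm_sub_le p.1 (p.1 - a k)
      simpa using this
    linarith
  have he : ‖e k‖ ≤ RY + 1 := by
    have h5 : ‖e k‖ ≤ ‖p.2‖ + ‖p.2 - e k‖ := by
      have := norm_sub_le p.2 (p.2 - e k)
      simpa using this
    linarith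
  refine ⟨ha, he, ?_⟩
  rcases mixG_cases f a e k with h | h <;> rw [h] <;> assumption

omit [Fintype I] in
/-- The displacement of the first stage is small. -/
theorem mix_move {π : Measure (E 2 × E 2)} [IsProbabilityMeasure π] {κ : E 2 × E 2 → I}
    {a e : I → E 2} {f : I → Bool} {RY δ η : ℝ} (hδ : 0 < δ) (hη : 0 < η)
    (hae : ∀ᵐ p ∂π, ‖p.1‖ ≤ RY ∧ ‖p.2‖ ≤ RY)
    (hgood : ∀ p : E 2 × E 2, ‖p.1‖ ≤ RY → ‖p.2‖ ≤ RY → ‖p.1 - a (κ p)‖ ≤ 2 * η ∧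
      ‖p.2 - e (κ p)‖ ≤ 2 * η ∧ (f (κ p) = true ↔ ‖p.1 - p.2‖ ≤ δ))
    (k : I) (hk : 0 < massOf π κ k) : ‖a k - mixG f a e k‖ ≤ δ + 4 * η := by
  unfold mixG
  split_ifs with hf
  · obtain ⟨p, hp, h1, h2⟩ := exists_pt_of_mass hae k hk
    obtain ⟨h3, h4, h5⟩ := hgood p h1 h2
    rw [hp] at h3 h4 h5
    have h6 := h5.mp hf
    have e1 : a k - e k = -(p.1 - a k) + (p.1 - p.2) + (p.2 - e k) := by abel
    rw [e1]
    calc _ ≤ ‖-(p.1 - a k) + (p.1 - p.2)‖ + ‖p.2 - e k‖ := norm_add_le _ _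
      _ ≤ ‖-(p.1 - a k)‖ + ‖p.1 - p.2‖ + ‖p.2 - e k‖ := by gcongr; exact norm_add_le _ _
      _ ≤ δ + 4 * η := by rw [norm_neg]; linarith
  · simp only [sub_self, norm_zero]
    positivity

omit [Fintype I] in
/-- Injectivity of the first coordinate of a configuration. -/
theorem config_inj0 {p : I → Prop} {a e H : I → E 2}
    (hxinj : Function.Injective fun q : I × Bool => if q.2 then e q.1 0 else a q.1 0)
    (hH : ∀ k, H k = a k ∨ H k = e k) :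
    Function.Injective fun k : {k // p k} => (H k.1) 0 := by
  intro k k' hkk
  simp only at hkk
  have hq : ∀ k : I, ∃ b : Bool, (H k) 0 = if b then e k 0 else a k 0 := by
    intro k
    rcases hH k with h | h
    · exact ⟨false, by simp [h]⟩
    · exact ⟨true, by simp [h]⟩
  obtain ⟨b, hb⟩ := hq k.1
  obtain ⟨b', hb'⟩ := hq k'.1
  rw [hb, hb'] at hkk
  have := hxinj (a₁ := (k.1, b)) (a₂ := (k'.1, b')) hkk
  exact Subtype.ext (congrArg Prod.fst this)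

omit [Fintype I] in
/-- Injectivity of a configuration. -/
theorem config_inj {p : I → Prop} {a e H : I → E 2}
    (hxinj : Function.Injective fun q : I × Bool => if q.2 then e q.1 0 else a q.1 0)
    (hH : ∀ k, H k = a k ∨ H k = e k) :
    Function.Injective fun k : {k // p k} => H k.1 := by
  intro k k' hkk
  apply config_inj0 hxinj hH
  simp only at hkk ⊢
  rw [hkk]

/-- The transport cost of the second stage. -/
theorem third_integral {π : Measure (E 2 × E 2)} [IsProbabilityMeasure π] {κ : E 2 × E 2 → I}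
    {a e : I → E 2} {f : I → Bool} {RY δ η : ℝ} (hδ : 0 < δ) (hη : 0 < η)
    (hκ : ∀ k, MeasurableSet (κ ⁻¹' {k}))
    (hae : ∀ᵐ p ∂π, ‖p.1‖ ≤ RY ∧ ‖p.2‖ ≤ RY)
    (hgood : ∀ p : E 2 × E 2, ‖p.1‖ ≤ RY → ‖p.2‖ ≤ RY → ‖p.1 - a (κ p)‖ ≤ 2 * η ∧
      ‖p.2 - e (κ p)‖ ≤ 2 * η ∧ (f (κ p) = true ↔ ‖p.1 - p.2‖ ≤ δ)) :
    ∫ p, ‖mixG f a e (κ p) - e (κ p)‖ ∂π ≤ (∫ p, ‖p.1 - p.2‖ ^ 2 ∂π) / δ + 4 * η := by
  have hsqm : Measurable fun p : E 2 × E 2 => ‖p.1 - p.2‖ ^ 2 := by fun_prop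
  have hκG : Measurable fun p => mixG f a e (κ p) := measurable_of_fibers hκ (mixG f a e)
  have hκe : Measurable fun p => e (κ p) := measurable_of_fibers hκ e
  have hint2 : Integrable (fun p : E 2 × E 2 => ‖p.1 - p.2‖ ^ 2) π := by
    refine Integrable.of_bound hsqm.aestronglyMeasurable ((RY + RY) ^ 2) ?_
    filter_upwards [hae] with p hp
    rw [Real.norm_eq_abs, abs_of_nonneg (by positivity)]
    have := norm_sub_le p.1 p.2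
    gcongr
    linarith [hp.1, hp.2]
  have hpt : ∀ᵐ p ∂π, ‖mixG f a e (κ p) - e (κ p)‖ ≤ ‖p.1 - p.2‖ ^ 2 / δ + 4 * η := by
    filter_upwards [hae] with p hp
    obtain ⟨h1, h2, h3⟩ := hgood p hp.1 hp.2
    have hA : 0 ≤ ‖p.1 - p.2‖ ^ 2 / δ := by positivity
    by_cases hf : f (κ p) = true
    · have hG : mixG f a e (κ p) = e (κ p) := if_pos hf
      rw [hG, sub_self, norm_zero]
      positivity
    · have hG : mixG f a e (κ p) = a (κ p) := if_neg hf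
      rw [hG]
      have hgt : δ < ‖p.1 - p.2‖ := by
        by_contra hle
        exact hf (h3.mpr (not_lt.mp hle))
      have hle : ‖p.1 - p.2‖ ≤ ‖p.1 - p.2‖ ^ 2 / δ := by
        rw [le_div_iff₀ hδ]
        nlinarith [norm_nonneg (p.1 - p.2)]
      have e1 : a (κ p) - e (κ p) = -(p.1 - a (κ p)) + (p.1 - p.2) + (p.2 - e (κ p)) := by abel
      rw [e1]
      calc _ ≤ ‖-(p.1 - a (κ p)) + (p.1 - p.2)‖ + ‖p.2 - e (κ p)‖ := norm_add_le _ _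
        _ ≤ ‖-(p.1 - a (κ p))‖ + ‖p.1 - p.2‖ + ‖p.2 - e (κ p)‖ := by gcongr; exact norm_add_le _ _
        _ ≤ _ := by rw [norm_neg]; linarith
  have hint3 : Integrable (fun p : E 2 × E 2 => ‖mixG f a e (κ p) - e (κ p)‖) π := by
    refine Integrable.of_bound (hκG.sub hκe).norm.aestronglyMeasurable
      (((RY + RY) ^ 2) / δ + 4 * η) ?_
    filter_upwards [hae, hpt] with p hp hq
    rw [Real.norm_eq_abs, abs_of_nonneg (norm_nonneg _)]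
    refine hq.trans ?_
    have := norm_sub_le p.1 p.2
    gcongr
    linarith [hp.1, hp.2]
  have hint4 : Integrable (fun p : E 2 × E 2 => ‖p.1 - p.2‖ ^ 2 / δ + 4 * η) π :=
    (hint2.div_const δ).add (integrable_const _)
  have hmono := integral_mono_ae hint3 hint4 hpt
  refine hmono.trans (le_of_eq ?_)
  rw [integral_add (hint2.div_const δ) (integrable_const _), integral_div]
  simp

/-- One of the two outer pieces: comparison with a discretisation. -/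
theorem piece_outer {K : Set (E 2)} (hK : IsCompact K) (hconv : Convex ℝ K)
    {c : E 2} {δ₀ : ℝ} (hδ₀ : 0 < δ₀) (hball : Metric.closedBall c δ₀ ⊆ K)
    {RK RY : ℝ} (hRK : ∀ x ∈ K, ‖x‖ ≤ RK) (hRK0 : 0 ≤ RK) (hRY : 0 ≤ RY)
    {T₀ T₁ : E 2 → E 2} (hT₀ : Measurable T₀) (hT₁ : Measurable T₁)
    (hY₀ : ∀ x, ‖T₀ x‖ ≤ RY) (hY₁ : ∀ x, ‖T₁ x‖ ≤ RY) {φ₀ φ₁ : E 2 → ℝ}
    (hsub₀ : ∀ᵐ x ∂(volume.restrict K), IsSubgrad K φ₀ x (T₀ x))
    (hsub₁ : ∀ᵐ x ∂(volume.restrict K), IsSubgrad K φ₁ x (T₁ x))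
    {π : Measure (E 2 × E 2)} [IsProbabilityMeasure π] {f₀ f₁ : E 2 × E 2 → E 2} (hf₀ : Measurable f₀)
    (hf₁ : Measurable f₁) (h₀ : (uniformProb K).map T₀ = π.map f₀)
    (h₁ : (uniformProb K).map T₁ = π.map f₁) {η : ℝ} (hη : ∀ᵐ p ∂π, ‖f₀ p - f₁ p‖ ≤ η) :
    ∫ x, ‖T₀ x - T₁ x‖ ^ 2 ∂(uniformProb K) ≤
      (2 * RY * (2 : ℕ) * (2 * RK + 6 * RY * (2 : ℕ) / δ₀)) * Real.sqrt η := by
  apply stab_ae hK hconv hδ₀ hball hRK hRK0 hRY hT₀ hT₁ hY₀ hY₁ hsub₀ hsub₁ hf₀ hf₁ h₀ h₁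
  exact integral_le_of_ae_le hη (fun _ => norm_nonneg _) (hf₀.sub hf₁).norm

open Classical in
/-- The stage of a configuration and its basic properties. -/
theorem stage_full {K : Set (E 2)} (hK : IsCompact K) (hKpos : volume K ≠ 0) {RK : ℝ}
    (hRK : ∀ x ∈ K, ‖x‖ ≤ RK) (hRK0 : 0 ≤ RK)
    {π : Measure (E 2 × E 2)} [IsProbabilityMeasure π] {κ : E 2 × E 2 → I}
    (hκ : ∀ k, MeasurableSet (κ ⁻¹' {k})) [Nonempty {k // 0 < massOf π κ k}] {G : I → E 2}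
    (hG : Function.Injective fun k : {k // 0 < massOf π κ k} => G k.1) :
    ∃ (ψ : {k // 0 < massOf π κ k} → ℝ) (sel : E 2 → {k // 0 < massOf π κ k}),
      (∀ i, MeasurableSet (sel ⁻¹' {i})) ∧
      (∀ x, Mx (fun k : {k // 0 < massOf π κ k} => G k.1) ψ x =
        ⟪x, G (sel x).1⟫ - ψ (sel x)) ∧
      (∀ i, uniformProb K (sel ⁻¹' {i}) = ENNReal.ofReal (massOf π κ i.1)) ∧
      (uniformProb K).map (fun x => G (sel x).1) = π.map (fun p => G (κ p)) ∧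
      Measurable (fun x => G (sel x).1) ∧
      ∀ᵐ x ∂(volume.restrict K), IsSubgrad K (Mx (fun k : {k // 0 < massOf π κ k} => G k.1) ψ)
        x (G (sel x).1) := by
  obtain ⟨ψ, sel, hm, hval, hmass, hmap⟩ := stage_exists (π := π) hK hKpos hRK hRK0 hκ hG
  refine ⟨ψ, sel, hm, hval, hmass, hmap, measurable_of_fibers hm fun k => G k.1, ?_⟩
  exact (ae_restrict_iff' hK.isClosed.measurableSet).mpr
    (Filter.Eventually.of_forall fun x hx => isSubgrad_Mx hval hx)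

theorem four_term_eval {ρ : Measure (E 2)} [IsFiniteMeasure ρ] {A B C D F : E 2 → E 2}
    (hA : Measurable A) (hB : Measurable B) (hC : Measurable C) (hD : Measurable D)
    (hF : Measurable F) {R : ℝ} (hAb : ∀ x, ‖A x‖ ≤ R) (hBb : ∀ x, ‖B x‖ ≤ R) (hCb : ∀ x, ‖C x‖ ≤ R)
    (hDb : ∀ x, ‖D x‖ ≤ R) (hFb : ∀ x, ‖F x‖ ≤ R) {b₁ b₂ b₃ b₄ : ℝ}
    (h₁ : ∫ x, ‖A x - B x‖ ^ 2 ∂ρ ≤ b₁) (h₂ : ∫ x, ‖B x - C x‖ ^ 2 ∂ρ ≤ b₂)
    (h₃ : ∫ x, ‖C x - D x‖ ^ 2 ∂ρ ≤ b₃) (h₄ : ∫ x, ‖D x - F x‖ ^ 2 ∂ρ ≤ b₄) :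
    ∫ x, ‖A x - F x‖ ^ 2 ∂ρ ≤ 4 * (b₁ + b₂ + b₃ + b₄) := by
  have := four_term (ρ := ρ) hA hB hC hD hF hAb hBb hCb hDb hFb
  linarith

/-- The master inequality, for a fixed discretisation of the coupling. -/
theorem master_of_disc {K : Set (E 2)} (hK : IsCompact K) (hconv : Convex ℝ K)
    {c : E 2} {δ₀ : ℝ} (hδ₀ : 0 < δ₀) (hball : Metric.closedBall c δ₀ ⊆ K)
    {RK RY : ℝ} (hRK : ∀ x ∈ K, ‖x‖ ≤ RK) (hRK0 : 0 ≤ RK) (hRY : 0 ≤ RY) (hKpos : volume K ≠ 0)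
    {S₀ S₁ : E 2 → E 2} (hS₀ : Measurable S₀) (hS₁ : Measurable S₁)
    (hb₀ : ∀ x, ‖S₀ x‖ ≤ RY) (hb₁ : ∀ x, ‖S₁ x‖ ≤ RY) {φ₀ φ₁ : E 2 → ℝ}
    (hsub₀ : ∀ᵐ x ∂(volume.restrict K), IsSubgrad K φ₀ x (S₀ x))
    (hsub₁ : ∀ᵐ x ∂(volume.restrict K), IsSubgrad K φ₁ x (S₁ x))
    {π : Measure (E 2 × E 2)} [IsProbabilityMeasure π]
    (hae : ∀ᵐ p ∂π, ‖p.1‖ ≤ RY ∧ ‖p.2‖ ≤ RY)
    (hπ₀ : (uniformProb K).map S₀ = π.map Prod.fst)
    (hπ₁ : (uniformProb K).map S₁ = π.map Prod.snd) {δ η : ℝ} (hδ : 0 < δ) (hη : 0 < η)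
    (hη2 : η ≤ 1 / 2) {κ : E 2 × E 2 → I} {a e : I → E 2} {f : I → Bool}
    (hκ : ∀ k, MeasurableSet (κ ⁻¹' {k}))
    (hxinj : Function.Injective fun q : I × Bool => if q.2 then e q.1 0 else a q.1 0)
    (hgood : ∀ p : E 2 × E 2, ‖p.1‖ ≤ RY → ‖p.2‖ ≤ RY → ‖p.1 - a (κ p)‖ ≤ 2 * η ∧
      ‖p.2 - e (κ p)‖ ≤ 2 * η ∧ (f (κ p) = true ↔ ‖p.1 - p.2‖ ≤ δ)) :
    ∫ x, ‖S₀ x - S₁ x‖ ^ 2 ∂(uniformProb K) ≤ 4 *
      ((2 * (RY + 1) * (2 : ℕ) * (2 * RK + 6 * (RY + 1) * (2 : ℕ) / δ₀)) * Real.sqrt (2 * η) +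
       ((2 : ℕ) / δ₀ ^ 2) * ((8 * (2 : ℕ) + 6) * ((RY + 1) * (2 * RK)) * ((δ + 4 * η) * (2 * RK))) +
       (2 * (RY + 1) * (2 : ℕ) * (2 * RK + 6 * (RY + 1) * (2 : ℕ) / δ₀)) *
          Real.sqrt ((∫ p, ‖p.1 - p.2‖ ^ 2 ∂π) / δ + 4 * η) +
       (2 * (RY + 1) * (2 : ℕ) * (2 * RK + 6 * (RY + 1) * (2 : ℕ) / δ₀)) * Real.sqrt (2 * η)) := by
  classical
  have hKfin : volume K ≠ ∞ := hK.measure_lt_top.ne
  have hprob : IsProbabilityMeasure (uniformProb K) := by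
    constructor
    simp only [uniformProb, Measure.smul_apply, smul_eq_mul, Measure.restrict_apply_univ]
    exact ENNReal.inv_mul_cancel hKpos hKfin
  have hR1 : 0 ≤ RY + 1 := by linarith
  have hne : Nonempty {k // 0 < massOf π κ k} := nonempty_massOf hκ
  have hab : ∀ k : {k // 0 < massOf π κ k}, ‖a k.1‖ ≤ RY + 1 := fun k =>
    (atoms_bound hη2 hae hgood k.1 k.2).1
  have heb : ∀ k : {k // 0 < massOf π κ k}, ‖e k.1‖ ≤ RY + 1 := fun k =>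
    (atoms_bound hη2 hae hgood k.1 k.2).2.1
  have hGb : ∀ k : {k // 0 < massOf π κ k}, ‖mixG f a e k.1‖ ≤ RY + 1 := fun k =>
    (atoms_bound hη2 hae hgood k.1 k.2).2.2
  have hmove : ∀ k : {k // 0 < massOf π κ k}, ‖a k.1 - mixG f a e k.1‖ ≤ δ + 4 * η := fun k =>
    mix_move hδ hη hae hgood k.1 k.2
  obtain ⟨ψ₀, sel₀, hm₀, hval₀, hmass₀, hmap₀, hT₀m, hsubT₀⟩ :=
    stage_full (π := π) hK hKpos hRK hRK0 hκ
      (config_inj (p := fun k => 0 < massOf π κ k) hxinj (H := a) fun k => Or.inl rfl)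
  obtain ⟨ψ₁, sel₁, hm₁, hval₁, hmass₁, hmap₁, hT₁m, hsubT₁⟩ :=
    stage_full (π := π) hK hKpos hRK hRK0 hκ
      (config_inj (p := fun k => 0 < massOf π κ k) hxinj (H := mixG f a e) (mixG_cases f a e))
  obtain ⟨ψ₂, sel₂, hm₂, hval₂, hmass₂, hmap₂, hT₂m, hsubT₂⟩ :=
    stage_full (π := π) hK hKpos hRK hRK0 hκ
      (config_inj (p := fun k => 0 < massOf π κ k) hxinj (H := e) fun k => Or.inr rfl)
  have hκa : Measurable fun p => a (κ p) := measurable_of_fibers hκ a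
  have hκG : Measurable fun p => mixG f a e (κ p) := measurable_of_fibers hκ (mixG f a e)
  have hκe : Measurable fun p => e (κ p) := measurable_of_fibers hκ e
  have hb₀' : ∀ x, ‖S₀ x‖ ≤ RY + 1 := fun x => (hb₀ x).trans (by linarith)
  have hb₁' : ∀ x, ‖S₁ x‖ ≤ RY + 1 := fun x => (hb₁ x).trans (by linarith)
  have hI₁ : ∫ x, ‖S₀ x - a (sel₀ x).1‖ ^ 2 ∂(uniformProb K) ≤
      (2 * (RY + 1) * (2 : ℕ) * (2 * RK + 6 * (RY + 1) * (2 : ℕ) / δ₀)) * Real.sqrt (2 * η) := by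
    refine piece_outer hK hconv hδ₀ hball hRK hRK0 hR1 hS₀ hT₀m hb₀' (fun x => hab _) hsub₀ hsubT₀
      measurable_fst hκa hπ₀ hmap₀ ?_
    filter_upwards [hae] with p hp
    exact (hgood p hp.1 hp.2).1
  have hI₂ : ∫ x, ‖a (sel₀ x).1 - mixG f a e (sel₁ x).1‖ ^ 2 ∂(uniformProb K) ≤
      ((2 : ℕ) / δ₀ ^ 2) * ((8 * (2 : ℕ) + 6) * ((RY + 1) * (2 * RK)) * ((δ + 4 * η) * (2 * RK))) :=
    by
      refine finite_stab (ι := {k // 0 < massOf π κ k}) (m := fun k => massOf π κ k.1) hK hconv hδ₀ hball hRK (b := fun k => a k.1) (b' := fun k => mixG f a e k.1) (RY := RY+1) (ε := δ + 4*η) (ψ := ψ₀) (ψ' := ψ₁) (sel := sel₀) (sel' := sel₁) ?_ ?_ ?_ ?_ ?_ ?_ ?_ ?_ ?_ ?_ ?_ ?_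
      · exact hab
      · exact hGb
      · exact hm₀
      · exact hm₁
      · exact hval₀
      · exact hval₁
      · exact (fun k => k.2)
      · exact (sum_massOf hκ)
      · exact hmass₀
      · exact hmass₁
      · exact (config_inj0 (p := fun k => 0 < massOf π κ k) (H := mixG f a e) hxinj (mixG_cases f a e))
      · exact hmove
  have hI₃ : ∫ x, ‖mixG f a e (sel₁ x).1 - e (sel₂ x).1‖ ^ 2 ∂(uniformProb K) ≤
      (2 * (RY + 1) * (2 : ℕ) * (2 * RK + 6 * (RY + 1) * (2 : ℕ) / δ₀)) *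
        Real.sqrt ((∫ p, ‖p.1 - p.2‖ ^ 2 ∂π) / δ + 4 * η) :=
    stab_ae hK hconv hδ₀ hball hRK hRK0 hR1 hT₁m hT₂m (fun x => hGb _) (fun x => heb _) hsubT₁ hsubT₂
      hκG hκe hmap₁ hmap₂ (third_integral hδ hη hκ hae hgood)
  have hI₄ : ∫ x, ‖e (sel₂ x).1 - S₁ x‖ ^ 2 ∂(uniformProb K) ≤
      (2 * (RY + 1) * (2 : ℕ) * (2 * RK + 6 * (RY + 1) * (2 : ℕ) / δ₀)) * Real.sqrt (2 * η) := by
    refine piece_outer hK hconv hδ₀ hball hRK hRK0 hR1 hT₂m hS₁ (fun x => heb _) hb₁' hsubT₂ hsub₁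
      hκe measurable_snd hmap₂ hπ₁ ?_
    filter_upwards [hae] with p hp
    rw [norm_sub_rev]
    exact (hgood p hp.1 hp.2).2.1
  exact four_term_eval hS₀ hT₀m hT₁m hT₂m hS₁ hb₀' (fun x => hab _) (fun x => hGb _) (fun x => heb _)
    hb₁' hI₁ hI₂ hI₃ hI₄

/-- The master inequality: the `L²` distance of two gradients of convex functions with a coupling of
their push-forwards. -/
theorem master {K : Set (E 2)} (hK : IsCompact K) (hconv : Convex ℝ K)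
    {c : E 2} {δ₀ : ℝ} (hδ₀ : 0 < δ₀) (hball : Metric.closedBall c δ₀ ⊆ K)
    {RK RY : ℝ} (hRK : ∀ x ∈ K, ‖x‖ ≤ RK) (hRY : 0 ≤ RY)
    {S₀ S₁ : E 2 → E 2} (hS₀ : Measurable S₀) (hS₁ : Measurable S₁)
    (hb₀ : ∀ x, ‖S₀ x‖ ≤ RY) (hb₁ : ∀ x, ‖S₁ x‖ ≤ RY) {φ₀ φ₁ : E 2 → ℝ}
    (hsub₀ : ∀ᵐ x ∂(volume.restrict K), IsSubgrad K φ₀ x (S₀ x))
    (hsub₁ : ∀ᵐ x ∂(volume.restrict K), IsSubgrad K φ₁ x (S₁ x))
    {π : Measure (E 2 × E 2)} [IsProbabilityMeasure π]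
    (hae : ∀ᵐ p ∂π, ‖p.1‖ ≤ RY ∧ ‖p.2‖ ≤ RY)
    (hπ₀ : (uniformProb K).map S₀ = π.map Prod.fst)
    (hπ₁ : (uniformProb K).map S₁ = π.map Prod.snd) {δ η : ℝ} (hδ : 0 < δ) (hη : 0 < η)
    (hη2 : η ≤ 1 / 2) :
    ∫ x, ‖S₀ x - S₁ x‖ ^ 2 ∂(uniformProb K) ≤ 4 *
      ((2 * (RY + 1) * (2 : ℕ) * (2 * RK + 6 * (RY + 1) * (2 : ℕ) / δ₀)) * Real.sqrt (2 * η) +
       ((2 : ℕ) / δ₀ ^ 2) * ((8 * (2 : ℕ) + 6) * ((RY + 1) * (2 * RK)) * ((δ + 4 * η) * (2 * RK))) +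
       (2 * (RY + 1) * (2 : ℕ) * (2 * RK + 6 * (RY + 1) * (2 : ℕ) / δ₀)) *
          Real.sqrt ((∫ p, ‖p.1 - p.2‖ ^ 2 ∂π) / δ + 4 * η) +
       (2 * (RY + 1) * (2 : ℕ) * (2 * RK + 6 * (RY + 1) * (2 : ℕ) / δ₀)) * Real.sqrt (2 * η)) := by
  have hKpos : volume K ≠ 0 :=
    (lt_of_lt_of_le (Metric.measure_closedBall_pos volume c hδ₀) (measure_mono hball)).ne'
  have hcK : c ∈ K := hball (Metric.mem_closedBall_self hδ₀.le)
  have hRK0 : 0 ≤ RK := (norm_nonneg _).trans (hRK c hcK)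
  obtain ⟨I, hIfin, κ, a, e, f, hκ, hxinj, hgood⟩ := exists_disc RY δ hη
  exact master_of_disc hK hconv hδ₀ hball hRK hRK0 hRY hKpos hS₀ hS₁ hb₀ hb₁ hsub₀ hsub₁ hae hπ₀ hπ₁
    hδ hη hη2 hκ hxinj hgood

end Vale.Agent.Lib.P074
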