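import Mathlib

open MeasureTheory Set Filter Topology

namespace Vale.Agent.Lib.P074

/-- If `-t` is a supergradient of the concave `f` at `s₀` relative to the point `s`, and `a` lies
between `s₀` and `s`, then `f s ≤ f a - t (s - a)`. -/
theorem concave_le_of_between {f : ℝ → ℝ} {l r : ℝ} (hf : ConcaveOn ℝ (Icc l r) f) {t s₀ a s : ℝ}
    (hs₀ : s₀ ∈ Icc l r) (hs : s ∈ Icc l r) (h : f s ≤ f s₀ - t * (s - s₀))
    (ha : a ∈ uIcc s₀ s) : f s ≤ f a - t * (s - a) := by
  by_cases hne : s₀ = s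
  · subst hne
    simp only [uIcc_self, mem_singleton_iff] at ha
    subst ha
    simp
  have hd : s - s₀ ≠ 0 := sub_ne_zero.mpr (Ne.symm hne)
  set lam : ℝ := (s - a) / (s - s₀) with hlam
  have hmem : a ∈ Icc (min s₀ s) (max s₀ s) := by simpa [uIcc] using ha
  have hlam0 : 0 ≤ lam := by
    rw [hlam]
    rcases le_total s₀ s with h1 | h1
    · rw [min_eq_left h1, max_eq_right h1] at hmem
      exact div_nonneg (by linarith [hmem.2]) (by linarith)
    · rw [min_eq_right h1, max_eq_left h1] at hmem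
      exact div_nonneg_of_nonpos (by linarith [hmem.1]) (by linarith)
  have hlam1 : lam ≤ 1 := by
    rw [hlam]
    rcases le_total s₀ s with h1 | h1
    · rw [min_eq_left h1, max_eq_right h1] at hmem
      have hpos : 0 < s - s₀ := lt_of_le_of_ne (by linarith) (Ne.symm hd)
      rw [div_le_one hpos]
      linarith [hmem.1]
    · rw [min_eq_right h1, max_eq_left h1] at hmem
      have hneg : s - s₀ < 0 := lt_of_le_of_ne (by linarith) hd
      rw [div_le_one_of_neg hneg]
      linarith [hmem.2]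
  have hlamd : lam * (s - s₀) = s - a := by
    rw [hlam]; field_simp
  have hcomb : lam • s₀ + (1 - lam) • s = a := by
    simp only [smul_eq_mul]
    linarith
  have hc := hf.2 hs₀ hs hlam0 (sub_nonneg.mpr hlam1) (add_sub_cancel lam 1)
  rw [hcomb] at hc
  simp only [smul_eq_mul] at hc
  have h2 : lam * (f s + t * (s - s₀)) ≤ lam * f s₀ :=
    mul_le_mul_of_nonneg_left (by linarith) hlam0
  have h3 : lam * (f s + t * (s - s₀)) = lam * f s + t * (s - a) := by
    rw [← hlamd]; ring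
  nlinarith

/-- If `-t` is a supergradient of the concave `f` at `s₁` relative to the point `a`, and `s` lies
between `a` and `s₁`, then `f a - t (s - a) ≤ f s`. -/
theorem concave_ge_of_between {f : ℝ → ℝ} {l r : ℝ} (hf : ConcaveOn ℝ (Icc l r) f) {t s₁ a s : ℝ}
    (ha : a ∈ Icc l r) (hs₁ : s₁ ∈ Icc l r) (h : f a ≤ f s₁ - t * (a - s₁))
    (hs : s ∈ uIcc a s₁) : f a - t * (s - a) ≤ f s := by
  by_cases hne : a = s₁
  · subst hne
    simp only [uIcc_self, mem_singleton_iff] at hs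
    subst hs
    simp
  have hd : s₁ - a ≠ 0 := sub_ne_zero.mpr (Ne.symm hne)
  set lam : ℝ := (s₁ - s) / (s₁ - a) with hlam
  have hmem : s ∈ Icc (min a s₁) (max a s₁) := by simpa [uIcc] using hs
  have hlam0 : 0 ≤ lam := by
    rw [hlam]
    rcases le_total a s₁ with h1 | h1
    · rw [min_eq_left h1, max_eq_right h1] at hmem
      exact div_nonneg (by linarith [hmem.2]) (by linarith)
    · rw [min_eq_right h1, max_eq_left h1] at hmem
      exact div_nonneg_of_nonpos (by linarith [hmem.1]) (by linarith)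
  have hlam1 : lam ≤ 1 := by
    rw [hlam]
    rcases le_total a s₁ with h1 | h1
    · rw [min_eq_left h1, max_eq_right h1] at hmem
      have hpos : 0 < s₁ - a := lt_of_le_of_ne (by linarith) (Ne.symm hd)
      rw [div_le_one hpos]
      linarith [hmem.1]
    · rw [min_eq_right h1, max_eq_left h1] at hmem
      have hneg : s₁ - a < 0 := lt_of_le_of_ne (by linarith) hd
      rw [div_le_one_of_neg hneg]
      linarith [hmem.2]
  have hlamd : lam * (s₁ - a) = s₁ - s := by
    rw [hlam]; field_simp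
  have hcomb : lam • a + (1 - lam) • s₁ = s := by
    simp only [smul_eq_mul]
    linarith
  have hc := hf.2 ha hs₁ hlam0 (sub_nonneg.mpr hlam1) (add_sub_cancel lam 1)
  rw [hcomb] at hc
  simp only [smul_eq_mul] at hc
  have h2 : (1 - lam) * (f a + t * (a - s₁)) ≤ (1 - lam) * f s₁ :=
    mul_le_mul_of_nonneg_left (by linarith) (by linarith)
  have h3 : (1 - lam) * (f a + t * (a - s₁)) = (1 - lam) * f a - t * (s - a) := by
    have : (1 - lam) * (s₁ - a) = s - a := by
      have : (1 - lam) * (s₁ - a) = (s₁ - a) - lam * (s₁ - a) := by ring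
      rw [this, hlamd]; ring
    have e : (1 - lam) * (a - s₁) = -(s - a) := by rw [← this]; ring
    calc (1 - lam) * (f a + t * (a - s₁)) = (1 - lam) * f a + t * ((1 - lam) * (a - s₁)) := by ring
      _ = _ := by rw [e]; ring
  nlinarith

/-- The integral of an affine function. -/
theorem integral_affine_aux (c e x₀ u v : ℝ) :
    ∫ s in u..v, (c + e * (s - x₀)) = c * (v - u) + e * ((v - x₀) ^ 2 - (u - x₀) ^ 2) / 2 := by
  have hder : ∀ x ∈ uIcc u v, HasDerivAt (fun s => c * s + e * (s - x₀) ^ 2 / 2)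
      (c + e * (x - x₀)) x := by
    intro x _
    have h1 : HasDerivAt (fun s : ℝ => c * s) c x := by
      simpa using (hasDerivAt_id x).const_mul c
    have h2 : HasDerivAt (fun s : ℝ => (s - x₀) ^ 2) (2 * (x - x₀)) x := by
      have := ((hasDerivAt_id' x).sub_const x₀).fun_pow 2
      simpa using this
    have h3 := h1.add ((h2.const_mul e).div_const 2)
    have e1 : c + e * (2 * (x - x₀)) / 2 = c + e * (x - x₀) := by ring
    rw [e1] at h3
    exact h3
  rw [intervalIntegral.integral_eq_sub_of_hasDerivAt hder]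
  · ring
  · apply Continuous.intervalIntegrable
    fun_prop

/-- A function with positive interval integral is positive somewhere inside. -/
theorem exists_pos_of_integral_pos {g : ℝ → ℝ} {c d : ℝ} (hcd : c ≤ d)
    (h : 0 < ∫ s in c..d, g s) : ∃ s ∈ Ioo c d, 0 < g s := by
  by_contra hne
  push Not at hne
  have h1 : ∫ s in c..d, g s ≤ 0 := by
    rw [intervalIntegral.integral_of_le hcd, integral_Ioc_eq_integral_Ioo]
    apply setIntegral_nonpos measurableSet_Ioo
    exact hne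
  linarith

/-- A function vanishing on the open interval has zero integral. -/
theorem integral_eq_zero_of_Ioo {g : ℝ → ℝ} {c d : ℝ} (hcd : c ≤ d)
    (h : ∀ s ∈ Ioo c d, g s = 0) : ∫ s in c..d, g s = 0 := by
  rw [intervalIntegral.integral_of_le hcd, integral_Ioc_eq_integral_Ioo]
  rw [setIntegral_congr_fun measurableSet_Ioo (g := fun _ => (0 : ℝ)) h]
  simp

/-- The one-dimensional data of the horizontal move: concave level functions `f i`, `f' i`, their
supporting slopes `-t i`, `-t' i` on the contact sets `{ℓ i > 0}`, `{ℓ' i > 0}`, and the link between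
the level functions and the column masses `ℓ`, `ℓ'`. -/
structure Col1D (ι : Type*) [Fintype ι] where
  l : ℝ
  r : ℝ
  hlr : l < r
  y : ι → ℝ
  t : ι → ℝ
  t' : ι → ℝ
  f : ι → ℝ → ℝ
  f' : ι → ℝ → ℝ
  ℓ : ι → ℝ → ℝ
  ℓ' : ι → ℝ → ℝ
  W₀ : ℝ → ℝ
  conc : ∀ i, ConcaveOn ℝ (Icc l r) (f i)
  conc' : ∀ i, ConcaveOn ℝ (Icc l r) (f' i)
  sup : ∀ i, ∀ s₀ ∈ Icc l r, 0 < ℓ i s₀ → ∀ s ∈ Icc l r, f i s ≤ f i s₀ - t i * (s - s₀)
  sup' : ∀ i, ∀ s₀ ∈ Icc l r, 0 < ℓ' i s₀ → ∀ s ∈ Icc l r, f' i s ≤ f' i s₀ - t' i * (s - s₀)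
  link : ∀ i, ∀ s ∈ Icc l r, f' i s - f i s = W₀ s + ∑ j, (ℓ' j s - ℓ j s) * max (y i - y j) 0
  nonneg : ∀ i s, 0 ≤ ℓ i s
  nonneg' : ∀ i s, 0 ≤ ℓ' i s
  intℓ : ∀ i, IntervalIntegrable (ℓ i) volume l r
  intℓ' : ∀ i, IntervalIntegrable (ℓ' i) volume l r
  intW₀ : IntervalIntegrable W₀ volume l r
  mass : ∀ i, ∫ s in l..r, ℓ i s = ∫ s in l..r, ℓ' i s
  len : ∀ s ∈ Ioo l r, ∑ i, ℓ i s = ∑ i, ℓ' i s
  lenpos : ∀ s ∈ Ioo l r, 0 < ∑ i, ℓ i s

namespace Col1D

variable {ι : Type*} [Fintype ι] (C : Col1D ι)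

/-- The difference of the level functions. -/
noncomputable def W (i : ι) (s : ℝ) : ℝ := C.f' i s - C.f i s

/-- The width. -/
noncomputable def w : ℝ := C.r - C.l

/-- Primitive of `W₀`. -/
noncomputable def A₀ (x : ℝ) : ℝ := ∫ s in C.l..x, C.W₀ s

/-- Primitive of the difference of the column masses. -/
noncomputable def Aj (j : ι) (x : ℝ) : ℝ := ∫ s in C.l..x, (C.ℓ' j s - C.ℓ j s)

/-- The integral of the difference over the strip, at any level. -/
noncomputable def G (a a' y : ℝ) : ℝ :=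
  C.A₀ a' - C.A₀ a + ∑ j, (C.Aj j a' - C.Aj j a) * max (y - C.y j) 0

/-- The quadratic correction. -/
noncomputable def q (τ : ℝ) : ℝ := τ * (C.w - τ) / 2

/-- The two-point function. -/
noncomputable def D (θ a a' y : ℝ) : ℝ := C.G a a' y - θ * C.q (a' - a)

theorem mem_uIcc_sub {a a' : ℝ} (ha : a ∈ Icc C.l C.r) (ha' : a' ∈ Icc C.l C.r) :
    uIcc a a' ⊆ uIcc C.l C.r := by
  apply uIcc_subset_uIcc
  · rw [uIcc_of_le C.hlr.le]; exact ha
  · rw [uIcc_of_le C.hlr.le]; exact ha'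

theorem intDiff (j : ι) {a a' : ℝ} (ha : a ∈ Icc C.l C.r) (ha' : a' ∈ Icc C.l C.r) :
    IntervalIntegrable (fun s => C.ℓ' j s - C.ℓ j s) volume a a' :=
  ((C.intℓ' j).sub (C.intℓ j)).mono_set (C.mem_uIcc_sub ha ha')

theorem intW₀' {a a' : ℝ} (ha : a ∈ Icc C.l C.r) (ha' : a' ∈ Icc C.l C.r) :
    IntervalIntegrable C.W₀ volume a a' :=
  C.intW₀.mono_set (C.mem_uIcc_sub ha ha')

theorem left_mem : C.l ∈ Icc C.l C.r := ⟨le_rfl, C.hlr.le⟩

theorem right_mem : C.r ∈ Icc C.l C.r := ⟨C.hlr.le, le_rfl⟩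

theorem A₀_sub {a a' : ℝ} (ha : a ∈ Icc C.l C.r) (ha' : a' ∈ Icc C.l C.r) :
    C.A₀ a' - C.A₀ a = ∫ s in a..a', C.W₀ s :=
  intervalIntegral.integral_interval_sub_left (C.intW₀' C.left_mem ha') (C.intW₀' C.left_mem ha)

theorem Aj_sub (j : ι) {a a' : ℝ} (ha : a ∈ Icc C.l C.r) (ha' : a' ∈ Icc C.l C.r) :
    C.Aj j a' - C.Aj j a = ∫ s in a..a', (C.ℓ' j s - C.ℓ j s) :=
  intervalIntegral.integral_interval_sub_left (C.intDiff j C.left_mem ha') (C.intDiff j C.left_mem ha)

theorem Aj_sub' (j : ι) {a a' : ℝ} (ha : a ∈ Icc C.l C.r) (ha' : a' ∈ Icc C.l C.r) :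
    C.Aj j a' - C.Aj j a = (∫ s in a..a', C.ℓ' j s) - ∫ s in a..a', C.ℓ j s := by
  rw [C.Aj_sub j ha ha', intervalIntegral.integral_sub]
  · exact (C.intℓ' j).mono_set (C.mem_uIcc_sub ha ha')
  · exact (C.intℓ j).mono_set (C.mem_uIcc_sub ha ha')

/-- The integrand of `G`. -/
noncomputable def V (y s : ℝ) : ℝ := C.W₀ s + ∑ j, (C.ℓ' j s - C.ℓ j s) * max (y - C.y j) 0

theorem intV (y : ℝ) {a a' : ℝ} (ha : a ∈ Icc C.l C.r) (ha' : a' ∈ Icc C.l C.r) :
    IntervalIntegrable (C.V y) volume a a' := by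
  unfold V
  apply (C.intW₀' ha ha').add
  have : (fun s => ∑ j, (C.ℓ' j s - C.ℓ j s) * max (y - C.y j) 0) =
      ∑ j, (fun s => (C.ℓ' j s - C.ℓ j s) * max (y - C.y j) 0) := by
    ext s; simp
  rw [this]
  apply IntervalIntegrable.sum
  intro j _
  exact (C.intDiff j ha ha').mul_const _

theorem G_eq_integral (y : ℝ) {a a' : ℝ} (ha : a ∈ Icc C.l C.r) (ha' : a' ∈ Icc C.l C.r) :
    C.G a a' y = ∫ s in a..a', C.V y s := by
  unfold G V
  rw [intervalIntegral.integral_add (C.intW₀' ha ha'), C.A₀_sub ha ha']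
  · congr 1
    rw [intervalIntegral.integral_finsetSum]
    · apply Finset.sum_congr rfl
      intro j _
      rw [C.Aj_sub j ha ha', intervalIntegral.integral_mul_const]
    · intro j _
      exact (C.intDiff j ha ha').mul_const _
  · have : (fun s => ∑ j, (C.ℓ' j s - C.ℓ j s) * max (y - C.y j) 0) =
        ∑ j, (fun s => (C.ℓ' j s - C.ℓ j s) * max (y - C.y j) 0) := by
      ext s; simp
    rw [this]
    apply IntervalIntegrable.sum
    intro j _
    exact (C.intDiff j ha ha').mul_const _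

theorem W_eq_V (i : ι) {s : ℝ} (hs : s ∈ Icc C.l C.r) : C.W i s = C.V (C.y i) s := by
  unfold W V
  exact C.link i s hs

theorem W_eqOn_V (i : ι) {a a' : ℝ} (ha : a ∈ Icc C.l C.r) (ha' : a' ∈ Icc C.l C.r) :
    EqOn (C.W i) (C.V (C.y i)) (uIcc a a') := by
  intro s hs
  have := C.mem_uIcc_sub ha ha' hs
  rw [uIcc_of_le C.hlr.le] at this
  exact C.W_eq_V i this

theorem intW (i : ι) {a a' : ℝ} (ha : a ∈ Icc C.l C.r) (ha' : a' ∈ Icc C.l C.r) :
    IntervalIntegrable (C.W i) volume a a' := by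
  refine (C.intV (C.y i) ha ha').congr ?_
  intro s hs
  exact (C.W_eqOn_V i ha ha' (uIoc_subset_uIcc hs)).symm

theorem G_level (i : ι) {a a' : ℝ} (ha : a ∈ Icc C.l C.r) (ha' : a' ∈ Icc C.l C.r) :
    C.G a a' (C.y i) = ∫ s in a..a', C.W i s := by
  rw [C.G_eq_integral _ ha ha']
  exact (intervalIntegral.integral_congr (C.W_eqOn_V i ha ha')).symm

theorem continuousOn_A₀ : ContinuousOn C.A₀ (Icc C.l C.r) := by
  have h := intervalIntegral.continuousOn_primitive_interval (μ := volume) (f := C.W₀)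
    (a := C.l) (b := C.r) (by
      rw [uIcc_of_le C.hlr.le, integrableOn_Icc_iff_integrableOn_Ioc]
      exact (intervalIntegrable_iff_integrableOn_Ioc_of_le C.hlr.le).mp C.intW₀)
  rwa [uIcc_of_le C.hlr.le] at h

theorem continuousOn_Aj (j : ι) : ContinuousOn (C.Aj j) (Icc C.l C.r) := by
  have h := intervalIntegral.continuousOn_primitive_interval (μ := volume)
    (f := fun s => C.ℓ' j s - C.ℓ j s)
    (a := C.l) (b := C.r) (by
      rw [uIcc_of_le C.hlr.le, integrableOn_Icc_iff_integrableOn_Ioc]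
      exact (intervalIntegrable_iff_integrableOn_Ioc_of_le C.hlr.le).mp
        (C.intDiff j C.left_mem C.right_mem))
  rwa [uIcc_of_le C.hlr.le] at h

theorem continuousOn_D (θ : ℝ) : ContinuousOn (fun p : ℝ × ℝ × ℝ => C.D θ p.1 p.2.1 p.2.2)
    (Icc C.l C.r ×ˢ (Icc C.l C.r ×ˢ univ)) := by
  unfold D G q
  have h1 : MapsTo (fun p : ℝ × ℝ × ℝ => p.1) (Icc C.l C.r ×ˢ (Icc C.l C.r ×ˢ univ))
      (Icc C.l C.r) := fun p hp => hp.1
  have h2 : MapsTo (fun p : ℝ × ℝ × ℝ => p.2.1) (Icc C.l C.r ×ˢ (Icc C.l C.r ×ˢ univ))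
      (Icc C.l C.r) := fun p hp => hp.2.1
  have c1 : ContinuousOn (fun p : ℝ × ℝ × ℝ => p.1) (Icc C.l C.r ×ˢ (Icc C.l C.r ×ˢ univ)) :=
    continuous_fst.continuousOn
  have c2 : ContinuousOn (fun p : ℝ × ℝ × ℝ => p.2.1) (Icc C.l C.r ×ˢ (Icc C.l C.r ×ˢ univ)) :=
    (continuous_fst.comp continuous_snd).continuousOn
  apply ContinuousOn.sub
  · apply ContinuousOn.add
    · exact (C.continuousOn_A₀.comp c2 h2).sub (C.continuousOn_A₀.comp c1 h1)
    · apply continuousOn_finsetSum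
      intro j _
      apply ContinuousOn.mul
      · exact ((C.continuousOn_Aj j).comp c2 h2).sub ((C.continuousOn_Aj j).comp c1 h1)
      · apply Continuous.continuousOn
        fun_prop
  · apply Continuous.continuousOn
    fun_prop

theorem q_add (τ h : ℝ) : C.q (τ + h) - C.q τ = h * (C.w - 2 * τ) / 2 - h ^ 2 / 2 := by
  unfold q; ring

/-- Values of the two-point function at the levels. -/
theorem D_level (θ : ℝ) (i : ι) {a a' : ℝ} (ha : a ∈ Icc C.l C.r) (ha' : a' ∈ Icc C.l C.r) :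
    C.D θ a a' (C.y i) = (∫ s in a..a', C.W i s) - θ * C.q (a' - a) := by
  unfold D
  rw [C.G_level i ha ha']

theorem W_continuousAt (i : ι) {s : ℝ} (hs : s ∈ Ioo C.l C.r) : ContinuousAt (C.W i) s := by
  have h1 : ContinuousOn (C.f i) (Ioo C.l C.r) := by
    have := (C.conc i).continuousOn_interior
    rwa [interior_Icc] at this
  have h2 : ContinuousOn (C.f' i) (Ioo C.l C.r) := by
    have := (C.conc' i).continuousOn_interior
    rwa [interior_Icc] at this
  exact ((h2.sub h1).continuousAt (Ioo_mem_nhds hs.1 hs.2))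

theorem W_smf (i : ι) {s : ℝ} (hs : s ∈ Ioo C.l C.r) :
    StronglyMeasurableAtFilter (C.W i) (𝓝 s) volume := by
  have h1 : ContinuousOn (C.f i) (Ioo C.l C.r) := by
    have := (C.conc i).continuousOn_interior
    rwa [interior_Icc] at this
  have h2 : ContinuousOn (C.f' i) (Ioo C.l C.r) := by
    have := (C.conc' i).continuousOn_interior
    rwa [interior_Icc] at this
  exact ContinuousOn.stronglyMeasurableAtFilter isOpen_Ioo (h2.sub h1) s hs

end Col1D

end Vale.Agent.Lib.P074
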