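import Vale.Agent.Lib.P074.OneD

open MeasureTheory Set Filter Topology

namespace Vale.Agent.Lib.P074

namespace Col1D

variable {ι : Type*} [Fintype ι] (C : Col1D ι)

/-- `(b, b')` maximises the two-point function at the level of `i`. -/
def MaxAt (θ b b' : ℝ) (i : ι) : Prop :=
  ∀ x x', C.l ≤ x → x ≤ x' → x' ≤ C.r → C.D θ x x' (C.y i) ≤ C.D θ b b' (C.y i)

theorem hasDerivAt_q_right (b x : ℝ) :
    HasDerivAt (fun u => C.q (u - b)) ((C.w - 2 * (x - b)) / 2) x := by
  unfold q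
  have h1 : HasDerivAt (fun u : ℝ => u - b) 1 x := (hasDerivAt_id' x).sub_const b
  have h2 : HasDerivAt (fun u : ℝ => C.w - (u - b)) (-1) x := h1.const_sub C.w
  have h3 := (h1.fun_mul h2).div_const 2
  have e : (C.w - 2 * (x - b)) / 2 = (1 * (C.w - (x - b)) + (x - b) * (-1)) / 2 := by ring
  rw [e]
  exact h3

theorem hasDerivAt_q_left (b' x : ℝ) :
    HasDerivAt (fun u => C.q (b' - u)) (-((C.w - 2 * (b' - x)) / 2)) x := by
  unfold q
  have h1 : HasDerivAt (fun u : ℝ => b' - u) (-1) x := (hasDerivAt_id' x).const_sub b'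
  have h2 : HasDerivAt (fun u : ℝ => C.w - (b' - u)) 1 x := by
    have := h1.const_sub C.w
    simpa using this
  have h3 := (h1.fun_mul h2).div_const 2
  have e : -((C.w - 2 * (b' - x)) / 2) = (-1 * (C.w - (b' - x)) + (b' - x) * 1) / 2 := by ring
  rw [e]
  exact h3

theorem first_order_right {θ b b' : ℝ} {i : ι} (h : C.MaxAt θ b b' i) (hb : C.l ≤ b)
    (hbb : b < b') (hb' : b' < C.r) : C.W i b' = θ * ((C.w - 2 * (b' - b)) / 2) := by
  have hbm : b ∈ Icc C.l C.r := ⟨hb, by linarith⟩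
  have hbm' : b' ∈ Icc C.l C.r := ⟨by linarith, hb'.le⟩
  have hopen : b' ∈ Ioo C.l C.r := ⟨by linarith, hb'⟩
  set H : ℝ → ℝ := fun x => (∫ s in b..x, C.W i s) - θ * C.q (x - b) with hH
  have hder : HasDerivAt H (C.W i b' - θ * ((C.w - 2 * (b' - b)) / 2)) b' := by
    apply HasDerivAt.sub
    · exact intervalIntegral.integral_hasDerivAt_right (C.intW i hbm hbm') (C.W_smf i hopen)
        (C.W_continuousAt i hopen)
    · exact (C.hasDerivAt_q_right b b').const_mul θ
  have hloc : IsLocalMax H b' := by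
    filter_upwards [Ioo_mem_nhds hbb hb'] with x hx
    have h1 := h b x hb hx.1.le hx.2.le
    rw [C.D_level θ i hbm ⟨by linarith [hx.1], hx.2.le⟩, C.D_level θ i hbm hbm'] at h1
    exact h1
  have := hloc.hasDerivAt_eq_zero hder
  linarith

theorem first_order_left {θ b b' : ℝ} {i : ι} (h : C.MaxAt θ b b' i) (hb : C.l < b)
    (hbb : b < b') (hb' : b' ≤ C.r) : C.W i b = θ * ((C.w - 2 * (b' - b)) / 2) := by
  have hbm : b ∈ Icc C.l C.r := ⟨hb.le, by linarith⟩
  have hbm' : b' ∈ Icc C.l C.r := ⟨by linarith, hb'⟩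
  have hopen : b ∈ Ioo C.l C.r := ⟨hb, by linarith⟩
  set H : ℝ → ℝ := fun x => (∫ s in x..b', C.W i s) - θ * C.q (b' - x) with hH
  have hder : HasDerivAt H (-C.W i b - θ * (-((C.w - 2 * (b' - b)) / 2))) b := by
    apply HasDerivAt.sub
    · exact intervalIntegral.integral_hasDerivAt_left (C.intW i hbm hbm') (C.W_smf i hopen)
        (C.W_continuousAt i hopen)
    · exact (C.hasDerivAt_q_left b' b).const_mul θ
  have hloc : IsLocalMax H b := by
    filter_upwards [Ioo_mem_nhds hb hbb] with x hx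
    have h1 := h x b' hx.1.le hx.2.le hb'
    rw [C.D_level θ i ⟨hx.1.le, by linarith [hx.2]⟩ hbm', C.D_level θ i hbm hbm'] at h1
    exact h1
  have := hloc.hasDerivAt_eq_zero hder
  linarith

/-- No slope at least `-ε` to the right of `b'`. -/
theorem right_end {θ ε b b' h₀ : ℝ} {i : ι} (h : C.MaxAt θ b b' i) (hb : C.l ≤ b)
    (hbb : b < b') (hb' : b' < C.r) (hε : ε < θ) (hh₀ : 0 < h₀)
    (hty : ∀ s ∈ Icc b' (b' + h₀), -ε * (s - b') ≤ C.W i s - C.W i b') : False := by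
  have hfo := C.first_order_right h hb hbb hb'
  set e : ℝ := min h₀ (C.r - b') with he
  have he0 : 0 < e := lt_min hh₀ (by linarith)
  have he1 : e ≤ h₀ := min_le_left _ _
  have he2 : e ≤ C.r - b' := min_le_right _ _
  have hbm : b ∈ Icc C.l C.r := ⟨hb, by linarith⟩
  have hbm' : b' ∈ Icc C.l C.r := ⟨by linarith, hb'.le⟩
  have hem : b' + e ∈ Icc C.l C.r := ⟨by linarith, by linarith⟩
  have h1 := h b (b' + e) hb (by linarith) hem.2
  rw [C.D_level θ i hbm hem, C.D_level θ i hbm hbm',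
    ← intervalIntegral.integral_add_adjacent_intervals (C.intW i hbm hbm') (C.intW i hbm' hem)] at h1
  have h2 := C.q_add (b' - b) e
  have e3 : b' + e - b = b' - b + e := by ring
  rw [e3] at h1
  have hlow : ∫ s in b'..(b' + e), (C.W i b' + (-ε) * (s - b')) ≤ ∫ s in b'..(b' + e), C.W i s := by
    apply intervalIntegral.integral_mono_on (by linarith)
    · apply Continuous.intervalIntegrable
      fun_prop
    · exact C.intW i hbm' hem
    · intro s hs
      have := hty s ⟨hs.1, by linarith [hs.2]⟩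
      linarith
  rw [integral_affine_aux] at hlow
  have e4 : b' + e - b' = e := by ring
  rw [e4] at hlow
  have e5 : b' - b' = 0 := by ring
  rw [e5] at hlow
  rw [hfo] at hlow
  have hq : θ * C.q (b' - b + e) = θ * C.q (b' - b) + θ * (e * (C.w - 2 * (b' - b)) / 2 - e ^ 2 / 2) := by
    rw [← h2]; ring
  rw [hq] at h1
  have hfin : (θ - ε) * e ^ 2 ≤ 0 := by
    nlinarith
  have : 0 < (θ - ε) * e ^ 2 := mul_pos (by linarith) (by positivity)
  linarith

/-- No slope at most `ε` to the right of `b`. -/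
theorem left_endR {θ ε b b' h₀ : ℝ} {i : ι} (h : C.MaxAt θ b b' i) (hb : C.l < b)
    (hbb : b < b') (hb' : b' ≤ C.r) (hε : ε < θ) (hh₀ : 0 < h₀)
    (hty : ∀ s ∈ Icc b (b + h₀), C.W i s - C.W i b ≤ ε * (s - b)) : False := by
  have hfo := C.first_order_left h hb hbb hb'
  set e : ℝ := min h₀ (b' - b) with he
  have he0 : 0 < e := lt_min hh₀ (by linarith)
  have he1 : e ≤ h₀ := min_le_left _ _
  have he2 : e ≤ b' - b := min_le_right _ _
  have hbm : b ∈ Icc C.l C.r := ⟨hb.le, by linarith⟩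
  have hbm' : b' ∈ Icc C.l C.r := ⟨by linarith, hb'⟩
  have hem : b + e ∈ Icc C.l C.r := ⟨by linarith, by linarith⟩
  have h1 := h (b + e) b' hem.1 (by linarith) hb'
  rw [C.D_level θ i hem hbm', C.D_level θ i hbm hbm',
    ← intervalIntegral.integral_add_adjacent_intervals (C.intW i hbm hem) (C.intW i hem hbm')] at h1
  have h2 := C.q_add (b' - b) (-e)
  have e3 : b' - (b + e) = b' - b + -e := by ring
  rw [e3] at h1
  have hup : ∫ s in b..(b + e), C.W i s ≤ ∫ s in b..(b + e), (C.W i b + ε * (s - b)) := by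
    apply intervalIntegral.integral_mono_on (by linarith)
    · exact C.intW i hbm hem
    · apply Continuous.intervalIntegrable
      fun_prop
    · intro s hs
      have := hty s ⟨hs.1, by linarith [hs.2]⟩
      linarith
  rw [integral_affine_aux] at hup
  have e4 : b + e - b = e := by ring
  rw [e4] at hup
  have e5 : b - b = 0 := by ring
  rw [e5] at hup
  rw [hfo] at hup
  have hq : θ * C.q (b' - b + -e) = θ * C.q (b' - b) + θ * (-e * (C.w - 2 * (b' - b)) / 2 - (-e) ^ 2 / 2) := by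
    rw [← h2]; ring
  rw [hq] at h1
  have hfin : (θ - ε) * e ^ 2 ≤ 0 := by
    nlinarith
  have : 0 < (θ - ε) * e ^ 2 := mul_pos (by linarith) (by positivity)
  linarith

/-- No slope at least `-ε`... to the left of `b`. -/
theorem left_endL {θ ε b b' h₀ : ℝ} {i : ι} (h : C.MaxAt θ b b' i) (hb : C.l < b)
    (hbb : b < b') (hb' : b' ≤ C.r) (hε : ε < θ) (hh₀ : 0 < h₀)
    (hty : ∀ s ∈ Icc (b - h₀) b, -ε * (b - s) ≤ C.W i s - C.W i b) : False := by
  have hfo := C.first_order_left h hb hbb hb'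
  set e : ℝ := min h₀ (b - C.l) with he
  have he0 : 0 < e := lt_min hh₀ (by linarith)
  have he1 : e ≤ h₀ := min_le_left _ _
  have he2 : e ≤ b - C.l := min_le_right _ _
  have hbm : b ∈ Icc C.l C.r := ⟨hb.le, by linarith⟩
  have hbm' : b' ∈ Icc C.l C.r := ⟨by linarith, hb'⟩
  have hem : b - e ∈ Icc C.l C.r := ⟨by linarith, by linarith⟩
  have h1 := h (b - e) b' hem.1 (by linarith) hb'
  rw [C.D_level θ i hem hbm', C.D_level θ i hbm hbm',
    ← intervalIntegral.integral_add_adjacent_intervals (C.intW i hem hbm) (C.intW i hbm hbm')] at h1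
  have h2 := C.q_add (b' - b) e
  have e3 : b' - (b - e) = b' - b + e := by ring
  rw [e3] at h1
  have hlow : ∫ s in (b - e)..b, (C.W i b + ε * (s - b)) ≤ ∫ s in (b - e)..b, C.W i s := by
    apply intervalIntegral.integral_mono_on (by linarith)
    · apply Continuous.intervalIntegrable
      fun_prop
    · exact C.intW i hem hbm
    · intro s hs
      have := hty s ⟨by linarith [hs.1], hs.2⟩
      linarith
  rw [integral_affine_aux] at hlow
  have e4 : b - (b - e) = e := by ring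
  rw [e4] at hlow
  have e5 : b - b = 0 := by ring
  rw [e5] at hlow
  have e6 : b - e - b = -e := by ring
  rw [e6] at hlow
  rw [hfo] at hlow
  have hq : θ * C.q (b' - b + e) = θ * C.q (b' - b) + θ * (e * (C.w - 2 * (b' - b)) / 2 - e ^ 2 / 2) := by
    rw [← h2]; ring
  rw [hq] at h1
  have hfin : (θ - ε) * e ^ 2 ≤ 0 := by
    nlinarith
  have : 0 < (θ - ε) * e ^ 2 := mul_pos (by linarith) (by positivity)
  linarith

/-- Mass comparison: an atom with an old contact inside the strip has no new contact outside. -/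
theorem new_inside {θ ε b b' : ℝ} {i : ι} (h : C.MaxAt θ b b' i) (hb : C.l ≤ b)
    (hbb : b < b') (hb' : b' ≤ C.r) (hε : ε < θ) (hmove : |C.t i - C.t' i| ≤ ε)
    {s₀ : ℝ} (hs₀ : s₀ ∈ Ioo b b') (hℓ : 0 < C.ℓ i s₀)
    {s₁ : ℝ} (hs₁ : s₁ ∈ Icc C.l C.r) (hℓ' : 0 < C.ℓ' i s₁) : s₁ ∈ Icc b b' := by
  have hs₀m : s₀ ∈ Icc C.l C.r := ⟨by linarith [hs₀.1], by linarith [hs₀.2]⟩
  have hbm : b ∈ Icc C.l C.r := ⟨hb, by linarith⟩
  have hbm' : b' ∈ Icc C.l C.r := ⟨by linarith, hb'⟩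
  have hm1 := (abs_le.mp hmove).1
  have hm2 := (abs_le.mp hmove).2
  by_contra hne
  have hcases : s₁ < b ∨ b' < s₁ := by
    by_contra hc
    push Not at hc
    exact hne ⟨hc.1, hc.2⟩
  rcases hcases with hlt | hgt
  · -- new contact to the left of `b`
    have hlb : C.l < b := lt_of_le_of_lt hs₁.1 hlt
    apply C.left_endR h hlb hbb hb' hε (sub_pos.mpr hs₀.1)
    intro s hs
    have hs' : s ≤ s₀ := by linarith [hs.2]
    have hsm : s ∈ Icc C.l C.r := ⟨by linarith [hs.1], by linarith [hs₀m.2]⟩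
    have hA := concave_ge_of_between (C.conc i) hbm hs₀m (C.sup i s₀ hs₀m hℓ b hbm)
      (s := s) (by rw [uIcc_of_le hs₀.1.le]; exact ⟨hs.1, hs'⟩)
    have hB := concave_le_of_between (C.conc' i) hs₁ hsm (C.sup' i s₁ hs₁ hℓ' s hsm)
      (a := b) (by rw [uIcc_of_le (by linarith [hs.1])]; exact ⟨hlt.le, hs.1⟩)
    unfold W
    have h3 : 0 ≤ s - b := by linarith [hs.1]
    have h4 : (C.t i - C.t' i) * (s - b) ≤ ε * (s - b) := mul_le_mul_of_nonneg_right hm2 h3
    nlinarith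
  · -- new contact to the right of `b'`
    have hbr : b' < C.r := lt_of_lt_of_le hgt hs₁.2
    apply C.right_end h hb hbb hbr hε (sub_pos.mpr hgt)
    intro s hs
    have hs' : s ≤ s₁ := by linarith [hs.2]
    have hsm : s ∈ Icc C.l C.r := ⟨by linarith [hs.1, hbm'.1], by linarith [hs₁.2]⟩
    have hA := concave_le_of_between (C.conc i) hs₀m hsm (C.sup i s₀ hs₀m hℓ s hsm)
      (a := b') (by rw [uIcc_of_le (by linarith [hs.1, hs₀.2])]; exact ⟨hs₀.2.le, hs.1⟩)
    have hB := concave_ge_of_between (C.conc' i) hbm' hs₁ (C.sup' i s₁ hs₁ hℓ' b' hbm')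
      (s := s) (by rw [uIcc_of_le hgt.le]; exact ⟨hs.1, hs'⟩)
    unfold W
    have h3 : 0 ≤ s - b' := by linarith [hs.1]
    have h4 : -ε * (s - b') ≤ (C.t i - C.t' i) * (s - b') := mul_le_mul_of_nonneg_right (by linarith) h3
    nlinarith

/-- Integrability of `ℓ` on subintervals. -/
theorem intℓ_sub (i : ι) {a a' : ℝ} (ha : a ∈ Icc C.l C.r) (ha' : a' ∈ Icc C.l C.r) :
    IntervalIntegrable (C.ℓ i) volume a a' := (C.intℓ i).mono_set (C.mem_uIcc_sub ha ha')

theorem intℓ'_sub (i : ι) {a a' : ℝ} (ha : a ∈ Icc C.l C.r) (ha' : a' ∈ Icc C.l C.r) :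
    IntervalIntegrable (C.ℓ' i) volume a a' := (C.intℓ' i).mono_set (C.mem_uIcc_sub ha ha')

theorem split_ℓ (i : ι) {b b' : ℝ} (hb : b ∈ Icc C.l C.r) (hb' : b' ∈ Icc C.l C.r) :
    ∫ s in C.l..C.r, C.ℓ i s =
      (∫ s in C.l..b, C.ℓ i s) + (∫ s in b..b', C.ℓ i s) + ∫ s in b'..C.r, C.ℓ i s := by
  rw [intervalIntegral.integral_add_adjacent_intervals (C.intℓ_sub i C.left_mem hb)
    (C.intℓ_sub i hb hb'),
    intervalIntegral.integral_add_adjacent_intervals (C.intℓ_sub i C.left_mem hb')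
    (C.intℓ_sub i hb' C.right_mem)]

theorem split_ℓ' (i : ι) {b b' : ℝ} (hb : b ∈ Icc C.l C.r) (hb' : b' ∈ Icc C.l C.r) :
    ∫ s in C.l..C.r, C.ℓ' i s =
      (∫ s in C.l..b, C.ℓ' i s) + (∫ s in b..b', C.ℓ' i s) + ∫ s in b'..C.r, C.ℓ' i s := by
  rw [intervalIntegral.integral_add_adjacent_intervals (C.intℓ'_sub i C.left_mem hb)
    (C.intℓ'_sub i hb hb'),
    intervalIntegral.integral_add_adjacent_intervals (C.intℓ'_sub i C.left_mem hb')
    (C.intℓ'_sub i hb' C.right_mem)]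

theorem integral_ℓ_nonneg (i : ι) {a a' : ℝ} (h : a ≤ a') : 0 ≤ ∫ s in a..a', C.ℓ i s :=
  intervalIntegral.integral_nonneg h fun s _ => C.nonneg i s

theorem integral_ℓ'_nonneg (i : ι) {a a' : ℝ} (h : a ≤ a') : 0 ≤ ∫ s in a..a', C.ℓ' i s :=
  intervalIntegral.integral_nonneg h fun s _ => C.nonneg' i s

/-- If there is old mass inside the strip, all the new mass is inside the strip. -/
theorem new_mass_eq {θ ε b b' : ℝ} {i : ι} (h : C.MaxAt θ b b' i) (hb : C.l ≤ b)
    (hbb : b < b') (hb' : b' ≤ C.r) (hε : ε < θ) (hmove : |C.t i - C.t' i| ≤ ε)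
    (hpos : 0 < ∫ s in b..b', C.ℓ i s) :
    ∫ s in b..b', C.ℓ' i s = ∫ s in C.l..C.r, C.ℓ i s := by
  obtain ⟨s₀, hs₀, hℓ⟩ := exists_pos_of_integral_pos hbb.le hpos
  have hbm : b ∈ Icc C.l C.r := ⟨hb, by linarith⟩
  have hbm' : b' ∈ Icc C.l C.r := ⟨by linarith, hb'⟩
  have hnew : ∀ s ∈ Icc C.l C.r, s ∉ Icc b b' → C.ℓ' i s = 0 := by
    intro s hs hns
    by_contra hne
    have hp : 0 < C.ℓ' i s := lt_of_le_of_ne (C.nonneg' i s) (Ne.symm hne)
    exact hns (C.new_inside h hb hbb hb' hε hmove hs₀ hℓ hs hp)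
  have h1 : ∫ s in C.l..b, C.ℓ' i s = 0 := by
    apply integral_eq_zero_of_Ioo hb
    intro s hs
    exact hnew s ⟨hs.1.le, by linarith [hs.2, hbm.2]⟩ (fun hc => absurd hc.1 (not_le.mpr hs.2))
  have h2 : ∫ s in b'..C.r, C.ℓ' i s = 0 := by
    apply integral_eq_zero_of_Ioo hb'
    intro s hs
    exact hnew s ⟨by linarith [hs.1, hbm'.1], hs.2.le⟩ (fun hc => absurd hc.2 (not_le.mpr hs.1))
  rw [C.mass i, C.split_ℓ' i hbm hbm', h1, h2]
  ring

/-- The old mass in the strip does not exceed the new mass in the strip at a maximising level. -/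
theorem beta_nonneg {θ ε b b' : ℝ} {i : ι} (h : C.MaxAt θ b b' i) (hb : C.l ≤ b)
    (hbb : b < b') (hb' : b' ≤ C.r) (hε : ε < θ) (hmove : |C.t i - C.t' i| ≤ ε) :
    0 ≤ C.Aj i b' - C.Aj i b := by
  have hbm : b ∈ Icc C.l C.r := ⟨hb, by linarith⟩
  have hbm' : b' ∈ Icc C.l C.r := ⟨by linarith, hb'⟩
  rw [C.Aj_sub' i hbm hbm']
  rcases (C.integral_ℓ_nonneg i hbb.le).eq_or_lt with h0 | hpos
  · rw [← h0]
    have := C.integral_ℓ'_nonneg i hbb.le
    linarith
  · rw [C.new_mass_eq h hb hbb hb' hε hmove hpos, C.split_ℓ i hbm hbm']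
    have h1 := C.integral_ℓ_nonneg i hb
    have h2 := C.integral_ℓ_nonneg i hb'
    linarith

/-- The elementary second difference of the positive part. -/
theorem kink_zero {u h : ℝ} (hh : 0 < h) (hu : h ≤ |u|) :
    max (u + h) 0 + max (u - h) 0 - 2 * max u 0 = 0 := by
  rcases le_total 0 u with h0 | h0
  · rw [abs_of_nonneg h0] at hu
    rw [max_eq_left (by linarith), max_eq_left (by linarith), max_eq_left h0]
    ring
  · rw [abs_of_nonpos h0] at hu
    rw [max_eq_right (by linarith), max_eq_right (by linarith), max_eq_right h0]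
    ring

theorem kink_self {h : ℝ} (hh : 0 < h) :
    max ((0 : ℝ) + h) 0 + max (0 - h) 0 - 2 * max 0 0 = h := by
  rw [max_eq_left (by linarith), max_eq_right (by linarith), max_self]
  ring

/-- The second difference of the two-point function in the level variable. -/
theorem D_second_diff (θ b b' y h : ℝ) :
    C.D θ b b' (y + h) + C.D θ b b' (y - h) - 2 * C.D θ b b' y =
      ∑ j, (C.Aj j b' - C.Aj j b) *
        (max (y - C.y j + h) 0 + max (y - C.y j - h) 0 - 2 * max (y - C.y j) 0) := by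
  unfold D G
  have e : ∀ j, (C.Aj j b' - C.Aj j b) *
        (max (y - C.y j + h) 0 + max (y - C.y j - h) 0 - 2 * max (y - C.y j) 0) =
      (C.Aj j b' - C.Aj j b) * max (y + h - C.y j) 0 + (C.Aj j b' - C.Aj j b) * max (y - h - C.y j) 0
        - 2 * ((C.Aj j b' - C.Aj j b) * max (y - C.y j) 0) := by
    intro j
    have e1 : y + h - C.y j = y - C.y j + h := by ring
    have e2 : y - h - C.y j = y - C.y j - h := by ring
    rw [e1, e2]; ring
  simp_rw [e]
  rw [Finset.sum_sub_distrib, Finset.sum_add_distrib, ← Finset.mul_sum]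
  ring

theorem exists_gap (y : ℝ) : ∃ e : ℝ, 0 < e ∧ ∀ j, C.y j ≠ y → e ≤ |y - C.y j| := by
  have h : ∀ᶠ e in 𝓝[>] (0 : ℝ), ∀ j, C.y j ≠ y → e ≤ |y - C.y j| := by
    rw [Filter.eventually_all]
    intro j
    by_cases hj : C.y j = y
    · exact Filter.Eventually.of_forall fun e hne => absurd hj hne
    · have hp : 0 < |y - C.y j| := abs_pos.mpr (sub_ne_zero.mpr (Ne.symm hj))
      filter_upwards [Ioc_mem_nhdsGT hp] with e he _
      exact he.2
  obtain ⟨e, he, he0⟩ := (h.and self_mem_nhdsWithin).exists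
  exact ⟨e, he0, he⟩

theorem continuous_D_level (θ b b' : ℝ) : Continuous fun y => C.D θ b b' y := by
  unfold D G
  fun_prop

/-- All terms of the second difference are nonnegative, if the kink coefficients at the level `y`
are nonnegative. -/
theorem term_nonneg {b b' y e h : ℝ} (he : ∀ j, C.y j ≠ y → e ≤ |y - C.y j|) (hh0 : 0 < h)
    (hhe : h ≤ e) (hβ : ∀ j, C.y j = y → 0 ≤ C.Aj j b' - C.Aj j b) (j : ι) :
    0 ≤ (C.Aj j b' - C.Aj j b) *
        (max (y - C.y j + h) 0 + max (y - C.y j - h) 0 - 2 * max (y - C.y j) 0) := by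
  by_cases hj : C.y j = y
  · have e1 : y - C.y j = 0 := by rw [hj]; ring
    rw [e1, kink_self hh0]
    exact mul_nonneg (hβ j hj) hh0.le
  · rw [kink_zero hh0 ((hhe).trans (he j hj)), mul_zero]

/-- The maximising levels form a clopen subset of the line, hence everything. -/
theorem all_levels {θ ε b b' y₁ : ℝ} (hb : C.l ≤ b) (hbb : b < b') (hb' : b' ≤ C.r) (hε : ε < θ)
    (hmove : ∀ i, |C.t i - C.t' i| ≤ ε)
    (hmax : ∀ x x' y'', C.l ≤ x → x ≤ x' → x' ≤ C.r → C.D θ x x' y'' ≤ C.D θ b b' y₁) :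
    (∀ y'', C.D θ b b' y'' = C.D θ b b' y₁) := by
  set M := C.D θ b b' y₁ with hM
  set S : Set ℝ := {y'' | C.D θ b b' y'' = M} with hS
  have hmaxAt : ∀ i, C.D θ b b' (C.y i) = M → C.MaxAt θ b b' i := by
    intro i hi x x' h1 h2 h3
    rw [hi]
    exact hmax x x' _ h1 h2 h3
  have hclosed : IsClosed S := isClosed_eq (C.continuous_D_level θ b b') continuous_const
  have hopen : IsOpen S := by
    rw [Metric.isOpen_iff]
    intro y hy
    obtain ⟨e, he0, he⟩ := C.exists_gap y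
    refine ⟨e, he0, ?_⟩
    intro y'' hy''
    rw [Metric.mem_ball, Real.dist_eq] at hy''
    by_cases hzero : |y'' - y| = 0
    · have : y'' = y := by
        have := abs_eq_zero.mp hzero
        linarith
      rw [this]; exact hy
    · have hh0 : 0 < |y'' - y| := lt_of_le_of_ne (abs_nonneg _) (Ne.symm hzero)
      set h := |y'' - y| with hh
      have hsd := C.D_second_diff θ b b' y h
      have hβ : ∀ j, C.y j = y → 0 ≤ C.Aj j b' - C.Aj j b := by
        intro j hj
        apply C.beta_nonneg (hmaxAt j ?_) hb hbb hb' hε (hmove j)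
        rw [hj]; exact hy
      have hnn : 0 ≤ ∑ j, (C.Aj j b' - C.Aj j b) *
          (max (y - C.y j + h) 0 + max (y - C.y j - h) 0 - 2 * max (y - C.y j) 0) :=
        Finset.sum_nonneg fun j _ => C.term_nonneg he hh0 hy''.le hβ j
      have h1 : C.D θ b b' (y + h) ≤ M := hmax b b' _ hb hbb.le hb'
      have h2 : C.D θ b b' (y - h) ≤ M := hmax b b' _ hb hbb.le hb'
      have h3 : C.D θ b b' y = M := hy
      have h4 : C.D θ b b' (y + h) = M := by linarith
      have h5 : C.D θ b b' (y - h) = M := by linarith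
      rcases le_total 0 (y'' - y) with hc | hc
      · have : y'' = y + h := by rw [hh, abs_of_nonneg hc]; ring
        rw [this]; exact h4
      · have : y'' = y - h := by rw [hh, abs_of_nonpos hc]; ring
        rw [this]; exact h5
  have hne : S.Nonempty := ⟨y₁, rfl⟩
  have huniv : S = univ := IsClopen.eq_univ ⟨hclosed, hopen⟩ hne
  intro y''
  have : y'' ∈ S := by rw [huniv]; trivial
  exact this

/-- All kink coefficients vanish at the maximising strip. -/
theorem all_beta_zero {θ ε b b' y₁ : ℝ} (hb : C.l ≤ b) (hbb : b < b') (hb' : b' ≤ C.r) (hε : ε < θ)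
    (hmove : ∀ i, |C.t i - C.t' i| ≤ ε)
    (hmax : ∀ x x' y'', C.l ≤ x → x ≤ x' → x' ≤ C.r → C.D θ x x' y'' ≤ C.D θ b b' y₁) (j : ι) :
    C.Aj j b' - C.Aj j b = 0 := by
  have hall := C.all_levels hb hbb hb' hε hmove hmax
  have hmaxAt : ∀ i, C.MaxAt θ b b' i := by
    intro i x x' h1 h2 h3
    rw [hall (C.y i)]
    exact hmax x x' _ h1 h2 h3
  have hβ : ∀ k, 0 ≤ C.Aj k b' - C.Aj k b := fun k =>
    C.beta_nonneg (hmaxAt k) hb hbb hb' hε (hmove k)
  obtain ⟨e, he0, he⟩ := C.exists_gap (C.y j)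
  have hsd := C.D_second_diff θ b b' (C.y j) e
  rw [hall (C.y j + e), hall (C.y j - e), hall (C.y j)] at hsd
  have hsum : ∑ k, (C.Aj k b' - C.Aj k b) *
      (max (C.y j - C.y k + e) 0 + max (C.y j - C.y k - e) 0 - 2 * max (C.y j - C.y k) 0) = 0 := by
    rw [← hsd]; ring
  have hterm := (Finset.sum_eq_zero_iff_of_nonneg
    (fun k _ => C.term_nonneg he he0 le_rfl (fun k _ => hβ k) k)).mp hsum j (Finset.mem_univ j)
  have e1 : C.y j - C.y j = 0 := by ring
  rw [e1, kink_self he0] at hterm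
  rcases mul_eq_zero.mp hterm with h | h
  · exact h
  · exact absurd h he0.ne'

theorem sum_integral_pos {c d : ℝ} (hc : c ∈ Icc C.l C.r) (hd : d ∈ Icc C.l C.r) (hcd : c < d) :
    0 < ∑ q, ∫ s in c..d, C.ℓ q s := by
  rw [← intervalIntegral.integral_finsetSum (fun q _ => C.intℓ_sub q hc hd)]
  apply intervalIntegral.intervalIntegral_pos_of_pos_on _ _ hcd
  · have : (fun s => ∑ q, C.ℓ q s) = ∑ q, C.ℓ q := by
      ext s; simp
    rw [this]
    exact IntervalIntegrable.sum _ fun q _ => C.intℓ_sub q hc hd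
  · intro s hs
    exact C.lenpos s ⟨by linarith [hc.1, hs.1], by linarith [hd.2, hs.2]⟩

/-- Pigeonhole to the right of `a'`. -/
theorem pigeon_right {a' : ℝ} (ha : C.l ≤ a') (ha' : a' < C.r) :
    ∃ q, 0 < (∫ s in a'..C.r, C.ℓ q s) ∧
      ∀ h : ℝ, 0 < h → ∃ s ∈ Ioo a' (a' + h), s < C.r ∧ 0 < C.ℓ q s := by
  have ham : a' ∈ Icc C.l C.r := ⟨ha, ha'.le⟩
  by_contra hne
  push Not at hne
  have h1 : ∀ q, ∀ᶠ x in 𝓝[>] a', ∫ s in a'..x, C.ℓ q s ≤ 0 := by
    intro q
    by_cases hq : 0 < ∫ s in a'..C.r, C.ℓ q s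
    · obtain ⟨h, hh0, hh⟩ := hne q hq
      have hm : a' < min (a' + h) C.r := lt_min (by linarith) ha'
      filter_upwards [Ioo_mem_nhdsGT hm] with x hx
      by_contra hpos
      push Not at hpos
      obtain ⟨s, hs, hsp⟩ := exists_pos_of_integral_pos hx.1.le hpos
      have h2 := hh s ⟨hs.1, hs.2.trans_le (hx.2.le.trans (min_le_left _ _))⟩
        (hs.2.trans_le (hx.2.le.trans (min_le_right _ _)))
      linarith
    · push Not at hq
      filter_upwards [Ioo_mem_nhdsGT ha'] with x hx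
      have hxm : x ∈ Icc C.l C.r := ⟨by linarith [hx.1], hx.2.le⟩
      have h2 := intervalIntegral.integral_add_adjacent_intervals (C.intℓ_sub q ham hxm)
        (C.intℓ_sub q hxm C.right_mem)
      have h3 := C.integral_ℓ_nonneg q hx.2.le
      linarith
  have h2 : ∀ᶠ x in 𝓝[>] a', ∀ q, ∫ s in a'..x, C.ℓ q s ≤ 0 := Filter.eventually_all.mpr h1
  obtain ⟨x, hx1, hx2⟩ := (h2.and (Ioo_mem_nhdsGT ha')).exists
  have hxm : x ∈ Icc C.l C.r := ⟨by linarith [hx2.1], hx2.2.le⟩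
  have h3 := C.sum_integral_pos ham hxm hx2.1
  have h4 : ∑ q, ∫ s in a'..x, C.ℓ q s ≤ 0 := Finset.sum_nonpos fun q _ => hx1 q
  linarith

/-- Pigeonhole to the left of `a`. -/
theorem pigeon_left {a : ℝ} (ha : C.l < a) (ha' : a ≤ C.r) :
    ∃ q, 0 < (∫ s in C.l..a, C.ℓ q s) ∧
      ∀ h : ℝ, 0 < h → ∃ s ∈ Ioo (a - h) a, C.l < s ∧ 0 < C.ℓ q s := by
  have ham : a ∈ Icc C.l C.r := ⟨ha.le, ha'⟩
  by_contra hne
  push Not at hne
  have h1 : ∀ q, ∀ᶠ x in 𝓝[<] a, ∫ s in x..a, C.ℓ q s ≤ 0 := by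
    intro q
    by_cases hq : 0 < ∫ s in C.l..a, C.ℓ q s
    · obtain ⟨h, hh0, hh⟩ := hne q hq
      have hm : max (a - h) C.l < a := max_lt (by linarith) ha
      filter_upwards [Ioo_mem_nhdsLT hm] with x hx
      by_contra hpos
      push Not at hpos
      obtain ⟨s, hs, hsp⟩ := exists_pos_of_integral_pos hx.2.le hpos
      have h2 := hh s ⟨(le_max_left _ _).trans_lt (hx.1.trans hs.1), hs.2⟩
        ((le_max_right _ _).trans_lt (hx.1.trans hs.1))
      linarith
    · push Not at hq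
      filter_upwards [Ioo_mem_nhdsLT ha] with x hx
      have hxm : x ∈ Icc C.l C.r := ⟨hx.1.le, by linarith [hx.2]⟩
      have h2 := intervalIntegral.integral_add_adjacent_intervals (C.intℓ_sub q C.left_mem hxm)
        (C.intℓ_sub q hxm ham)
      have h3 := C.integral_ℓ_nonneg q hx.1.le
      linarith
  have h2 : ∀ᶠ x in 𝓝[<] a, ∀ q, ∫ s in x..a, C.ℓ q s ≤ 0 := Filter.eventually_all.mpr h1
  obtain ⟨x, hx1, hx2⟩ := (h2.and (Ioo_mem_nhdsLT ha)).exists
  have hxm : x ∈ Icc C.l C.r := ⟨hx2.1.le, by linarith [hx2.2]⟩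
  have h3 := C.sum_integral_pos hxm ham hx2.2
  have h4 : ∑ q, ∫ s in x..a, C.ℓ q s ≤ 0 := Finset.sum_nonpos fun q _ => hx1 q
  linarith

/-- A supporting line persists in the limit of contact points. -/
theorem sup_limit {x₀ : ℝ} (hx₀ : x₀ ∈ Ioo C.l C.r) {q : ι}
    (hfreq : ∀ h : ℝ, 0 < h → ∃ s, |s - x₀| < h ∧ s ∈ Icc C.l C.r ∧ 0 < C.ℓ q s) :
    ∀ s ∈ Icc C.l C.r, C.f q s ≤ C.f q x₀ - C.t q * (s - x₀) := by
  intro s hs
  by_contra hne
  push Not at hne
  have hc : ContinuousOn (C.f q) (Ioo C.l C.r) := by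
    have := (C.conc q).continuousOn_interior
    rwa [interior_Icc] at this
  have hc1 : ContinuousAt (fun x => C.f q x - C.t q * (s - x)) x₀ :=
    (hc.continuousAt (Ioo_mem_nhds hx₀.1 hx₀.2)).sub (by fun_prop)
  have hev := hc1.eventually_lt (continuousAt_const (y := C.f q s)) hne
  obtain ⟨h, hh0, hh⟩ := Metric.eventually_nhds_iff.mp hev
  obtain ⟨s', hs'1, hs'2, hs'3⟩ := hfreq h hh0
  have h1 := hh (y := s') (by rwa [Real.dist_eq])
  have h2 := C.sup q s' hs'2 hs'3 s hs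
  linarith

/-- The main step: the maximum of the two-point function over nontrivial strips does not exist. -/
theorem no_max {θ ε b b' y₁ : ℝ} (hb : C.l ≤ b) (hbb : b < b') (hb' : b' ≤ C.r) (hε : ε < θ)
    (hne : C.l < b ∨ b' < C.r)
    (hmove : ∀ i, |C.t i - C.t' i| ≤ ε)
    (hmax : ∀ x x' y'', C.l ≤ x → x ≤ x' → x' ≤ C.r → C.D θ x x' y'' ≤ C.D θ b b' y₁) : False := by
  have hall := C.all_levels hb hbb hb' hε hmove hmax
  have hmaxAt : ∀ i, C.MaxAt θ b b' i := by
    intro i x x' h1 h2 h3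
    rw [hall (C.y i)]
    exact hmax x x' _ h1 h2 h3
  have hβ0 := C.all_beta_zero hb hbb hb' hε hmove hmax
  have hbm : b ∈ Icc C.l C.r := ⟨hb, by linarith⟩
  have hbm' : b' ∈ Icc C.l C.r := ⟨by linarith, hb'⟩
  -- the strip masses of an atom with outside old mass vanish
  have hstrip : ∀ q, 0 < (∫ s in C.l..b, C.ℓ q s) + ∫ s in b'..C.r, C.ℓ q s →
      (∫ s in b..b', C.ℓ q s) = 0 ∧ (∫ s in b..b', C.ℓ' q s) = 0 := by
    intro q hq
    have h1 := hβ0 q
    rw [C.Aj_sub' q hbm hbm'] at h1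
    have hold : (∫ s in b..b', C.ℓ q s) = 0 := by
      rcases (C.integral_ℓ_nonneg q hbb.le).eq_or_lt with h0 | hpos
      · exact h0.symm
      · have h2 := C.new_mass_eq (hmaxAt q) hb hbb hb' hε (hmove q) hpos
        rw [C.split_ℓ q hbm hbm'] at h2
        linarith
    exact ⟨hold, by linarith⟩
  -- and there is a new contact outside
  have hnew : ∀ q, 0 < (∫ s in C.l..b, C.ℓ q s) + ∫ s in b'..C.r, C.ℓ q s →
      (∃ s ∈ Ioo C.l b, 0 < C.ℓ' q s) ∨ (∃ s ∈ Ioo b' C.r, 0 < C.ℓ' q s) := by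
    intro q hq
    obtain ⟨h1, h2⟩ := hstrip q hq
    have h3 := C.mass q
    rw [C.split_ℓ q hbm hbm', C.split_ℓ' q hbm hbm', h1, h2] at h3
    have h4 : 0 < (∫ s in C.l..b, C.ℓ' q s) + ∫ s in b'..C.r, C.ℓ' q s := by linarith
    by_cases h5 : 0 < ∫ s in C.l..b, C.ℓ' q s
    · exact Or.inl (exists_pos_of_integral_pos hb h5)
    · have h6 : 0 < ∫ s in b'..C.r, C.ℓ' q s := by linarith
      exact Or.inr (exists_pos_of_integral_pos hb' h6)
  by_cases hcase : b' < C.r
  · obtain ⟨q, hq1, hq2⟩ := C.pigeon_right (by linarith : C.l ≤ b') hcase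
    have hm1 := (abs_le.mp (hmove q)).1
    have hm2 := (abs_le.mp (hmove q)).2
    have hq3 : 0 < (∫ s in C.l..b, C.ℓ q s) + ∫ s in b'..C.r, C.ℓ q s := by
      have := C.integral_ℓ_nonneg q hb
      linarith
    obtain ⟨s₂, hs₂, hs₂r, hs₂p⟩ := hq2 1 one_pos
    have hs₂m : s₂ ∈ Icc C.l C.r := ⟨by linarith [hs₂.1, hbm'.1], hs₂r.le⟩
    rcases hnew q hq3 with ⟨s₁, hs₁, hℓ'⟩ | ⟨s₁, hs₁, hℓ'⟩
    · -- new contact to the left of `b`
      have hs₁m : s₁ ∈ Icc C.l C.r := ⟨hs₁.1.le, by linarith [hs₁.2, hbm.2]⟩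
      have hlb : C.l < b := hs₁.1.trans hs₁.2
      apply C.left_endR (hmaxAt q) hlb hbb hb' hε (sub_pos.mpr hbb)
      intro s hs
      have hs' : s ≤ b' := by linarith [hs.2]
      have hsm : s ∈ Icc C.l C.r := ⟨by linarith [hs.1, hbm.1], by linarith [hbm'.2]⟩
      have hA := concave_ge_of_between (C.conc q) hbm hs₂m (C.sup q s₂ hs₂m hs₂p b hbm)
        (s := s) (by rw [uIcc_of_le (by linarith [hs₂.1])]; exact ⟨hs.1, by linarith [hs₂.1]⟩)
      have hB := concave_le_of_between (C.conc' q) hs₁m hsm (C.sup' q s₁ hs₁m hℓ' s hsm)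
        (a := b) (by rw [uIcc_of_le (by linarith [hs.1, hs₁.2])]; exact ⟨hs₁.2.le, hs.1⟩)
      unfold W
      have h3 : 0 ≤ s - b := by linarith [hs.1]
      have h4 : (C.t q - C.t' q) * (s - b) ≤ ε * (s - b) := mul_le_mul_of_nonneg_right hm2 h3
      nlinarith
    · -- new contact to the right of `b'`
      have hs₁m : s₁ ∈ Icc C.l C.r := ⟨by linarith [hs₁.1, hbm'.1], hs₁.2.le⟩
      apply C.right_end (hmaxAt q) hb hbb hcase hε (sub_pos.mpr hs₁.1)
      intro s hs
      have hs' : s ≤ s₁ := by linarith [hs.2]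
      have hsm : s ∈ Icc C.l C.r := ⟨by linarith [hs.1, hbm'.1], by linarith [hs₁.2]⟩
      have hA := C.sup_limit (x₀ := b') ⟨by linarith, hcase⟩ (q := q) (fun h hh => by
        obtain ⟨s', hs', hs'r, hs'p⟩ := hq2 h hh
        refine ⟨s', ?_, ⟨by linarith [hs'.1, hbm'.1], hs'r.le⟩, hs'p⟩
        rw [abs_lt]
        constructor <;> linarith [hs'.1, hs'.2]) s hsm
      have hB := concave_ge_of_between (C.conc' q) hbm' hs₁m (C.sup' q s₁ hs₁m hℓ' b' hbm')
        (s := s) (by rw [uIcc_of_le hs₁.1.le]; exact ⟨hs.1, hs'⟩)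
      unfold W
      have h3 : 0 ≤ s - b' := by linarith [hs.1]
      have h4 : -ε * (s - b') ≤ (C.t q - C.t' q) * (s - b') :=
        mul_le_mul_of_nonneg_right (by linarith) h3
      nlinarith
  · have hlb : C.l < b := by
      rcases hne with h | h
      · exact h
      · exact absurd h hcase
    have hb'r : b' = C.r := le_antisymm hb' (not_lt.mp hcase)
    obtain ⟨q, hq1, hq2⟩ := C.pigeon_left hlb (by linarith : b ≤ C.r)
    have hm1 := (abs_le.mp (hmove q)).1
    have hm2 := (abs_le.mp (hmove q)).2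
    have hq3 : 0 < (∫ s in C.l..b, C.ℓ q s) + ∫ s in b'..C.r, C.ℓ q s := by
      have := C.integral_ℓ_nonneg q hb'
      linarith
    rcases hnew q hq3 with ⟨s₁, hs₁, hℓ'⟩ | ⟨s₁, hs₁, hℓ'⟩
    · have hs₁m : s₁ ∈ Icc C.l C.r := ⟨hs₁.1.le, by linarith [hs₁.2, hbm.2]⟩
      apply C.left_endL (hmaxAt q) hlb hbb hb' hε (sub_pos.mpr hs₁.2)
      intro s hs
      have hs' : s₁ ≤ s := by linarith [hs.1]
      have hsm : s ∈ Icc C.l C.r := ⟨by linarith [hs₁m.1], by linarith [hs.2, hbm.2]⟩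
      have hA := C.sup_limit (x₀ := b) ⟨hlb, by linarith⟩ (q := q) (fun h hh => by
        obtain ⟨s', hs', hs'r, hs'p⟩ := hq2 h hh
        refine ⟨s', ?_, ⟨hs'r.le, by linarith [hs'.2, hbm.2]⟩, hs'p⟩
        rw [abs_lt]
        constructor <;> linarith [hs'.1, hs'.2]) s hsm
      have hB := concave_ge_of_between (C.conc' q) hbm hs₁m (C.sup' q s₁ hs₁m hℓ' b hbm)
        (s := s) (by rw [uIcc_of_ge hs₁.2.le]; exact ⟨hs', hs.2⟩)
      unfold W
      have h3 : 0 ≤ b - s := by linarith [hs.2]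
      have h4 : -ε * (b - s) ≤ (C.t' q - C.t q) * (b - s) :=
        mul_le_mul_of_nonneg_right (by linarith) h3
      nlinarith
    · exfalso
      have := hs₁.1.trans hs₁.2
      linarith

theorem sum_beta_zero {x x' : ℝ} (hx : x ∈ Icc C.l C.r) (hx' : x' ∈ Icc C.l C.r) :
    ∑ j, (C.Aj j x' - C.Aj j x) = 0 := by
  have hsub : ∀ j, C.Aj j x' - C.Aj j x = ∫ s in x..x', (C.ℓ' j s - C.ℓ j s) :=
    fun j => C.Aj_sub j hx hx'
  simp_rw [hsub]
  rw [← intervalIntegral.integral_finsetSum (fun j _ => C.intDiff j hx hx')]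
  rcases le_total x x' with hxx | hxx
  · apply integral_eq_zero_of_Ioo hxx
    intro s hs
    have hsm : s ∈ Ioo C.l C.r := ⟨by linarith [hx.1, hs.1], by linarith [hx'.2, hs.2]⟩
    rw [Finset.sum_sub_distrib, C.len s hsm]
    ring
  · rw [intervalIntegral.integral_symm]
    rw [neg_eq_zero]
    apply integral_eq_zero_of_Ioo hxx
    intro s hs
    have hsm : s ∈ Ioo C.l C.r := ⟨by linarith [hx'.1, hs.1], by linarith [hx.2, hs.2]⟩
    rw [Finset.sum_sub_distrib, C.len s hsm]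
    ring

/-- Below all levels, the two-point function does not depend on the level. -/
theorem D_below {θ x x' Ylo y : ℝ} (hlo : ∀ j, Ylo ≤ C.y j) (hy : y ≤ Ylo) :
    C.D θ x x' y = C.D θ x x' Ylo := by
  unfold D G
  congr 2
  apply Finset.sum_congr rfl
  intro j _
  rw [max_eq_right (by linarith [hlo j]), max_eq_right (by linarith [hlo j])]

/-- Above all levels, the two-point function does not depend on the level. -/
theorem D_above {θ x x' Yhi y : ℝ} (hx : x ∈ Icc C.l C.r) (hx' : x' ∈ Icc C.l C.r)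
    (hhi : ∀ j, C.y j ≤ Yhi) (hy : Yhi ≤ y) : C.D θ x x' y = C.D θ x x' Yhi := by
  unfold D G
  congr 2
  have h0 := C.sum_beta_zero hx hx'
  have e1 : ∀ z, Yhi ≤ z → ∑ j, (C.Aj j x' - C.Aj j x) * max (z - C.y j) 0 =
      - ∑ j, (C.Aj j x' - C.Aj j x) * C.y j := by
    intro z hz
    have e2 : ∀ j, (C.Aj j x' - C.Aj j x) * max (z - C.y j) 0 =
        z * (C.Aj j x' - C.Aj j x) - (C.Aj j x' - C.Aj j x) * C.y j := by
      intro j
      rw [max_eq_left (by linarith [hhi j])]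
      ring
    simp_rw [e2]
    rw [Finset.sum_sub_distrib, ← Finset.mul_sum, h0]
    ring
  rw [e1 y hy, e1 Yhi le_rfl]

theorem D_self (θ x y : ℝ) : C.D θ x x y = 0 := by
  have hq : C.q 0 = 0 := by simp [q]
  unfold D G
  simp [hq]

theorem D_full (θ y : ℝ) (h0 : ∫ s in C.l..C.r, C.W₀ s = 0) : C.D θ C.l C.r y = 0 := by
  unfold D G
  have e1 : C.A₀ C.r - C.A₀ C.l = 0 := by
    rw [C.A₀_sub C.left_mem C.right_mem, h0]
  have e2 : ∀ j, C.Aj j C.r - C.Aj j C.l = 0 := by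
    intro j
    rw [C.Aj_sub' j C.left_mem C.right_mem, C.mass j]
    ring
  have e3 : C.q (C.r - C.l) = 0 := by
    unfold q w
    ring
  simp [e1, e2, e3]

/-- The two-point function is nonpositive at all levels. -/
theorem D_nonpos {θ ε : ℝ} (h0 : ∫ s in C.l..C.r, C.W₀ s = 0) (hε : ε < θ)
    (hmove : ∀ i, |C.t i - C.t' i| ≤ ε) {a a' : ℝ} (ha : C.l ≤ a) (haa : a ≤ a') (ha' : a' ≤ C.r)
    (i : ι) : C.D θ a a' (C.y i) ≤ 0 := by
  by_contra hpos
  push Not at hpos
  obtain ⟨Ylo, hYlo⟩ := (Set.finite_range C.y).bddBelow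
  obtain ⟨Yhi, hYhi⟩ := (Set.finite_range C.y).bddAbove
  have hlo : ∀ j, Ylo ≤ C.y j := fun j => hYlo ⟨j, rfl⟩
  have hhi : ∀ j, C.y j ≤ Yhi := fun j => hYhi ⟨j, rfl⟩
  set S : Set (ℝ × ℝ × ℝ) := {p | C.l ≤ p.1 ∧ p.1 ≤ p.2.1 ∧ p.2.1 ≤ C.r ∧ Ylo ≤ p.2.2 ∧ p.2.2 ≤ Yhi}
    with hS
  have hSsub : S ⊆ Icc C.l C.r ×ˢ (Icc C.l C.r ×ˢ Icc Ylo Yhi) := by
    intro p hp
    exact ⟨⟨hp.1, by linarith [hp.2.1, hp.2.2.1]⟩, ⟨by linarith [hp.1, hp.2.1], hp.2.2.1⟩,
      ⟨hp.2.2.2.1, hp.2.2.2.2⟩⟩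
  have hSclosed : IsClosed S := by
    have h1 : IsClosed {p : ℝ × ℝ × ℝ | C.l ≤ p.1} := isClosed_le continuous_const continuous_fst
    have h2 : IsClosed {p : ℝ × ℝ × ℝ | p.1 ≤ p.2.1} :=
      isClosed_le continuous_fst (continuous_fst.comp continuous_snd)
    have h3 : IsClosed {p : ℝ × ℝ × ℝ | p.2.1 ≤ C.r} :=
      isClosed_le (continuous_fst.comp continuous_snd) continuous_const
    have h4 : IsClosed {p : ℝ × ℝ × ℝ | Ylo ≤ p.2.2} :=
      isClosed_le continuous_const (continuous_snd.comp continuous_snd)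
    have h5 : IsClosed {p : ℝ × ℝ × ℝ | p.2.2 ≤ Yhi} :=
      isClosed_le (continuous_snd.comp continuous_snd) continuous_const
    exact h1.inter (h2.inter (h3.inter (h4.inter h5)))
  have hSc : IsCompact S :=
    ((isCompact_Icc).prod ((isCompact_Icc).prod isCompact_Icc)).of_isClosed_subset hSclosed hSsub
  have hSne : (a, a', C.y i) ∈ S := ⟨ha, haa, ha', hlo i, hhi i⟩
  have hcont : ContinuousOn (fun p : ℝ × ℝ × ℝ => C.D θ p.1 p.2.1 p.2.2) S :=
    (C.continuousOn_D θ).mono (fun p hp =>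
      ⟨⟨hp.1, by linarith [hp.2.1, hp.2.2.1]⟩, ⟨by linarith [hp.1, hp.2.1], hp.2.2.1⟩, trivial⟩)
  obtain ⟨⟨b, b', y₁⟩, hp, hpmax⟩ := hSc.exists_isMaxOn ⟨_, hSne⟩ hcont
  have hb : C.l ≤ b := hp.1
  have hbb : b ≤ b' := hp.2.1
  have hb' : b' ≤ C.r := hp.2.2.1
  have hglobal : ∀ x x' y'', C.l ≤ x → x ≤ x' → x' ≤ C.r → C.D θ x x' y'' ≤ C.D θ b b' y₁ := by
    intro x x' y'' h1 h2 h3
    have hx : x ∈ Icc C.l C.r := ⟨h1, by linarith⟩
    have hx' : x' ∈ Icc C.l C.r := ⟨by linarith, h3⟩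
    have hin : ∀ z, Ylo ≤ z → z ≤ Yhi → C.D θ x x' z ≤ C.D θ b b' y₁ := by
      intro z hz1 hz2
      exact hpmax (a := (x, x', z)) ⟨h1, h2, h3, hz1, hz2⟩
    have hloHi : Ylo ≤ Yhi := by
      exact (hlo i).trans (hhi i)
    rcases le_total y'' Ylo with hc | hc
    · rw [C.D_below hlo hc]
      exact hin _ le_rfl hloHi
    · rcases le_total y'' Yhi with hd | hd
      · exact hin _ hc hd
      · rw [C.D_above hx hx' hhi hd]
        exact hin _ hloHi le_rfl
  have hMpos : 0 < C.D θ b b' y₁ := hpos.trans_le (hglobal a a' _ ha haa ha')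
  have hbb' : b < b' := by
    rcases hbb.eq_or_lt with h | h
    · exfalso
      rw [← h, C.D_self] at hMpos
      exact lt_irrefl _ hMpos
    · exact h
  have hne : C.l < b ∨ b' < C.r := by
    by_contra hc
    push Not at hc
    have e1 : b = C.l := le_antisymm hc.1 hb
    have e2 : b' = C.r := le_antisymm hb' hc.2
    rw [e1, e2, C.D_full θ y₁ h0] at hMpos
    exact lt_irrefl _ hMpos
  exact C.no_max hb hbb' hb' hε hne hmove hglobal

/-- The upper bound for the difference of the level functions. -/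
theorem upper_bound {θ ε : ℝ} (h0 : ∫ s in C.l..C.r, C.W₀ s = 0) (hε : ε < θ)
    (hmove : ∀ i, |C.t i - C.t' i| ≤ ε) (i : ι) {s : ℝ} (hs : s ∈ Ioo C.l C.r) :
    C.W i s ≤ θ * C.w / 2 := by
  have hε0 : 0 ≤ ε := (abs_nonneg _).trans (hmove i)
  have hθ : 0 < θ := by linarith
  by_contra hne
  push Not at hne
  set e : ℝ := (C.W i s - θ * C.w / 2) / 2 with he
  have he0 : 0 < e := by rw [he]; linarith
  have hcont := C.W_continuousAt i hs
  have hev : ∀ᶠ x in 𝓝 s, C.W i s - e < C.W i x :=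
    hcont.eventually (lt_mem_nhds (by linarith))
  obtain ⟨h₀, hh₀, hh⟩ := Metric.eventually_nhds_iff.mp hev
  set h : ℝ := min (h₀ / 2) (C.r - s) with hh'
  have hh0 : 0 < h := lt_min (by linarith) (by linarith [hs.2])
  have hh1 : h ≤ h₀ / 2 := min_le_left _ _
  have hh2 : h ≤ C.r - s := min_le_right _ _
  have hsm : s ∈ Icc C.l C.r := ⟨hs.1.le, hs.2.le⟩
  have hem : s + h ∈ Icc C.l C.r := ⟨by linarith [hs.1], by linarith⟩
  have hD := C.D_nonpos h0 hε hmove (a := s) (a' := s + h) hs.1.le (by linarith) hem.2 i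
  rw [C.D_level θ i hsm hem] at hD
  have hlow : ∫ x in s..(s + h), (C.W i s - e + 0 * (x - s)) ≤ ∫ x in s..(s + h), C.W i x := by
    apply intervalIntegral.integral_mono_on (by linarith)
    · apply Continuous.intervalIntegrable
      fun_prop
    · exact C.intW i hsm hem
    · intro x hx
      have : C.W i s - e < C.W i x := hh (y := x) (by
        rw [Real.dist_eq, abs_lt]
        constructor <;> linarith [hx.1, hx.2])
      linarith
  rw [integral_affine_aux] at hlow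
  have e4 : s + h - s = h := by ring
  rw [e4] at hlow hD
  unfold q at hD
  have h5 : (C.W i s - e) * h - θ * (h * (C.w - h) / 2) ≤ 0 := by linarith
  have h6 : (C.W i s - e) = θ * C.w / 2 + e := by rw [he]; ring
  rw [h6] at h5
  have h7 : 0 < e * h := mul_pos he0 hh0
  have h8 : 0 ≤ θ * h ^ 2 / 2 := by positivity
  nlinarith

/-- Shifting by a constant. -/
noncomputable def shift (κ : ℝ) : Col1D ι where
  l := C.l
  r := C.r
  hlr := C.hlr
  y := C.y
  t := C.t
  t' := C.t'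
  f := C.f
  f' := fun i s => C.f' i s - κ
  ℓ := C.ℓ
  ℓ' := C.ℓ'
  W₀ := fun s => C.W₀ s - κ
  conc := C.conc
  conc' := fun i => by
    refine ⟨(C.conc' i).1, ?_⟩
    intro x hx y hy a b ha hb hab
    have h1 := (C.conc' i).2 hx hy ha hb hab
    simp only [smul_eq_mul] at h1 ⊢
    have e : a * (C.f' i x - κ) + b * (C.f' i y - κ) = a * C.f' i x + b * C.f' i y - (a + b) * κ := by
      ring
    rw [e, hab]
    linarith
  sup := C.sup
  sup' := fun i s₀ hs₀ hp s hs => by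
    have := C.sup' i s₀ hs₀ hp s hs
    linarith
  link := fun i s hs => by
    have := C.link i s hs
    linarith
  nonneg := C.nonneg
  nonneg' := C.nonneg'
  intℓ := C.intℓ
  intℓ' := C.intℓ'
  intW₀ := C.intW₀.sub intervalIntegrable_const
  mass := C.mass
  len := C.len
  lenpos := C.lenpos

/-- Exchanging the two configurations. -/
noncomputable def swap : Col1D ι where
  l := C.l
  r := C.r
  hlr := C.hlr
  y := C.y
  t := C.t'
  t' := C.t
  f := C.f'
  f' := C.f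
  ℓ := C.ℓ'
  ℓ' := C.ℓ
  W₀ := fun s => - C.W₀ s
  conc := C.conc'
  conc' := C.conc
  sup := C.sup'
  sup' := C.sup
  link := fun i s hs => by
    have := C.link i s hs
    have e : ∑ j, (C.ℓ j s - C.ℓ' j s) * max (C.y i - C.y j) 0 =
        - ∑ j, (C.ℓ' j s - C.ℓ j s) * max (C.y i - C.y j) 0 := by
      rw [← Finset.sum_neg_distrib]
      apply Finset.sum_congr rfl
      intro j _
      ring
    rw [e]
    linarith
  nonneg := C.nonneg'
  nonneg' := C.nonneg
  intℓ := C.intℓ'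
  intℓ' := C.intℓ
  intW₀ := C.intW₀.neg
  mass := fun i => (C.mass i).symm
  len := fun s hs => (C.len s hs).symm
  lenpos := fun s hs => by
    rw [← C.len s hs]
    exact C.lenpos s hs

theorem W_pos_w : 0 < C.w := sub_pos.mpr C.hlr

/-- The upper bound with the constant. -/
theorem upper_bound' {θ ε : ℝ} (hε : ε < θ)
    (hmove : ∀ i, |C.t i - C.t' i| ≤ ε) (i : ι) {s : ℝ} (hs : s ∈ Ioo C.l C.r) :
    C.W i s ≤ (∫ x in C.l..C.r, C.W₀ x) / C.w + θ * C.w / 2 := by
  set κ : ℝ := (∫ x in C.l..C.r, C.W₀ x) / C.w with hκ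
  have hw := C.W_pos_w
  have h0 : ∫ s in (C.shift κ).l..(C.shift κ).r, (C.shift κ).W₀ s = 0 := by
    change ∫ s in C.l..C.r, (C.W₀ s - κ) = 0
    rw [intervalIntegral.integral_sub C.intW₀ intervalIntegrable_const]
    simp only [intervalIntegral.integral_const, smul_eq_mul]
    rw [hκ]
    have : C.r - C.l = C.w := rfl
    rw [this]
    field_simp
    ring
  have h1 := (C.shift κ).upper_bound h0 hε hmove i hs
  have e1 : (C.shift κ).W i s = C.W i s - κ := by
    change (C.f' i s - κ) - C.f i s = C.f' i s - C.f i s - κ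
    ring
  have e2 : (C.shift κ).w = C.w := rfl
  rw [e1, e2] at h1
  linarith

/-- **The one-dimensional horizontal lemma.** -/
theorem two_sided {ε : ℝ} (hmove : ∀ i, |C.t i - C.t' i| ≤ ε) (i : ι) {s : ℝ}
    (hs : s ∈ Ioo C.l C.r) :
    |C.f' i s - C.f i s - (∫ x in C.l..C.r, C.W₀ x) / C.w| ≤ ε * C.w / 2 := by
  have hw := C.W_pos_w
  have hup : ∀ θ, ε < θ → C.W i s - (∫ x in C.l..C.r, C.W₀ x) / C.w ≤ θ * C.w / 2 := by
    intro θ hθ
    have := C.upper_bound' hθ hmove i hs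
    linarith
  have hlow : ∀ θ, ε < θ → -(C.W i s - (∫ x in C.l..C.r, C.W₀ x) / C.w) ≤ θ * C.w / 2 := by
    intro θ hθ
    have hmove' : ∀ i, |C.swap.t i - C.swap.t' i| ≤ ε := by
      intro j
      change |C.t' j - C.t j| ≤ ε
      rw [abs_sub_comm]
      exact hmove j
    have := C.swap.upper_bound' hθ hmove' i hs
    have e1 : C.swap.W i s = - C.W i s := by
      change C.f i s - C.f' i s = - (C.f' i s - C.f i s)
      ring
    have e2 : ∫ x in C.swap.l..C.swap.r, C.swap.W₀ x = - ∫ x in C.l..C.r, C.W₀ x := by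
      change ∫ x in C.l..C.r, - C.W₀ x = _
      rw [intervalIntegral.integral_neg]
    have e3 : C.swap.w = C.w := rfl
    rw [e1, e2, e3] at this
    have e4 : -(∫ x in C.l..C.r, C.W₀ x) / C.w = -((∫ x in C.l..C.r, C.W₀ x) / C.w) := by ring
    rw [e4] at this
    linarith
  have hlim : ∀ A : ℝ, (∀ θ, ε < θ → A ≤ θ * C.w / 2) → A ≤ ε * C.w / 2 := by
    intro A hA
    apply le_of_forall_pos_le_add
    intro η hη
    have := hA (ε + 2 * η / C.w) (by
      have : 0 < 2 * η / C.w := by positivity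
      linarith)
    have e : (ε + 2 * η / C.w) * C.w / 2 = ε * C.w / 2 + η := by
      field_simp
    linarith
  unfold W at hup hlow
  rw [abs_le]
  constructor
  · have := hlim _ hlow
    linarith
  · exact hlim _ hup

end Col1D

end Vale.Agent.Lib.P074
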