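import Vale.Agent.Lib.P074.Conj

open MeasureTheory Set Filter Topology
open scoped ENNReal NNReal RealInnerProductSpace

namespace Vale.Agent.Lib.P074

variable {d : ℕ}

/-- Change of variables under a dilation centred at `p`. -/
theorem setIntegral_comp_dil {K : Set (E d)} (hKm : MeasurableSet K) (p : E d) {R : ℝ} (hR : 0 < R)
    (g : E d → ℝ) :
    ∫ x in K, g (p + R • (x - p)) = (R ^ d)⁻¹ * ∫ y in (fun x => p + R • (x - p)) '' K, g y := by
  set D : E d → E d := fun x => p + R • (x - p) with hD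
  set D' : E d → E d := fun y => p + R⁻¹ • (y - p) with hD'
  have hleft : ∀ x, D' (D x) = x := by
    intro x
    simp only [hD, hD', add_sub_cancel_left, smul_smul, inv_mul_cancel₀ hR.ne', one_smul]
    abel
  have hright : ∀ y, D (D' y) = y := by
    intro y
    simp only [hD, hD', add_sub_cancel_left, smul_smul, mul_inv_cancel₀ hR.ne', one_smul]
    abel
  have hS : D '' K = D' ⁻¹' K := by
    ext y
    constructor
    · rintro ⟨x, hx, rfl⟩
      simpa [hleft] using hx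
    · intro hy
      exact ⟨D' y, hy, hright y⟩
  have hD'c : Continuous D' := by
    simp only [hD']
    fun_prop
  have hSm : MeasurableSet (D '' K) := by
    rw [hS]
    exact hD'c.measurable hKm
  have hind : ∀ x, K.indicator (fun x => g (D x)) x = ((D '' K).indicator g) (D x) := by
    intro x
    by_cases hx : x ∈ K
    · have : D x ∈ D '' K := ⟨x, hx, rfl⟩
      rw [indicator_of_mem hx, indicator_of_mem this]
    · have : D x ∉ D '' K := by
        rw [hS]
        simpa [hleft] using hx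
      rw [indicator_of_notMem hx, indicator_of_notMem this]
  rw [← integral_indicator hKm, ← integral_indicator hSm]
  have hcongr : ∫ a, K.indicator (fun x => g (D x)) a = ∫ a, ((D '' K).indicator g) (D a) :=
    integral_congr_ae (Filter.Eventually.of_forall hind)
  rw [hcongr]
  set f := (D '' K).indicator g with hf
  have e1 : ∫ x, f (D x) = ∫ x, f (p + R • x) := by
    exact integral_sub_right_eq_self (fun x => f (p + R • x)) p
  have e2 : ∫ x, f (p + R • x) = |(R ^ (Module.finrank ℝ (E d)))⁻¹| • ∫ x, f (p + x) :=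
    Measure.integral_comp_smul volume (fun x => f (p + x)) R
  have e3 : ∫ x, f (p + x) = ∫ x, f x := integral_add_left_eq_self f p
  rw [e1, e2, e3, finrank_euclideanSpace_fin, abs_of_pos (by positivity), smul_eq_mul]

theorem dil_eq_add (p x : E d) (t : ℝ) : p + (1 - t) • (x - p) = x + t • (p - x) := by
  simp only [sub_smul, one_smul, smul_sub]
  abel

/-- The integral of `g` changes little under a small dilation. -/
theorem abs_integral_dil_sub_le {K : Set (E d)} (hK : IsCompact K) (hconv : Convex ℝ K) {p : E d}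
    (hp : p ∈ K) {t : ℝ} (ht0 : 0 < t) (ht1 : t < 1) {g : E d → ℝ} (hg : Measurable g) {M : ℝ}
    (hM : ∀ x ∈ K, |g x| ≤ M) :
    |(∫ x in K, g (x + t • (p - x))) - ∫ x in K, g x| ≤ 2 * d * t * M * (volume K).toReal := by
  have hKm : MeasurableSet K := hK.isClosed.measurableSet
  have hKfin : volume K ≠ ∞ := hK.measure_lt_top.ne
  set R : ℝ := 1 - t with hR
  have hR0 : 0 < R := by rw [hR]; linarith
  have hR1 : R < 1 := by rw [hR]; linarith
  set D : E d → E d := fun x => p + R • (x - p) with hD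
  set S : Set (E d) := D '' K with hS
  have hDK : ∀ x ∈ K, D x ∈ K := by
    intro x hx
    simp only [hD]
    rw [hR, dil_eq_add]
    have := hconv hx hp (by linarith : 0 ≤ 1 - t) ht0.le (by ring)
    convert this using 1
    simp only [smul_sub, sub_smul, one_smul]
    abel
  have hSK : S ⊆ K := by
    rintro _ ⟨x, hx, rfl⟩
    exact hDK x hx
  have hSm : MeasurableSet S := by
    have hc : Continuous D := by simp only [hD]; fun_prop
    exact (hK.image hc).isClosed.measurableSet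
  have hSfin : volume S ≠ ∞ := measure_ne_top_of_subset hSK hKfin
  set V : ℝ := (volume K).toReal with hV
  set VS : ℝ := (volume S).toReal with hVS
  have hV0 : 0 ≤ V := ENNReal.toReal_nonneg
  have hVS0 : 0 ≤ VS := ENNReal.toReal_nonneg
  -- volumes
  have hvol : V = (R ^ d)⁻¹ * VS := by
    have h1 := setIntegral_comp_dil hKm p hR0 (fun _ => (1 : ℝ))
    simp only [setIntegral_const, smul_eq_mul, mul_one, Measure.real] at h1
    exact h1
  have hRd : 0 < R ^ d := by positivity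
  have hVS' : VS = R ^ d * V := by
    rw [hvol, ← mul_assoc, mul_inv_cancel₀ hRd.ne', one_mul]
  have hdiff : (volume (K \ S)).toReal = V - VS := by
    rw [measure_sdiff hSK hSm.nullMeasurableSet hSfin,
      ENNReal.toReal_sub_of_le (measure_mono hSK) hKfin]
  have hM0 : 0 ≤ M := by
    by_cases hne : K.Nonempty
    · obtain ⟨x, hx⟩ := hne
      exact (abs_nonneg _).trans (hM x hx)
    · have : (0 : ℝ) ≤ M ∨ K = ∅ := Or.inr (not_nonempty_iff_eq_empty.mp hne)
      rcases this with h | h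
      · exact h
      · exact absurd ⟨p, hp⟩ hne
  -- the integrals
  have hcv := setIntegral_comp_dil hKm p hR0 g
  have hgK : IntegrableOn g K := by
    refine Measure.integrableOn_of_bounded (M := M) hKfin hg.aestronglyMeasurable ?_
    rw [ae_restrict_iff' hKm]
    filter_upwards with x hx
    exact hM x hx
  have hsplit : ∫ x in K \ S, g x = (∫ x in K, g x) - ∫ x in S, g x := setIntegral_sdiff hSm hgK hSK
  have hb1 : |∫ x in S, g x| ≤ M * VS := by
    have := norm_setIntegral_le_of_norm_le_const (μ := volume) (s := S) (f := g) (C := M)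
      hSfin.lt_top (fun x hx => by
        rw [Real.norm_eq_abs]
        exact hM x (hSK hx))
    simpa [Measure.real] using this
  have hb2 : |∫ x in K \ S, g x| ≤ M * (V - VS) := by
    have hfin : volume (K \ S) ≠ ∞ := measure_ne_top_of_subset sdiff_subset hKfin
    have := norm_setIntegral_le_of_norm_le_const (μ := volume) (s := K \ S) (f := g) (C := M)
      hfin.lt_top (fun x hx => by
        rw [Real.norm_eq_abs]
        exact hM x hx.1)
    rw [Real.norm_eq_abs, Measure.real, hdiff] at this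
    exact this
  have hbern : 1 - d * t ≤ R ^ d := by
    have := one_add_mul_le_pow (a := -t) (by linarith) d
    have h2 : (1 + -t) = R := by rw [hR]; ring
    rw [h2] at this
    nlinarith
  have hlhs : (∫ x in K, g (x + t • (p - x))) = ∫ x in K, g (D x) := by
    apply setIntegral_congr_fun hKm
    intro x _
    simp only [hD]
    rw [hR, dil_eq_add]
  rw [hlhs, hcv]
  have heq : (R ^ d)⁻¹ * (∫ y in S, g y) - ∫ x in K, g x =
      ((R ^ d)⁻¹ - 1) * (∫ y in S, g y) - ∫ x in K \ S, g x := by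
    rw [hsplit]; ring
  rw [heq]
  have hinv : 0 ≤ (R ^ d)⁻¹ - 1 := by
    have : R ^ d ≤ 1 := pow_le_one₀ hR0.le hR1.le
    have := one_le_inv₀ hRd |>.mpr this
    linarith
  have hfirst : |((R ^ d)⁻¹ - 1) * (∫ y in S, g y)| ≤ ((R ^ d)⁻¹ - 1) * (M * VS) := by
    rw [abs_mul, abs_of_nonneg hinv]
    exact mul_le_mul_of_nonneg_left hb1 hinv
  have hcomp : ((R ^ d)⁻¹ - 1) * (M * VS) = M * (V - VS) := by
    rw [hVS']
    field_simp
  have hVSV : VS ≤ V := by
    rw [hVS']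
    have : R ^ d ≤ 1 := pow_le_one₀ hR0.le hR1.le
    nlinarith
  calc |((R ^ d)⁻¹ - 1) * (∫ y in S, g y) - ∫ x in K \ S, g x|
      ≤ |((R ^ d)⁻¹ - 1) * (∫ y in S, g y)| + |∫ x in K \ S, g x| := abs_sub _ _
    _ ≤ M * (V - VS) + M * (V - VS) := by rw [← hcomp]; gcongr; rw [hcomp]; exact hb2
    _ = 2 * M * ((1 - R ^ d) * V) := by rw [hVS']; ring
    _ ≤ 2 * M * ((d * t) * V) := by
        apply mul_le_mul_of_nonneg_left _ (by positivity)
        apply mul_le_mul_of_nonneg_right _ hV0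
        linarith
    _ = 2 * d * t * M * V := by ring

/-- The elementary inequalities along the segment towards `p`. -/
theorem pointwise_inc {K : Set (E d)} {p x : E d} {φ : E d → ℝ} {T : E d → E d} {t : ℝ}
    (hx : x ∈ K) (hs : IsSubgrad K φ x (T x))
    (hs' : IsSubgrad K φ (x + t • (p - x)) (T (x + t • (p - x)))) (ht : 0 < t) (ht1 : t < 1) :
    t * ⟪p - x, T x⟫ ≤ φ (x + t • (p - x)) - φ x ∧
      φ (x + t • (p - x)) - φ x ≤ t * (⟪p - x, T x⟫ +
        ((1 - t)⁻¹ * ⟪p - (x + t • (p - x)), T (x + t • (p - x))⟫ - ⟪p - x, T x⟫)) ∧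
      0 ≤ (1 - t)⁻¹ * ⟪p - (x + t • (p - x)), T (x + t • (p - x))⟫ - ⟪p - x, T x⟫ := by
  set x' := x + t • (p - x) with hx'
  have h1 := hs.2 x' hs'.1
  have h2 := hs'.2 x hx
  have e1 : x' - x = t • (p - x) := by rw [hx']; abel
  have e2 : x - x' = -(t • (p - x)) := by rw [hx']; abel
  have e3 : p - x' = (1 - t) • (p - x) := by
    rw [hx']
    simp only [sub_smul, one_smul]
    abel
  rw [e1, inner_smul_right, real_inner_comm] at h1
  rw [e2, inner_neg_right, inner_smul_right, real_inner_comm] at h2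
  rw [e3, inner_smul_left]
  simp only [RCLike.conj_to_real]
  have h1t : (1 - t) ≠ 0 := by linarith
  rw [← mul_assoc, inv_mul_cancel₀ h1t, one_mul]
  have h3 : 0 ≤ t * (⟪p - x, T x'⟫ - ⟪p - x, T x⟫) := by linarith
  have h4 : 0 ≤ ⟪p - x, T x'⟫ - ⟪p - x, T x⟫ := nonneg_of_mul_nonneg_right h3 ht
  refine ⟨by linarith, ?_, h4⟩
  have e4 : t * (⟪p - x, T x⟫ + (⟪p - x, T x'⟫ - ⟪p - x, T x⟫)) = t * ⟪p - x, T x'⟫ := by ring
  rw [e4]
  linarith

/-- The integral of a nonnegative increment is of order `t`. -/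
theorem integral_inc_le {K : Set (E d)} (hK : IsCompact K) (hconv : Convex ℝ K) {p : E d}
    (hp : p ∈ K) {t : ℝ} (ht0 : 0 < t) (ht2 : t ≤ 1 / 2) {Y : E d → ℝ} (hYm : Measurable Y) {B : ℝ}
    (hYb : ∀ x ∈ K, |Y x| ≤ B) :
    ∫ x in K, ((1 - t)⁻¹ * Y (x + t • (p - x)) - Y x) ≤ (2 + 2 * d) * t * B * (volume K).toReal := by
  have hKm : MeasurableSet K := hK.isClosed.measurableSet
  have hKfin : volume K ≠ ∞ := hK.measure_lt_top.ne
  have ht1 : t < 1 := by linarith
  have h1t : 0 < 1 - t := by linarith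
  have hDtm : Measurable fun x : E d => x + t • (p - x) :=
    (measurable_id.add ((measurable_const.sub measurable_id).const_smul t))
  have hDK : ∀ x ∈ K, x + t • (p - x) ∈ K := by
    intro x hx
    have := hconv hx hp (by linarith : 0 ≤ 1 - t) ht0.le (by ring)
    convert this using 1
    simp only [smul_sub, sub_smul, one_smul]
    abel
  have hB0 : 0 ≤ B := (abs_nonneg _).trans (hYb p hp)
  have hV0 : 0 ≤ (volume K).toReal := ENNReal.toReal_nonneg
  have hi1 : IntegrableOn (fun x => Y (x + t • (p - x))) K := by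
    refine Measure.integrableOn_of_bounded (M := B) hKfin (hYm.comp hDtm).aestronglyMeasurable ?_
    rw [ae_restrict_iff' hKm]
    filter_upwards with x hx
    exact hYb _ (hDK x hx)
  have hi2 : IntegrableOn Y K := by
    refine Measure.integrableOn_of_bounded (M := B) hKfin hYm.aestronglyMeasurable ?_
    rw [ae_restrict_iff' hKm]
    filter_upwards with x hx
    exact hYb _ hx
  rw [integral_sub (hi1.const_mul _) hi2, integral_const_mul]
  have h1 := abs_integral_dil_sub_le hK hconv hp ht0 ht1 hYm hYb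
  have h2 : |∫ x in K, Y (x + t • (p - x))| ≤ B * (volume K).toReal := by
    have := norm_setIntegral_le_of_norm_le_const (μ := volume) (s := K)
      (f := fun x => Y (x + t • (p - x))) (C := B) hKfin.lt_top (fun x hx => by
        rw [Real.norm_eq_abs]
        exact hYb _ (hDK x hx))
    simpa [Measure.real] using this
  generalize (∫ x in K, Y (x + t • (p - x))) = J at h1 h2 ⊢
  generalize (∫ x in K, Y x) = J₀ at h1 ⊢
  have h3 : (1 - t)⁻¹ - 1 ≤ 2 * t := by
    rw [inv_eq_one_div, sub_le_iff_le_add, div_le_iff₀ h1t]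
    nlinarith
  have h4 : 0 ≤ (1 - t)⁻¹ - 1 := by
    have : 1 ≤ (1 - t)⁻¹ := (one_le_inv₀ h1t).mpr (by linarith)
    linarith
  have h5 : ((1 - t)⁻¹ - 1) * J ≤ (2 * t) * (B * (volume K).toReal) := by
    calc ((1 - t)⁻¹ - 1) * J ≤ ((1 - t)⁻¹ - 1) * |J| :=
          mul_le_mul_of_nonneg_left (le_abs_self _) h4
      _ ≤ (2 * t) * (B * (volume K).toReal) := mul_le_mul h3 h2 (abs_nonneg _) (by positivity)
  have h6 := (abs_le.mp h1).2
  have e1 : (1 - t)⁻¹ * J - J₀ = ((1 - t)⁻¹ - 1) * J + (J - J₀) := by ring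
  rw [e1]
  nlinarith

/-- The real inequality behind the oscillation bound. -/
theorem key_real {t F Y₀ Y₁ L₀ L₁ Inc₀ Inc₁ B e ax aD : ℝ} (ht0 : 0 < t) (ht1 : t < 1)
    (a3 : 0 ≤ Inc₀) (b3 : 0 ≤ Inc₁) (hF : F = Y₁ - Y₀)
    (a1 : t * Y₀ ≤ L₀) (a2 : L₀ ≤ t * (Y₀ + Inc₀)) (b1 : t * Y₁ ≤ L₁) (b2 : L₁ ≤ t * (Y₁ + Inc₁))
    (hFb : |F| ≤ 2 * B) (haD : |aD| ≤ e) (hB : 0 ≤ B) (_he : 0 ≤ e) (had : aD - ax = L₁ - L₀) :
    t * F ^ 2 ≤ (((1 - t) * (Inc₁ + Y₁) - (1 - t) * (Inc₀ + Y₀)) * aD - F * ax) +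
      (e * (t * (2 * B)) + (e + t * (2 * B)) * (Inc₀ + Inc₁)) := by
  have h1t : 0 < 1 - t := by linarith
  set FD := (1 - t) * (Inc₁ + Y₁) - (1 - t) * (Inc₀ + Y₀) with hFD
  have hdF : F - FD = t * F - (1 - t) * (Inc₁ - Inc₀) := by
    rw [hFD, hF]; ring
  have hFbx := abs_le.mp hFb
  have hdFabs : |F - FD| ≤ t * (2 * B) + (Inc₀ + Inc₁) := by
    rw [hdF, abs_le]
    have h1 : t * F ≤ t * (2 * B) := mul_le_mul_of_nonneg_left hFbx.2 ht0.le
    have h2 : t * (-(2 * B)) ≤ t * F := mul_le_mul_of_nonneg_left hFbx.1 ht0.le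
    have h3 : (1 - t) * Inc₀ ≤ Inc₀ := by nlinarith
    have h4 : (1 - t) * Inc₁ ≤ Inc₁ := by nlinarith
    have h5 : 0 ≤ (1 - t) * Inc₀ := mul_nonneg h1t.le a3
    have h6 : 0 ≤ (1 - t) * Inc₁ := mul_nonneg h1t.le b3
    constructor <;> nlinarith
  have hprod : (F - FD) * aD ≤ e * (t * (2 * B) + (Inc₀ + Inc₁)) := by
    calc (F - FD) * aD ≤ |F - FD| * |aD| := by
          rw [← abs_mul]; exact le_abs_self _
      _ ≤ (t * (2 * B) + (Inc₀ + Inc₁)) * e :=
          mul_le_mul hdFabs haD (abs_nonneg _) (by positivity)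
      _ = _ := by ring
  have hGexp : FD * aD - F * ax = F * (aD - ax) - (F - FD) * aD := by ring
  have hkey : t * F ^ 2 ≤ F * (aD - ax) + t * |F| * (Inc₀ + Inc₁) := by
    rw [had]
    rcases le_total 0 F with hc | hc
    · rw [abs_of_nonneg hc]
      have h1 : t * (F - Inc₀) ≤ L₁ - L₀ := by
        rw [hF]; nlinarith
      have h2 := mul_le_mul_of_nonneg_left h1 hc
      have h3 : 0 ≤ t * F * Inc₁ := by positivity
      nlinarith
    · rw [abs_of_nonpos hc]
      have h1 : L₁ - L₀ ≤ t * (F + Inc₁) := by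
        rw [hF]; nlinarith
      have h2 := mul_le_mul_of_nonpos_left h1 hc
      have h3 : 0 ≤ t * (-F) * Inc₀ := by
        have : 0 ≤ -F := by linarith
        positivity
      nlinarith
  have habsF : t * |F| * (Inc₀ + Inc₁) ≤ t * (2 * B) * (Inc₀ + Inc₁) := by
    have h0 : 0 ≤ Inc₀ + Inc₁ := by linarith
    have h1 : t * |F| ≤ t * (2 * B) := mul_le_mul_of_nonneg_left hFb ht0.le
    exact mul_le_mul_of_nonneg_right h1 h0
  rw [hGexp]
  nlinarith

/-- The integrated form of the oscillation bound at a fixed dilation. -/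
theorem osc_abstract {K : Set (E d)} (hK : IsCompact K) (hconv : Convex ℝ K) {p : E d}
    (hp : p ∈ K) {t B e : ℝ} (ht0 : 0 < t) (ht2 : t ≤ 1 / 2) {Y₀ Y₁ a : E d → ℝ}
    (hY₀m : Measurable Y₀) (hY₁m : Measurable Y₁) (ham : Measurable a)
    (hY₀b : ∀ x ∈ K, |Y₀ x| ≤ B) (hY₁b : ∀ x ∈ K, |Y₁ x| ≤ B) (hab : ∀ x ∈ K, |a x| ≤ e)
    (hpt : ∀ x ∈ K, t * (Y₁ x - Y₀ x) ^ 2 ≤
      (((1 - t) * (((1 - t)⁻¹ * Y₁ (x + t • (p - x)) - Y₁ x) + Y₁ x) -
        (1 - t) * (((1 - t)⁻¹ * Y₀ (x + t • (p - x)) - Y₀ x) + Y₀ x)) * a (x + t • (p - x)) -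
          (Y₁ x - Y₀ x) * a x) +
      (e * (t * (2 * B)) + (e + t * (2 * B)) * (((1 - t)⁻¹ * Y₀ (x + t • (p - x)) - Y₀ x) +
        ((1 - t)⁻¹ * Y₁ (x + t • (p - x)) - Y₁ x)))) :
    ∫ x in K, (Y₁ x - Y₀ x) ^ 2 ≤ (8 * d + 6) * B * e * (volume K).toReal +
      t * ((8 + 8 * d) * B ^ 2 * (volume K).toReal) := by
  have hKm : MeasurableSet K := hK.isClosed.measurableSet
  have hKfin : volume K ≠ ∞ := hK.measure_lt_top.ne
  have ht1 : t < 1 := by linarith
  have h1t : 0 < 1 - t := by linarith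
  have he0 : 0 ≤ e := (abs_nonneg _).trans (hab p hp)
  have hB0 : 0 ≤ B := (abs_nonneg _).trans (hY₀b p hp)
  have hV0 : 0 ≤ (volume K).toReal := ENNReal.toReal_nonneg
  have hDtm : Measurable fun x : E d => x + t • (p - x) :=
    (measurable_id.add ((measurable_const.sub measurable_id).const_smul t))
  have hDK : ∀ x ∈ K, x + t • (p - x) ∈ K := by
    intro x hx
    have := hconv hx hp (by linarith : 0 ≤ 1 - t) ht0.le (by ring)
    convert this using 1
    simp only [smul_sub, sub_smul, one_smul]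
    abel
  have hintb : ∀ f : E d → ℝ, Measurable f → ∀ M : ℝ, (∀ x ∈ K, |f x| ≤ M) → IntegrableOn f K := by
    intro f hf M hM
    refine Measure.integrableOn_of_bounded (M := M) hKfin hf.aestronglyMeasurable ?_
    rw [ae_restrict_iff' hKm]
    filter_upwards with x hx
    exact hM x hx
  have hI₀ := integral_inc_le hK hconv hp ht0 ht2 hY₀m hY₀b
  have hI₁ := integral_inc_le hK hconv hp ht0 ht2 hY₁m hY₁b
  have hInv : 0 ≤ (1 - t)⁻¹ := (inv_pos.mpr h1t).le
  have hIb : ∀ (Y : E d → ℝ), (∀ x ∈ K, |Y x| ≤ B) → ∀ x ∈ K,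
      |(1 - t)⁻¹ * Y (x + t • (p - x)) - Y x| ≤ (1 - t)⁻¹ * B + B := by
    intro Y hY x hx
    have h1 := abs_sub ((1 - t)⁻¹ * Y (x + t • (p - x))) (Y x)
    rw [abs_mul, abs_of_nonneg hInv] at h1
    have h2 := mul_le_mul_of_nonneg_left (hY _ (hDK x hx)) hInv
    linarith [hY x hx]
  have hInc₀i : IntegrableOn (fun x => (1 - t)⁻¹ * Y₀ (x + t • (p - x)) - Y₀ x) K :=
    hintb _ (((hY₀m.comp hDtm).const_mul _).sub hY₀m) _ (hIb Y₀ hY₀b)
  have hInc₁i : IntegrableOn (fun x => (1 - t)⁻¹ * Y₁ (x + t • (p - x)) - Y₁ x) K :=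
    hintb _ (((hY₁m.comp hDtm).const_mul _).sub hY₁m) _ (hIb Y₁ hY₁b)
  set F : E d → ℝ := fun x => Y₁ x - Y₀ x with hF
  have hFm : Measurable F := hY₁m.sub hY₀m
  have hFb : ∀ x ∈ K, |F x| ≤ 2 * B := by
    intro x hx
    have := abs_sub (Y₁ x) (Y₀ x)
    simp only [hF]
    linarith [hY₀b x hx, hY₁b x hx]
  set G : E d → ℝ := fun x => F x * a x with hG
  have hGm : Measurable G := hFm.mul ham
  have hGb : ∀ x ∈ K, |G x| ≤ 2 * B * e := by
    intro x hx
    rw [hG, abs_mul]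
    exact mul_le_mul (hFb x hx) (hab x hx) (abs_nonneg _) (by positivity)
  have hGdiff : (∫ x in K, G (x + t • (p - x))) - ∫ x in K, G x ≤ 2 * d * t * (2 * B * e) *
      (volume K).toReal :=
    (le_abs_self _).trans (abs_integral_dil_sub_le hK hconv hp ht0 ht1 hGm hGb)
  have hGDi : IntegrableOn (fun x => G (x + t • (p - x))) K :=
    hintb _ (hGm.comp hDtm) (2 * B * e) (fun x hx => hGb _ (hDK x hx))
  have hGi : IntegrableOn G K := hintb _ hGm _ hGb
  have hFsqi : IntegrableOn (fun x => F x ^ 2) K := by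
    refine hintb _ (hFm.pow_const 2) ((2 * B) ^ 2) ?_
    intro x hx
    rw [abs_pow]
    exact pow_le_pow_left₀ (abs_nonneg _) (hFb x hx) 2
  -- rewrite the pointwise bound using `G`
  have hpt' : ∀ x ∈ K, t * F x ^ 2 ≤ (G (x + t • (p - x)) - G x) +
      (e * (t * (2 * B)) + (e + t * (2 * B)) * (((1 - t)⁻¹ * Y₀ (x + t • (p - x)) - Y₀ x) +
        ((1 - t)⁻¹ * Y₁ (x + t • (p - x)) - Y₁ x))) := by
    intro x hx
    have h := hpt x hx
    have e1 : ∀ Y : E d → ℝ, (1 - t) * (((1 - t)⁻¹ * Y (x + t • (p - x)) - Y x) + Y x) =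
        Y (x + t • (p - x)) := by
      intro Y
      field_simp
      ring
    rw [e1, e1] at h
    exact h
  have hint1 : t * ∫ x in K, F x ^ 2 ≤ ∫ x in K, ((G (x + t • (p - x)) - G x) +
      (e * (t * (2 * B)) + (e + t * (2 * B)) * (((1 - t)⁻¹ * Y₀ (x + t • (p - x)) - Y₀ x) +
        ((1 - t)⁻¹ * Y₁ (x + t • (p - x)) - Y₁ x)))) := by
    rw [← integral_const_mul]
    apply setIntegral_mono_on (hFsqi.const_mul _) _ hKm hpt'
    exact (hGDi.sub hGi).add ((integrableOn_const hKfin).add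
      ((hInc₀i.add hInc₁i).const_mul _))
  have hint2 : ∫ x in K, ((G (x + t • (p - x)) - G x) +
      (e * (t * (2 * B)) + (e + t * (2 * B)) * (((1 - t)⁻¹ * Y₀ (x + t • (p - x)) - Y₀ x) +
        ((1 - t)⁻¹ * Y₁ (x + t • (p - x)) - Y₁ x)))) =
      ((∫ x in K, G (x + t • (p - x))) - ∫ x in K, G x) + (e * (t * (2 * B)) * (volume K).toReal +
        (e + t * (2 * B)) * ((∫ x in K, ((1 - t)⁻¹ * Y₀ (x + t • (p - x)) - Y₀ x)) +
          ∫ x in K, ((1 - t)⁻¹ * Y₁ (x + t • (p - x)) - Y₁ x))) := by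
    have hi1 : IntegrableOn (fun x => G (x + t • (p - x)) - G x) K := hGDi.sub hGi
    have hi2 : IntegrableOn (fun x => (e + t * (2 * B)) * (((1 - t)⁻¹ * Y₀ (x + t • (p - x)) - Y₀ x) +
        ((1 - t)⁻¹ * Y₁ (x + t • (p - x)) - Y₁ x))) K := (hInc₀i.add hInc₁i).const_mul _
    have hi3 : IntegrableOn (fun x => e * (t * (2 * B)) + (e + t * (2 * B)) *
        (((1 - t)⁻¹ * Y₀ (x + t • (p - x)) - Y₀ x) + ((1 - t)⁻¹ * Y₁ (x + t • (p - x)) - Y₁ x))) K :=
      (integrableOn_const hKfin).add hi2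
    have hi0 : IntegrableOn (fun _ : E d => e * (t * (2 * B))) K := integrableOn_const hKfin
    rw [integral_add hi1 hi3, integral_sub hGDi hGi, integral_add hi0 hi2, setIntegral_const,
      integral_const_mul, integral_add hInc₀i hInc₁i, smul_eq_mul, Measure.real]
    ring
  rw [hint2] at hint1
  generalize (∫ x in K, ((1 - t)⁻¹ * Y₀ (x + t • (p - x)) - Y₀ x)) = I₀ at hI₀ hint1
  generalize (∫ x in K, ((1 - t)⁻¹ * Y₁ (x + t • (p - x)) - Y₁ x)) = I₁ at hI₁ hint1
  generalize (volume K).toReal = V at *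
  have hsumI : (e + t * (2 * B)) * (I₀ + I₁) ≤
      (e + t * (2 * B)) * ((2 + 2 * d) * t * B * V + (2 + 2 * d) * t * B * V) :=
    mul_le_mul_of_nonneg_left (add_le_add hI₀ hI₁) (by positivity)
  have hfinal : t * ∫ x in K, F x ^ 2 ≤
      t * ((8 * d + 6) * B * e * V + t * ((8 + 8 * d) * B ^ 2 * V)) := by
    calc t * ∫ x in K, F x ^ 2 ≤ _ := hint1
      _ ≤ 2 * d * t * (2 * B * e) * V + (e * (t * (2 * B)) * V +
          (e + t * (2 * B)) * ((2 + 2 * d) * t * B * V + (2 + 2 * d) * t * B * V)) := by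
          linarith
      _ = _ := by ring
  exact le_of_mul_le_mul_left hfinal ht0

/-- **Oscillation controls the `L²` distance of the gradients, in one direction.** -/
theorem osc_bound_center {K : Set (E d)} (hK : IsCompact K) (hconv : Convex ℝ K) {p : E d}
    (hp : p ∈ K) {T₀ T₁ : E d → E d} (hT₀ : Measurable T₀) (hT₁ : Measurable T₁) {RY DD : ℝ}
    (hY₀ : ∀ x, ‖T₀ x‖ ≤ RY) (hY₁ : ∀ x, ‖T₁ x‖ ≤ RY) (hDD : ∀ x ∈ K, ‖p - x‖ ≤ DD)
    {φ₀ φ₁ : E d → ℝ} (hφ₀ : Measurable φ₀) (hφ₁ : Measurable φ₁)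
    (hsub₀ : ∀ x ∈ K, IsSubgrad K φ₀ x (T₀ x)) (hsub₁ : ∀ x ∈ K, IsSubgrad K φ₁ x (T₁ x))
    {c₀ e : ℝ} (hosc : ∀ x ∈ K, |φ₁ x - φ₀ x - c₀| ≤ e) :
    ∫ x in K, (⟪p - x, T₁ x⟫ - ⟪p - x, T₀ x⟫) ^ 2 ≤
      (8 * d + 6) * (RY * DD) * e * (volume K).toReal := by
  have hRY0 : 0 ≤ RY := (norm_nonneg _).trans (hY₀ 0)
  have hDD0 : 0 ≤ DD := (norm_nonneg _).trans (hDD p hp)
  have he0 : 0 ≤ e := (abs_nonneg _).trans (hosc p hp)
  have hB0 : 0 ≤ RY * DD := mul_nonneg hRY0 hDD0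
  have hboundY : ∀ (T : E d → E d), (∀ x, ‖T x‖ ≤ RY) → ∀ x ∈ K, |⟪p - x, T x⟫| ≤ RY * DD := by
    intro T hT x hx
    calc |⟪p - x, T x⟫| ≤ ‖p - x‖ * ‖T x‖ := abs_real_inner_le_norm _ _
      _ ≤ DD * RY := mul_le_mul (hDD x hx) (hT x) (norm_nonneg _) hDD0
      _ = RY * DD := by ring
  have hY₀m : Measurable fun x : E d => ⟪p - x, T₀ x⟫ :=
    Measurable.inner (measurable_const.sub measurable_id) hT₀
  have hY₁m : Measurable fun x : E d => ⟪p - x, T₁ x⟫ :=
    Measurable.inner (measurable_const.sub measurable_id) hT₁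
  have ham : Measurable fun x => φ₁ x - φ₀ x - c₀ := (hφ₁.sub hφ₀).sub_const c₀
  have hmain : ∀ t : ℝ, 0 < t → t ≤ 1 / 2 →
      ∫ x in K, (⟪p - x, T₁ x⟫ - ⟪p - x, T₀ x⟫) ^ 2 ≤ (8 * d + 6) * (RY * DD) * e * (volume K).toReal +
        t * ((8 + 8 * d) * (RY * DD) ^ 2 * (volume K).toReal) := by
    intro t ht0 ht2
    have ht1 : t < 1 := by linarith
    have hDK : ∀ x ∈ K, x + t • (p - x) ∈ K := by
      intro x hx
      have := hconv hx hp (by linarith : 0 ≤ 1 - t) ht0.le (by ring)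
      convert this using 1
      simp only [smul_sub, sub_smul, one_smul]
      abel
    apply osc_abstract hK hconv hp ht0 ht2 hY₀m hY₁m ham (hboundY T₀ hY₀) (hboundY T₁ hY₁) hosc
    intro x hx
    have hx' := hDK x hx
    obtain ⟨a1, a2, a3⟩ := pointwise_inc hx (hsub₀ x hx) (hsub₀ _ hx') ht0 ht1
    obtain ⟨b1, b2, b3⟩ := pointwise_inc hx (hsub₁ x hx) (hsub₁ _ hx') ht0 ht1
    have hFb : |⟪p - x, T₁ x⟫ - ⟪p - x, T₀ x⟫| ≤ 2 * (RY * DD) := by
      have := abs_sub ⟪p - x, T₁ x⟫ ⟪p - x, T₀ x⟫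
      linarith [hboundY T₀ hY₀ x hx, hboundY T₁ hY₁ x hx]
    exact key_real ht0 ht1 a3 b3 rfl a1 a2 b1 b2 hFb (hosc _ hx') hB0 he0 (by ring)
  apply le_of_forall_pos_le_add
  intro η hη
  set A : ℝ := (8 + 8 * d) * (RY * DD) ^ 2 * (volume K).toReal with hA
  have hA0 : 0 ≤ A := by
    have : 0 ≤ (volume K).toReal := ENNReal.toReal_nonneg
    positivity
  set t : ℝ := min (1 / 2) (η / (A + 1)) with ht
  have ht0 : 0 < t := lt_min (by norm_num) (by positivity)
  have h1 := hmain t ht0 (min_le_left _ _)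
  have h2 : t * A ≤ η := by
    have h3 : t ≤ η / (A + 1) := min_le_right _ _
    calc t * A ≤ η / (A + 1) * A := mul_le_mul_of_nonneg_right h3 hA0
      _ ≤ η / (A + 1) * (A + 1) := mul_le_mul_of_nonneg_left (by linarith) (by positivity)
      _ = η := by field_simp
  linarith

end Vale.Agent.Lib.P074
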