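import Vale.Agent.Lib.P074.Core

open MeasureTheory Set
open scoped ENNReal NNReal RealInnerProductSpace

namespace Vale.Agent.Lib.P074

variable {d : ℕ}

/-- `T` is a.e. a subgradient selection of a real function on `K`: this is the statement that `T`
is the gradient of a convex function on `K`. -/
def IsGradConvex (K : Set (E d)) (T : E d → E d) : Prop :=
  ∃ φ : E d → ℝ, ∀ᵐ x ∂(volume.restrict K), IsSubgrad K φ x (T x)

theorem uniformProb_ac {K : Set (E d)} : uniformProb K ≪ volume.restrict K := by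
  unfold uniformProb
  exact Measure.smul_absolutelyContinuous

theorem volume_restrict_ac_uniformProb {K : Set (E d)} (hfin : volume K ≠ ∞) :
    volume.restrict K ≪ uniformProb K := by
  unfold uniformProb
  apply Measure.absolutelyContinuous_smul
  simp [ENNReal.inv_eq_zero, hfin]

theorem isProb_uniformProb {K : Set (E d)} (h0 : volume K ≠ 0) (hfin : volume K ≠ ∞) :
    IsProbabilityMeasure (uniformProb K) := by
  constructor
  simp only [uniformProb, Measure.smul_apply, smul_eq_mul, Measure.restrict_apply_univ]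
  exact ENNReal.inv_mul_cancel h0 hfin

/-- Stability with exponent `1/4` for gradients of convex functions, with everywhere bounded maps,
against a single coupling. -/
theorem L2Dist_le_of_coupling {K : Set (E d)} (hK : IsCompact K) (hconv : Convex ℝ K)
    {c : E d} {δ : ℝ} (hδ : 0 < δ) (hball : Metric.closedBall c δ ⊆ K) (hd : 1 ≤ d)
    {RK RY : ℝ} (hRK : ∀ x ∈ K, ‖x‖ ≤ RK)
    {T₀ T₁ : E d → E d} (hT₀ : Measurable T₀) (hT₁ : Measurable T₁)
    (hY₀ : ∀ x, ‖T₀ x‖ ≤ RY) (hY₁ : ∀ x, ‖T₁ x‖ ≤ RY)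
    (h₀ : IsGradConvex K T₀) (h₁ : IsGradConvex K T₁)
    (π : Measure (E d × E d)) (hπ₀ : π.map Prod.fst = (uniformProb K).map T₀)
    (hπ₁ : π.map Prod.snd = (uniformProb K).map T₁) :
    L2Dist (uniformProb K) T₀ T₁ ≤
      ENNReal.ofReal (Real.sqrt (2 * RY * d * (2 * RK + 6 * RY * d / δ))) *
        (∫⁻ p, ENNReal.ofReal (‖p.1 - p.2‖ ^ 2) ∂π) ^ (1 / 8 : ℝ) := by
  obtain ⟨φ₀, hφ₀⟩ := h₀
  obtain ⟨φ₁, hφ₁⟩ := h₁
  have hKfin : volume K ≠ ∞ := hK.measure_lt_top.ne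
  have hKpos : volume K ≠ 0 :=
    (lt_of_lt_of_le (Metric.measure_closedBall_pos volume c hδ) (measure_mono hball)).ne'
  have hprob := isProb_uniformProb hKpos hKfin
  have hmain := stability_real hK hconv hδ hball hd hRK hT₀ hT₁ hY₀ hY₁ hφ₀ hφ₁ π hπ₀ hπ₁
  set C₂ : ℝ := 2 * RY * d * (2 * RK + 6 * RY * d / δ) with hC₂
  have hRY0 : 0 ≤ RY := le_trans (norm_nonneg _) (hY₁ 0)
  have hcK : c ∈ K := hball (Metric.mem_closedBall_self hδ.le)
  have hRK0 : 0 ≤ RK := le_trans (norm_nonneg _) (hRK c hcK)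
  have hC₂0 : 0 ≤ C₂ := by positivity
  -- `π` is a probability measure and bounded
  have hπprob : IsProbabilityMeasure π := by
    constructor
    have h1 : (π.map Prod.fst) univ = π univ := by
      rw [Measure.map_apply measurable_fst MeasurableSet.univ, preimage_univ]
    rw [← h1, hπ₀, Measure.map_apply hT₀ MeasurableSet.univ, preimage_univ]
    exact measure_univ
  have hcl : MeasurableSet (Metric.closedBall (0 : E d) RY) :=
    Metric.isClosed_closedBall.measurableSet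
  have hmem₀ : ∀ x, T₀ x ∈ Metric.closedBall (0 : E d) RY := fun x => by simpa using hY₀ x
  have hmem₁ : ∀ x, T₁ x ∈ Metric.closedBall (0 : E d) RY := fun x => by simpa using hY₁ x
  have hae₀ : ∀ᵐ p ∂π, p.1 ∈ Metric.closedBall (0 : E d) RY := by
    have h1 : ∀ᵐ y ∂(π.map Prod.fst), y ∈ Metric.closedBall (0 : E d) RY := by
      rw [hπ₀]
      exact (ae_map_iff (p := fun y => y ∈ Metric.closedBall (0 : E d) RY) hT₀.aemeasurable
        hcl).mpr (Filter.Eventually.of_forall hmem₀)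
    exact (ae_map_iff (p := fun y => y ∈ Metric.closedBall (0 : E d) RY)
      measurable_fst.aemeasurable hcl).mp h1
  have hae₁ : ∀ᵐ p ∂π, p.2 ∈ Metric.closedBall (0 : E d) RY := by
    have h1 : ∀ᵐ y ∂(π.map Prod.snd), y ∈ Metric.closedBall (0 : E d) RY := by
      rw [hπ₁]
      exact (ae_map_iff (p := fun y => y ∈ Metric.closedBall (0 : E d) RY) hT₁.aemeasurable
        hcl).mpr (Filter.Eventually.of_forall hmem₁)
    exact (ae_map_iff (p := fun y => y ∈ Metric.closedBall (0 : E d) RY)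
      measurable_snd.aemeasurable hcl).mp h1
  have hfb : ∀ᵐ p ∂π, ‖p.1 - p.2‖ ≤ RY + RY := by
    filter_upwards [hae₀, hae₁] with p h0 h1
    have h2 : ‖p.1‖ ≤ RY := by simpa using h0
    have h3 : ‖p.2‖ ≤ RY := by simpa using h1
    have := norm_sub_le p.1 p.2
    linarith
  have hfint : Integrable (fun p : E d × E d => ‖p.1 - p.2‖) π := by
    refine Integrable.of_bound (C := RY + RY) (by fun_prop) ?_
    filter_upwards [hfb] with p hp
    rwa [norm_norm]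
  have hf2int : Integrable (fun p : E d × E d => ‖p.1 - p.2‖ ^ 2) π := by
    refine Integrable.of_bound (C := (RY + RY) ^ 2) (by fun_prop) ?_
    filter_upwards [hfb] with p hp
    rw [Real.norm_eq_abs, abs_of_nonneg (by positivity)]
    gcongr
  set W : ℝ := ∫ p, ‖p.1 - p.2‖ ∂π with hW
  set Ar : ℝ := ∫ p, ‖p.1 - p.2‖ ^ 2 ∂π with hAr
  have hW0 : 0 ≤ W := integral_nonneg fun _ => norm_nonneg _
  have hAr0 : 0 ≤ Ar := integral_nonneg fun _ => by positivity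
  have hCS : W ^ 2 ≤ Ar := by
    have h1 : 0 ≤ ∫ p, (‖p.1 - p.2‖ - W) ^ 2 ∂π := integral_nonneg fun _ => by positivity
    have h2 : ∫ p, (‖p.1 - p.2‖ - W) ^ 2 ∂π = Ar - 2 * W * W + W ^ 2 := by
      have e : ∀ p : E d × E d, (‖p.1 - p.2‖ - W) ^ 2 =
          ‖p.1 - p.2‖ ^ 2 - 2 * W * ‖p.1 - p.2‖ + W ^ 2 := fun p => by ring
      simp_rw [e]
      have e2 : ∫ p : E d × E d, (‖p.1 - p.2‖ ^ 2 - 2 * W * ‖p.1 - p.2‖ + W ^ 2) ∂π =
          (∫ p : E d × E d, (‖p.1 - p.2‖ ^ 2 - 2 * W * ‖p.1 - p.2‖) ∂π) + ∫ _ : E d × E d, W ^ 2 ∂π :=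
        integral_add (hf2int.sub (hfint.const_mul _)) (integrable_const _)
      have e3 : ∫ p : E d × E d, (‖p.1 - p.2‖ ^ 2 - 2 * W * ‖p.1 - p.2‖) ∂π = Ar - 2 * W * W := by
        rw [integral_sub hf2int (hfint.const_mul _), integral_const_mul]
      have e4 : ∫ _ : E d × E d, W ^ 2 ∂π = W ^ 2 := by simp
      rw [e2, e3, e4]
    rw [h2] at h1
    nlinarith
  -- the `A` side
  have hA : ∫⁻ p, ENNReal.ofReal (‖p.1 - p.2‖ ^ 2) ∂π = ENNReal.ofReal Ar :=
    (ofReal_integral_eq_lintegral_ofReal hf2int (Filter.Eventually.of_forall fun _ => by positivity)).symm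
  -- the `L²` side
  have hI2int : Integrable (fun x => ‖T₀ x - T₁ x‖ ^ 2) (uniformProb K) := by
    refine Integrable.of_bound (C := (RY + RY) ^ 2) (by fun_prop) ?_
    filter_upwards with x
    rw [Real.norm_eq_abs, abs_of_nonneg (by positivity)]
    have := norm_sub_le (T₀ x) (T₁ x)
    have h0 := hY₀ x
    have h1 := hY₁ x
    gcongr
    linarith
  set I : ℝ := ∫ x, ‖T₀ x - T₁ x‖ ^ 2 ∂(uniformProb K) with hI
  have hI0 : 0 ≤ I := integral_nonneg fun _ => by positivity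
  have hL : L2Dist (uniformProb K) T₀ T₁ = ENNReal.ofReal (I ^ (1 / 2 : ℝ)) := by
    unfold L2Dist
    rw [← ofReal_integral_eq_lintegral_ofReal hI2int
      (Filter.Eventually.of_forall fun _ => by positivity),
      ENNReal.ofReal_rpow_of_nonneg hI0 (by norm_num)]
  rw [hL, hA, ENNReal.ofReal_rpow_of_nonneg hAr0 (by norm_num),
    ← ENNReal.ofReal_mul (Real.sqrt_nonneg _)]
  apply ENNReal.ofReal_le_ofReal
  -- real computation
  set a : ℝ := Ar ^ (1 / 8 : ℝ) with ha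
  have ha0 : 0 ≤ a := Real.rpow_nonneg hAr0 _
  have ha8 : a ^ 8 = Ar := by
    rw [ha, ← Real.rpow_natCast, ← Real.rpow_mul hAr0]
    norm_num
  have h1 : W ≤ a ^ 4 := by
    have : W ^ 2 ≤ (a ^ 4) ^ 2 := by
      calc W ^ 2 ≤ Ar := hCS
        _ = (a ^ 4) ^ 2 := by rw [← ha8]; ring
    exact (sq_le_sq₀ hW0 (by positivity)).mp this
  have h2 : Real.sqrt W ≤ a ^ 2 := by
    rw [Real.sqrt_le_left (by positivity)]
    calc W ≤ a ^ 4 := h1
      _ = (a ^ 2) ^ 2 := by ring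
  have h3 : I ≤ C₂ * a ^ 2 := hmain.trans (mul_le_mul_of_nonneg_left h2 hC₂0)
  rw [← Real.sqrt_eq_rpow]
  calc Real.sqrt I ≤ Real.sqrt (C₂ * a ^ 2) := Real.sqrt_le_sqrt h3
    _ = Real.sqrt C₂ * a := by
      rw [Real.sqrt_mul hC₂0, Real.sqrt_sq ha0]

/-- Passing from single couplings to `W₂`. -/
theorem le_mul_W2_of_coupling {μ ν : Measure (E d)} {L : ℝ≥0∞} {C : ℝ≥0} (hC : C ≠ 0)
    (h : ∀ π : Measure (E d × E d), π.map Prod.fst = μ → π.map Prod.snd = ν →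
      L ≤ C * (∫⁻ p, ENNReal.ofReal (‖p.1 - p.2‖ ^ 2) ∂π) ^ (1 / 8 : ℝ)) :
    L ≤ C * W2 μ ν ^ (1 / 4 : ℝ) := by
  have hC0 : (C : ℝ≥0∞) ≠ 0 := by exact_mod_cast hC
  have hCt : (C : ℝ≥0∞) ≠ ∞ := ENNReal.coe_ne_top
  set X : ℝ≥0∞ := (C : ℝ≥0∞)⁻¹ * L with hX
  have hLX : L = C * X := by
    rw [hX, ← mul_assoc, ENNReal.mul_inv_cancel hC0 hCt, one_mul]
  have h8 : X ^ (8 : ℝ) ≤ ⨅ (π : Measure (E d × E d)) (_ : π.map Prod.fst = μ ∧ π.map Prod.snd = ν),
      ∫⁻ p, ENNReal.ofReal (‖p.1 - p.2‖ ^ 2) ∂π := by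
    refine le_iInf₂ fun π hπ => ?_
    have h1 := h π hπ.1 hπ.2
    rw [hLX] at h1
    have h2 : X ≤ (∫⁻ p, ENNReal.ofReal (‖p.1 - p.2‖ ^ 2) ∂π) ^ (1 / 8 : ℝ) :=
      (ENNReal.mul_le_mul_iff_right hC0 hCt).mp h1
    calc X ^ (8 : ℝ) ≤ ((∫⁻ p, ENNReal.ofReal (‖p.1 - p.2‖ ^ 2) ∂π) ^ (1 / 8 : ℝ)) ^ (8 : ℝ) :=
          ENNReal.rpow_le_rpow h2 (by norm_num)
      _ = ∫⁻ p, ENNReal.ofReal (‖p.1 - p.2‖ ^ 2) ∂π := by
          rw [← ENNReal.rpow_mul]; norm_num
  rw [hLX]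
  gcongr
  unfold W2
  rw [← ENNReal.rpow_mul]
  have e : (1 / 2 : ℝ) * (1 / 4 : ℝ) = 1 / 8 := by norm_num
  rw [e]
  calc X = (X ^ (8 : ℝ)) ^ (1 / 8 : ℝ) := by rw [← ENNReal.rpow_mul]; norm_num
    _ ≤ _ := ENNReal.rpow_le_rpow h8 (by norm_num)

/-- The stability estimate with exponent `1/4` for gradients of convex functions. -/
theorem quarter_gradient (hd : 1 ≤ d) {K : Set (E d)} (hK : IsCompact K) (hconv : Convex ℝ K)
    (hint : (interior K).Nonempty) {Y : Set (E d)} (hY : IsCompact Y) (hYne : Y.Nonempty) :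
    ∃ C : ℝ≥0, ∀ μ ν : Measure (E d), (∀ᵐ y ∂μ, y ∈ Y) → (∀ᵐ y ∂ν, y ∈ Y) →
      ∀ Tμ Tν : E d → E d, Measurable Tμ → Measurable Tν →
        (uniformProb K).map Tμ = μ → (uniformProb K).map Tν = ν →
        IsGradConvex K Tμ → IsGradConvex K Tν →
          L2Dist (uniformProb K) Tμ Tν ≤ C * W2 μ ν ^ (1 / 4 : ℝ) := by
  classical
  obtain ⟨c, hc⟩ := hint
  obtain ⟨δ, hδ, hball⟩ := Metric.nhds_basis_closedBall.mem_iff.mp (mem_interior_iff_mem_nhds.mp hc)
  obtain ⟨RK, hRK⟩ := hK.isBounded.exists_norm_le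
  obtain ⟨RY, hRY⟩ := hY.isBounded.exists_norm_le
  obtain ⟨y₀, hy₀⟩ := hYne
  have hKfin : volume K ≠ ∞ := hK.measure_lt_top.ne
  have hKpos : volume K ≠ 0 :=
    (lt_of_lt_of_le (Metric.measure_closedBall_pos volume c hδ) (measure_mono hball)).ne'
  have hYm : MeasurableSet Y := hY.isClosed.measurableSet
  set C₃ : ℝ≥0 := (Real.sqrt (2 * RY * d * (2 * RK + 6 * RY * d / δ))).toNNReal + 1 with hC₃
  refine ⟨C₃, ?_⟩
  intro μ ν hμ hν Tμ Tν hTμ hTν hmapμ hmapν hgμ hgν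
  -- truncation
  have hTrunc : ∀ (T : E d → E d) (η : Measure (E d)), Measurable T → (∀ᵐ y ∂η, y ∈ Y) →
      (uniformProb K).map T = η → IsGradConvex K T →
      ∃ S : E d → E d, Measurable S ∧ (∀ x, ‖S x‖ ≤ RY) ∧ (S =ᵐ[uniformProb K] T) ∧
        (uniformProb K).map S = η ∧ IsGradConvex K S := by
    intro T η hT hη hmap hg
    refine ⟨fun x => if T x ∈ Y then T x else y₀, ?_, ?_, ?_, ?_, ?_⟩
    · exact Measurable.ite (hT hYm) hT measurable_const
    · intro x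
      by_cases h : T x ∈ Y
      · simp only [h, if_true]; exact hRY _ h
      · simp only [h, if_false]; exact hRY _ hy₀
    all_goals
      have hae : ∀ᵐ x ∂(uniformProb K), T x ∈ Y := by
        rw [← hmap] at hη
        exact (ae_map_iff (p := fun y => y ∈ Y) hT.aemeasurable hYm).mp hη
      have heq : (fun x => if T x ∈ Y then T x else y₀) =ᵐ[uniformProb K] T := by
        filter_upwards [hae] with x hx
        simp [hx]
    · exact heq
    · rw [← hmap]; exact Measure.map_congr heq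
    · obtain ⟨φ, hφ⟩ := hg
      refine ⟨φ, ?_⟩
      have hae' : ∀ᵐ x ∂(volume.restrict K), T x ∈ Y :=
        (volume_restrict_ac_uniformProb hKfin).ae_le hae
      filter_upwards [hφ, hae'] with x h1 h2
      simpa [h2] using h1
  obtain ⟨S₀, hS₀m, hS₀b, hS₀e, hS₀map, hS₀g⟩ := hTrunc Tμ μ hTμ hμ hmapμ hgμ
  obtain ⟨S₁, hS₁m, hS₁b, hS₁e, hS₁map, hS₁g⟩ := hTrunc Tν ν hTν hν hmapν hgν
  have hL : L2Dist (uniformProb K) Tμ Tν = L2Dist (uniformProb K) S₀ S₁ := by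
    unfold L2Dist
    congr 1
    apply lintegral_congr_ae
    filter_upwards [hS₀e, hS₁e] with x h0 h1
    rw [h0, h1]
  rw [hL]
  have hC₃ne : C₃ ≠ 0 := by
    rw [hC₃]; exact (by positivity : (0 : ℝ≥0) < _).ne'
  apply le_mul_W2_of_coupling hC₃ne
  intro π hπ₀ hπ₁
  have hmain := L2Dist_le_of_coupling hK hconv hδ hball hd hRK hS₀m hS₁m hS₀b hS₁b hS₀g hS₁g π
    (by rw [hπ₀, hS₀map]) (by rw [hπ₁, hS₁map])
  refine hmain.trans ?_
  gcongr
  rw [hC₃, ENNReal.ofReal]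
  push_cast
  exact le_self_add

end Vale.Agent.Lib.P074
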