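import Vale.Agent.Lib.P074.Defs

open MeasureTheory Set
open scoped ENNReal NNReal RealInnerProductSpace

namespace Vale.Agent.Lib.P074

variable {d : ℕ}

/-- The set of points of `K` whose translates by `± r e` stay in `K`. -/
def shrinkSet (K : Set (E d)) (r : ℝ) (e : E d) : Set (E d) :=
  {x | x ∈ K ∧ x + r • e ∈ K ∧ x - r • e ∈ K}

theorem shrinkSet_subset (K : Set (E d)) (r : ℝ) (e : E d) : shrinkSet K r e ⊆ K :=
  fun _ hx => hx.1

theorem isClosed_shrinkSet {K : Set (E d)} (hK : IsClosed K) (r : ℝ) (e : E d) :
    IsClosed (shrinkSet K r e) := by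
  have h1 : IsClosed ((fun x => x + r • e) ⁻¹' K) := hK.preimage (by fun_prop)
  have h2 : IsClosed ((fun x => x - r • e) ⁻¹' K) := hK.preimage (by fun_prop)
  exact hK.inter (h1.inter h2)

theorem measurableSet_shrinkSet {K : Set (E d)} (hK : IsClosed K) (r : ℝ) (e : E d) :
    MeasurableSet (shrinkSet K r e) :=
  (isClosed_shrinkSet hK r e).measurableSet

/-- The shrunken set has small complement: `vol (K \ K_r) ≤ (d r / δ) vol K`. -/
theorem volume_diff_shrinkSet_le {K : Set (E d)} (hK : IsCompact K) (hconv : Convex ℝ K)
    {c : E d} {δ : ℝ} (hδ : 0 < δ) (hball : Metric.closedBall c δ ⊆ K) {e : E d} (he : ‖e‖ = 1)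
    {r : ℝ} (hr : 0 < r) (hd : 1 ≤ d) :
    (volume (K \ shrinkSet K r e)).toReal ≤ (d * (r / δ)) * (volume K).toReal := by
  have hKfin : volume K ≠ ∞ := hK.measure_lt_top.ne
  by_cases hrδ : δ ≤ r
  · -- trivial case
    have h1 : (volume (K \ shrinkSet K r e)).toReal ≤ (volume K).toReal :=
      ENNReal.toReal_mono hKfin (measure_mono sdiff_subset)
    have h2 : (1 : ℝ) ≤ d * (r / δ) := by
      have h3 : (1 : ℝ) ≤ r / δ := (one_le_div hδ).mpr hrδ
      have h4 : (1 : ℝ) ≤ d := by exact_mod_cast hd
      nlinarith
    have h5 : 0 ≤ (volume K).toReal := ENNReal.toReal_nonneg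
    nlinarith
  · push Not at hrδ
    set s : ℝ := r / δ with hs
    have hs0 : 0 < s := div_pos hr hδ
    have hs1 : s < 1 := (div_lt_one hδ).mpr hrδ
    set H : Set (E d) := AffineMap.homothety c (1 - s) '' K with hH
    have hrs : r = s * δ := by rw [hs]; field_simp
    -- `H ⊆ K_r`
    have hHsub : H ⊆ shrinkSet K r e := by
      rintro _ ⟨z, hz, rfl⟩
      have hform : AffineMap.homothety c (1 - s) z = (1 - s) • z + s • c := by
        simp only [AffineMap.homothety_apply, vsub_eq_sub, vadd_eq_add]
        simp only [smul_sub, sub_smul, one_smul]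
        abel
      have hcomb : ∀ w ∈ K, (1 - s) • z + s • w ∈ K := fun w hw =>
        hconv hz hw (by linarith) hs0.le (by ring)
      refine ⟨?_, ?_, ?_⟩
      · rw [hform]
        exact hcomb c (hball (Metric.mem_closedBall_self hδ.le))
      · have hw : c + δ • e ∈ K := by
          apply hball
          simp [norm_smul, he, abs_of_pos hδ]
        have := hcomb _ hw
        convert this using 1
        rw [hform, hrs, smul_add, smul_smul]
        abel
      · have hw : c - δ • e ∈ K := by
          apply hball
          simp [norm_smul, he, abs_of_pos hδ]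
        have := hcomb _ hw
        convert this using 1
        rw [hform, hrs, smul_sub, smul_smul]
        abel
    -- volume computations
    have hHK : H ⊆ K := hHsub.trans (shrinkSet_subset K r e)
    have hvolH : volume H = ENNReal.ofReal ((1 - s) ^ d) * volume K := by
      rw [hH, Measure.addHaar_image_homothety, finrank_euclideanSpace_fin,
        abs_of_pos (pow_pos (by linarith : 0 < 1 - s) d)]
    have hHmeas : MeasurableSet H := by
      have : IsCompact H := hK.image (AffineMap.homothety c (1 - s)).continuous_of_finiteDimensional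
      exact this.isClosed.measurableSet
    have hdiff : volume (K \ H) = volume K - volume H :=
      measure_sdiff hHK hHmeas.nullMeasurableSet (measure_ne_top_of_subset hHK hKfin)
    have hle : (volume (K \ shrinkSet K r e)).toReal ≤ (volume (K \ H)).toReal := by
      apply ENNReal.toReal_mono (measure_ne_top_of_subset sdiff_subset hKfin)
      apply measure_mono
      exact sdiff_subset_sdiff_right hHsub
    have hH_fin : volume H ≠ ∞ := measure_ne_top_of_subset hHK hKfin
    have hcalc : (volume (K \ H)).toReal = (1 - (1 - s) ^ d) * (volume K).toReal := by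
      rw [hdiff, ENNReal.toReal_sub_of_le (measure_mono hHK) hKfin, hvolH, ENNReal.toReal_mul,
        ENNReal.toReal_ofReal (by positivity)]
      ring
    have hbern : 1 - d * s ≤ (1 - s) ^ d := by
      have := one_add_mul_le_pow (a := -s) (by linarith) d
      have h2 : (1 + -s) = 1 - s := by ring
      rw [h2] at this
      nlinarith
    have h5 : 0 ≤ (volume K).toReal := ENNReal.toReal_nonneg
    calc (volume (K \ shrinkSet K r e)).toReal ≤ (volume (K \ H)).toReal := hle
      _ = (1 - (1 - s) ^ d) * (volume K).toReal := hcalc
      _ ≤ (d * s) * (volume K).toReal := by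
        apply mul_le_mul_of_nonneg_right _ h5
        linarith

end Vale.Agent.Lib.P074
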