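import Vale.Agent.Lib.P074.Bridge

open MeasureTheory Set Filter Topology
open scoped ENNReal NNReal RealInnerProductSpace

namespace Vale.Agent.Lib.P074

/-- Compositions of maps with measurable fibres into a finite set are measurable. -/
theorem measurable_of_fibers {X Z ι : Type*} [MeasurableSpace X] [MeasurableSpace Z] [Finite ι]
    {f : X → ι} (hf : ∀ i, MeasurableSet (f ⁻¹' {i})) (g : ι → Z) :
    Measurable fun x => g (f x) := by
  intro S _
  have e : (fun x => g (f x)) ⁻¹' S = ⋃ i, ⋃ (_ : g i ∈ S), f ⁻¹' {i} := by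
    ext x
    simp
  rw [e]
  exact MeasurableSet.iUnion fun i => MeasurableSet.iUnion fun _ => hf i

variable {d : ℕ} {ι : Type*} [Fintype ι] [Nonempty ι]

/-- A selection of maximisers is a subgradient selection. -/
theorem isSubgrad_Mx {K : Set (E d)} {b : ι → E d} {ψ : ι → ℝ} {sel : E d → ι}
    (hsel : ∀ x, Mx b ψ x = ⟪x, b (sel x)⟫ - ψ (sel x)) {x : E d} (hx : x ∈ K) :
    IsSubgrad K (Mx b ψ) x (b (sel x)) := by
  refine ⟨hx, fun z _ => ?_⟩
  have h1 := le_Mx b ψ z (sel x)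
  rw [hsel x]
  have e : ⟪b (sel x), z - x⟫ = ⟪z, b (sel x)⟫ - ⟪x, b (sel x)⟫ := by
    rw [inner_sub_right, real_inner_comm z, real_inner_comm x]
  rw [e]
  linarith

theorem uniformProb_apply {K : Set (E d)} {S : Set (E d)} (hS : MeasurableSet S) :
    uniformProb K S = (volume K)⁻¹ * volume (S ∩ K) := by
  unfold uniformProb
  rw [Measure.smul_apply, smul_eq_mul, Measure.restrict_apply hS]

theorem volume_inter_eq {K : Set (E d)} (hpos : volume K ≠ 0) (hfin : volume K ≠ ∞) {S : Set (E d)}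
    (hS : MeasurableSet S) : volume (K ∩ S) = volume K * uniformProb K S := by
  rw [uniformProb_apply hS, inter_comm, ← mul_assoc, ENNReal.mul_inv_cancel hpos hfin, one_mul]

/-- The uniform measure is bounded and absolutely continuous. -/
theorem uniformProb_ae_norm_le {K : Set (E d)} (hKm : MeasurableSet K) {RK : ℝ}
    (hRK : ∀ x ∈ K, ‖x‖ ≤ RK) : ∀ᵐ x ∂(uniformProb K), ‖x‖ ≤ RK := by
  have h1 : ∀ᵐ x ∂(volume.restrict K), ‖x‖ ≤ RK := by
    filter_upwards [ae_restrict_mem hKm] with x hx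
    exact hRK x hx
  have hac : uniformProb K ≪ volume.restrict K := by
    unfold uniformProb
    exact Measure.smul_absolutelyContinuous
  exact hac.ae_le h1

theorem uniformProb_ac_volume {K : Set (E d)} : uniformProb K ≪ volume := by
  have hac : uniformProb K ≪ volume.restrict K := by
    unfold uniformProb
    exact Measure.smul_absolutelyContinuous
  exact hac.trans Measure.restrict_le_self.absolutelyContinuous

/-- Moving finitely many atoms of the plane by at most `ε` keeping the masses moves the potentials by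
at most `ε w` around a constant. -/
theorem finite_osc {K : Set (E 2)} (hK : IsCompact K) (hconv : Convex ℝ K)
    (hint : (interior K).Nonempty) {b b' : ι → E 2} {ψ ψ' : ι → ℝ} {sel sel' : E 2 → ι}
    (hm : ∀ i, MeasurableSet (sel ⁻¹' {i})) (hm' : ∀ i, MeasurableSet (sel' ⁻¹' {i}))
    (hsel : ∀ x, Mx b ψ x = ⟪x, b (sel x)⟫ - ψ (sel x))
    (hsel' : ∀ x, Mx b' ψ' x = ⟪x, b' (sel' x)⟫ - ψ' (sel' x))
    {m : ι → ℝ} (hmpos : ∀ i, 0 < m i) (hsum : ∑ i, m i = 1)
    (hmass : ∀ i, uniformProb K (sel ⁻¹' {i}) = ENNReal.ofReal (m i))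
    (hmass' : ∀ i, uniformProb K (sel' ⁻¹' {i}) = ENNReal.ofReal (m i))
    (hinj : Function.Injective fun i => b' i 0) {ε w : ℝ} (hmove : ∀ i, ‖b i - b' i‖ ≤ ε)
    (hw : ∀ x ∈ K, ∀ x' ∈ K, ∀ j : Fin 2, x j - x' j ≤ w) :
    ∃ c : ℝ, ∀ x ∈ K, |Mx b' ψ' x - Mx b ψ x - c| ≤ ε * w := by
  have hKm : MeasurableSet K := hK.isClosed.measurableSet
  have hKfin : volume K ≠ ∞ := hK.measure_lt_top.ne
  have hKpos : volume K ≠ 0 := by
    obtain ⟨x₀, hx₀⟩ := hint
    obtain ⟨δ, hδ, hball⟩ := Metric.nhds_basis_closedBall.mem_iff.mp (mem_interior_iff_mem_nhds.mp hx₀)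
    exact (lt_of_lt_of_le (Metric.measure_closedBall_pos volume x₀ hδ) (measure_mono hball)).ne'
  haveI hprob : IsProbabilityMeasure (uniformProb K) := by
    constructor
    simp only [uniformProb, Measure.smul_apply, smul_eq_mul, Measure.restrict_apply_univ]
    exact ENNReal.inv_mul_cancel hKpos hKfin
  obtain ⟨RK, hRK⟩ := hK.isBounded.exists_norm_le
  have hRK0 : 0 ≤ RK := by
    obtain ⟨x₀, hx₀⟩ := hint
    exact (norm_nonneg _).trans (hRK x₀ (interior_subset hx₀))
  -- the intermediate configuration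
  set b'' : ι → E 2 := fun i => !₂[b' i 0, b i 1] with hb''
  have hb''inj : Function.Injective b'' := by
    intro i j hij
    apply hinj
    have := congrArg (fun v : E 2 => v 0) hij
    simpa [hb''] using this
  obtain ⟨ψ'', sel'', hm'', hsel'', hmass''⟩ := exists_semidiscrete
    (uniformProb_ae_norm_le hKm hRK) hRK0 uniformProb_ac_volume hb''inj hmpos hsum
  have hvol : ∀ (S : E 2 → ι), (∀ i, MeasurableSet (S ⁻¹' {i})) →
      (∀ i, uniformProb K (S ⁻¹' {i}) = ENNReal.ofReal (m i)) →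
      ∀ i, volume (K ∩ S ⁻¹' {i}) = volume K * ENNReal.ofReal (m i) := by
    intro S hS hS' i
    rw [volume_inter_eq hKpos hKfin (hS i), hS' i]
  have hcoord : ∀ i (j : Fin 2), |b i j - b' i j| ≤ ε := by
    intro i j
    have h1 : ‖(b i - b' i) j‖ ≤ ‖b i - b' i‖ := PiLp.norm_apply_le _ j
    have h2 : (b i - b' i) j = b i j - b' i j := by simp
    rw [h2, Real.norm_eq_abs] at h1
    exact h1.trans (hmove i)
  obtain ⟨c₁, hc₁⟩ := bridge coordA hK hconv hint hm hm'' hsel hsel'' (ε := ε) (w₀ := w)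
    (by
      intro i
      rw [hvol sel hm hmass, hvol sel'' hm'' hmass''])
    (by
      intro i
      simp [coordA, hb''])
    (by
      intro i
      simpa [coordA, hb''] using hcoord i 0)
    (by
      intro x hx x' hx'
      exact hw x hx x' hx' 0)
  obtain ⟨c₂, hc₂⟩ := bridge coordB hK hconv hint hm'' hm' hsel'' hsel' (ε := ε) (w₀ := w)
    (by
      intro i
      rw [hvol sel'' hm'' hmass'', hvol sel' hm' hmass'])
    (by
      intro i
      simp [coordB, hb''])
    (by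
      intro i
      simpa [coordB, hb''] using hcoord i 1)
    (by
      intro x hx x' hx'
      exact hw x hx x' hx' 1)
  refine ⟨c₁ + c₂, fun x hx => ?_⟩
  have h1 := abs_le.mp (hc₁ x hx)
  have h2 := abs_le.mp (hc₂ x hx)
  rw [abs_le]
  constructor <;> linarith [h1.1, h1.2, h2.1, h2.2]

/-- **The `W_∞` estimate for finitely supported targets in the plane.** -/
theorem finite_stab {K : Set (E 2)} (hK : IsCompact K) (hconv : Convex ℝ K) {c : E 2} {δ : ℝ}
    (hδ : 0 < δ) (hball : Metric.closedBall c δ ⊆ K) {RK RY : ℝ} (hRK : ∀ x ∈ K, ‖x‖ ≤ RK)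
    {b b' : ι → E 2} {ψ ψ' : ι → ℝ} {sel sel' : E 2 → ι}
    (hb : ∀ i, ‖b i‖ ≤ RY) (hb' : ∀ i, ‖b' i‖ ≤ RY)
    (hm : ∀ i, MeasurableSet (sel ⁻¹' {i})) (hm' : ∀ i, MeasurableSet (sel' ⁻¹' {i}))
    (hsel : ∀ x, Mx b ψ x = ⟪x, b (sel x)⟫ - ψ (sel x))
    (hsel' : ∀ x, Mx b' ψ' x = ⟪x, b' (sel' x)⟫ - ψ' (sel' x))
    {m : ι → ℝ} (hmpos : ∀ i, 0 < m i) (hsum : ∑ i, m i = 1)
    (hmass : ∀ i, uniformProb K (sel ⁻¹' {i}) = ENNReal.ofReal (m i))
    (hmass' : ∀ i, uniformProb K (sel' ⁻¹' {i}) = ENNReal.ofReal (m i))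
    (hinj : Function.Injective fun i => b' i 0) {ε : ℝ} (hmove : ∀ i, ‖b i - b' i‖ ≤ ε) :
    ∫ x, ‖b (sel x) - b' (sel' x)‖ ^ 2 ∂(uniformProb K) ≤
      ((2 : ℕ) / δ ^ 2) * ((8 * (2 : ℕ) + 6) * (RY * (2 * RK)) * (ε * (2 * RK))) := by
  have hint : (interior K).Nonempty := by
    refine ⟨c, ?_⟩
    rw [mem_interior_iff_mem_nhds]
    exact Filter.mem_of_superset (Metric.closedBall_mem_nhds c hδ) hball
  have hw : ∀ x ∈ K, ∀ x' ∈ K, ∀ j : Fin 2, x j - x' j ≤ 2 * RK := by
    intro x hx x' hx' j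
    have h1 : ‖(x - x') j‖ ≤ ‖x - x'‖ := PiLp.norm_apply_le _ j
    have h2 : (x - x') j = x j - x' j := by simp
    rw [h2, Real.norm_eq_abs] at h1
    have h3 := norm_sub_le x x'
    have h4 := le_abs_self (x j - x' j)
    linarith [hRK x hx, hRK x' hx']
  obtain ⟨c₀, hc₀⟩ := finite_osc hK hconv hint hm hm' hsel hsel' hmpos hsum hmass hmass' hinj hmove hw
  exact osc_L2 hK hconv hδ hball hRK (measurable_of_fibers hm b) (measurable_of_fibers hm' b')
    (fun x => hb _) (fun x => hb' _) (continuous_Mx b ψ).measurable (continuous_Mx b' ψ').measurable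
    (fun x hx => isSubgrad_Mx hsel hx) (fun x hx => isSubgrad_Mx hsel' hx) hc₀

end Vale.Agent.Lib.P074
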