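import Vale.Agent.Lib.P074.Quarter

open MeasureTheory Set Filter Topology
open scoped ENNReal NNReal RealInnerProductSpace

namespace Vale.Agent.Lib.P074

variable {d : ℕ}

section swap

variable {ι : Type*} [Fintype ι]

/-- The displacement of the piecewise translation which sends each ball `B(p i, r)` onto
`B(p (σ i), r)` and fixes all other points. -/
noncomputable def swapDisp (p : ι → E d) (σ : Equiv.Perm ι) (r : ℝ) (x : E d) : E d :=
  ∑ i, (Metric.closedBall (p i) r).indicator (fun _ => p (σ i) - p i) x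

variable {p : ι → E d} {σ : Equiv.Perm ι} {r : ℝ}

theorem swapDisp_of_mem (hdisj : Pairwise (Function.onFun Disjoint fun i => Metric.closedBall (p i) r))
    {i : ι} {x : E d} (hx : x ∈ Metric.closedBall (p i) r) :
    swapDisp p σ r x = p (σ i) - p i := by
  unfold swapDisp
  rw [Finset.sum_eq_single i]
  · simp [indicator_of_mem hx]
  · intro j _ hji
    have hxj : x ∉ Metric.closedBall (p j) r := fun hxj =>
      (Set.disjoint_left.mp (hdisj hji)) hxj hx
    simp [indicator_of_notMem hxj]
  · simp

theorem swapDisp_of_notMem {x : E d} (hx : ∀ i, x ∉ Metric.closedBall (p i) r) :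
    swapDisp p σ r x = 0 := by
  unfold swapDisp
  apply Finset.sum_eq_zero
  intro i _
  simp [indicator_of_notMem (hx i)]

theorem measurable_swapDisp : Measurable (swapDisp (d := d) p σ r) := by
  unfold swapDisp
  refine Finset.measurable_fun_sum _ fun i _ => ?_
  exact measurable_const.indicator Metric.isClosed_closedBall.measurableSet

theorem measurable_swapMap : Measurable fun x : E d => x + swapDisp p σ r x :=
  measurable_id.add measurable_swapDisp

/-- The piecewise translation preserves the restriction of Lebesgue measure to `K`. -/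
theorem map_swapMap {K : Set (E d)}
    (hsub : ∀ i, Metric.closedBall (p i) r ⊆ K)
    (hdisj : Pairwise (Function.onFun Disjoint fun i => Metric.closedBall (p i) r)) :
    (volume.restrict K).map (fun x : E d => x + swapDisp p σ r x) = volume.restrict K := by
  set B : ι → Set (E d) := fun i => Metric.closedBall (p i) r with hB
  have hBm : ∀ i, MeasurableSet (B i) := fun i => Metric.isClosed_closedBall.measurableSet
  set U : Set (E d) := ⋃ i, B i with hU
  have hUm : MeasurableSet U := MeasurableSet.iUnion hBm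
  have hUK : U ⊆ K := iUnion_subset hsub
  -- a decomposition of the measure of a set
  have hdecomp : ∀ C : Set (E d), MeasurableSet C →
      volume (C ∩ K) = volume (C ∩ (K \ U)) + ∑ i, volume (C ∩ B i) := by
    intro C hC
    have h1 : C ∩ K = (C ∩ (K \ U)) ∪ ⋃ i, (C ∩ B i) := by
      rw [← inter_iUnion, ← inter_union_distrib_left, sdiff_union_of_subset hUK]
    have h2 : Disjoint (C ∩ (K \ U)) (⋃ i, (C ∩ B i)) := by
      rw [← inter_iUnion]
      apply Disjoint.mono inter_subset_right inter_subset_right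
      exact disjoint_sdiff_left
    have h3 : Pairwise (Function.onFun Disjoint fun i => C ∩ B i) := by
      intro i j hij
      exact (hdisj hij).mono inter_subset_right inter_subset_right
    rw [h1, measure_union h2 (MeasurableSet.iUnion fun i => hC.inter (hBm i)),
      measure_iUnion h3 (fun i => hC.inter (hBm i)), tsum_fintype]
  have hΦ : Measurable (fun x : E d => x + swapDisp p σ r x) := measurable_swapMap
  apply Measure.ext
  intro A hA
  rw [Measure.map_apply hΦ hA, Measure.restrict_apply (hΦ hA), Measure.restrict_apply hA,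
    hdecomp _ (hΦ hA), hdecomp _ hA]
  congr 1
  · congr 1
    ext x
    simp only [mem_inter_iff, mem_preimage, Set.mem_sdiff]
    constructor
    · rintro ⟨h1, h2⟩
      have hx : ∀ i, x ∉ B i := fun i hi => h2.2 (mem_iUnion.mpr ⟨i, hi⟩)
      rw [swapDisp_of_notMem hx, add_zero] at h1
      exact ⟨h1, h2⟩
    · rintro ⟨h1, h2⟩
      have hx : ∀ i, x ∉ B i := fun i hi => h2.2 (mem_iUnion.mpr ⟨i, hi⟩)
      rw [swapDisp_of_notMem hx, add_zero]
      exact ⟨h1, h2⟩
  · rw [← Equiv.sum_comp σ (fun i => volume (A ∩ B i))]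
    apply Finset.sum_congr rfl
    intro i _
    have hset : ((fun x : E d => x + swapDisp p σ r x) ⁻¹' A) ∩ B i =
        (fun x : E d => x + (p (σ i) - p i)) ⁻¹' (A ∩ B (σ i)) := by
      ext x
      simp only [mem_inter_iff, mem_preimage]
      constructor
      · rintro ⟨h1, h2⟩
        rw [swapDisp_of_mem hdisj h2] at h1
        refine ⟨h1, ?_⟩
        simp only [hB, Metric.mem_closedBall, dist_eq_norm] at h2 ⊢
        convert h2 using 2
        abel
      · rintro ⟨h1, h2⟩
        have h3 : x ∈ B i := by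
          simp only [hB, Metric.mem_closedBall, dist_eq_norm] at h2 ⊢
          convert h2 using 2
          abel
        rw [swapDisp_of_mem hdisj h3]
        exact ⟨h1, h3⟩
    rw [hset]
    exact measure_preimage_add_right _ _ _

/-- The translation formula for integrals over balls. -/
theorem setIntegral_ball_transl {F : Type*} [NormedAddCommGroup F] [NormedSpace ℝ F]
    (f : E d → F) (a b : E d) (r : ℝ) :
    ∫ x in Metric.closedBall a r, f (x + (b - a)) = ∫ x in Metric.closedBall b r, f x := by
  have hmp := measurePreserving_add_right (volume : Measure (E d)) (b - a)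
  have hemb : MeasurableEmbedding (fun x : E d => x + (b - a)) := measurableEmbedding_addRight _
  have := hmp.setIntegral_preimage_emb hemb f (Metric.closedBall b r)
  rw [← this]
  congr 2
  ext x
  simp only [mem_preimage, Metric.mem_closedBall, dist_eq_norm]
  have : x + (b - a) - b = x - a := by abel
  rw [this]

/-- The real form of the comparison of costs. -/
theorem integral_cost_le {K : Set (E d)} (hK : IsCompact K) (hpos : volume K ≠ 0)
    {S T' : E d → E d} (hS : Measurable S) (hT' : Measurable T') {R : ℝ} (hSb : ∀ x, ‖S x‖ ≤ R)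
    (hT'b : ∀ x, ‖T' x‖ ≤ R)
    (hle : mapCost (uniformProb K) S ≤ mapCost (uniformProb K) T') :
    ∫ x in K, ‖x - S x‖ ^ 2 ≤ ∫ x in K, ‖x - T' x‖ ^ 2 := by
  have hfin : volume K ≠ ∞ := hK.measure_lt_top.ne
  have hKm : MeasurableSet K := hK.isClosed.measurableSet
  obtain ⟨RK, hRK⟩ := hK.isBounded.exists_norm_le
  have hint : ∀ T : E d → E d, Measurable T → (∀ x, ‖T x‖ ≤ R) →
      IntegrableOn (fun x => ‖x - T x‖ ^ 2) K := by
    intro T hT hTb
    refine Measure.integrableOn_of_bounded (M := (RK + R) ^ 2) hfin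
      (by fun_prop : Measurable fun x => ‖x - T x‖ ^ 2).aestronglyMeasurable ?_
    filter_upwards [ae_restrict_mem hKm] with x hx
    have h1 : ‖x - T x‖ ≤ RK + R := (norm_sub_le _ _).trans (add_le_add (hRK x hx) (hTb x))
    rw [Real.norm_of_nonneg (by positivity)]
    gcongr
  have hcost : ∀ T : E d → E d, Measurable T → (∀ x, ‖T x‖ ≤ R) →
      mapCost (uniformProb K) T = (volume K)⁻¹ * ENNReal.ofReal (∫ x in K, ‖x - T x‖ ^ 2) := by
    intro T hT hTb
    unfold mapCost uniformProb
    rw [lintegral_smul_measure, smul_eq_mul,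
      ofReal_integral_eq_lintegral_ofReal (hint T hT hTb)
        (Filter.Eventually.of_forall fun x => by positivity)]
  rw [hcost S hS hSb, hcost T' hT' hT'b] at hle
  have hinv0 : (volume K)⁻¹ ≠ 0 := ENNReal.inv_ne_zero.mpr hfin
  have hinvt : (volume K)⁻¹ ≠ ∞ := ENNReal.inv_ne_top.mpr hpos
  have h2 := (ENNReal.mul_le_mul_iff_right hinv0 hinvt).mp hle
  exact (ENNReal.ofReal_le_ofReal_iff (integral_nonneg fun x => by positivity)).mp h2

/-- The key inequality obtained from optimality and a piecewise translation which permutes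
disjoint balls. -/
theorem swap_inequality {K : Set (E d)} (hK : IsCompact K) (hpos : volume K ≠ 0)
    {S : E d → E d} (hS : Measurable S) {R : ℝ} (hSb : ∀ x, ‖S x‖ ≤ R)
    (hopt : ∀ T' : E d → E d, Measurable T' → (uniformProb K).map T' = (uniformProb K).map S →
      mapCost (uniformProb K) S ≤ mapCost (uniformProb K) T')
    (hsub : ∀ i, Metric.closedBall (p i) r ⊆ K)
    (hdisj : Pairwise (Function.onFun Disjoint fun i => Metric.closedBall (p i) r)) :
    0 ≤ ∑ i, ⟪p (σ i) - p i, ∫ x in Metric.closedBall (p (σ i)) r, S x⟫ := by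
  have hfin : volume K ≠ ∞ := hK.measure_lt_top.ne
  have hKm : MeasurableSet K := hK.isClosed.measurableSet
  obtain ⟨RK, hRK⟩ := hK.isBounded.exists_norm_le
  set Φ : E d → E d := fun x => x + swapDisp p σ r x with hΦdef
  have hΦ : Measurable Φ := measurable_swapMap
  have hmapν : (volume.restrict K).map Φ = volume.restrict K := map_swapMap hsub hdisj
  have hmapρ : (uniformProb K).map Φ = uniformProb K := by
    unfold uniformProb
    rw [Measure.map_smul, hmapν]
  have hSΦ : Measurable fun x => S (Φ x) := hS.comp hΦ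
  have hmapS : (uniformProb K).map (fun x => S (Φ x)) = (uniformProb K).map S := by
    have : (fun x => S (Φ x)) = S ∘ Φ := rfl
    rw [this, ← Measure.map_map hS hΦ, hmapρ]
  have h1 := integral_cost_le hK hpos hS hSΦ hSb (fun x => hSb _) (hopt _ hSΦ hmapS)
  -- preservation of integrals
  have hpres : ∀ f : E d → ℝ, Measurable f → ∫ x in K, f (Φ x) = ∫ x in K, f x := by
    intro f hf
    have := integral_map (μ := volume.restrict K) hΦ.aemeasurable hf.aestronglyMeasurable
    rw [hmapν] at this
    exact this.symm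
  -- the displacement is bounded
  set D : ℝ := ∑ i, ‖p (σ i) - p i‖ with hD
  have hτ : ∀ x, ‖swapDisp p σ r x‖ ≤ D := by
    intro x
    unfold swapDisp
    refine (norm_sum_le _ _).trans (Finset.sum_le_sum fun i _ => ?_)
    by_cases hx : x ∈ Metric.closedBall (p i) r
    · rw [indicator_of_mem hx]
    · rw [indicator_of_notMem hx, norm_zero]; exact norm_nonneg _
  have hτm : Measurable (swapDisp (d := d) p σ r) := measurable_swapDisp
  have hR0 : 0 ≤ R := (norm_nonneg _).trans (hSb 0)
  have hD0 : 0 ≤ D := (norm_nonneg _).trans (hτ 0)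
  -- integrability on `K`
  have hbd : ∀ {f : E d → ℝ}, Measurable f → (M : ℝ) → (∀ x ∈ K, |f x| ≤ M) →
      IntegrableOn f K := by
    intro f hf M hM
    refine Measure.integrableOn_of_bounded (M := M) hfin hf.aestronglyMeasurable ?_
    filter_upwards [ae_restrict_mem hKm] with x hx
    simpa using hM x hx
  have hi1 : IntegrableOn (fun x => ‖x‖ ^ 2) K :=
    hbd (by fun_prop) (RK ^ 2) fun x hx => by
      rw [abs_of_nonneg (by positivity)]
      have := hRK x hx
      gcongr
  have hi2 : IntegrableOn (fun x => ⟪x, S x⟫) K :=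
    hbd (by fun_prop) (RK * R) fun x hx => by
      refine (abs_real_inner_le_norm _ _).trans ?_
      exact mul_le_mul (hRK x hx) (hSb x) (norm_nonneg _) ((norm_nonneg _).trans (hRK x hx))
  have hi3 : IntegrableOn (fun x => ‖S x‖ ^ 2) K :=
    hbd (by fun_prop) (R ^ 2) fun x hx => by
      rw [abs_of_nonneg (by positivity)]
      have := hSb x
      gcongr
  have hi4 : IntegrableOn (fun x => ⟪x, S (Φ x)⟫) K :=
    hbd (by fun_prop) (RK * R) fun x hx => by
      refine (abs_real_inner_le_norm _ _).trans ?_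
      exact mul_le_mul (hRK x hx) (hSb _) (norm_nonneg _) ((norm_nonneg _).trans (hRK x hx))
  have hi5 : IntegrableOn (fun x => ‖S (Φ x)‖ ^ 2) K :=
    hbd (by fun_prop) (R ^ 2) fun x hx => by
      rw [abs_of_nonneg (by positivity)]
      have := hSb (Φ x)
      gcongr
  have hi6 : IntegrableOn (fun x => ⟪swapDisp p σ r x, S (Φ x)⟫) K :=
    hbd (by fun_prop) (D * R) fun x hx => by
      refine (abs_real_inner_le_norm _ _).trans ?_
      exact mul_le_mul (hτ x) (hSb _) (norm_nonneg _) hD0
  -- expansion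
  have e1 : ∫ x in K, ‖x - S x‖ ^ 2 =
      ∫ x in K, (‖x‖ ^ 2 - 2 * ⟪x, S x⟫ + ‖S x‖ ^ 2) := by
    congr 1; ext x; exact norm_sub_sq_real _ _
  have e2 : ∫ x in K, ‖x - S (Φ x)‖ ^ 2 =
      ∫ x in K, (‖x‖ ^ 2 - 2 * ⟪x, S (Φ x)⟫ + ‖S (Φ x)‖ ^ 2) := by
    congr 1; ext x; exact norm_sub_sq_real _ _
  have hexp : ∀ f g : E d → ℝ, IntegrableOn f K → IntegrableOn g K →
      ∫ x in K, (‖x‖ ^ 2 - 2 * f x + g x) =
        (∫ x in K, ‖x‖ ^ 2) - 2 * (∫ x in K, f x) + ∫ x in K, g x := by
    intro f g hf hg
    have h1 : IntegrableOn (fun x => ‖x‖ ^ 2 - 2 * f x) K := hi1.sub (hf.const_mul 2)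
    rw [integral_add h1 hg, integral_sub hi1 (hf.const_mul 2), integral_const_mul]
  rw [e1, e2, hexp _ _ hi2 hi3, hexp _ _ hi4 hi5, hpres (fun y => ‖S y‖ ^ 2) (by fun_prop)] at h1
  have h2 : ∫ x in K, ⟪x, S (Φ x)⟫ ≤ ∫ x in K, ⟪x, S x⟫ := by linarith
  have h3 : ∫ x in K, ⟪Φ x, S (Φ x)⟫ = ∫ x in K, ⟪x, S x⟫ :=
    hpres (fun y => ⟪y, S y⟫) (by fun_prop)
  have h4 : ∫ x in K, ⟪Φ x, S (Φ x)⟫ =
      (∫ x in K, ⟪x, S (Φ x)⟫) + ∫ x in K, ⟪swapDisp p σ r x, S (Φ x)⟫ := by
    rw [← integral_add hi4 hi6]
    congr 1; ext x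
    simp only [hΦdef, inner_add_left]
  have h5 : 0 ≤ ∫ x in K, ⟪swapDisp p σ r x, S (Φ x)⟫ := by linarith
  -- localisation to the balls
  set B : ι → Set (E d) := fun i => Metric.closedBall (p i) r with hB
  have hBm : ∀ i, MeasurableSet (B i) := fun i => Metric.isClosed_closedBall.measurableSet
  have hUK : (⋃ i, B i) ⊆ K := iUnion_subset hsub
  have h6 : ∫ x in K, ⟪swapDisp p σ r x, S (Φ x)⟫ =
      ∫ x in ⋃ i, B i, ⟪swapDisp p σ r x, S (Φ x)⟫ := by
    apply setIntegral_eq_of_subset_of_forall_sdiff_eq_zero hKm hUK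
    intro x hx
    have hxB : ∀ i, x ∉ Metric.closedBall (p i) r := fun i hi =>
      hx.2 (mem_iUnion.mpr ⟨i, hi⟩)
    rw [swapDisp_of_notMem hxB, inner_zero_left]
  rw [h6, integral_iUnion_fintype hBm hdisj (fun i => hi6.mono_set (hsub i))] at h5
  refine h5.trans_eq (Finset.sum_congr rfl fun i _ => ?_)
  have hball : ∀ x ∈ B i, ⟪swapDisp p σ r x, S (Φ x)⟫ =
      ⟪p (σ i) - p i, S (x + (p (σ i) - p i))⟫ := by
    intro x hx
    simp only [hΦdef, swapDisp_of_mem hdisj hx]
  rw [setIntegral_congr_fun (hBm i) hball]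
  have hint : IntegrableOn (fun x => S (x + (p (σ i) - p i))) (B i) := by
    have hBfin : volume (B i) ≠ ∞ := (lt_of_le_of_lt (measure_mono (hsub i)) hK.measure_lt_top).ne
    refine Measure.integrableOn_of_bounded (M := R) hBfin
      (by fun_prop : Measurable fun x => S (x + (p (σ i) - p i))).aestronglyMeasurable ?_
    exact Filter.Eventually.of_forall fun x => hSb _
  rw [integral_inner hint, setIntegral_ball_transl]

end swap

end Vale.Agent.Lib.P074
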