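import Vale.Agent.Lib.P074.DefsW1
import Vale.Agent.Lib.P074.Main
import Vale.Agent.Lib.P074.Cyc

open MeasureTheory Set
open scoped ENNReal NNReal RealInnerProductSpace

namespace Vale.Agent.Lib.P074

variable {d : ℕ}

/-- Stability with exponent `1/4` with respect to `W₁`, against a single coupling. -/
theorem L2Dist_le_of_coupling_W1 {K : Set (E d)} (hK : IsCompact K) (hconv : Convex ℝ K)
    {c : E d} {δ : ℝ} (hδ : 0 < δ) (hball : Metric.closedBall c δ ⊆ K) (hd : 1 ≤ d)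
    {RK RY : ℝ} (hRK : ∀ x ∈ K, ‖x‖ ≤ RK)
    {T₀ T₁ : E d → E d} (hT₀ : Measurable T₀) (hT₁ : Measurable T₁)
    (hY₀ : ∀ x, ‖T₀ x‖ ≤ RY) (hY₁ : ∀ x, ‖T₁ x‖ ≤ RY)
    (h₀ : IsGradConvex K T₀) (h₁ : IsGradConvex K T₁)
    (π : Measure (E d × E d)) (hπ₀ : π.map Prod.fst = (uniformProb K).map T₀)
    (hπ₁ : π.map Prod.snd = (uniformProb K).map T₁) :
    L2Dist (uniformProb K) T₀ T₁ ≤
      ENNReal.ofReal (Real.sqrt (2 * RY * d * (2 * RK + 6 * RY * d / δ))) *
        (∫⁻ p, ENNReal.ofReal ‖p.1 - p.2‖ ∂π) ^ (1 / 4 : ℝ) := by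
  obtain ⟨φ₀, hφ₀⟩ := h₀
  obtain ⟨φ₁, hφ₁⟩ := h₁
  have hKfin : volume K ≠ ∞ := hK.measure_lt_top.ne
  have hKpos : volume K ≠ 0 :=
    (lt_of_lt_of_le (Metric.measure_closedBall_pos volume c hδ) (measure_mono hball)).ne'
  have hprob := isProb_uniformProb hKpos hKfin
  have hmain := stability_real hK hconv hδ hball hd hRK hT₀ hT₁ hY₀ hY₁ hφ₀ hφ₁ π hπ₀ hπ₁
  set C₂ : ℝ := 2 * RY * d * (2 * RK + 6 * RY * d / δ) with hC₂
  have hRY0 : 0 ≤ RY := le_trans (norm_nonneg _) (hY₁ 0)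
  have hcK : c ∈ K := hball (Metric.mem_closedBall_self hδ.le)
  have hRK0 : 0 ≤ RK := le_trans (norm_nonneg _) (hRK c hcK)
  have hC₂0 : 0 ≤ C₂ := by positivity
  have hπprob : IsProbabilityMeasure π := by
    constructor
    have h1 : (π.map Prod.fst) univ = π univ := by
      rw [Measure.map_apply measurable_fst MeasurableSet.univ, preimage_univ]
    rw [← h1, hπ₀, Measure.map_apply hT₀ MeasurableSet.univ, preimage_univ]
    exact measure_univ
  have hcl : MeasurableSet (Metric.closedBall (0 : E d) RY) :=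
    Metric.isClosed_closedBall.measurableSet
  have hmem₀ : ∀ x, T₀ x ∈ Metric.closedBall (0 : E d) RY := fun x => by simpa using hY₀ x
  have hmem₁ : ∀ x, T₁ x ∈ Metric.closedBall (0 : E d) RY := fun x => by simpa using hY₁ x
  have hae₀ : ∀ᵐ p ∂π, p.1 ∈ Metric.closedBall (0 : E d) RY := by
    have h1 : ∀ᵐ y ∂(π.map Prod.fst), y ∈ Metric.closedBall (0 : E d) RY := by
      rw [hπ₀]
      exact (ae_map_iff (p := fun y => y ∈ Metric.closedBall (0 : E d) RY) hT₀.aemeasurable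
        hcl).mpr (Filter.Eventually.of_forall hmem₀)
    exact (ae_map_iff (p := fun y => y ∈ Metric.closedBall (0 : E d) RY)
      measurable_fst.aemeasurable hcl).mp h1
  have hae₁ : ∀ᵐ p ∂π, p.2 ∈ Metric.closedBall (0 : E d) RY := by
    have h1 : ∀ᵐ y ∂(π.map Prod.snd), y ∈ Metric.closedBall (0 : E d) RY := by
      rw [hπ₁]
      exact (ae_map_iff (p := fun y => y ∈ Metric.closedBall (0 : E d) RY) hT₁.aemeasurable
        hcl).mpr (Filter.Eventually.of_forall hmem₁)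
    exact (ae_map_iff (p := fun y => y ∈ Metric.closedBall (0 : E d) RY)
      measurable_snd.aemeasurable hcl).mp h1
  have hfb : ∀ᵐ p ∂π, ‖p.1 - p.2‖ ≤ RY + RY := by
    filter_upwards [hae₀, hae₁] with p h0 h1
    have h2 : ‖p.1‖ ≤ RY := by simpa using h0
    have h3 : ‖p.2‖ ≤ RY := by simpa using h1
    have := norm_sub_le p.1 p.2
    linarith
  have hfint : Integrable (fun p : E d × E d => ‖p.1 - p.2‖) π := by
    refine Integrable.of_bound (C := RY + RY) (by fun_prop) ?_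
    filter_upwards [hfb] with p hp
    rwa [norm_norm]
  set W : ℝ := ∫ p, ‖p.1 - p.2‖ ∂π with hW
  have hW0 : 0 ≤ W := integral_nonneg fun _ => norm_nonneg _
  have hA : ∫⁻ p, ENNReal.ofReal ‖p.1 - p.2‖ ∂π = ENNReal.ofReal W :=
    (ofReal_integral_eq_lintegral_ofReal hfint
      (Filter.Eventually.of_forall fun _ => norm_nonneg _)).symm
  have hI2int : Integrable (fun x => ‖T₀ x - T₁ x‖ ^ 2) (uniformProb K) := by
    refine Integrable.of_bound (C := (RY + RY) ^ 2) (by fun_prop) ?_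
    filter_upwards with x
    rw [Real.norm_eq_abs, abs_of_nonneg (by positivity)]
    have := norm_sub_le (T₀ x) (T₁ x)
    have h0 := hY₀ x
    have h1 := hY₁ x
    gcongr
    linarith
  set I : ℝ := ∫ x, ‖T₀ x - T₁ x‖ ^ 2 ∂(uniformProb K) with hI
  have hI0 : 0 ≤ I := integral_nonneg fun _ => by positivity
  have hL : L2Dist (uniformProb K) T₀ T₁ = ENNReal.ofReal (I ^ (1 / 2 : ℝ)) := by
    unfold L2Dist
    rw [← ofReal_integral_eq_lintegral_ofReal hI2int
      (Filter.Eventually.of_forall fun _ => by positivity),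
      ENNReal.ofReal_rpow_of_nonneg hI0 (by norm_num)]
  rw [hL, hA, ENNReal.ofReal_rpow_of_nonneg hW0 (by norm_num),
    ← ENNReal.ofReal_mul (Real.sqrt_nonneg _)]
  apply ENNReal.ofReal_le_ofReal
  set a : ℝ := W ^ (1 / 4 : ℝ) with ha
  have ha0 : 0 ≤ a := Real.rpow_nonneg hW0 _
  have ha4 : a ^ 4 = W := by
    rw [ha, ← Real.rpow_natCast, ← Real.rpow_mul hW0]
    norm_num
  have h2 : Real.sqrt W = a ^ 2 := by
    rw [← ha4, show a ^ 4 = (a ^ 2) ^ 2 by ring, Real.sqrt_sq (by positivity)]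
  have h3 : I ≤ C₂ * a ^ 2 := by rw [← h2]; exact hmain
  rw [← Real.sqrt_eq_rpow]
  calc Real.sqrt I ≤ Real.sqrt (C₂ * a ^ 2) := Real.sqrt_le_sqrt h3
    _ = Real.sqrt C₂ * a := by
      rw [Real.sqrt_mul hC₂0, Real.sqrt_sq ha0]

/-- Passing from single couplings to `W₁`. -/
theorem le_mul_W1_of_coupling {μ ν : Measure (E d)} {L : ℝ≥0∞} {C : ℝ≥0} (hC : C ≠ 0)
    (h : ∀ π : Measure (E d × E d), π.map Prod.fst = μ → π.map Prod.snd = ν →
      L ≤ C * (∫⁻ p, ENNReal.ofReal ‖p.1 - p.2‖ ∂π) ^ (1 / 4 : ℝ)) :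
    L ≤ C * W1 μ ν ^ (1 / 4 : ℝ) := by
  have hC0 : (C : ℝ≥0∞) ≠ 0 := by exact_mod_cast hC
  have hCt : (C : ℝ≥0∞) ≠ ∞ := ENNReal.coe_ne_top
  set X : ℝ≥0∞ := (C : ℝ≥0∞)⁻¹ * L with hX
  have hLX : L = C * X := by
    rw [hX, ← mul_assoc, ENNReal.mul_inv_cancel hC0 hCt, one_mul]
  have h4 : X ^ (4 : ℝ) ≤ W1 μ ν := by
    refine le_iInf₂ fun π hπ => ?_
    have h1 := h π hπ.1 hπ.2
    rw [hLX] at h1
    have h2 : X ≤ (∫⁻ p, ENNReal.ofReal ‖p.1 - p.2‖ ∂π) ^ (1 / 4 : ℝ) :=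
      (ENNReal.mul_le_mul_iff_right hC0 hCt).mp h1
    calc X ^ (4 : ℝ) ≤ ((∫⁻ p, ENNReal.ofReal ‖p.1 - p.2‖ ∂π) ^ (1 / 4 : ℝ)) ^ (4 : ℝ) :=
          ENNReal.rpow_le_rpow h2 (by norm_num)
      _ = ∫⁻ p, ENNReal.ofReal ‖p.1 - p.2‖ ∂π := by
          rw [← ENNReal.rpow_mul]; norm_num
  rw [hLX]
  gcongr
  calc X = (X ^ (4 : ℝ)) ^ (1 / 4 : ℝ) := by rw [← ENNReal.rpow_mul]; norm_num
    _ ≤ _ := ENNReal.rpow_le_rpow h4 (by norm_num)

/-- The exponent `1/4` is admissible for `W₁` in every dimension. -/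
theorem admissibleW1_quarter (hd : 1 ≤ d) : AdmissibleW1 d (1 / 4) := by
  classical
  intro K hK hconv hint Y hY hYne
  obtain ⟨c, hc⟩ := id hint
  obtain ⟨δ, hδ, hball⟩ := Metric.nhds_basis_closedBall.mem_iff.mp (mem_interior_iff_mem_nhds.mp hc)
  obtain ⟨RK, hRK⟩ := hK.isBounded.exists_norm_le
  obtain ⟨RY, hRY⟩ := hY.isBounded.exists_norm_le
  obtain ⟨y₀, hy₀⟩ := id hYne
  have hKfin : volume K ≠ ∞ := hK.measure_lt_top.ne
  have hYm : MeasurableSet Y := hY.isClosed.measurableSet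
  set C₃ : ℝ≥0 := (Real.sqrt (2 * RY * d * (2 * RK + 6 * RY * d / δ))).toNNReal + 1 with hC₃
  refine ⟨C₃, ?_⟩
  intro μ ν _ _ hμ hν Tμ Tν hTμ hTν
  -- truncation
  have hTrunc : ∀ (T : E d → E d) (η : Measure (E d)), (∀ᵐ y ∂η, y ∈ Y) →
      IsOptimalMap (uniformProb K) η T →
      ∃ S : E d → E d, Measurable S ∧ (∀ x, ‖S x‖ ≤ RY) ∧ (S =ᵐ[uniformProb K] T) ∧
        (uniformProb K).map S = η ∧ IsGradConvex K S := by
    intro T η hη hopt
    have hg := isGradConvex_of_optimal hK hconv hint hY hYne hη hopt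
    obtain ⟨hT, hmap, -⟩ := hopt
    refine ⟨fun x => if T x ∈ Y then T x else y₀, ?_, ?_, ?_, ?_, ?_⟩
    · exact Measurable.ite (hT hYm) hT measurable_const
    · intro x
      by_cases h : T x ∈ Y
      · simp only [h, if_true]; exact hRY _ h
      · simp only [h, if_false]; exact hRY _ hy₀
    all_goals
      have hae : ∀ᵐ x ∂(uniformProb K), T x ∈ Y := by
        rw [← hmap] at hη
        exact (ae_map_iff (p := fun y => y ∈ Y) hT.aemeasurable hYm).mp hη
      have heq : (fun x => if T x ∈ Y then T x else y₀) =ᵐ[uniformProb K] T := by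
        filter_upwards [hae] with x hx
        simp [hx]
    · exact heq
    · rw [← hmap]; exact Measure.map_congr heq
    · obtain ⟨φ, hφ⟩ := hg
      refine ⟨φ, ?_⟩
      have hae' : ∀ᵐ x ∂(volume.restrict K), T x ∈ Y :=
        (volume_restrict_ac_uniformProb hKfin).ae_le hae
      filter_upwards [hφ, hae'] with x h1 h2
      simpa [h2] using h1
  obtain ⟨S₀, hS₀m, hS₀b, hS₀e, hS₀map, hS₀g⟩ := hTrunc Tμ μ hμ hTμ
  obtain ⟨S₁, hS₁m, hS₁b, hS₁e, hS₁map, hS₁g⟩ := hTrunc Tν ν hν hTν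
  have hL : L2Dist (uniformProb K) Tμ Tν = L2Dist (uniformProb K) S₀ S₁ := by
    unfold L2Dist
    congr 1
    apply lintegral_congr_ae
    filter_upwards [hS₀e, hS₁e] with x h0 h1
    rw [h0, h1]
  rw [hL]
  have hC₃ne : C₃ ≠ 0 := by
    rw [hC₃]; exact (by positivity : (0 : ℝ≥0) < _).ne'
  apply le_mul_W1_of_coupling hC₃ne
  intro π hπ₀ hπ₁
  have hmain := L2Dist_le_of_coupling_W1 hK hconv hδ hball hd hRK hS₀m hS₁m hS₀b hS₁b hS₀g hS₁g π
    (by rw [hπ₀, hS₀map]) (by rw [hπ₁, hS₁map])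
  refine hmain.trans ?_
  gcongr
  rw [hC₃, ENNReal.ofReal]
  push_cast
  exact le_self_add

section explicit

variable {n : ℕ}

/-- A coupling upper bound for `W₁`. -/
theorem W1_le_of_map (μ : Measure (E d)) (R : E d → E d) (hR : Measurable R) :
    W1 μ (μ.map R) ≤ ∫⁻ y, ENNReal.ofReal ‖y - R y‖ ∂μ := by
  unfold W1
  have hp : Measurable fun y : E d => (y, R y) := measurable_id.prodMk hR
  refine iInf₂_le_of_le (μ.map fun y => (y, R y)) ⟨?_, ?_⟩ ?_
  · rw [Measure.map_map measurable_fst hp]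
    exact Measure.map_id
  · rw [Measure.map_map measurable_snd hp]
    rfl
  · rw [lintegral_map (by fun_prop) hp]

/-- The `W₁` distance between the two targets is at most `2 θ (c + θ)`. -/
theorem W1_le (c θ : ℝ) (hc : 0 ≤ c) (hθ : 0 ≤ θ) :
    W1 ((rho : Measure (E (n + 2))).map (wedgeMap c θ))
        ((rho : Measure (E (n + 2))).map (wedgeMap c (-θ)))
      ≤ ENNReal.ofReal (2 * θ * (c + θ)) := by
  rw [map_wedgeMap_neg]
  have hR : Measurable (refl1 : E (n + 2) → E (n + 2)) := refl1.continuous.measurable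
  refine (W1_le_of_map _ _ hR).trans ?_
  rw [lintegral_map (by fun_prop) (measurable_wedgeMap c θ)]
  have hle : ∀ x : E (n + 2), ENNReal.ofReal ‖wedgeMap c θ x - refl1 (wedgeMap c θ x)‖
      ≤ (wedge c θ).indicator (fun _ => ENNReal.ofReal (2 * θ)) x := by
    intro x
    by_cases hx : x ∈ (wedge c θ : Set (E (n + 2)))
    · rw [Set.indicator_of_mem hx]
      have hx' : |x 0| ≤ c + θ * x 1 := hx
      have hT : wedgeMap c θ x = θ • e1 := by simp [wedgeMap, hx']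
      rw [hT, map_smul, refl1_e1]
      apply ENNReal.ofReal_le_ofReal
      have : (θ • e1 - θ • (-e1) : E (n + 2)) = (2 * θ) • e1 := by
        rw [smul_neg, sub_neg_eq_add, two_mul, add_smul]
      rw [this, norm_smul, norm_e1]
      simp only [Real.norm_eq_abs, abs_mul, mul_one]
      rw [abs_of_pos (by norm_num : (0 : ℝ) < 2), abs_of_nonneg hθ]
    · rw [Set.indicator_of_notMem hx]
      have hx' : ¬ |x 0| ≤ c + θ * x 1 := hx
      unfold wedgeMap
      rw [if_neg hx']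
      split_ifs
      · rw [refl1_e0]; simp
      · rw [map_neg, refl1_e0]; simp
  calc ∫⁻ x, ENNReal.ofReal ‖wedgeMap c θ x - refl1 (wedgeMap c θ x)‖ ∂rho
      ≤ ∫⁻ x, (wedge c θ).indicator (fun _ => ENNReal.ofReal (2 * θ)) x ∂rho :=
        lintegral_mono hle
    _ = ENNReal.ofReal (2 * θ) * (rho : Measure (E (n + 2))) (wedge c θ) :=
        lintegral_indicator_const (measurableSet_wedge c θ) _
    _ ≤ ENNReal.ofReal (2 * θ) * ENNReal.ofReal (c + θ) := by
        gcongr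
        exact rho_wedge_le c θ hc hθ
    _ = ENNReal.ofReal (2 * θ * (c + θ)) := by
        rw [← ENNReal.ofReal_mul (by positivity)]

/-- The quantitative estimate in real numbers for `W₁`. -/
theorem real_bound_W1 (α : ℝ) (hα : 0 < α) (C : ℝ≥0)
    (hC : ∀ μ ν : Measure (E (n + 2)), IsProbabilityMeasure μ → IsProbabilityMeasure ν →
        (∀ᵐ y ∂μ, y ∈ Metric.closedBall (0 : E (n + 2)) 2) →
        (∀ᵐ y ∂ν, y ∈ Metric.closedBall (0 : E (n + 2)) 2) →
        ∀ Tμ Tν : E (n + 2) → E (n + 2),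
          IsOptimalMap (uniformProb cube) μ Tμ → IsOptimalMap (uniformProb cube) ν Tν →
            L2Dist (uniformProb cube) Tμ Tν ≤ C * W1 μ ν ^ α)
    (c : ℝ) (hc : 0 < c) (hc2 : c ≤ 1 / 2) :
    (c / 16) ^ (1 / 2 : ℝ) ≤ (C : ℝ) * (4 * c ^ 2) ^ α := by
  have hT := measurable_wedgeMap (n := n) c c
  have hT' := measurable_wedgeMap (n := n) c (-c)
  have h1 := hC ((rho : Measure (E (n + 2))).map (wedgeMap c c))
    ((rho : Measure (E (n + 2))).map (wedgeMap c (-c)))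
    (Measure.isProbabilityMeasure_map hT.aemeasurable)
    (Measure.isProbabilityMeasure_map hT'.aemeasurable)
    (mem_ae_iff.mpr (map_wedgeMap_compl_ball c c (by rw [abs_of_pos hc]; linarith)))
    (mem_ae_iff.mpr (map_wedgeMap_compl_ball c (-c) (by rw [abs_neg, abs_of_pos hc]; linarith)))
    (wedgeMap c c) (wedgeMap c (-c))
    (isOptimalMap_wedgeMap c c hc.le) (isOptimalMap_wedgeMap c (-c) hc.le)
  have h2 := L2Dist_ge (n := n) c c hc hc (by linarith)
  have h3 := W1_le (n := n) c c hc.le hc.le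
  have h4 : ENNReal.ofReal (c / 16) ^ (1 / 2 : ℝ) ≤
      (C : ℝ≥0∞) * ENNReal.ofReal (4 * c ^ 2) ^ α := by
    refine h2.trans (h1.trans ?_)
    have e : 2 * c * (c + c) = 4 * c ^ 2 := by ring
    rw [e] at h3
    gcongr
  rw [ENNReal.ofReal_rpow_of_nonneg (by positivity) (by norm_num),
    ENNReal.ofReal_rpow_of_nonneg (by positivity) (by positivity),
    ← ENNReal.ofReal_coe_nnreal, ← ENNReal.ofReal_mul (by positivity),
    ENNReal.ofReal_le_ofReal_iff (by positivity)] at h4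
  exact h4

theorem not_admissibleW1 (n : ℕ) (α : ℝ) (hα : 1 / 4 < α) : ¬ AdmissibleW1 (n + 2) α := by
  intro h
  obtain ⟨C, hC⟩ := h cube isCompact_cube convex_cube interior_cube_nonempty
    (Metric.closedBall 0 2) (isCompact_closedBall _ _) ⟨0, by simp⟩
  have hα0 : 0 < α := by linarith
  have hb := real_bound_W1 (n := n) α hα0 C hC
  -- the exponent gained
  set β : ℝ := 2 * α - 1 / 2 with hβ
  have hβ0 : 0 < β := by rw [hβ]; linarith
  set k : ℝ := (1 / 16 : ℝ) ^ (1 / 2 : ℝ) with hk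
  have hk0 : 0 < k := by rw [hk]; positivity
  set M : ℝ := (C : ℝ) * (4 : ℝ) ^ α with hM
  have hM0 : 0 ≤ M := by rw [hM]; positivity
  have hreduced : ∀ c : ℝ, 0 < c → c ≤ 1 / 2 → k ≤ M * c ^ β := by
    intro c hc hc2
    have h1 := hb c hc hc2
    have e1 : (c / 16) ^ (1 / 2 : ℝ) = c ^ (1 / 2 : ℝ) * k := by
      rw [hk, ← Real.mul_rpow hc.le (by norm_num)]
      congr 1
      ring
    have e2 : (4 * c ^ 2) ^ α = (4 : ℝ) ^ α * (c ^ (1 / 2 : ℝ) * c ^ β) := by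
      rw [Real.mul_rpow (by norm_num) (by positivity), ← Real.rpow_add hc]
      congr 1
      rw [← Real.rpow_natCast c 2, ← Real.rpow_mul hc.le, hβ]
      congr 1
      push_cast
      ring
    rw [e1, e2] at h1
    have hpos : 0 < c ^ (1 / 2 : ℝ) := by positivity
    have h2 : c ^ (1 / 2 : ℝ) * k ≤ c ^ (1 / 2 : ℝ) * (M * c ^ β) := by
      calc c ^ (1 / 2 : ℝ) * k ≤ (C : ℝ) * ((4 : ℝ) ^ α * (c ^ (1 / 2 : ℝ) * c ^ β)) := h1
        _ = c ^ (1 / 2 : ℝ) * (M * c ^ β) := by rw [hM]; ring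
    exact le_of_mul_le_mul_left h2 hpos
  -- choose `c` small
  set ε : ℝ := k / (2 * (M + 1)) with hε
  have hε0 : 0 < ε := by rw [hε]; positivity
  set c : ℝ := min (1 / 2) (ε ^ (1 / β)) with hc
  have hc0 : 0 < c := lt_min (by norm_num) (by positivity)
  have hcβ : c ^ β ≤ ε := by
    calc c ^ β ≤ (ε ^ (1 / β)) ^ β := Real.rpow_le_rpow hc0.le (min_le_right _ _) hβ0.le
      _ = ε := by
        rw [← Real.rpow_mul hε0.le, one_div, inv_mul_cancel₀ hβ0.ne', Real.rpow_one]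
  have hfinal := hreduced c hc0 (min_le_left _ _)
  have hlt : M * c ^ β < k := by
    calc M * c ^ β ≤ M * ε := by gcongr
      _ = k * (M / (2 * (M + 1))) := by rw [hε]; field_simp
      _ < k * 1 := by
        apply mul_lt_mul_of_pos_left _ hk0
        rw [div_lt_one (by positivity)]
        linarith
      _ = k := mul_one k
  linarith

end explicit

/-- The sharp exponent for `W₁` is `1/4`. -/
theorem W1_sharp (d : ℕ) (hd : 2 ≤ d) :
    AdmissibleW1 d (1 / 4) ∧ ∀ α : ℝ, 1 / 4 < α → ¬ AdmissibleW1 d α := by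
  obtain ⟨n, rfl⟩ : ∃ n, d = n + 2 := ⟨d - 2, by omega⟩
  exact ⟨admissibleW1_quarter (by omega), fun α hα => not_admissibleW1 n α hα⟩

end Vale.Agent.Lib.P074
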