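import Vale.Agent.Lib.P074.Defs

open MeasureTheory Set
open scoped ENNReal NNReal Pointwise

namespace Vale.Agent.Lib.P074

/-- Weighted arithmetic and geometric means in `ℝ≥0∞`. -/
theorem ennreal_amgm (a b : ℝ≥0∞) {t : ℝ} (ht0 : 0 < t) (ht1 : t < 1) :
    a ^ (1 - t) * b ^ t ≤ ENNReal.ofReal (1 - t) * a + ENNReal.ofReal t * b := by
  have h1t : 0 < 1 - t := by linarith
  by_cases ha : a = ∞
  · subst ha
    have : ENNReal.ofReal (1 - t) * ∞ = ∞ :=
      ENNReal.mul_top (by simpa using h1t)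
    rw [this]; simp
  by_cases hb : b = ∞
  · subst hb
    have : ENNReal.ofReal t * ∞ = ∞ := ENNReal.mul_top (by simpa using ht0)
    rw [this]; simp
  lift a to ℝ≥0 using ha
  lift b to ℝ≥0 using hb
  set p : ℝ≥0 := (1 - t).toNNReal with hp
  set q : ℝ≥0 := t.toNNReal with hq
  have hw : p + q = 1 := by
    rw [hp, hq, ← Real.toNNReal_add h1t.le ht0.le]; simp
  have h := NNReal.geom_mean_le_arith_mean2_weighted p q a b hw
  have e0p : (p : ℝ) = 1 - t := Real.coe_toNNReal _ h1t.le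
  have e0q : (q : ℝ) = t := Real.coe_toNNReal _ ht0.le
  rw [e0p, e0q] at h
  have e1 : ENNReal.ofReal (1 - t) = (p : ℝ≥0∞) := rfl
  have e2 : ENNReal.ofReal t = (q : ℝ≥0∞) := rfl
  rw [e1, e2, ← ENNReal.coe_rpow_of_nonneg _ h1t.le, ← ENNReal.coe_rpow_of_nonneg _ ht0.le]
  exact_mod_cast h

/-- Volume of the image of a set under an affine map of the line. -/
theorem volume_image_affine_real {c : ℝ} (hc : 0 < c) (q : ℝ) (A : Set ℝ) :
    volume ((fun x => c * x + q) '' A) = ENNReal.ofReal c * volume A := by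
  have h1 : (fun x => c * x + q) '' A = (fun z => z + (-q)) ⁻¹' (c • A) := by
    ext z
    simp only [mem_image, mem_preimage, mem_smul_set, smul_eq_mul]
    constructor
    · rintro ⟨x, hx, rfl⟩
      exact ⟨x, hx, by ring⟩
    · rintro ⟨x, hx, h⟩
      exact ⟨x, hx, by linarith⟩
  rw [h1, measure_preimage_add_right, Measure.addHaar_smul]
  simp [abs_of_pos hc]

/-- The one dimensional additive Brunn-Minkowski inequality. -/
theorem sumset_real {A B H : Set ℝ} (hAne : A.Nonempty) (hBne : B.Nonempty)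
    (hAb : BddAbove A) (hBb : BddBelow B) {t : ℝ} (ht0 : 0 < t)
    (ht1 : t < 1) (h : ∀ a ∈ A, ∀ b ∈ B, (1 - t) * a + t * b ∈ H) :
    ENNReal.ofReal (1 - t) * volume A + ENNReal.ofReal t * volume B ≤ volume H := by
  have h1t : 0 < 1 - t := by linarith
  apply ENNReal.le_of_forall_pos_le_add
  intro η hη _
  have hη' : (0 : ℝ) < η := by exact_mod_cast hη
  set a₀ := sSup A with ha₀
  set b₀ := sInf B with hb₀
  obtain ⟨a', ha', haa⟩ := exists_lt_of_lt_csSup hAne (show a₀ - η < a₀ by linarith)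
  obtain ⟨b', hb', hbb⟩ := exists_lt_of_csInf_lt hBne (show b₀ < b₀ + η by linarith)
  set c₁ := (1 - t) * a₀ + t * b' with hc₁
  set c₂ := (1 - t) * a' + t * b₀ with hc₂
  have hle_a : ∀ a ∈ A, a ≤ a₀ := fun a ha => le_csSup hAb ha
  have hle_b : ∀ b ∈ B, b₀ ≤ b := fun b hb => csInf_le hBb hb
  have hc12 : c₁ ≤ c₂ + η := by
    have h2 : a₀ - a' ≤ η := by linarith
    have h3 : b' - b₀ ≤ η := by linarith
    have : c₁ - c₂ = (1 - t) * (a₀ - a') + t * (b' - b₀) := by rw [hc₁, hc₂]; ring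
    nlinarith
  set H₁ := (fun x => (1 - t) * x + t * b') '' A with hH₁
  set H₂ := (fun x => t * x + (1 - t) * a') '' B with hH₂
  have hH₁sub : H₁ ⊆ H ∩ Iic c₁ := by
    rintro _ ⟨a, ha, rfl⟩
    refine ⟨h a ha b' hb', ?_⟩
    have := hle_a a ha
    simp only [mem_Iic, hc₁]
    nlinarith
  have hH₂sub : H₂ ⊆ H ∩ Ici c₂ := by
    rintro _ ⟨b, hb, rfl⟩
    refine ⟨by have := h a' ha' b hb; rwa [add_comm] at this, ?_⟩
    have := hle_b b hb
    simp only [mem_Ici, hc₂]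
    nlinarith
  have hv₁ : volume H₁ = ENNReal.ofReal (1 - t) * volume A := volume_image_affine_real h1t _ _
  have hv₂ : volume H₂ = ENNReal.ofReal t * volume B := volume_image_affine_real ht0 _ _
  rw [← hv₁, ← hv₂]
  -- split `H`
  have hH : volume H = volume (H ∩ Iic c₁) + volume (H \ Iic c₁) :=
    (measure_inter_add_sdiff H measurableSet_Iic).symm
  have hI₁ : volume H₁ ≤ volume (H ∩ Iic c₁) := measure_mono hH₁sub
  have hI₂ : volume H₂ ≤ volume (H \ Iic c₁) + (η : ℝ≥0∞) := by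
    have hsub : H₂ ⊆ (H \ Iic c₁) ∪ Icc c₂ (c₂ + η) := by
      intro z hz
      by_cases hz1 : z ≤ c₁
      · right
        exact ⟨(hH₂sub hz).2, hz1.trans hc12⟩
      · left
        exact ⟨(hH₂sub hz).1, hz1⟩
    calc volume H₂ ≤ volume ((H \ Iic c₁) ∪ Icc c₂ (c₂ + η)) := measure_mono hsub
      _ ≤ volume (H \ Iic c₁) + volume (Icc c₂ (c₂ + η)) := measure_union_le _ _
      _ = volume (H \ Iic c₁) + (η : ℝ≥0∞) := by
          rw [Real.volume_Icc]
          congr 1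
          have : c₂ + (η : ℝ) - c₂ = η := by ring
          rw [this]; simp
  calc volume H₁ + volume H₂ ≤ volume (H ∩ Iic c₁) + (volume (H \ Iic c₁) + (η : ℝ≥0∞)) := by
        gcongr
    _ = volume H + η := by rw [hH]; ring

/-- Layer cake for functions with values in `[0, 1]`. -/
theorem lintegral_eq_Ioo_of_le_one {f : ℝ → ℝ} (hf : Measurable f) (h0 : ∀ x, 0 ≤ f x)
    (h1 : ∀ x, f x ≤ 1) :
    ∫⁻ x, ENNReal.ofReal (f x) = ∫⁻ c in Ioo (0 : ℝ) 1, volume {x | c < f x} := by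
  rw [lintegral_eq_lintegral_meas_lt volume (Filter.Eventually.of_forall h0) hf.aemeasurable]
  have hsplit : Ioi (0 : ℝ) = Ioo 0 1 ∪ Ici 1 := (Ioo_union_Ici_eq_Ioi zero_lt_one).symm
  rw [hsplit, lintegral_union measurableSet_Ici
    (by rw [Set.disjoint_left]; rintro x ⟨_, hx⟩ (hx' : 1 ≤ x); linarith)]
  have : ∫⁻ c in Ici (1 : ℝ), volume {x | c < f x} = 0 := by
    apply setLIntegral_eq_zero measurableSet_Ici
    intro c hc
    have hc' : (1 : ℝ) ≤ c := hc
    have : {x | c < f x} = ∅ := by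
      ext x
      simp only [mem_ofPred_eq, mem_empty_iff_false, iff_false, not_lt]
      exact (h1 x).trans hc'
    simp [this]
  simp [this]

/-- Normalised one dimensional Prékopa-Leindler. -/
theorem pl1_norm {f g h : ℝ → ℝ} (hfm : Measurable f) (hgm : Measurable g) (hhm : Measurable h)
    (hf0 : ∀ x, 0 ≤ f x) (hg0 : ∀ x, 0 ≤ g x) (hh0 : ∀ x, 0 ≤ h x)
    (hf1 : ∀ x, f x ≤ 1) (hg1 : ∀ x, g x ≤ 1)
    (hfs : ∀ c < 1, ∃ x, c < f x) (hgs : ∀ c < 1, ∃ x, c < g x)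
    {R : ℝ} (hfR : ∀ x, R < |x| → f x = 0) (hgR : ∀ x, R < |x| → g x = 0)
    {t : ℝ} (ht0 : 0 < t) (ht1 : t < 1)
    (hh : ∀ x y, f x ^ (1 - t) * g y ^ t ≤ h ((1 - t) * x + t * y)) :
    (∫⁻ x, ENNReal.ofReal (f x)) ^ (1 - t) * (∫⁻ x, ENNReal.ofReal (g x)) ^ t ≤
      ∫⁻ x, ENNReal.ofReal (h x) := by
  have h1t : 0 < 1 - t := by linarith
  refine (ennreal_amgm _ _ ht0 ht1).trans ?_
  rw [lintegral_eq_Ioo_of_le_one hfm hf0 hf1, lintegral_eq_Ioo_of_le_one hgm hg0 hg1,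
    lintegral_eq_lintegral_meas_lt volume (Filter.Eventually.of_forall hh0) hhm.aemeasurable]
  have hmf : Measurable fun c : ℝ => volume {x | c < f x} :=
    (Antitone.measurable fun a b hab => measure_mono fun x hx => lt_of_le_of_lt hab hx)
  have hmg : Measurable fun c : ℝ => volume {x | c < g x} :=
    (Antitone.measurable fun a b hab => measure_mono fun x hx => lt_of_le_of_lt hab hx)
  rw [← lintegral_const_mul _ hmf, ← lintegral_const_mul _ hmg, ← lintegral_add_left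
    (hmf.const_mul _)]
  calc ∫⁻ c in Ioo (0 : ℝ) 1, (ENNReal.ofReal (1 - t) * volume {x | c < f x} +
        ENNReal.ofReal t * volume {x | c < g x})
      ≤ ∫⁻ c in Ioo (0 : ℝ) 1, volume {x | c < h x} := by
        apply setLIntegral_mono' measurableSet_Ioo
        rintro c ⟨hc0, hc1⟩
        have hbd : ∀ (k : ℝ → ℝ), (∀ x, R < |x| → k x = 0) →
            BddAbove {x | c < k x} ∧ BddBelow {x | c < k x} := by
          intro k hk
          have hsub : ∀ x ∈ {x | c < k x}, |x| ≤ R := by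
            intro x hx
            by_contra hcon
            push Not at hcon
            have h2 : c < k x := hx
            rw [hk x hcon] at h2
            linarith
          refine ⟨⟨R, fun x hx => (le_abs_self x).trans (hsub x hx)⟩,
            ⟨-R, fun x hx => ?_⟩⟩
          have := neg_abs_le x
          have := hsub x hx
          linarith
        apply sumset_real (hfs c hc1) (hgs c hc1) (hbd f hfR).1 (hbd g hgR).2 ht0 ht1
        intro a ha b hb
        have ha' : c < f a := ha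
        have hb' : c < g b := hb
        have h2 : c ^ (1 - t) * c ^ t < f a ^ (1 - t) * g b ^ t := by
          apply mul_lt_mul'' (Real.rpow_lt_rpow hc0.le ha' h1t) (Real.rpow_lt_rpow hc0.le hb' ht0)
            (by positivity) (by positivity)
        have h3 : c ^ (1 - t) * c ^ t = c := by
          rw [← Real.rpow_add hc0]; simp
        rw [h3] at h2
        exact lt_of_lt_of_le h2 (hh a b)
    _ ≤ ∫⁻ c in Ioi (0 : ℝ), volume {x | c < h x} :=
        lintegral_mono_set Ioo_subset_Ioi_self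

/-- One dimensional Prékopa-Leindler for bounded functions with bounded supports. -/
theorem pl1 {f g h : ℝ → ℝ} (hfm : Measurable f) (hgm : Measurable g) (hhm : Measurable h)
    (hf0 : ∀ x, 0 ≤ f x) (hg0 : ∀ x, 0 ≤ g x) (hh0 : ∀ x, 0 ≤ h x)
    {Mf Mg : ℝ} (hfb : ∀ x, f x ≤ Mf) (hgb : ∀ x, g x ≤ Mg)
    {R : ℝ} (hfR : ∀ x, R < |x| → f x = 0) (hgR : ∀ x, R < |x| → g x = 0)
    {t : ℝ} (ht0 : 0 < t) (ht1 : t < 1)
    (hh : ∀ x y, f x ^ (1 - t) * g y ^ t ≤ h ((1 - t) * x + t * y)) :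
    (∫⁻ x, ENNReal.ofReal (f x)) ^ (1 - t) * (∫⁻ x, ENNReal.ofReal (g x)) ^ t ≤
      ∫⁻ x, ENNReal.ofReal (h x) := by
  have h1t : 0 < 1 - t := by linarith
  by_cases hfz : ∀ x, f x = 0
  · have : (∫⁻ x, ENNReal.ofReal (f x)) = 0 := by simp [hfz]
    rw [this, ENNReal.zero_rpow_of_pos h1t]; simp
  by_cases hgz : ∀ x, g x = 0
  · have : (∫⁻ x, ENNReal.ofReal (g x)) = 0 := by simp [hgz]
    rw [this, ENNReal.zero_rpow_of_pos ht0]; simp
  push Not at hfz hgz
  obtain ⟨x₀, hx₀⟩ := hfz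
  obtain ⟨y₀, hy₀⟩ := hgz
  have hfb' : BddAbove (range f) := ⟨Mf, by rintro _ ⟨x, rfl⟩; exact hfb x⟩
  have hgb' : BddAbove (range g) := ⟨Mg, by rintro _ ⟨x, rfl⟩; exact hgb x⟩
  set F := sSup (range f) with hF
  set G := sSup (range g) with hG
  have hfF : ∀ x, f x ≤ F := fun x => le_csSup hfb' ⟨x, rfl⟩
  have hgG : ∀ x, g x ≤ G := fun x => le_csSup hgb' ⟨x, rfl⟩
  have hF0 : 0 < F := lt_of_lt_of_le (lt_of_le_of_ne (hf0 x₀) (Ne.symm hx₀)) (hfF x₀)
  have hG0 : 0 < G := lt_of_lt_of_le (lt_of_le_of_ne (hg0 y₀) (Ne.symm hy₀)) (hgG y₀)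
  set P := F ^ (1 - t) * G ^ t with hP
  have hP0 : 0 < P := by positivity
  have key := pl1_norm (f := fun x => f x / F) (g := fun x => g x / G) (h := fun x => h x / P)
    (hfm.div_const _) (hgm.div_const _) (hhm.div_const _)
    (fun x => div_nonneg (hf0 x) hF0.le) (fun x => div_nonneg (hg0 x) hG0.le)
    (fun x => div_nonneg (hh0 x) hP0.le)
    (fun x => (div_le_one hF0).mpr (hfF x)) (fun x => (div_le_one hG0).mpr (hgG x))
    (by
      intro c hc
      obtain ⟨_, ⟨x, rfl⟩, hx⟩ := exists_lt_of_lt_csSup (range_nonempty f)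
        (show c * F < F by nlinarith)
      exact ⟨x, by rwa [lt_div_iff₀ hF0]⟩)
    (by
      intro c hc
      obtain ⟨_, ⟨x, rfl⟩, hx⟩ := exists_lt_of_lt_csSup (range_nonempty g)
        (show c * G < G by nlinarith)
      exact ⟨x, by rwa [lt_div_iff₀ hG0]⟩)
    (R := R) (by intro x hx; simp [hfR x hx]) (by intro x hx; simp [hgR x hx]) ht0 ht1
    (by
      intro x y
      rw [Real.div_rpow (hf0 x) hF0.le, Real.div_rpow (hg0 y) hG0.le, le_div_iff₀ hP0, hP]
      have := hh x y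
      have hne1 : F ^ (1 - t) ≠ 0 := by positivity
      have hne2 : G ^ t ≠ 0 := by positivity
      calc f x ^ (1 - t) / F ^ (1 - t) * (g y ^ t / G ^ t) * (F ^ (1 - t) * G ^ t)
          = f x ^ (1 - t) * g y ^ t := by field_simp
        _ ≤ _ := this)
  have hscale : ∀ (k : ℝ → ℝ) (c : ℝ), 0 < c →
      ∫⁻ x, ENNReal.ofReal (k x) = ENNReal.ofReal c * ∫⁻ x, ENNReal.ofReal (k x / c) := by
    intro k c hc
    have hne : ENNReal.ofReal c ≠ ∞ := ENNReal.ofReal_ne_top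
    have : ∀ x, ENNReal.ofReal (k x) = ENNReal.ofReal c * ENNReal.ofReal (k x / c) := by
      intro x
      rw [← ENNReal.ofReal_mul hc.le]
      congr 1
      field_simp
    simp_rw [this]
    rw [lintegral_const_mul' _ _ hne]
  rw [hscale f F hF0, hscale g G hG0, hscale h P hP0]
  rw [ENNReal.mul_rpow_of_nonneg _ _ h1t.le, ENNReal.mul_rpow_of_nonneg _ _ ht0.le]
  have hPe : ENNReal.ofReal P = ENNReal.ofReal F ^ (1 - t) * ENNReal.ofReal G ^ t := by
    rw [hP, ENNReal.ofReal_mul (by positivity), ENNReal.ofReal_rpow_of_pos hF0,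
      ENNReal.ofReal_rpow_of_pos hG0]
  rw [hPe]
  calc ENNReal.ofReal F ^ (1 - t) * (∫⁻ x, ENNReal.ofReal (f x / F)) ^ (1 - t) *
        (ENNReal.ofReal G ^ t * (∫⁻ x, ENNReal.ofReal (g x / G)) ^ t)
      = ENNReal.ofReal F ^ (1 - t) * ENNReal.ofReal G ^ t *
        ((∫⁻ x, ENNReal.ofReal (f x / F)) ^ (1 - t) *
          (∫⁻ x, ENNReal.ofReal (g x / G)) ^ t) := by ring
    _ ≤ _ := by gcongr

/-- The inductive step: from a space `X` to `ℝ × X`. -/
theorem bm_step {n : ℕ} {t : ℝ} (ht0 : 0 < t) (ht1 : t < 1)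
    (ih : ∀ A B C : Set (Fin n → ℝ), MeasurableSet A → MeasurableSet B → MeasurableSet C →
      (∃ R : ℝ, ∀ x ∈ A, ‖x‖ ≤ R) → (∃ R : ℝ, ∀ x ∈ B, ‖x‖ ≤ R) → (∃ R : ℝ, ∀ x ∈ C, ‖x‖ ≤ R) →
      (∀ a ∈ A, ∀ b ∈ B, (1 - t) • a + t • b ∈ C) →
      volume A ^ (1 - t) * volume B ^ t ≤ volume C)
    {A B C : Set (ℝ × (Fin n → ℝ))} (hA : MeasurableSet A) (hB : MeasurableSet B)
    (hC : MeasurableSet C)
    (hAb : ∃ R : ℝ, ∀ x ∈ A, ‖x‖ ≤ R) (hBb : ∃ R : ℝ, ∀ x ∈ B, ‖x‖ ≤ R)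
    (hCb : ∃ R : ℝ, ∀ x ∈ C, ‖x‖ ≤ R)
    (h : ∀ a ∈ A, ∀ b ∈ B, (1 - t) • a + t • b ∈ C) :
    volume A ^ (1 - t) * volume B ^ t ≤ volume C := by
  have h1t : 0 < 1 - t := by linarith
  -- slices
  have hslice : ∀ (S : Set (ℝ × (Fin n → ℝ))), MeasurableSet S → (∃ R : ℝ, ∀ x ∈ S, ‖x‖ ≤ R) →
      ∃ R : ℝ, (Measurable fun s : ℝ => (volume (Prod.mk s ⁻¹' S)).toReal) ∧
        (∀ s, volume (Prod.mk s ⁻¹' S) ≠ ∞) ∧
        (∀ s, (volume (Prod.mk s ⁻¹' S)).toReal ≤ (volume (Metric.closedBall (0 : Fin n → ℝ) R)).toReal) ∧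
        (∀ s, R < |s| → (volume (Prod.mk s ⁻¹' S)).toReal = 0) ∧
        (∀ s, MeasurableSet (Prod.mk s ⁻¹' S)) ∧
        (∀ s, ∀ x ∈ Prod.mk s ⁻¹' S, ‖x‖ ≤ R) ∧
        volume S = ∫⁻ s, ENNReal.ofReal ((volume (Prod.mk s ⁻¹' S)).toReal) := by
    intro S hS ⟨R, hR⟩
    have hfin : ∀ s, volume (Prod.mk s ⁻¹' S) ≠ ∞ := by
      intro s
      apply ne_of_lt
      refine lt_of_le_of_lt (measure_mono (t := Metric.closedBall (0 : Fin n → ℝ) R) ?_)
        measure_closedBall_lt_top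
      intro x hx
      have := hR _ hx
      rw [mem_closedBall_zero_iff]
      exact (norm_snd_le (s, x)).trans this
    refine ⟨R, (measurable_measure_prodMk_left hS).ennreal_toReal, hfin, ?_, ?_, ?_, ?_, ?_⟩
    · intro s
      apply ENNReal.toReal_mono measure_closedBall_lt_top.ne
      apply measure_mono
      intro x hx
      have := hR _ hx
      rw [mem_closedBall_zero_iff]
      exact (norm_snd_le (s, x)).trans this
    · intro s hs
      have : Prod.mk s ⁻¹' S = ∅ := by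
        ext x
        simp only [mem_preimage, mem_empty_iff_false, iff_false]
        intro hx
        have h1 := hR _ hx
        have h2 : ‖s‖ ≤ ‖(s, x)‖ := norm_fst_le (s, x)
        rw [Real.norm_eq_abs] at h2
        linarith
      simp [this]
    · intro s
      exact measurable_prodMk_left hS
    · intro s x hx
      exact (norm_snd_le (s, x)).trans (hR _ hx)
    · rw [Measure.volume_eq_prod, Measure.prod_apply hS]
      apply lintegral_congr
      intro s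
      rw [ENNReal.ofReal_toReal (hfin s)]
  obtain ⟨R₁, hfm, hffin, hfb, hfR, hfs, hfn, hfv⟩ := hslice A hA hAb
  obtain ⟨R₂, hgm, hgfin, hgb, hgR, hgs, hgn, hgv⟩ := hslice B hB hBb
  obtain ⟨R₃, hhm, hhfin, -, -, hhs, hhn, hhv⟩ := hslice C hC hCb
  rw [hfv, hgv, hhv]
  apply pl1 hfm hgm hhm (fun _ => ENNReal.toReal_nonneg) (fun _ => ENNReal.toReal_nonneg)
    (fun _ => ENNReal.toReal_nonneg) hfb hgb (R := max R₁ R₂)
    (fun s hs => hfR s (lt_of_le_of_lt (le_max_left _ _) hs))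
    (fun s hs => hgR s (lt_of_le_of_lt (le_max_right _ _) hs)) ht0 ht1
  intro s s'
  have key := ih (Prod.mk s ⁻¹' A) (Prod.mk s' ⁻¹' B) (Prod.mk ((1 - t) * s + t * s') ⁻¹' C)
    (hfs s) (hgs s') (hhs _) ⟨R₁, hfn s⟩ ⟨R₂, hgn s'⟩ ⟨R₃, hhn _⟩ (by
      intro a ha b hb
      have := h _ ha _ hb
      simpa using this)
  have h2 := ENNReal.toReal_mono (hhfin _) key
  rw [ENNReal.toReal_mul, ← ENNReal.toReal_rpow, ← ENNReal.toReal_rpow] at h2
  exact h2

/-- Multiplicative Brunn-Minkowski on `Fin n → ℝ`. -/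
theorem bm_pi (n : ℕ) {t : ℝ} (ht0 : 0 < t) (ht1 : t < 1) :
    ∀ A B C : Set (Fin n → ℝ), MeasurableSet A → MeasurableSet B → MeasurableSet C →
      (∃ R : ℝ, ∀ x ∈ A, ‖x‖ ≤ R) → (∃ R : ℝ, ∀ x ∈ B, ‖x‖ ≤ R) → (∃ R : ℝ, ∀ x ∈ C, ‖x‖ ≤ R) →
      (∀ a ∈ A, ∀ b ∈ B, (1 - t) • a + t • b ∈ C) →
      volume A ^ (1 - t) * volume B ^ t ≤ volume C := by
  have h1t : 0 < 1 - t := by linarith
  induction n with
  | zero =>
    intro A B C _ _ _ _ _ _ h
    rcases A.eq_empty_or_nonempty with rfl | ⟨a, ha⟩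
    · simp [ENNReal.zero_rpow_of_pos h1t]
    rcases B.eq_empty_or_nonempty with rfl | ⟨b, hb⟩
    · simp [ENNReal.zero_rpow_of_pos ht0]
    have hC : C = univ := by
      rw [eq_univ_iff_forall]
      intro x
      have := h a ha b hb
      rwa [Subsingleton.elim x ((1 - t) • a + t • b)]
    have huniv : volume (univ : Set (Fin 0 → ℝ)) = 1 := by
      rw [volume_pi, Measure.pi_univ]
      simp
    rw [hC, huniv]
    have h1 : volume A ≤ 1 := huniv ▸ measure_mono (subset_univ A)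
    have h2 : volume B ≤ 1 := huniv ▸ measure_mono (subset_univ B)
    calc volume A ^ (1 - t) * volume B ^ t ≤ 1 ^ (1 - t) * 1 ^ t := by gcongr
      _ = 1 := by simp
  | succ n ih =>
    intro A B C hA hB hC hAb hBb hCb h
    set e := MeasurableEquiv.piFinSuccAbove (fun _ : Fin (n + 1) => ℝ) 0 with he
    have hmp : MeasurePreserving e := volume_preserving_piFinSuccAbove (fun _ : Fin (n + 1) => ℝ) 0
    have hmps : MeasurePreserving e.symm := hmp.symm
    have hv : ∀ S : Set (Fin (n + 1) → ℝ), MeasurableSet S →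
        volume S = volume (e.symm ⁻¹' S) := fun S hS => (hmps.measure_preimage hS.nullMeasurableSet).symm
    have hbd : ∀ S : Set (Fin (n + 1) → ℝ), (∃ R : ℝ, ∀ x ∈ S, ‖x‖ ≤ R) →
        ∃ R : ℝ, ∀ x ∈ e.symm ⁻¹' S, ‖x‖ ≤ R := by
      rintro S ⟨R, hR⟩
      refine ⟨R, fun x hx => ?_⟩
      have h1 := hR _ hx
      have h2 : x = e (e.symm x) := (e.apply_symm_apply x).symm
      rw [h2]
      set z := e.symm x
      rw [Prod.norm_def]
      apply max_le
      · exact (norm_le_pi_norm z 0).trans h1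
      · rw [pi_norm_le_iff_of_nonneg ((norm_nonneg _).trans h1)]
        intro i
        exact (norm_le_pi_norm z _).trans h1
    rw [hv A hA, hv B hB, hv C hC]
    apply bm_step ht0 ht1 ih (e.symm.measurable hA) (e.symm.measurable hB) (e.symm.measurable hC)
      (hbd A hAb) (hbd B hBb) (hbd C hCb)
    intro a ha b hb
    have := h _ ha _ hb
    simp only [mem_preimage] at this ⊢
    convert this using 1
    funext i
    refine Fin.cases ?_ (fun i => ?_) i
    · simp [he, MeasurableEquiv.piFinSuccAbove]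
    · simp [he, MeasurableEquiv.piFinSuccAbove]

/-- Multiplicative Brunn-Minkowski on Euclidean space. -/
theorem brunn_minkowski_mul {d : ℕ} {A B C : Set (E d)} (hA : MeasurableSet A)
    (hB : MeasurableSet B) (hC : MeasurableSet C) (hAb : ∃ R : ℝ, ∀ x ∈ A, ‖x‖ ≤ R)
    (hBb : ∃ R : ℝ, ∀ x ∈ B, ‖x‖ ≤ R) (hCb : ∃ R : ℝ, ∀ x ∈ C, ‖x‖ ≤ R)
    {t : ℝ} (ht0 : 0 < t) (ht1 : t < 1) (h : ∀ a ∈ A, ∀ b ∈ B, (1 - t) • a + t • b ∈ C) :
    volume A ^ (1 - t) * volume B ^ t ≤ volume C := by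
  have hmp := PiLp.volume_preserving_toLp (Fin d)
  have hm : Measurable (WithLp.toLp 2 : (Fin d → ℝ) → E d) := hmp.measurable
  have hv : ∀ S : Set (E d), MeasurableSet S →
      volume S = volume ((WithLp.toLp 2 : (Fin d → ℝ) → E d) ⁻¹' S) :=
    fun S hS => (hmp.measure_preimage hS.nullMeasurableSet).symm
  have hbd : ∀ S : Set (E d), (∃ R : ℝ, ∀ x ∈ S, ‖x‖ ≤ R) →
      ∃ R : ℝ, ∀ x ∈ (WithLp.toLp 2 : (Fin d → ℝ) → E d) ⁻¹' S, ‖x‖ ≤ R := by
    rintro S ⟨R, hR⟩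
    refine ⟨R, fun x hx => ?_⟩
    have h1 := hR _ hx
    have h0 : 0 ≤ R := (norm_nonneg _).trans h1
    rw [pi_norm_le_iff_of_nonneg h0]
    intro i
    exact (PiLp.norm_apply_le (WithLp.toLp 2 x) i).trans h1
  rw [hv A hA, hv B hB, hv C hC]
  apply bm_pi d ht0 ht1 _ _ _ (hm hA) (hm hB) (hm hC) (hbd A hAb) (hbd B hBb) (hbd C hCb)
  intro a ha b hb
  have := h _ ha _ hb
  simpa using this

end Vale.Agent.Lib.P074
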