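import Vale.Agent.Lib.P074.Defs

open MeasureTheory Set
open scoped ENNReal NNReal RealInnerProductSpace

namespace Vale.Agent.Lib.P074

variable {d : ℕ} {ι : Type*}

/-- The affine function `x ↦ ⟪x, y i⟫ - u i`. -/
noncomputable def lplane (y : ι → E d) (u : ι → ℝ) (i : ι) (x : E d) : ℝ := ⟪x, y i⟫ - u i

/-- The Laguerre cell of the site `i` in `K`. -/
def lcell (K : Set (E d)) (y : ι → E d) (u : ι → ℝ) (i : ι) : Set (E d) :=
  {x | x ∈ K ∧ ∀ j, lplane y u j x ≤ lplane y u i x}

section geometry

variable {K : Set (E d)} {y : ι → E d} {u : ι → ℝ}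

theorem continuous_lplane (y : ι → E d) (u : ι → ℝ) (i : ι) : Continuous (lplane y u i) := by
  unfold lplane
  fun_prop

theorem lcell_subset (K : Set (E d)) (y : ι → E d) (u : ι → ℝ) (i : ι) : lcell K y u i ⊆ K :=
  fun _ hx => hx.1

theorem isClosed_lcell (hK : IsClosed K) (y : ι → E d) (u : ι → ℝ) (i : ι) :
    IsClosed (lcell K y u i) := by
  have : lcell K y u i = K ∩ ⋂ j, {x | lplane y u j x ≤ lplane y u i x} := by
    ext x; simp [lcell]
  rw [this]
  exact hK.inter (isClosed_iInter fun j => isClosed_le (continuous_lplane y u j)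
    (continuous_lplane y u i))

theorem measurableSet_lcell (hK : IsClosed K) (y : ι → E d) (u : ι → ℝ) (i : ι) :
    MeasurableSet (lcell K y u i) := (isClosed_lcell hK y u i).measurableSet

theorem isCompact_lcell (hK : IsCompact K) (y : ι → E d) (u : ι → ℝ) (i : ι) :
    IsCompact (lcell K y u i) :=
  hK.of_isClosed_subset (isClosed_lcell hK.isClosed y u i) (lcell_subset K y u i)

/-- The cells with weights `u' = (1 - t) u + t w`: convex combinations of cell points. -/
theorem lcell_mix (hconv : Convex ℝ K) {w u' : ι → ℝ} {t : ℝ} (ht0 : 0 < t) (ht1 : t < 1)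
    (hu' : ∀ i, u' i = (1 - t) * u i + t * w i) {i : ι} {x p : E d} (hx : x ∈ lcell K y u i)
    (hp : p ∈ lcell K y w i) : (1 - t) • x + t • p ∈ lcell K y u' i := by
  refine ⟨hconv hx.1 hp.1 (by linarith) ht0.le (by ring), fun j => ?_⟩
  have h1 := hx.2 j
  have h2 := hp.2 j
  unfold lplane at h1 h2 ⊢
  simp only [inner_add_left, inner_smul_left, RCLike.conj_to_real, hu']
  have h3 : 0 < 1 - t := by linarith
  nlinarith [mul_le_mul_of_nonneg_left h1 h3.le, mul_le_mul_of_nonneg_left h2 ht0.le]

theorem exists_mem_lcell [Finite ι] [Nonempty ι] {x : E d} (hx : x ∈ K) (y : ι → E d)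
    (u : ι → ℝ) : ∃ i, x ∈ lcell K y u i := by
  obtain ⟨i, hi⟩ := Finite.exists_max (fun i => lplane y u i x)
  exact ⟨i, hx, hi⟩

theorem iUnion_lcell [Finite ι] [Nonempty ι] (y : ι → E d) (u : ι → ℝ) :
    ⋃ i, lcell K y u i = K := by
  apply Subset.antisymm
  · exact iUnion_subset (lcell_subset K y u)
  · intro x hx
    obtain ⟨i, hi⟩ := exists_mem_lcell hx y u
    exact mem_iUnion.mpr ⟨i, hi⟩

/-- Hyperplanes are null. -/
theorem volume_hyperplane {v : E d} (hv : v ≠ 0) (c : ℝ) :
    volume {x : E d | ⟪x, v⟫ = c} = 0 := by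
  by_cases hne : ({x : E d | ⟪x, v⟫ = c}).Nonempty
  · obtain ⟨x₀, hx₀⟩ := hne
    set S : Submodule ℝ (E d) := (Submodule.span ℝ {v})ᗮ with hS
    have hStop : S ≠ ⊤ := by
      intro h
      have : v ∈ S := by rw [h]; trivial
      rw [hS, Submodule.mem_orthogonal_singleton_iff_inner_left] at this
      exact hv (inner_self_eq_zero.mp this)
    have h0 : volume (S : Set (E d)) = 0 := Measure.addHaar_submodule volume S hStop
    have hsub : {x : E d | ⟪x, v⟫ = c} ⊆ (fun x => x + (-x₀)) ⁻¹' (S : Set (E d)) := by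
      intro x hx
      simp only [mem_preimage, SetLike.mem_coe]
      rw [hS, Submodule.mem_orthogonal_singleton_iff_inner_left]
      simp only [Set.mem_ofPred_eq] at hx hx₀
      rw [inner_add_left, inner_neg_left, hx, hx₀]; ring
    refine measure_mono_null hsub ?_
    rw [measure_preimage_add_right]
    exact h0
  · rw [not_nonempty_iff_eq_empty.mp hne]; simp

/-- Two different cells overlap in a null set. -/
theorem volume_lcell_inter (hy : Function.Injective y) {i j : ι} (hij : i ≠ j) :
    volume (lcell K y u i ∩ lcell K y u j) = 0 := by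
  have hv : y i - y j ≠ 0 := sub_ne_zero.mpr (fun h => hij (hy h))
  refine measure_mono_null ?_ (volume_hyperplane hv (u i - u j))
  rintro x ⟨hi, hj⟩
  have h1 := hi.2 j
  have h2 := hj.2 i
  unfold lplane at h1 h2
  simp only [Set.mem_ofPred_eq, inner_sub_right]
  linarith

theorem aedisjoint_lcell (hy : Function.Injective y) :
    Pairwise (Function.onFun (AEDisjoint volume) (lcell K y u)) :=
  fun _ _ hij => volume_lcell_inter hy hij

/-- Integrals over `K` split along the cells. -/
theorem integral_eq_sum_lcell [Fintype ι] [Nonempty ι] (hK : IsClosed K)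
    (hy : Function.Injective y) {F : Type*} [NormedAddCommGroup F] [NormedSpace ℝ F] {f : E d → F}
    (hf : IntegrableOn f K) :
    ∫ x in K, f x = ∑ i, ∫ x in lcell K y u i, f x := by
  conv_lhs => rw [← iUnion_lcell (K := K) y u]
  rw [integral_iUnion_ae (fun i => (measurableSet_lcell hK y u i).nullMeasurableSet)
    (aedisjoint_lcell hy) (by rwa [iUnion_lcell])]
  rw [tsum_fintype]

/-- The volumes of the cells add up. -/
theorem sum_volume_lcell [Fintype ι] [Nonempty ι] (hK : IsClosed K) (hy : Function.Injective y) :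
    ∑ i, volume (lcell K y u i) = volume K := by
  conv_rhs => rw [← iUnion_lcell (K := K) y u]
  rw [measure_iUnion₀ (aedisjoint_lcell hy)
    (fun i => (measurableSet_lcell hK y u i).nullMeasurableSet)]
  rw [tsum_fintype]

end geometry

end Vale.Agent.Lib.P074
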