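import Vale.Agent.Lib.P074.XCells

open MeasureTheory Set Filter Topology
open scoped ENNReal NNReal RealInnerProductSpace

namespace Vale.Agent.Lib.P074

variable {d : ℕ} {ι : Type*}

/-- A bounded measurable density. -/
structure IsDens (σ : E d → ℝ) (Q : ℝ) : Prop where
  meas : Measurable σ
  nonneg : ∀ x, 0 ≤ σ x
  le : ∀ x, σ x ≤ Q

theorem isDens_one : IsDens (fun _ : E d => (1 : ℝ)) 1 :=
  ⟨measurable_const, fun _ => zero_le_one, fun _ => le_rfl⟩

section integrability

variable {σ : E d → ℝ} {Q : ℝ}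

theorem IsDens.integrableOn (hσ : IsDens σ Q) {S : Set (E d)} (hS : IsCompact S) :
    IntegrableOn σ S := by
  refine Measure.integrableOn_of_bounded (M := Q) hS.measure_lt_top.ne
    hσ.meas.aestronglyMeasurable ?_
  filter_upwards with x
  rw [Real.norm_eq_abs, abs_of_nonneg (hσ.nonneg x)]
  exact hσ.le x

theorem IsDens.integrableOn_mul (hσ : IsDens σ Q) {S : Set (E d)} (hS : IsCompact S)
    {g : E d → ℝ} (hg : Continuous g) : IntegrableOn (fun x => g x * σ x) S := by
  obtain ⟨C, hC⟩ := hS.exists_bound_of_continuousOn hg.continuousOn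
  refine Measure.integrableOn_of_bounded (M := C * Q) hS.measure_lt_top.ne
    (hg.measurable.mul hσ.meas).aestronglyMeasurable ?_
  filter_upwards [ae_restrict_mem hS.measurableSet] with x hx
  rw [norm_mul, Real.norm_eq_abs (σ x), abs_of_nonneg (hσ.nonneg x)]
  exact mul_le_mul (hC x hx) (hσ.le x) (hσ.nonneg x) ((norm_nonneg _).trans (hC x hx))

theorem IsDens.integrableOn_smul (hσ : IsDens σ Q) {S : Set (E d)} (hS : IsCompact S)
    {g : E d → E d} (hg : Continuous g) : IntegrableOn (fun x => σ x • g x) S := by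
  obtain ⟨C, hC⟩ := hS.exists_bound_of_continuousOn hg.continuousOn
  refine Measure.integrableOn_of_bounded (M := Q * C) hS.measure_lt_top.ne
    (hσ.meas.smul hg.measurable).aestronglyMeasurable ?_
  filter_upwards [ae_restrict_mem hS.measurableSet] with x hx
  rw [norm_smul, Real.norm_eq_abs (σ x), abs_of_nonneg (hσ.nonneg x)]
  have h0 : 0 ≤ Q := (hσ.nonneg x).trans (hσ.le x)
  exact mul_le_mul (hσ.le x) (hC x hx) (norm_nonneg _) h0

end integrability

section lmax

variable [Fintype ι] [Nonempty ι]

/-- The maximum of the affine functions. -/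
noncomputable def lmax (y : ι → E d) (u : ι → ℝ) (x : E d) : ℝ :=
  Finset.univ.sup' Finset.univ_nonempty fun i => lplane y u i x

theorem lplane_le_lmax (y : ι → E d) (u : ι → ℝ) (i : ι) (x : E d) :
    lplane y u i x ≤ lmax y u x :=
  Finset.le_sup' (fun i => lplane y u i x) (Finset.mem_univ i)

theorem exists_lmax_eq (y : ι → E d) (u : ι → ℝ) (x : E d) : ∃ i, lmax y u x = lplane y u i x := by
  obtain ⟨i, -, hi⟩ := Finset.exists_mem_eq_sup' Finset.univ_nonempty (fun i => lplane y u i x)
  exact ⟨i, hi⟩

theorem lmax_le {y : ι → E d} {u : ι → ℝ} {x : E d} {c : ℝ} (h : ∀ i, lplane y u i x ≤ c) :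
    lmax y u x ≤ c :=
  Finset.sup'_le _ _ fun i _ => h i

theorem lmax_eq_of_mem {K : Set (E d)} {y : ι → E d} {u : ι → ℝ} {i : ι} {x : E d}
    (hx : x ∈ lcell K y u i) : lmax y u x = lplane y u i x :=
  le_antisymm (lmax_le hx.2) (lplane_le_lmax y u i x)

theorem continuous_lmax (y : ι → E d) (u : ι → ℝ) : Continuous (lmax y u) := by
  unfold lmax
  exact Continuous.finset_sup'_apply _ fun i _ => continuous_lplane y u i

/-- `lmax` is Lipschitz in the weights. -/
theorem lmax_sub_le (y : ι → E d) {u u' : ι → ℝ} {c : ℝ} (h : ∀ i, |u i - u' i| ≤ c) (x : E d) :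
    lmax y u x - lmax y u' x ≤ c := by
  obtain ⟨i, hi⟩ := exists_lmax_eq y u x
  have h1 := lplane_le_lmax y u' i x
  have h2 := h i
  have h3 := neg_abs_le (u i - u' i)
  unfold lplane at h1 hi
  rw [hi]
  linarith

theorem abs_lmax_sub_le (y : ι → E d) {u u' : ι → ℝ} {c : ℝ} (h : ∀ i, |u i - u' i| ≤ c) (x : E d) :
    |lmax y u x - lmax y u' x| ≤ c := by
  rw [abs_le]
  constructor
  · have := lmax_sub_le y (u := u') (u' := u) (c := c) (fun i => by rw [abs_sub_comm]; exact h i) x
    linarith
  · exact lmax_sub_le y h x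

theorem lmax_add_const (y : ι → E d) (u : ι → ℝ) (c : ℝ) (x : E d) :
    lmax y (fun i => u i + c) x = lmax y u x - c := by
  apply le_antisymm
  · apply lmax_le
    intro i
    have := lplane_le_lmax y u i x
    unfold lplane at this ⊢
    linarith
  · obtain ⟨i, hi⟩ := exists_lmax_eq y u x
    have := lplane_le_lmax y (fun i => u i + c) i x
    rw [hi]
    unfold lplane at this ⊢
    linarith

theorem lcell_add_const (K : Set (E d)) (y : ι → E d) (u : ι → ℝ) (c : ℝ) (i : ι) :
    lcell K y (fun i => u i + c) i = lcell K y u i := by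
  ext x
  simp only [lcell, lplane, mem_ofPred_eq]
  constructor
  · rintro ⟨h1, h2⟩
    exact ⟨h1, fun j => by have := h2 j; linarith⟩
  · rintro ⟨h1, h2⟩
    exact ⟨h1, fun j => by have := h2 j; linarith⟩

end lmax

section dual

variable [Fintype ι] [Nonempty ι]

/-- The dual functional. -/
noncomputable def dualF (K : Set (E d)) (M : ι → ℝ) (y : ι → E d) (σ : E d → ℝ) (u : ι → ℝ) : ℝ :=
  ∑ i, M i * u i + ∫ x in K, lmax y u x * σ x

/-- The first moment of a cell with respect to the density `σ`. -/
noncomputable def cmom (K : Set (E d)) (y : ι → E d) (σ : E d → ℝ) (u : ι → ℝ) (i : ι) : E d :=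
  ∫ x in lcell K y u i, σ x • x

/-- The weights `u` solve the semi-discrete transport problem. -/
def Solves (K : Set (E d)) (M : ι → ℝ) (y : ι → E d) (σ : E d → ℝ) (u : ι → ℝ) : Prop :=
  ∀ i, ∫ x in lcell K y u i, σ x = M i

variable {K : Set (E d)} {M : ι → ℝ} {y : ι → E d} {σ : E d → ℝ} {u : ι → ℝ} {Q : ℝ}

theorem integrableOn_lcell_mul (hK : IsCompact K) (hσ : IsDens σ Q) (y : ι → E d) (u : ι → ℝ)
    (i : ι) {g : E d → ℝ} (hg : Continuous g) : IntegrableOn (fun x => g x * σ x) (lcell K y u i) :=
  hσ.integrableOn_mul (isCompact_lcell hK y u i) hg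

/-- Integral of an affine function against the density on a cell. -/
theorem setIntegral_lplane_mul (hK : IsCompact K) (hσ : IsDens σ Q) (y' : ι → E d) (u' : ι → ℝ)
    (i : ι) :
    ∫ x in lcell K y u i, lplane y' u' i x * σ x =
      ⟪cmom K y σ u i, y' i⟫ - u' i * ∫ x in lcell K y u i, σ x := by
  have hc := isCompact_lcell hK y u i
  have h1 : IntegrableOn (fun x => σ x • x) (lcell K y u i) := hσ.integrableOn_smul hc continuous_id
  have h2 : IntegrableOn σ (lcell K y u i) := hσ.integrableOn hc
  have e : ∀ x, lplane y' u' i x * σ x = ⟪y' i, σ x • x⟫ - u' i * σ x := by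
    intro x
    unfold lplane
    rw [inner_smul_right, real_inner_comm]
    ring
  simp_rw [e]
  rw [integral_sub (h1.const_inner (y' i)) (h2.const_mul _), integral_const_mul, integral_inner h1,
    real_inner_comm]
  rfl

/-- Weak duality. -/
theorem dualF_ge_of_solves (hK : IsCompact K) (hy : Function.Injective y) (hσ : IsDens σ Q)
    (hs : Solves K M y σ u) (y' : ι → E d) (u' : ι → ℝ) :
    ∑ i, ⟪cmom K y σ u i, y' i⟫ ≤ dualF K M y' σ u' := by
  unfold dualF
  rw [integral_eq_sum_lcell (u := u) hK.isClosed hy (hσ.integrableOn_mul hK (continuous_lmax y' u')),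
    ← Finset.sum_add_distrib]
  apply Finset.sum_le_sum
  intro i _
  have hc := isCompact_lcell hK y u i
  have h1 : ∫ x in lcell K y u i, lplane y' u' i x * σ x ≤ ∫ x in lcell K y u i, lmax y' u' x * σ x := by
    apply setIntegral_mono_on (hσ.integrableOn_mul hc (continuous_lplane y' u' i))
      (hσ.integrableOn_mul hc (continuous_lmax y' u')) hc.measurableSet
    intro x _
    exact mul_le_mul_of_nonneg_right (lplane_le_lmax y' u' i x) (hσ.nonneg x)
  rw [setIntegral_lplane_mul hK hσ, hs i] at h1
  linarith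

/-- Equality in weak duality. -/
theorem dualF_eq_of_solves (hK : IsCompact K) (hy : Function.Injective y) (hσ : IsDens σ Q)
    (hs : Solves K M y σ u) :
    dualF K M y σ u = ∑ i, ⟪cmom K y σ u i, y i⟫ := by
  unfold dualF
  rw [integral_eq_sum_lcell (u := u) hK.isClosed hy (hσ.integrableOn_mul hK (continuous_lmax y u)),
    ← Finset.sum_add_distrib]
  apply Finset.sum_congr rfl
  intro i _
  have hc := isCompact_lcell hK y u i
  have h1 : ∫ x in lcell K y u i, lmax y u x * σ x = ∫ x in lcell K y u i, lplane y u i x * σ x := by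
    apply setIntegral_congr_fun hc.measurableSet
    intro x hx
    simp only [lmax_eq_of_mem hx]
  rw [h1, setIntegral_lplane_mul hK hσ, hs i]
  ring

/-- A solution minimises the dual functional. -/
theorem dualF_le_of_solves (hK : IsCompact K) (hy : Function.Injective y) (hσ : IsDens σ Q)
    (hs : Solves K M y σ u) (u' : ι → ℝ) : dualF K M y σ u ≤ dualF K M y σ u' := by
  rw [dualF_eq_of_solves hK hy hσ hs]
  exact dualF_ge_of_solves hK hy hσ hs y u'

/-- Subgradient inequality along a change of sites. -/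
theorem dualF_sub_ge (hK : IsCompact K) (hy : Function.Injective y) (hσ : IsDens σ Q)
    (hs : Solves K M y σ u) (y' : ι → E d) (u' : ι → ℝ) :
    ∑ i, ⟪cmom K y σ u i, y' i - y i⟫ ≤ dualF K M y' σ u' - dualF K M y σ u := by
  rw [dualF_eq_of_solves hK hy hσ hs]
  have := dualF_ge_of_solves hK hy hσ hs y' u'
  simp only [inner_sub_right, Finset.sum_sub_distrib]
  linarith

theorem norm_cmom_le (hK : IsCompact K) (hσ : IsDens σ Q) {RK : ℝ} (hRK : ∀ x ∈ K, ‖x‖ ≤ RK)
    (y : ι → E d) (u : ι → ℝ) (i : ι) :
    ‖cmom K y σ u i‖ ≤ RK * ∫ x in lcell K y u i, σ x := by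
  have hc := isCompact_lcell hK y u i
  unfold cmom
  calc ‖∫ x in lcell K y u i, σ x • x‖ ≤ ∫ x in lcell K y u i, ‖σ x • x‖ :=
        norm_integral_le_integral_norm _
    _ ≤ ∫ x in lcell K y u i, RK * σ x := by
        apply setIntegral_mono_on ((hσ.integrableOn_smul hc continuous_id).norm)
          ((hσ.integrableOn hc).const_mul _) hc.measurableSet
        intro x hx
        rw [norm_smul, Real.norm_eq_abs, abs_of_nonneg (hσ.nonneg x), mul_comm]
        exact mul_le_mul_of_nonneg_right (hRK x hx.1) (hσ.nonneg x)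
    _ = RK * ∫ x in lcell K y u i, σ x := integral_const_mul _ _

end dual

section existence

variable [Fintype ι] [Nonempty ι]
variable {K : Set (E d)} {M : ι → ℝ} {y : ι → E d} {σ : E d → ℝ} {Q : ℝ}

/-- Shift invariance of the dual functional. -/
theorem dualF_add_const (hK : IsCompact K) (hσ : IsDens σ Q) (hsum : ∑ i, M i = ∫ x in K, σ x)
    (u : ι → ℝ) (c : ℝ) : dualF K M y σ (fun i => u i + c) = dualF K M y σ u := by
  unfold dualF
  simp_rw [lmax_add_const, mul_add, sub_mul]
  rw [integral_sub (hσ.integrableOn_mul hK (continuous_lmax y u)) ((hσ.integrableOn hK).const_mul _),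
    integral_const_mul, Finset.sum_add_distrib, ← Finset.sum_mul, hsum]
  ring

/-- Lower bound for the integral of `lmax`. -/
theorem integral_lmax_ge (hK : IsCompact K) (hσ : IsDens σ Q) {RK RY : ℝ}
    (hRK : ∀ x ∈ K, ‖x‖ ≤ RK) (hRY : ∀ i, ‖y i‖ ≤ RY) (u : ι → ℝ) (i : ι) :
    -(RK * RY + u i) * ∫ x in K, σ x ≤ ∫ x in K, lmax y u x * σ x := by
  rw [← integral_const_mul]
  apply setIntegral_mono_on ((hσ.integrableOn hK).const_mul _)
    (hσ.integrableOn_mul hK (continuous_lmax y u)) hK.measurableSet
  intro x hx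
  apply mul_le_mul_of_nonneg_right _ (hσ.nonneg x)
  have h1 := lplane_le_lmax y u i x
  unfold lplane at h1
  have h2 : |⟪x, y i⟫| ≤ ‖x‖ * ‖y i‖ := abs_real_inner_le_norm _ _
  have h3 : ‖x‖ * ‖y i‖ ≤ RK * RY :=
    mul_le_mul (hRK x hx) (hRY i) (norm_nonneg _) ((norm_nonneg _).trans (hRK x hx))
  have h4 := neg_abs_le (⟪x, y i⟫)
  linarith

/-- Upper bound for the integral of `lmax y 0`. -/
theorem integral_lmax_zero_le (hK : IsCompact K) (hσ : IsDens σ Q) {RK RY : ℝ}
    (hRK : ∀ x ∈ K, ‖x‖ ≤ RK) (hRY : ∀ i, ‖y i‖ ≤ RY) :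
    ∫ x in K, lmax y (fun _ => 0) x * σ x ≤ RK * RY * ∫ x in K, σ x := by
  rw [← integral_const_mul]
  apply setIntegral_mono_on (hσ.integrableOn_mul hK (continuous_lmax y _))
    ((hσ.integrableOn hK).const_mul _) hK.measurableSet
  intro x hx
  apply mul_le_mul_of_nonneg_right _ (hσ.nonneg x)
  apply lmax_le
  intro i
  unfold lplane
  have h2 : |⟪x, y i⟫| ≤ ‖x‖ * ‖y i‖ := abs_real_inner_le_norm _ _
  have h3 : ‖x‖ * ‖y i‖ ≤ RK * RY :=
    mul_le_mul (hRK x hx) (hRY i) (norm_nonneg _) ((norm_nonneg _).trans (hRK x hx))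
  have h4 := le_abs_self (⟪x, y i⟫)
  linarith

/-- Coercivity: a normalised bound. -/
theorem dualF_coercive (hK : IsCompact K) (hσ : IsDens σ Q) (hM : ∀ i, 0 < M i)
    (hsum : ∑ i, M i = ∫ x in K, σ x) {RK RY : ℝ}
    (hRK : ∀ x ∈ K, ‖x‖ ≤ RK) (hRY : ∀ i, ‖y i‖ ≤ RY) {u : ι → ℝ} {i₀ : ι}
    (hmin : ∀ i, u i₀ ≤ u i) (j : ι) :
    M j * (u j - u i₀) - RK * RY * ∫ x in K, σ x ≤ dualF K M y σ u := by
  have h1 := integral_lmax_ge (y := y) hK hσ hRK hRY u i₀
  unfold dualF
  have h2 : M j * (u j - u i₀) ≤ ∑ i, M i * (u i - u i₀) :=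
    Finset.single_le_sum (f := fun i => M i * (u i - u i₀))
      (fun i _ => mul_nonneg (hM i).le (sub_nonneg.mpr (hmin i))) (Finset.mem_univ j)
  have h3 : ∑ i, M i * (u i - u i₀) = ∑ i, M i * u i - (∑ i, M i) * u i₀ := by
    rw [Finset.sum_mul, ← Finset.sum_sub_distrib]
    apply Finset.sum_congr rfl
    intro i _
    ring
  rw [hsum] at h3
  nlinarith

/-- The integral of `lmax` against the density is continuous in the weights. -/
theorem continuous_integral_lmax (hK : IsCompact K) (hσ : IsDens σ Q) :
    Continuous fun u : ι → ℝ => ∫ x in K, lmax y u x * σ x := by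
  have hV : 0 ≤ ∫ x in K, σ x := integral_nonneg fun x => hσ.nonneg x
  apply LipschitzWith.continuous (K := (∫ x in K, σ x).toNNReal)
  apply LipschitzWith.of_dist_le_mul
  intro u u'
  rw [Real.dist_eq, ← integral_sub (hσ.integrableOn_mul hK (continuous_lmax y u))
    (hσ.integrableOn_mul hK (continuous_lmax y u')), Real.coe_toNNReal _ hV]
  calc |∫ x in K, (lmax y u x * σ x - lmax y u' x * σ x)|
      = ‖∫ x in K, (lmax y u x * σ x - lmax y u' x * σ x)‖ := (Real.norm_eq_abs _).symm
    _ ≤ ∫ x in K, dist u u' * σ x := by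
        apply norm_integral_le_of_norm_le ((hσ.integrableOn hK).const_mul _)
        filter_upwards with x
        rw [← sub_mul, norm_mul, Real.norm_eq_abs, Real.norm_eq_abs, abs_of_nonneg (hσ.nonneg x)]
        apply mul_le_mul_of_nonneg_right _ (hσ.nonneg x)
        apply abs_lmax_sub_le
        intro i
        rw [← Real.dist_eq]
        exact dist_le_pi_dist u u' i
    _ = (∫ x in K, σ x) * dist u u' := by rw [integral_const_mul]; ring

theorem continuous_dualF (hK : IsCompact K) (hσ : IsDens σ Q) :
    Continuous fun u : ι → ℝ => dualF K M y σ u := by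
  unfold dualF
  refine Continuous.add ?_ (continuous_integral_lmax hK hσ)
  fun_prop

/-- Existence of a global minimiser of the dual functional. -/
theorem exists_dualF_min (hK : IsCompact K) (hσ : IsDens σ Q) (hM : ∀ i, 0 < M i)
    (hsum : ∑ i, M i = ∫ x in K, σ x) {RK RY : ℝ}
    (hRK : ∀ x ∈ K, ‖x‖ ≤ RK) (hRY : ∀ i, ‖y i‖ ≤ RY) (hRK0 : 0 ≤ RK) (hRY0 : 0 ≤ RY) :
    ∃ z : ι → ℝ, ∀ u, dualF K M y σ z ≤ dualF K M y σ u := by
  have hV : 0 ≤ ∫ x in K, σ x := integral_nonneg fun x => hσ.nonneg x
  set C : ℝ := RK * RY * ∫ x in K, σ x with hC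
  have hC0 : 0 ≤ C := by positivity
  set R₀ : ℝ := ∑ j, 2 * C / M j with hR₀
  have hR₀j : ∀ j, 2 * C / M j ≤ R₀ := fun j =>
    Finset.single_le_sum (f := fun j => 2 * C / M j)
      (fun j _ => div_nonneg (by positivity) (hM j).le) (Finset.mem_univ j)
  have hR₀0 : 0 ≤ R₀ := Finset.sum_nonneg fun j _ => div_nonneg (by positivity) (hM j).le
  have hcomp : IsCompact (Set.pi univ fun _ : ι => Icc (0 : ℝ) R₀) :=
    isCompact_univ_pi fun _ => isCompact_Icc
  have hne : (Set.pi univ fun _ : ι => Icc (0 : ℝ) R₀).Nonempty :=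
    ⟨fun _ => 0, fun _ _ => ⟨le_rfl, hR₀0⟩⟩
  obtain ⟨z, hz, hzmin⟩ := hcomp.exists_isMinOn hne (continuous_dualF (M := M) (y := y) hK hσ).continuousOn
  refine ⟨z, fun u => ?_⟩
  obtain ⟨i₀, hi₀⟩ := Finite.exists_min u
  set ũ : ι → ℝ := fun i => u i + (-(u i₀)) with hũ
  have hshift : dualF K M y σ ũ = dualF K M y σ u := dualF_add_const hK hσ hsum u _
  rw [← hshift]
  have hũ0 : ∀ i, 0 ≤ ũ i := fun i => by
    have := hi₀ i
    simp only [hũ]
    linarith
  have hũmin : ∀ i, ũ i₀ ≤ ũ i := fun i => by
    have := hi₀ i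
    simp only [hũ]
    linarith
  by_cases hmem : ∀ j, ũ j ≤ R₀
  · exact hzmin (show ũ ∈ _ from fun i _ => ⟨hũ0 i, hmem i⟩)
  · push Not at hmem
    obtain ⟨j, hj⟩ := hmem
    have h0mem : (fun _ => (0 : ℝ)) ∈ Set.pi univ fun _ : ι => Icc (0 : ℝ) R₀ :=
      fun _ _ => ⟨le_rfl, hR₀0⟩
    have h1 : dualF K M y σ z ≤ dualF K M y σ (fun _ => 0) := hzmin h0mem
    have h2 : dualF K M y σ (fun _ => 0) ≤ C := by
      unfold dualF
      have := integral_lmax_zero_le (y := y) hK hσ hRK hRY
      simpa using this
    have h3 := dualF_coercive hK hσ hM hsum (y := y) hRK hRY hũmin j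
    have h4 : ũ i₀ = 0 := by simp [hũ]
    rw [h4, sub_zero, ← hC] at h3
    have h5 : 2 * C ≤ M j * ũ j := by
      have h6 := hR₀j j
      rw [div_le_iff₀ (hM j)] at h6
      nlinarith [hM j]
    linarith

/-- Membership in the cell after lowering the weight `i` by `τ`. -/
theorem mem_lcell_update [DecidableEq ι] {u : ι → ℝ} {i : ι} {τ : ℝ} (hτ : 0 ≤ τ) {x : E d} :
    x ∈ lcell K y (Function.update u i (u i - τ)) i ↔
      x ∈ K ∧ ∀ j, lplane y u j x ≤ lplane y u i x + τ := by
  simp only [lcell, mem_ofPred_eq, lplane]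
  constructor
  · rintro ⟨h1, h2⟩
    refine ⟨h1, fun j => ?_⟩
    by_cases hj : j = i
    · subst hj
      linarith
    · have := h2 j
      rw [Function.update_of_ne hj, Function.update_self] at this
      linarith
  · rintro ⟨h1, h2⟩
    refine ⟨h1, fun j => ?_⟩
    by_cases hj : j = i
    · subst hj
      exact le_rfl
    · have := h2 j
      rw [Function.update_of_ne hj, Function.update_self]
      linarith

/-- First order condition at a global minimiser: the mass of each cell is at least `M i`. -/
theorem le_mass_of_min (hK : IsCompact K) (hσ : IsDens σ Q) {z : ι → ℝ}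
    (hz : ∀ u, dualF K M y σ z ≤ dualF K M y σ u) (i : ι) :
    M i ≤ ∫ x in lcell K y z i, σ x := by
  classical
  -- the perturbed sets
  set S : ℕ → Set (E d) := fun n =>
    lcell K y (Function.update z i (z i - 1 / ((n : ℝ) + 1))) i with hS
  have hτ : ∀ n : ℕ, (0 : ℝ) < 1 / ((n : ℝ) + 1) := fun n => by positivity
  have hstep : ∀ n, M i ≤ ∫ x in S n, σ x := by
    intro n
    set τ : ℝ := 1 / ((n : ℝ) + 1) with hτdef
    have hτ0 : 0 < τ := hτ n
    set z' := Function.update z i (z i - τ) with hz'
    have h1 := hz z'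
    unfold dualF at h1
    have hc : IsCompact (S n) := isCompact_lcell hK y z' i
    have hsub : S n ⊆ K := lcell_subset K y z' i
    have hsum : ∑ j, M j * z' j = ∑ j, M j * z j - τ * M i := by
      have : ∀ j, M j * z' j = M j * z j - (if j = i then τ * M i else 0) := by
        intro j
        by_cases hj : j = i
        · subst hj
          simp [hz', Function.update_self]
          ring
        · simp [hz', Function.update_of_ne hj, hj]
      simp_rw [this]
      rw [Finset.sum_sub_distrib]
      simp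
    rw [hsum] at h1
    have hint : ∫ x in K, lmax y z' x * σ x ≤
        (∫ x in K, lmax y z x * σ x) + τ * ∫ x in S n, σ x := by
      have hle : ∀ x ∈ K, lmax y z' x * σ x ≤
          lmax y z x * σ x + (S n).indicator (fun x => τ * σ x) x := by
        intro x hx
        by_cases hxS : x ∈ S n
        · rw [indicator_of_mem hxS]
          have h2 : lmax y z' x = lplane y z i x + τ := by
            have h3 : lmax y z' x = lplane y z' i x := lmax_eq_of_mem hxS
            rw [h3]
            simp only [lplane, hz', Function.update_self]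
            ring
          have h3 := lplane_le_lmax y z i x
          rw [h2, ← add_mul]
          exact mul_le_mul_of_nonneg_right (by linarith) (hσ.nonneg x)
        · rw [indicator_of_notMem hxS, add_zero]
          obtain ⟨j, hj⟩ := exists_lmax_eq y z' x
          have hji : j ≠ i := by
            rintro rfl
            apply hxS
            refine ⟨hx, fun k => ?_⟩
            rw [← hj]
            exact lplane_le_lmax y z' k x
          have h2 : lplane y z' j x = lplane y z j x := by
            simp only [lplane, hz', Function.update_of_ne hji]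
          rw [hj, h2]
          exact mul_le_mul_of_nonneg_right (lplane_le_lmax y z j x) (hσ.nonneg x)
      have hi1 : IntegrableOn (fun x => lmax y z x * σ x) K :=
        hσ.integrableOn_mul hK (continuous_lmax y z)
      have hi2 : IntegrableOn ((S n).indicator fun x => τ * σ x) K :=
        ((hσ.integrableOn hK).const_mul τ).indicator hc.measurableSet
      have h2 : ∫ x in K, lmax y z' x * σ x ≤
          ∫ x in K, (lmax y z x * σ x + (S n).indicator (fun x => τ * σ x) x) :=
        setIntegral_mono_on (hσ.integrableOn_mul hK (continuous_lmax y z'))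
          (hi1.add hi2) hK.measurableSet hle
      rw [integral_add hi1 hi2, setIntegral_indicator hc.measurableSet,
        inter_eq_right.mpr hsub, integral_const_mul] at h2
      exact h2
    have hpos : τ * M i ≤ τ * ∫ x in S n, σ x := by linarith
    exact le_of_mul_le_mul_left hpos hτ0
  have hSm : ∀ n, MeasurableSet (S n) := fun n => measurableSet_lcell hK.isClosed _ _ _
  have hanti : Antitone S := by
    intro m n hmn x hx
    rw [hS] at hx ⊢
    simp only at hx ⊢
    rw [mem_lcell_update (hτ n).le] at hx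
    rw [mem_lcell_update (hτ m).le]
    refine ⟨hx.1, fun j => (hx.2 j).trans ?_⟩
    have : (1 : ℝ) / ((n : ℝ) + 1) ≤ 1 / ((m : ℝ) + 1) := by
      apply one_div_le_one_div_of_le (by positivity)
      have : (m : ℝ) ≤ n := by exact_mod_cast hmn
      linarith
    linarith
  have hinter : ⋂ n, S n = lcell K y z i := by
    ext x
    simp only [mem_iInter, hS]
    constructor
    · intro h
      have h0 := h 0
      rw [mem_lcell_update (hτ 0).le] at h0
      refine ⟨h0.1, fun j => ?_⟩
      apply le_of_forall_pos_le_add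
      intro η hη
      obtain ⟨n, hn⟩ := exists_nat_one_div_lt hη
      have h1 := h n
      rw [mem_lcell_update (hτ n).le] at h1
      exact (h1.2 j).trans (by linarith)
    · intro hx n
      rw [mem_lcell_update (hτ n).le]
      refine ⟨hx.1, fun j => (hx.2 j).trans ?_⟩
      have := hτ n
      linarith
  have hlim := tendsto_setIntegral_of_antitone (f := σ) (μ := volume) hSm hanti
    ⟨0, hσ.integrableOn (isCompact_lcell hK y _ i)⟩
  rw [hinter] at hlim
  exact ge_of_tendsto' hlim hstep

/-- Existence of a solution of the semi-discrete transport problem. -/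
theorem exists_solves (hK : IsCompact K) (hy : Function.Injective y) (hσ : IsDens σ Q)
    (hM : ∀ i, 0 < M i) (hsum : ∑ i, M i = ∫ x in K, σ x) {RK RY : ℝ}
    (hRK : ∀ x ∈ K, ‖x‖ ≤ RK) (hRY : ∀ i, ‖y i‖ ≤ RY) (hRK0 : 0 ≤ RK) (hRY0 : 0 ≤ RY) :
    ∃ u : ι → ℝ, Solves K M y σ u := by
  obtain ⟨z, hz⟩ := exists_dualF_min (y := y) hK hσ hM hsum hRK hRY hRK0 hRY0
  refine ⟨z, ?_⟩
  have hle := le_mass_of_min hK hσ hz
  have hs : ∑ i, M i = ∑ i, ∫ x in lcell K y z i, σ x := by
    rw [hsum]
    exact integral_eq_sum_lcell hK.isClosed hy (hσ.integrableOn hK)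
  intro i
  exact ((Finset.sum_eq_sum_iff_of_le fun i _ => hle i).mp hs i (Finset.mem_univ i)).symm

/-- Uniqueness of the potential up to a constant. -/
theorem lmax_sub_const_of_le (hK : IsCompact K) (hconv : Convex ℝ K) (hint : (interior K).Nonempty)
    (hy : Function.Injective y) {u z : ι → ℝ} (hs : Solves K M y (fun _ => 1) u)
    (hle : dualF K M y (fun _ => 1) z ≤ dualF K M y (fun _ => 1) u) :
    ∃ c : ℝ, ∀ x ∈ K, lmax y z x - lmax y u x = c := by
  classical
  have hσ := isDens_one (d := d)
  have hcomp : ∀ i, IsCompact (lcell K y u i) := fun i => isCompact_lcell hK y u i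
  -- the excess functions
  set G : ι → E d → ℝ := fun i x => lmax y z x - lplane y z i x with hG
  have hG0 : ∀ i x, 0 ≤ G i x := fun i x => sub_nonneg.mpr (lplane_le_lmax y z i x)
  have hGc : ∀ i, Continuous (G i) := fun i => (continuous_lmax y z).sub (continuous_lplane y z i)
  have hGi : ∀ i, IntegrableOn (G i) (lcell K y u i) := fun i =>
    (hGc i).continuousOn.integrableOn_compact (hcomp i)
  -- the difference of the dual values
  have hdiff : dualF K M y (fun _ => 1) z - dualF K M y (fun _ => 1) u =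
      ∑ i, ∫ x in lcell K y u i, G i x := by
    have e1 : dualF K M y (fun _ => 1) z = ∑ i, (M i * z i + ∫ x in lcell K y u i, lmax y z x) := by
      unfold dualF
      simp only [mul_one]
      rw [integral_eq_sum_lcell (u := u) hK.isClosed hy
        ((continuous_lmax y z).continuousOn.integrableOn_compact hK), ← Finset.sum_add_distrib]
    have e2 : dualF K M y (fun _ => 1) u = ∑ i, (M i * z i + ∫ x in lcell K y u i, lplane y z i x) := by
      unfold dualF
      simp only [mul_one]
      rw [integral_eq_sum_lcell (u := u) hK.isClosed hy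
        ((continuous_lmax y u).continuousOn.integrableOn_compact hK), ← Finset.sum_add_distrib]
      apply Finset.sum_congr rfl
      intro i _
      have h1 : ∫ x in lcell K y u i, lmax y u x = ∫ x in lcell K y u i, lplane y u i x :=
        setIntegral_congr_fun (hcomp i).measurableSet fun x hx => lmax_eq_of_mem hx
      have hm : ∫ _ in lcell K y u i, (1 : ℝ) = M i := hs i
      have h2 : ∫ x in lcell K y u i, lplane y u i x =
          (∫ x in lcell K y u i, lplane y z i x) + (z i - u i) * M i := by
        rw [← hm, ← integral_const_mul, ← integral_add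
          ((continuous_lplane y z i).continuousOn.integrableOn_compact (hcomp i))
          (integrableOn_const (hcomp i).measure_lt_top.ne)]
        apply integral_congr_ae
        filter_upwards with x
        simp only [lplane]
        ring
      rw [h1, h2]
      ring
    rw [e1, e2, ← Finset.sum_sub_distrib]
    apply Finset.sum_congr rfl
    intro i _
    rw [hG, add_sub_add_left_eq_sub, integral_sub
      ((continuous_lmax y z).continuousOn.integrableOn_compact (hcomp i))
      ((continuous_lplane y z i).continuousOn.integrableOn_compact (hcomp i))]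
  have hsum0 : ∑ i, ∫ x in lcell K y u i, G i x = 0 := by
    apply le_antisymm
    · rw [← hdiff]; linarith
    · exact Finset.sum_nonneg fun i _ => integral_nonneg fun x => hG0 i x
  have hzero : ∀ i, ∫ x in lcell K y u i, G i x = 0 := by
    intro i
    exact (Finset.sum_eq_zero_iff_of_nonneg (fun i _ => integral_nonneg fun x => hG0 i x)).mp hsum0
      i (Finset.mem_univ i)
  -- almost everywhere identity
  have hae : ∀ i, ∀ᵐ x ∂(volume.restrict (lcell K y u i)), G i x = 0 := by
    intro i
    have := (setIntegral_eq_zero_iff_of_nonneg_ae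
      (Filter.Eventually.of_forall fun x => hG0 i x) (hGi i)).mp (hzero i)
    filter_upwards [this] with x hx using hx
  set g : E d → ℝ := fun x => lmax y z x - lmax y u x with hg
  have hgc : Continuous g := (continuous_lmax y z).sub (continuous_lmax y u)
  set T : Set ℝ := range fun i => u i - z i with hT
  have hTfin : T.Finite := finite_range _
  have haeK : ∀ᵐ x ∂(volume.restrict K), g x ∈ T := by
    have hU : K = ⋃ i, lcell K y u i := (iUnion_lcell y u).symm
    rw [hU, ae_restrict_iUnion_iff]
    intro i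
    filter_upwards [hae i, ae_restrict_mem (hcomp i).measurableSet] with x h1 h2
    refine ⟨i, ?_⟩
    have h3 : lmax y z x = lplane y z i x := by
      have : lmax y z x - lplane y z i x = 0 := h1
      linarith
    simp only [hg, h3, lmax_eq_of_mem h2, lplane]
    ring
  -- topology
  have hScl : IsClosed (g ⁻¹' T) := hTfin.isClosed.preimage hgc
  have hint_sub : interior K ⊆ g ⁻¹' T := by
    intro x hx
    by_contra hcon
    have hopen : IsOpen (interior K ∩ (g ⁻¹' T)ᶜ) := isOpen_interior.inter hScl.isOpen_compl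
    have hpos : 0 < volume (interior K ∩ (g ⁻¹' T)ᶜ) := hopen.measure_pos volume ⟨x, hx, hcon⟩
    have h0 : volume (K \ g ⁻¹' T) = 0 := by
      have := (ae_iff.mp haeK)
      rw [Measure.restrict_apply' hK.measurableSet] at this
      refine measure_mono_null ?_ this
      rintro w ⟨h1, h2⟩
      exact ⟨h2, h1⟩
    have h1 : interior K ∩ (g ⁻¹' T)ᶜ ⊆ K \ g ⁻¹' T := fun w hw => ⟨interior_subset hw.1, hw.2⟩
    exact hpos.ne' (measure_mono_null h1 h0)
  have hKsub : ∀ x ∈ K, g x ∈ T := by
    intro x hx
    have h1 : x ∈ closure (interior K) := by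
      rw [hconv.closure_interior_eq_closure_of_nonempty_interior hint]
      exact subset_closure hx
    exact (closure_minimal hint_sub hScl) h1
  obtain ⟨x₀, hx₀⟩ := hint
  have hx₀K : x₀ ∈ K := interior_subset hx₀
  refine ⟨g x₀, fun x hx => ?_⟩
  by_contra hne
  have hpre : IsPreconnected (g '' K) := hconv.isPreconnected.image g hgc.continuousOn
  have hord := hpre.ordConnected
  have hsub : uIcc (g x) (g x₀) ⊆ T := by
    intro w hw
    obtain ⟨v, hv, rfl⟩ := hord.uIcc_subset ⟨x, hx, rfl⟩ ⟨x₀, hx₀K, rfl⟩ hw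
    exact hKsub v hv
  have hinf : (uIcc (g x) (g x₀)).Infinite := by
    rcases lt_or_gt_of_ne hne with h | h
    · rw [uIcc_of_le h.le]; exact Icc_infinite h
    · rw [uIcc_of_ge h.le]; exact Icc_infinite h
  exact hinf (hTfin.subset hsub)

end existence

end Vale.Agent.Lib.P074
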