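import Vale.Agent.Lib.P074.XDual
import Vale.Agent.Lib.P074.XBM

open MeasureTheory Set Filter Topology
open scoped ENNReal NNReal RealInnerProductSpace Pointwise

namespace Vale.Agent.Lib.P074

variable {d : ℕ} {ι : Type*}

section realLemmas

theorem exp_le_one_add_add_sq {x : ℝ} (hx : x ≤ 1) : Real.exp x ≤ 1 + x + x ^ 2 := by
  by_cases h : -1 ≤ x
  · have h1 := Real.abs_exp_sub_one_sub_id_le (x := x) (by rw [abs_le]; exact ⟨h, hx⟩)
    have h2 := le_abs_self (Real.exp x - 1 - x)
    linarith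
  · push Not at h
    have h1 : Real.exp x ≤ 1 := Real.exp_le_one_iff.mpr (by linarith)
    nlinarith

theorem exp_sub_one_sub_le_abs {x : ℝ} (hx : x ≤ 1) : Real.exp x - 1 - x ≤ |x| := by
  by_cases h : 0 ≤ x
  · rw [abs_of_nonneg h]
    have := exp_le_one_add_add_sq hx
    nlinarith
  · push Not at h
    rw [abs_of_neg h]
    have h1 : Real.exp x ≤ 1 := Real.exp_le_one_iff.mpr h.le
    linarith

/-- The non-contact mass estimate. -/
theorem noncontact_mass [Fintype ι] [DecidableEq ι] {M a : ι → ℝ} (hM : ∀ i, 0 < M i) {V Q l : ℝ}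
    (hV : ∑ i, M i = V) (ha0 : ∑ i, M i * a i = 0) (ha2 : ∀ i, a i ≤ 2)
    (hQ0 : 0 ≤ Q)
    (haQ : ∀ i, |a i| ≤ 2 * Q) (hl1 : ∑ i, M i * |a i| ≤ 2 * V) (hl0 : 0 < l) (hl : l ≤ 1 / 2)
    (Γ : Finset ι) (hcover : V ≤ ∑ i ∈ Γ, M i * Real.exp (l * a i)) :
    ∑ i ∈ Γᶜ, M i ≤ 8 * l * V ∧ ∑ i ∈ Γᶜ, M i ≤ 16 * l ^ 2 * Q * V := by
  have hla : ∀ i, l * a i ≤ 1 := fun i => by nlinarith [ha2 i]
  set X : ℝ := ∑ i, M i * (Real.exp (l * a i) - 1 - l * a i) with hX
  have hXeq : X = ∑ i, M i * Real.exp (l * a i) - V := by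
    rw [hX, ← hV, ← Finset.sum_sub_distrib]
    have e : ∑ i, (M i * Real.exp (l * a i) - M i) =
        ∑ i, (M i * Real.exp (l * a i) - M i) - l * ∑ i, M i * a i := by
      rw [ha0]; ring
    rw [e, Finset.mul_sum, ← Finset.sum_sub_distrib]
    apply Finset.sum_congr rfl
    intro i _
    ring
  have hsplit : ∑ i, M i * Real.exp (l * a i) =
      ∑ i ∈ Γ, M i * Real.exp (l * a i) + ∑ i ∈ Γᶜ, M i * Real.exp (l * a i) :=
    (Finset.sum_add_sum_compl Γ _).symm
  have hout : ∑ i ∈ Γᶜ, M i * Real.exp (l * a i) ≤ X := by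
    rw [hXeq, hsplit]; linarith
  have hX1 : X ≤ 2 * l * V := by
    calc X ≤ ∑ i, M i * (l * |a i|) := by
          apply Finset.sum_le_sum
          intro i _
          apply mul_le_mul_of_nonneg_left _ (hM i).le
          have := exp_sub_one_sub_le_abs (hla i)
          rwa [abs_mul, abs_of_pos hl0] at this
      _ = l * ∑ i, M i * |a i| := by
          rw [Finset.mul_sum]
          apply Finset.sum_congr rfl
          intro i _
          ring
      _ ≤ l * (2 * V) := by gcongr
      _ = 2 * l * V := by ring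
  have hsq : ∑ i, M i * (l * a i) ^ 2 ≤ 4 * l ^ 2 * Q * V := by
    calc ∑ i, M i * (l * a i) ^ 2 ≤ ∑ i, l ^ 2 * (2 * Q) * (M i * |a i|) := by
          apply Finset.sum_le_sum
          intro i _
          have h1 : a i ^ 2 ≤ 2 * Q * |a i| := by
            rw [← sq_abs]
            have := haQ i
            nlinarith [abs_nonneg (a i)]
          have h2 := hM i
          have h3 : 0 ≤ l ^ 2 := by positivity
          calc M i * (l * a i) ^ 2 = l ^ 2 * M i * a i ^ 2 := by ring
            _ ≤ l ^ 2 * M i * (2 * Q * |a i|) := by gcongr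
            _ = _ := by ring
      _ = l ^ 2 * (2 * Q) * ∑ i, M i * |a i| := by rw [Finset.mul_sum]
      _ ≤ l ^ 2 * (2 * Q) * (2 * V) := by gcongr
      _ = 4 * l ^ 2 * Q * V := by ring
  have hX2 : X ≤ 4 * l ^ 2 * Q * V := by
    refine le_trans ?_ hsq
    apply Finset.sum_le_sum
    intro i _
    apply mul_le_mul_of_nonneg_left _ (hM i).le
    have := exp_le_one_add_add_sq (hla i)
    linarith
  have hnn1 : ∀ i, 0 ≤ M i * |a i| := fun i => mul_nonneg (hM i).le (abs_nonneg _)
  have hnn2 : ∀ i, 0 ≤ M i * (l * a i) ^ 2 := fun i => mul_nonneg (hM i).le (by positivity)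
  have hexp : ∀ x : ℝ, -1 ≤ x → 1 ≤ 3 * Real.exp x := by
    intro x hx
    have h1 : Real.exp (-1) ≤ Real.exp x := Real.exp_le_exp.mpr hx
    have h2 : Real.exp (-1) * Real.exp 1 = 1 := by rw [← Real.exp_add]; simp
    have h3 := Real.exp_one_lt_three
    have h4 : 0 < Real.exp (-1) := Real.exp_pos _
    nlinarith
  constructor
  · have hpt : ∀ i, M i ≤ 3 * (M i * Real.exp (l * a i)) + l * (M i * |a i|) := by
      intro i
      have hMi := hM i
      by_cases h : -1 ≤ l * a i
      · have := hexp _ h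
        have h5 : 0 ≤ l * (M i * |a i|) := mul_nonneg hl0.le (hnn1 i)
        nlinarith
      · push Not at h
        have h1 : 1 ≤ l * |a i| := by
          have := neg_abs_le (a i)
          nlinarith
        have h2 : 0 ≤ M i * Real.exp (l * a i) := by positivity
        nlinarith
    calc ∑ i ∈ Γᶜ, M i ≤ ∑ i ∈ Γᶜ, (3 * (M i * Real.exp (l * a i)) + l * (M i * |a i|)) :=
          Finset.sum_le_sum fun i _ => hpt i
      _ = 3 * ∑ i ∈ Γᶜ, M i * Real.exp (l * a i) + l * ∑ i ∈ Γᶜ, M i * |a i| := by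
          rw [Finset.sum_add_distrib, Finset.mul_sum, Finset.mul_sum]
      _ ≤ 3 * (2 * l * V) + l * (2 * V) := by
          have h1 : ∑ i ∈ Γᶜ, M i * |a i| ≤ ∑ i, M i * |a i| :=
            Finset.sum_le_sum_of_subset_of_nonneg (Finset.subset_univ _) fun i _ _ => hnn1 i
          gcongr
          · exact hout.trans hX1
          · exact h1.trans hl1
      _ = 8 * l * V := by ring
  · have hpt : ∀ i, M i ≤ 3 * (M i * Real.exp (l * a i)) + M i * (l * a i) ^ 2 := by
      intro i
      have hMi := hM i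
      by_cases h : -1 ≤ l * a i
      · have := hexp _ h
        have h5 := hnn2 i
        nlinarith
      · push Not at h
        have h1 : 1 ≤ (l * a i) ^ 2 := by nlinarith
        have h2 : 0 ≤ M i * Real.exp (l * a i) := by positivity
        nlinarith
    calc ∑ i ∈ Γᶜ, M i ≤ ∑ i ∈ Γᶜ, (3 * (M i * Real.exp (l * a i)) + M i * (l * a i) ^ 2) :=
          Finset.sum_le_sum fun i _ => hpt i
      _ = 3 * ∑ i ∈ Γᶜ, M i * Real.exp (l * a i) + ∑ i ∈ Γᶜ, M i * (l * a i) ^ 2 := by
          rw [Finset.sum_add_distrib, Finset.mul_sum]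
      _ ≤ 3 * (4 * l ^ 2 * Q * V) + 4 * l ^ 2 * Q * V := by
          have h1 : ∑ i ∈ Γᶜ, M i * (l * a i) ^ 2 ≤ ∑ i, M i * (l * a i) ^ 2 :=
            Finset.sum_le_sum_of_subset_of_nonneg (Finset.subset_univ _) fun i _ _ => hnn2 i
          gcongr
          · exact hout.trans hX2
          · exact h1.trans hsq
      _ = 16 * l ^ 2 * Q * V := by ring

/-- From Brunn-Minkowski to an exponential bound for the volume of the far cell. -/
theorem pi_le_of_bm {m π v a ε t : ℝ} (hm : 0 < m) (hπ : 0 ≤ π) (ht0 : 0 < t)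
    (hbm : m ^ (1 - t) * π ^ t ≤ v) (hv : v = m * (1 + ε * a)) :
    π ≤ m * Real.exp (ε / t * a) := by
  have h1 : v ≤ m * Real.exp (ε * a) := by
    rw [hv]
    have := Real.add_one_le_exp (ε * a)
    exact mul_le_mul_of_nonneg_left (by linarith) hm.le
  have h2 : m = m ^ (1 - t) * m ^ t := by
    rw [← Real.rpow_add hm]; simp
  have h3 : m ^ (1 - t) * π ^ t ≤ m ^ (1 - t) * (m ^ t * Real.exp (ε * a)) := by
    calc m ^ (1 - t) * π ^ t ≤ m * Real.exp (ε * a) := hbm.trans h1
      _ = m ^ (1 - t) * (m ^ t * Real.exp (ε * a)) := by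
          conv_lhs => rw [h2]
          ring
  have h4 : π ^ t ≤ m ^ t * Real.exp (ε * a) := le_of_mul_le_mul_left h3 (by positivity)
  have h5 : (π ^ t) ^ (1 / t) ≤ (m ^ t * Real.exp (ε * a)) ^ (1 / t) :=
    Real.rpow_le_rpow (by positivity) h4 (by positivity)
  have h6 : (π ^ t) ^ (1 / t) = π := by
    rw [← Real.rpow_mul hπ, mul_one_div_cancel ht0.ne', Real.rpow_one]
  have h7 : (m ^ t * Real.exp (ε * a)) ^ (1 / t) = m * Real.exp (ε / t * a) := by
    rw [Real.mul_rpow (by positivity) (Real.exp_pos _).le, ← Real.rpow_mul hm.le,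
      mul_one_div_cancel ht0.ne', Real.rpow_one, ← Real.exp_mul]
    congr 2
    field_simp
  rw [h6, h7] at h5
  exact h5

/-- The dyadic sum. -/
theorem sum_min_dyadic (J L : ℕ) :
    ∑ k ∈ Finset.range L, min 1 ((2 : ℝ) ^ J / 2 ^ k) ≤ J + 2 := by
  induction J generalizing L with
  | zero =>
    have h : ∀ k ∈ Finset.range L, min 1 ((2 : ℝ) ^ 0 / 2 ^ k) ≤ (1 / 2 : ℝ) ^ k := by
      intro k _
      refine (min_le_right _ _).trans (le_of_eq ?_)
      simp
    refine (Finset.sum_le_sum h).trans ?_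
    have h2 : ∑ k ∈ Finset.range L, (1 / 2 : ℝ) ^ k ≤ 2 := by
      have := sum_geometric_two_le L
      exact this
    simpa using h2
  | succ J ih =>
    cases L with
    | zero => simp; positivity
    | succ L =>
      rw [Finset.sum_range_succ']
      have h1 : ∀ k ∈ Finset.range L, min 1 ((2 : ℝ) ^ (J + 1) / 2 ^ (k + 1)) =
          min 1 ((2 : ℝ) ^ J / 2 ^ k) := by
        intro k _
        congr 1
        rw [pow_succ, pow_succ]
        field_simp
      rw [Finset.sum_congr rfl h1]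
      have h2 := ih L
      have h3 : min 1 ((2 : ℝ) ^ (J + 1) / 2 ^ 0) ≤ 1 := min_le_left _ _
      push_cast
      linarith

end realLemmas

section homothety

/-- Scaling of the first moment under a homothety. -/
theorem setIntegral_homothety (p : E d) {c : ℝ} (hc : 0 < c) (S : Set (E d)) :
    ∫ x in (fun x => c • x + (1 - c) • p) '' S, (x - p) = c ^ (d + 1) • ∫ x in S, (x - p) := by
  have hmp := measurePreserving_add_right (volume : Measure (E d)) p
  have hemb : MeasurableEmbedding (fun x : E d => x + p) := measurableEmbedding_addRight p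
  set S₀ : Set (E d) := (fun x => x + p) ⁻¹' S with hS₀
  have h1 : ∫ z in S₀, z = ∫ x in S, (x - p) := by
    have := hmp.setIntegral_preimage_emb hemb (fun x => x - p) S
    simpa using this
  have hA : (fun x => x + p) ⁻¹' ((fun x => c • x + (1 - c) • p) '' S) = c • S₀ := by
    ext z
    simp only [mem_preimage, mem_image, mem_smul_set, hS₀]
    constructor
    · rintro ⟨x, hx, h⟩
      refine ⟨x - p, by simpa using hx, ?_⟩
      have : z = c • x + (1 - c) • p - p := by rw [h]; abel
      rw [this, smul_sub, sub_smul, one_smul]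
      abel
    · rintro ⟨w, hw, rfl⟩
      refine ⟨w + p, hw, ?_⟩
      rw [smul_add, sub_smul, one_smul]
      abel
  have h2 : ∫ z in c • S₀, z = ∫ x in (fun x => c • x + (1 - c) • p) '' S, (x - p) := by
    have := hmp.setIntegral_preimage_emb hemb (fun x => x - p)
      ((fun x => c • x + (1 - c) • p) '' S)
    rw [hA] at this
    simpa using this
  have h3 := Measure.setIntegral_comp_smul_of_pos (volume : Measure (E d)) (fun z : E d => z) S₀ hc
  rw [finrank_euclideanSpace_fin, integral_smul] at h3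
  rw [← h2, ← h1]
  have h4 : ∫ z in c • S₀, z = c ^ d • c • ∫ z in S₀, z := by
    rw [h3, smul_smul, mul_inv_cancel₀ (by positivity), one_smul]
  rw [h4, smul_smul, pow_succ]

/-- The volume of a homothetic copy. -/
theorem volume_homothety_image (p : E d) {c : ℝ} (hc : 0 < c) (S : Set (E d)) :
    volume ((fun x => c • x + (1 - c) • p) '' S) = ENNReal.ofReal (c ^ d) * volume S := by
  have hf : (fun x => c • x + (1 - c) • p) = AffineMap.homothety p c := by
    funext x
    simp only [AffineMap.homothety_apply, vsub_eq_sub, vadd_eq_add, smul_sub, sub_smul, one_smul]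
    abel
  rw [hf, Measure.addHaar_image_homothety, finrank_euclideanSpace_fin,
    abs_of_pos (pow_pos hc d)]

end homothety

section moments

variable {K : Set (E d)} {y : ι → E d} {u u' w : ι → ℝ} {ϱ σ : E d → ℝ} {Q : ℝ}

/-- The first moment relative to a base point. -/
theorem cmom_eq (hK : IsCompact K) (hσ : IsDens σ Q) (y : ι → E d) (u : ι → ℝ) (i : ι) (p : E d) :
    cmom K y σ u i = (∫ x in lcell K y u i, σ x) • p + ∫ x in lcell K y u i, σ x • (x - p) := by
  have hc := isCompact_lcell hK y u i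
  unfold cmom
  rw [← integral_smul_const]
  rw [← integral_add ((hσ.integrableOn hc).smul_const p)
    (hσ.integrableOn_smul hc (g := fun x => x - p) (continuous_id.sub continuous_const))]
  apply integral_congr_ae
  filter_upwards with x
  rw [smul_sub]
  abel

theorem norm_setIntegral_dens_le {S : Set (E d)} (hS : IsCompact S) (hσ : IsDens σ Q)
    {f : E d → E d} (hf : Continuous f) {D : ℝ} (hD : ∀ x ∈ S, ‖f x‖ ≤ D) :
    ‖∫ x in S, σ x • f x‖ ≤ D * ∫ x in S, σ x := by
  calc ‖∫ x in S, σ x • f x‖ ≤ ∫ x in S, ‖σ x • f x‖ := norm_integral_le_integral_norm _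
    _ ≤ ∫ x in S, D * σ x := by
        apply setIntegral_mono_on ((hσ.integrableOn_smul hS hf).norm)
          ((hσ.integrableOn hS).const_mul _) hS.measurableSet
        intro x hx
        rw [norm_smul, Real.norm_eq_abs, abs_of_nonneg (hσ.nonneg x), mul_comm]
        exact mul_le_mul_of_nonneg_right (hD x hx) (hσ.nonneg x)
    _ = D * ∫ x in S, σ x := integral_const_mul _ _

/-- The trivial bound for the difference of moments. -/
theorem moment_trivial (hK : IsCompact K) {σ σ' : E d → ℝ} {Q' : ℝ} (hσ : IsDens σ Q)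
    (hσ' : IsDens σ' Q') {u u' : ι → ℝ} {i : ι} {p : E d} {D : ℝ} (hD : ∀ x ∈ K, ‖x - p‖ ≤ D)
    {m : ℝ} (hm : ∫ x in lcell K y u i, σ x = m) (hm' : ∫ x in lcell K y u' i, σ' x = m) :
    ‖cmom K y σ' u' i - cmom K y σ u i‖ ≤ 2 * D * m := by
  rw [cmom_eq hK hσ' y u' i p, cmom_eq hK hσ y u i p, hm, hm', add_sub_add_left_eq_sub]
  have h1 := norm_setIntegral_dens_le (isCompact_lcell hK y u' i) hσ' (f := fun x => x - p)
    (continuous_id.sub continuous_const) (D := D) (fun x hx => hD x hx.1)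
  have h2 := norm_setIntegral_dens_le (isCompact_lcell hK y u i) hσ (f := fun x => x - p)
    (continuous_id.sub continuous_const) (D := D) (fun x hx => hD x hx.1)
  rw [hm'] at h1
  rw [hm] at h2
  calc _ ≤ _ := norm_sub_le _ _
    _ ≤ D * m + D * m := add_le_add h1 h2
    _ = 2 * D * m := by ring

/-- The real inequality in the moment bound. -/
theorem moment_arith {t ε m v r c : ℝ} {n : ℕ} (ht0 : 0 < t) (ht1 : t < 1) (hε0 : 0 ≤ ε)
    (hε1 : ε ≤ 1) (hm0 : 0 ≤ m) (hv0 : 0 ≤ v) (hr0 : 0 ≤ r) (hc : c = 1 - t)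
    (hm : (1 - ε) * v + ε * r = m) :
    (1 - (1 - ε) * c ^ (n + 1)) * m + (1 - ε) * (v - c ^ n * m) + ε * r ≤
      (2 * n + 1) * t * m + ε * (m + v + r) := by
  have hc0 : 0 < c := by linarith
  have hb1 : 1 - (n + 1 : ℝ) * t ≤ c ^ (n + 1) := by
    have := one_add_mul_le_pow (a := -t) (by linarith) (n + 1)
    rw [hc]
    push_cast at this
    have e : (1 + -t) = 1 - t := by ring
    rw [e] at this
    linarith
  have hb2 : 1 - (n : ℝ) * t ≤ c ^ n := by
    have := one_add_mul_le_pow (a := -t) (by linarith) n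
    rw [hc]
    have e : (1 + -t) = 1 - t := by ring
    rw [e] at this
    linarith
  have h1e : 0 ≤ 1 - ε := by linarith
  have hn0 : (0 : ℝ) ≤ n := Nat.cast_nonneg n
  -- first term
  have h1 : (1 - (1 - ε) * c ^ (n + 1)) * m ≤ (ε + (n + 1) * t) * m := by
    apply mul_le_mul_of_nonneg_right _ hm0
    have h2 : (1 - ε) * (1 - (n + 1 : ℝ) * t) ≤ (1 - ε) * c ^ (n + 1) :=
      mul_le_mul_of_nonneg_left hb1 h1e
    have h3 : 0 ≤ ε * ((n + 1 : ℝ) * t) := by positivity
    nlinarith
  -- second term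
  have h2 : (1 - ε) * (v - c ^ n * m) ≤ ε * v + n * t * m := by
    have h3 : v - c ^ n * m ≤ v - m + n * t * m := by
      have : (1 - (n : ℝ) * t) * m ≤ c ^ n * m := mul_le_mul_of_nonneg_right hb2 hm0
      nlinarith
    have h4 : (1 - ε) * (v - c ^ n * m) ≤ (1 - ε) * (v - m + n * t * m) :=
      mul_le_mul_of_nonneg_left h3 h1e
    have h5 : v - m = ε * (v - r) := by rw [← hm]; ring
    have h6 : (1 - ε) * (v - m) ≤ ε * v := by
      rw [h5]
      have h7 : (1 - ε) * (ε * (v - r)) ≤ (1 - ε) * (ε * v) := by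
        apply mul_le_mul_of_nonneg_left _ h1e
        apply mul_le_mul_of_nonneg_left _ hε0
        linarith
      have h8 : (1 - ε) * (ε * v) ≤ 1 * (ε * v) :=
        mul_le_mul_of_nonneg_right (by linarith) (by positivity)
      linarith
    have h9 : (1 - ε) * (n * t * m) ≤ 1 * (n * t * m) :=
      mul_le_mul_of_nonneg_right (by linarith) (by positivity)
    nlinarith
  nlinarith

/-- The moment bound at a contact level. -/
theorem moment_contact (hK : IsCompact K) (hconv : Convex ℝ K) (hϱ : IsDens ϱ Q)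
    {t ε : ℝ} (ht0 : 0 < t) (ht1 : t < 1) (hε0 : 0 ≤ ε) (hε1 : ε ≤ 1)
    (hu' : ∀ i, u' i = (1 - t) * u i + t * w i) {i : ι} {p : E d} (hp : p ∈ lcell K y w i)
    {D : ℝ} (hD : ∀ x ∈ K, ‖x - p‖ ≤ D) {m : ℝ} (hm : (volume (lcell K y u i)).toReal = m)
    (hm' : (1 - ε) * (volume (lcell K y u' i)).toReal + ε * ∫ x in lcell K y u' i, ϱ x = m) :
    ‖cmom K y (fun x => (1 - ε) + ε * ϱ x) u' i - cmom K y (fun _ => 1) u i‖ ≤
      D * ((2 * d + 1) * t * m + ε * (m + (volume (lcell K y u' i)).toReal +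
        ∫ x in lcell K y u' i, ϱ x)) := by
  set C := lcell K y u i with hC
  set C' := lcell K y u' i with hC'
  have hCc : IsCompact C := isCompact_lcell hK y u i
  have hC'c : IsCompact C' := isCompact_lcell hK y u' i
  set v := (volume C').toReal with hv
  set r := ∫ x in C', ϱ x with hr
  have hv0 : 0 ≤ v := ENNReal.toReal_nonneg
  have hr0 : 0 ≤ r := integral_nonneg fun x => hϱ.nonneg x
  have hm0 : 0 ≤ m := by rw [← hm]; exact ENNReal.toReal_nonneg
  have hD0 : 0 ≤ D := (norm_nonneg _).trans (hD p hp.1)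
  have h1ε : 0 ≤ 1 - ε := by linarith
  set c : ℝ := 1 - t with hc
  have hc0 : 0 < c := by rw [hc]; linarith
  have hc1 : 1 - c = t := by rw [hc]; ring
  set f : E d → E d := fun x => x - p with hf
  have hfc : Continuous f := continuous_id.sub continuous_const
  have hσ : IsDens (fun x => (1 - ε) + ε * ϱ x) ((1 - ε) + ε * Q) :=
    ⟨(hϱ.meas.const_mul ε).const_add _,
      fun x => add_nonneg h1ε (mul_nonneg hε0 (hϱ.nonneg x)),
      fun x => by
        have := mul_le_mul_of_nonneg_left (hϱ.le x) hε0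
        linarith⟩
  have hsetint : ∀ S : Set (E d), IsCompact S → ∫ x in S, ((1 - ε) + ε * ϱ x) =
      (1 - ε) * (volume S).toReal + ε * ∫ x in S, ϱ x := by
    intro S hS
    have hi1 : IntegrableOn (fun _ : E d => (1 - ε)) S := integrableOn_const hS.measure_lt_top.ne
    have hi2 : IntegrableOn (fun x => ε * ϱ x) S := (hϱ.integrableOn hS).const_mul _
    rw [integral_add hi1 hi2, integral_const_mul, setIntegral_const, smul_eq_mul, Measure.real,
      mul_comm]
  have hmC' : ∫ x in C', ((1 - ε) + ε * ϱ x) = m := by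
    rw [hsetint C' hC'c]; exact hm'
  have hmC : ∫ _ in C, (1 : ℝ) = m := by
    rw [setIntegral_const, smul_eq_mul, mul_one, Measure.real]; exact hm
  rw [cmom_eq hK hσ y u' i p, cmom_eq hK (isDens_one (d := d)) y u i p, hmC', hmC,
    add_sub_add_left_eq_sub]
  simp only [one_smul]
  set b := ∫ x in C, (x - p) with hb
  set I₁ := ∫ x in C', (x - p) with hI₁
  set I₂ := ∫ x in C', ϱ x • (x - p) with hI₂
  have hI₁i : IntegrableOn (fun x => x - p) C' := (hfc.continuousOn).integrableOn_compact hC'c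
  have hI₂i : IntegrableOn (fun x => ϱ x • (x - p)) C' := hϱ.integrableOn_smul hC'c hfc
  have h1 : ∫ x in C', ((1 - ε) + ε * ϱ x) • (x - p) = (1 - ε) • I₁ + ε • I₂ := by
    have hi1 : IntegrableOn (fun x => (1 - ε) • (x - p)) C' := hI₁i.smul (1 - ε)
    have hi2 : IntegrableOn (fun x => ε • ϱ x • (x - p)) C' := hI₂i.smul ε
    rw [hI₁, hI₂, ← integral_smul, ← integral_smul, ← integral_add hi1 hi2]
    apply integral_congr_ae
    filter_upwards with x
    rw [add_smul, mul_smul]
  rw [h1]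
  -- the homothetic copy
  set h : E d → E d := fun x => c • x + (1 - c) • p with hh
  set A : Set (E d) := h '' C with hA
  have hhc : Continuous h := by rw [hh]; fun_prop
  have hAc : IsCompact A := hCc.image hhc
  have hAsub : A ⊆ C' := by
    rintro _ ⟨x, hx, rfl⟩
    have := lcell_mix hconv ht0 ht1 hu' hx hp
    rw [hh]
    simp only [hc1]
    exact this
  have hvolA : (volume A).toReal = c ^ d * m := by
    rw [hA, hh, volume_homothety_image p hc0, ENNReal.toReal_mul,
      ENNReal.toReal_ofReal (by positivity)]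
    rw [hm]
  have hintA : ∫ x in A, (x - p) = c ^ (d + 1) • b := setIntegral_homothety p hc0 C
  have hdiffm : MeasurableSet (C' \ A) := hC'c.measurableSet.diff hAc.measurableSet
  have hsplit : I₁ = c ^ (d + 1) • b + ∫ x in C' \ A, (x - p) := by
    have hi1 : IntegrableOn (fun x => x - p) A := (hfc.continuousOn).integrableOn_compact hAc
    have hi2 : IntegrableOn (fun x => x - p) (C' \ A) := hI₁i.mono_set sdiff_subset
    rw [← hintA, hI₁, ← setIntegral_union (disjoint_sdiff_right) hdiffm hi1 hi2,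
      union_sdiff_cancel hAsub]
  set X := ∫ x in C' \ A, (x - p) with hX
  -- norm bounds
  have hAfin : volume A ≠ ∞ := hAc.measure_lt_top.ne
  have hvoldiff : (volume (C' \ A)).toReal = v - c ^ d * m := by
    rw [measure_sdiff hAsub hAc.measurableSet.nullMeasurableSet hAfin,
      ENNReal.toReal_sub_of_le (measure_mono hAsub) hC'c.measure_lt_top.ne, hvolA]
  have hXn : ‖X‖ ≤ D * (v - c ^ d * m) := by
    have := norm_setIntegral_le_of_norm_le_const (μ := volume) (s := C' \ A) (f := fun x => x - p)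
      (C := D) (measure_lt_top_of_subset sdiff_subset hC'c.measure_lt_top.ne)
      (fun x hx => hD x (hx.1.1))
    rwa [Measure.real, hvoldiff] at this
  have hbn : ‖b‖ ≤ D * m := by
    have := norm_setIntegral_le_of_norm_le_const (μ := volume) (s := C) (f := fun x => x - p)
      (C := D) hCc.measure_lt_top (fun x hx => hD x hx.1)
    rwa [Measure.real, hm] at this
  have hI₂n : ‖I₂‖ ≤ D * r :=
    norm_setIntegral_dens_le hC'c hϱ hfc (fun x hx => hD x hx.1)
  have hc1' : c ≤ 1 := by rw [hc]; linarith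
  have hpow : (1 - ε) * c ^ (d + 1) ≤ 1 := by
    have h1 : c ^ (d + 1) ≤ 1 := pow_le_one₀ hc0.le hc1'
    have h2 : 0 ≤ c ^ (d + 1) := by positivity
    nlinarith
  have hexpr : (1 - ε) • I₁ + ε • I₂ - b =
      ((1 - ε) * c ^ (d + 1) - 1) • b + (1 - ε) • X + ε • I₂ := by
    have e : (1 - ε) • I₁ = ((1 - ε) * c ^ (d + 1)) • b + (1 - ε) • X := by
      rw [hsplit, smul_add, smul_smul]
    rw [e, sub_smul ((1 - ε) * c ^ (d + 1)) 1 b, one_smul]
    abel
  rw [hexpr]
  have hnorm : ‖((1 - ε) * c ^ (d + 1) - 1) • b + (1 - ε) • X + ε • I₂‖ ≤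
      (1 - (1 - ε) * c ^ (d + 1)) * (D * m) + (1 - ε) * (D * (v - c ^ d * m)) + ε * (D * r) := by
    refine (norm_add₃_le).trans ?_
    rw [norm_smul, norm_smul, norm_smul, Real.norm_eq_abs, Real.norm_eq_abs, Real.norm_eq_abs,
      abs_of_nonneg h1ε, abs_of_nonneg hε0, abs_of_nonpos (by linarith)]
    have h1 : 0 ≤ -((1 - ε) * c ^ (d + 1) - 1) := by linarith
    have e : -((1 - ε) * c ^ (d + 1) - 1) = 1 - (1 - ε) * c ^ (d + 1) := by ring
    rw [e] at h1 ⊢
    gcongr
  refine hnorm.trans ?_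
  have harith := moment_arith (n := d) ht0 ht1 hε0 hε1 hm0 hv0 hr0 hc hm'
  calc (1 - (1 - ε) * c ^ (d + 1)) * (D * m) + (1 - ε) * (D * (v - c ^ d * m)) + ε * (D * r)
      = D * ((1 - (1 - ε) * c ^ (d + 1)) * m + (1 - ε) * (v - c ^ d * m) + ε * r) := by ring
    _ ≤ D * ((2 * d + 1) * t * m + ε * (m + v + r)) := mul_le_mul_of_nonneg_left harith hD0

end moments

section fsl

variable [Fintype ι] [Nonempty ι] {K : Set (E d)} {y : ι → E d} {M : ι → ℝ} {u u' : ι → ℝ}
  {ϱ : E d → ℝ} {V Q : ℝ}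

/-- Brunn-Minkowski for the cells, in real numbers. -/
theorem cell_bm_real (hK : IsCompact K) (hconv : Convex ℝ K) {w : ι → ℝ} {t : ℝ} (ht0 : 0 < t)
    (ht1 : t < 1) (hu' : ∀ i, u' i = (1 - t) * u i + t * w i) (i : ι) :
    (volume (lcell K y u i)).toReal ^ (1 - t) * (volume (lcell K y w i)).toReal ^ t ≤
      (volume (lcell K y u' i)).toReal := by
  obtain ⟨RK, hRK⟩ := hK.isBounded.exists_norm_le
  have hbd : ∀ u : ι → ℝ, ∃ R : ℝ, ∀ x ∈ lcell K y u i, ‖x‖ ≤ R :=
    fun u => ⟨RK, fun x hx => hRK x hx.1⟩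
  have h := brunn_minkowski_mul (measurableSet_lcell hK.isClosed y u i)
    (measurableSet_lcell hK.isClosed y w i) (measurableSet_lcell hK.isClosed y u' i)
    (hbd u) (hbd w) (hbd u') ht0 ht1
    (fun a ha b hb => lcell_mix hconv ht0 ht1 hu' ha hb)
  have h2 := ENNReal.toReal_mono (isCompact_lcell hK y u' i).measure_lt_top.ne h
  rwa [ENNReal.toReal_mul, ← ENNReal.toReal_rpow, ← ENNReal.toReal_rpow] at h2

/-- The non-contact mass at one level. -/
theorem fsl_level [DecidableEq ι] (hK : IsCompact K) (hconv : Convex ℝ K)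
    (hy : Function.Injective y) (hM : ∀ i, 0 < M i) (hsum : ∑ i, M i = V)
    (hV : (volume K).toReal = V) (hu : ∀ i, (volume (lcell K y u i)).toReal = M i)
    (hϱ : IsDens ϱ Q) (hQ : 1 ≤ Q) (hϱV : ∫ x in K, ϱ x = V) {ε : ℝ} (hε0 : 0 < ε) (hε : ε ≤ 1 / 2)
    (hu' : ∀ i, (1 - ε) * (volume (lcell K y u' i)).toReal + ε * ∫ x in lcell K y u' i, ϱ x = M i)
    {t : ℝ} (ht0 : 0 < t) (ht1 : t < 1) (hlam : ε / t ≤ 1 / 2) {w : ι → ℝ}
    (hw : ∀ i, u' i = (1 - t) * u i + t * w i) (Γ : Finset ι)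
    (hΓ : ∀ i, i ∉ Γ → (volume (lcell K y w i)).toReal = 0) :
    ∑ i ∈ Γᶜ, M i ≤ 8 * (ε / t) * V ∧ ∑ i ∈ Γᶜ, M i ≤ 16 * (ε / t) ^ 2 * Q * V := by
  set v : ι → ℝ := fun i => (volume (lcell K y u' i)).toReal with hv
  set r : ι → ℝ := fun i => ∫ x in lcell K y u' i, ϱ x with hr
  set a : ι → ℝ := fun i => (v i - r i) / M i with ha
  have hv0 : ∀ i, 0 ≤ v i := fun i => ENNReal.toReal_nonneg
  have hr0 : ∀ i, 0 ≤ r i := fun i => integral_nonneg fun x => hϱ.nonneg x
  have hMa : ∀ i, M i * a i = v i - r i := fun i => by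
    simp only [ha]
    field_simp [(hM i).ne']
  have hvsum : ∑ i, v i = V := by
    rw [hv, ← ENNReal.toReal_sum fun i _ => (isCompact_lcell hK y u' i).measure_lt_top.ne,
      sum_volume_lcell hK.isClosed hy, hV]
  have hrsum : ∑ i, r i = V := by
    rw [hr, ← hϱV]
    exact (integral_eq_sum_lcell hK.isClosed hy (hϱ.integrableOn hK)).symm
  have hveq : ∀ i, v i = M i * (1 + ε * a i) := fun i => by
    have h1 := hu' i
    have h2 := hMa i
    have e : M i * (1 + ε * a i) = M i + ε * (M i * a i) := by ring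
    rw [e, h2, ← h1]
    simp only [hv, hr]
    ring
  have ha0 : ∑ i, M i * a i = 0 := by
    simp_rw [hMa]
    rw [Finset.sum_sub_distrib, hvsum, hrsum, sub_self]
  have hl1 : ∑ i, M i * |a i| ≤ 2 * V := by
    have h1 : ∀ i, M i * |a i| ≤ v i + r i := fun i => by
      have e : M i * |a i| = |M i * a i| := by rw [abs_mul, abs_of_pos (hM i)]
      rw [e, hMa, abs_le]
      constructor <;> linarith [hv0 i, hr0 i]
    calc ∑ i, M i * |a i| ≤ ∑ i, (v i + r i) := Finset.sum_le_sum fun i _ => h1 i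
      _ = 2 * V := by rw [Finset.sum_add_distrib, hvsum, hrsum]; ring
  have ha2 : ∀ i, a i ≤ 2 := fun i => by
    by_contra hcon
    push Not at hcon
    have h1 := hMa i
    have h2 := hveq i
    have h3 := hr0 i
    have h4 := hM i
    -- `M a = v - r ≤ v = M + ε M a`
    have h5 : M i * a i ≤ M i * (1 + ε * a i) := by rw [h1, ← h2]; linarith
    have h6 : a i ≤ 1 + ε * a i := le_of_mul_le_mul_left h5 h4
    nlinarith
  have hrQ : ∀ i, r i ≤ Q * v i := fun i => by
    have hc := isCompact_lcell (y := y) (u := u') hK i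
    calc r i ≤ ∫ _ in lcell K y u' i, Q := by
          apply setIntegral_mono_on (hϱ.integrableOn hc) (integrableOn_const hc.measure_lt_top.ne)
            hc.measurableSet
          intro x _
          exact hϱ.le x
      _ = Q * v i := by
          rw [setIntegral_const, smul_eq_mul, Measure.real, mul_comm]
  have haQ : ∀ i, |a i| ≤ 2 * Q := fun i => by
    rw [abs_le]
    constructor
    · by_contra hcon
      push Not at hcon
      have h1 := hMa i
      have h2 := hveq i
      have h3 := hrQ i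
      have h4 := hM i
      have h5 := hv0 i
      have hneg : a i < 0 := by linarith
      have h6 : v i ≤ M i := by
        rw [h2]
        have : ε * a i ≤ 0 := by nlinarith
        nlinarith
      have h7 : M i * a i ≥ -(Q * M i) := by
        have h8 : Q * v i ≤ Q * M i := mul_le_mul_of_nonneg_left h6 (by linarith)
        rw [h1]
        linarith
      have h9 : M i * (a i + Q) ≥ 0 := by nlinarith
      have h10 : a i + Q ≥ 0 := nonneg_of_mul_nonneg_right h9 h4
      linarith
    · have := ha2 i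
      linarith
  have hl0 : 0 < ε / t := div_pos hε0 ht0
  have hcover : V ≤ ∑ i ∈ Γ, M i * Real.exp (ε / t * a i) := by
    have hpi : V = ∑ i, (volume (lcell K y w i)).toReal := by
      rw [← ENNReal.toReal_sum fun i _ => (isCompact_lcell hK y w i).measure_lt_top.ne,
        sum_volume_lcell hK.isClosed hy, hV]
    have hpi2 : ∑ i, (volume (lcell K y w i)).toReal = ∑ i ∈ Γ, (volume (lcell K y w i)).toReal := by
      symm
      apply Finset.sum_subset (Finset.subset_univ _)
      intro i _ hi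
      exact hΓ i hi
    rw [hpi, hpi2]
    apply Finset.sum_le_sum
    intro i _
    apply pi_le_of_bm (hM i) ENNReal.toReal_nonneg ht0 _ (hveq i)
    have := cell_bm_real (y := y) hK hconv ht0 ht1 hw i
    rwa [hu i] at this
  have hQ0 : 0 ≤ Q := by linarith
  exact noncontact_mass hM hsum ha0 ha2 hQ0 haQ hl1 hl0 hlam Γ hcover

/-- The finite stability lemma for the moments of the cells. -/
theorem fsl (hK : IsCompact K) (hconv : Convex ℝ K) (hKne : K.Nonempty)
    (hy : Function.Injective y) (hM : ∀ i, 0 < M i) (hsum : ∑ i, M i = V)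
    (hV : (volume K).toReal = V) (hu : Solves K M y (fun _ => 1) u)
    (J : ℕ) (hϱ : IsDens ϱ ((2 : ℝ) ^ J)) (hϱV : ∫ x in K, ϱ x = V) {n : ℕ} (hn : 2 ≤ n)
    (hu' : Solves K M y (fun x => (1 - (1 / 2 : ℝ) ^ n) + (1 / 2 : ℝ) ^ n * ϱ x) u')
    {D : ℝ} (hD : ∀ x ∈ K, ∀ x' ∈ K, ‖x - x'‖ ≤ D) :
    ∑ i, ‖cmom K y (fun x => (1 - (1 / 2 : ℝ) ^ n) + (1 / 2 : ℝ) ^ n * ϱ x) u' i -
        cmom K y (fun _ => 1) u i‖ ≤
      D * (1 / 2 : ℝ) ^ n * V * ((2 * d + 4) * (2 + 16 * (J + 2)) + 3) := by
  classical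
  set ε : ℝ := (1 / 2 : ℝ) ^ n with hεdef
  have hε0 : 0 < ε := by positivity
  have hε : ε ≤ 1 / 2 := by
    rw [hεdef]
    calc (1 / 2 : ℝ) ^ n ≤ (1 / 2 : ℝ) ^ 1 := pow_le_pow_of_le_one (by norm_num) (by norm_num) (by omega)
      _ = 1 / 2 := by norm_num
  have hε1 : ε ≤ 1 := by linarith
  have h1ε : 0 ≤ 1 - ε := by linarith
  set Q : ℝ := (2 : ℝ) ^ J with hQdef
  have hQ : 1 ≤ Q := one_le_pow₀ (by norm_num)
  have hV0 : 0 ≤ V := by rw [← hsum]; exact Finset.sum_nonneg fun i _ => (hM i).le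
  obtain ⟨p₀, hp₀⟩ := hKne
  have hD0 : 0 ≤ D := (norm_nonneg _).trans (hD p₀ hp₀ p₀ hp₀)
  -- masses
  have hvol : ∀ i, (volume (lcell K y u i)).toReal = M i := fun i => by
    have := hu i
    rwa [setIntegral_const, smul_eq_mul, mul_one, Measure.real] at this
  have hsetint : ∀ S : Set (E d), IsCompact S → ∫ x in S, ((1 - ε) + ε * ϱ x) =
      (1 - ε) * (volume S).toReal + ε * ∫ x in S, ϱ x := by
    intro S hS
    have hi1 : IntegrableOn (fun _ : E d => (1 - ε)) S := integrableOn_const hS.measure_lt_top.ne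
    have hi2 : IntegrableOn (fun x => ε * ϱ x) S := (hϱ.integrableOn hS).const_mul _
    rw [integral_add hi1 hi2, integral_const_mul, setIntegral_const, smul_eq_mul, Measure.real,
      mul_comm]
  have hmass' : ∀ i, (1 - ε) * (volume (lcell K y u' i)).toReal +
      ε * ∫ x in lcell K y u' i, ϱ x = M i := fun i => by
    rw [← hsetint _ (isCompact_lcell hK y u' i)]
    exact hu' i
  have hσ : IsDens (fun x => (1 - ε) + ε * ϱ x) ((1 - ε) + ε * Q) :=
    ⟨(hϱ.meas.const_mul ε).const_add _,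
      fun x => add_nonneg h1ε (mul_nonneg hε0.le (hϱ.nonneg x)),
      fun x => by
        have := mul_le_mul_of_nonneg_left (hϱ.le x) hε0.le
        linarith⟩
  -- the levels
  set L : ℕ := n - 2 with hL
  set t : ℕ → ℝ := fun k => ε * 2 ^ (k + 1) with ht
  have ht0 : ∀ k, 0 < t k := fun k => by simp only [ht]; positivity
  have htL : t L = 1 / 2 := by
    simp only [ht, hεdef]
    have e : n = L + 2 := by omega
    rw [e, one_div, inv_pow, pow_succ (2 : ℝ) (L + 1)]
    have : (2 : ℝ) ^ (L + 1) ≠ 0 := by positivity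
    field_simp
  have htmono : ∀ k, k ≤ L → t k ≤ 1 / 2 := by
    intro k hk
    rw [← htL]
    simp only [ht]
    apply mul_le_mul_of_nonneg_left _ hε0.le
    exact pow_le_pow_right₀ (by norm_num) (by omega)
  have hlam : ∀ k, ε / t k = (1 / 2 : ℝ) ^ (k + 1) := by
    intro k
    simp only [ht]
    rw [one_div, inv_pow]
    field_simp
  set w : ℕ → ι → ℝ := fun k i => u i + (u' i - u i) / t k with hw
  have hwmix : ∀ k i, u' i = (1 - t k) * u i + t k * w k i := by
    intro k i
    simp only [hw]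
    have := (ht0 k).ne'
    field_simp
    ring
  set Γ : ℕ → Finset ι := fun k => Finset.univ.filter fun i => (lcell K y (w k) i).Nonempty with hΓ
  have hΓmem : ∀ k i, i ∈ Γ k ↔ (lcell K y (w k) i).Nonempty := by
    intro k i
    simp [hΓ]
  have hlevel : ∀ k, k ≤ L → ∑ i ∈ (Γ k)ᶜ, M i ≤ 8 * (ε / t k) * V ∧
      ∑ i ∈ (Γ k)ᶜ, M i ≤ 16 * (ε / t k) ^ 2 * Q * V := by
    intro k hk
    apply fsl_level hK hconv hy hM hsum hV hvol hϱ hQ hϱV hε0 hε hmass' (ht0 k)
      (by have := htmono k hk; linarith) _ (hwmix k)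
    · intro i hi
      rw [hΓmem] at hi
      rw [not_nonempty_iff_eq_empty.mp hi]
      simp
    · rw [hlam]
      calc (1 / 2 : ℝ) ^ (k + 1) ≤ (1 / 2 : ℝ) ^ 1 :=
            pow_le_pow_of_le_one (by norm_num) (by norm_num) (by omega)
        _ = 1 / 2 := by norm_num
  -- the contribution of level `k`
  have hNbound : ∀ k, k ≤ L → t (k + 1) * ∑ i ∈ (Γ k)ᶜ, M i ≤
      16 * ε * V * min 1 ((2 : ℝ) ^ J / 2 ^ k) := by
    intro k hk
    obtain ⟨h1, h2⟩ := hlevel k hk
    rw [hlam] at h1 h2
    have htp : 0 < t (k + 1) := ht0 _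
    have hne : ((2 : ℝ) ^ k) ≠ 0 := by positivity
    rw [mul_min_of_nonneg _ _ (by positivity), mul_one]
    apply le_min
    · calc t (k + 1) * ∑ i ∈ (Γ k)ᶜ, M i ≤ t (k + 1) * (8 * (1 / 2 : ℝ) ^ (k + 1) * V) := by gcongr
        _ = 16 * ε * V := by
            simp only [ht]
            rw [one_div, inv_pow]
            field_simp
            ring
    · calc t (k + 1) * ∑ i ∈ (Γ k)ᶜ, M i ≤
            t (k + 1) * (16 * ((1 / 2 : ℝ) ^ (k + 1)) ^ 2 * Q * V) := by gcongr
        _ = 16 * ε * V * ((2 : ℝ) ^ J / 2 ^ k) := by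
            simp only [ht, hQdef]
            rw [one_div, inv_pow]
            field_simp
            ring
  -- index-wise bounds
  set F : ι → ℝ := fun i => t 0 + ∑ j ∈ Finset.range L, if i ∈ (Γ j)ᶜ then t (j + 1) else 0 with hF
  have hFnn : ∀ i, ∀ j ∈ Finset.range L, (0 : ℝ) ≤ if i ∈ (Γ j)ᶜ then t (j + 1) else 0 := by
    intro i j _
    split_ifs
    · exact (ht0 _).le
    · exact le_rfl
  set E₀ : ι → ℝ := fun i => ε * (M i + (volume (lcell K y u' i)).toReal +
    ∫ x in lcell K y u' i, ϱ x) with hE₀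
  have hidx : ∀ i, ‖cmom K y (fun x => (1 - ε) + ε * ϱ x) u' i - cmom K y (fun _ => 1) u i‖ ≤
      D * ((2 * d + 4) * F i * M i + E₀ i) := by
    intro i
    have hex : ∃ k, i ∈ Γ k ∨ k = L := ⟨L, Or.inr rfl⟩
    set k := Nat.find hex with hk
    have hkspec := Nat.find_spec hex
    have hkmin : ∀ j, j < k → i ∈ (Γ j)ᶜ := by
      intro j hj
      have := Nat.find_min hex hj
      push Not at this
      simpa using this.1
    have hkL : k ≤ L := Nat.find_min' hex (Or.inr rfl)
    have hkF : t k ≤ F i := by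
      cases hk' : k with
      | zero =>
        simp only [hF]
        have := Finset.sum_nonneg (hFnn i)
        linarith
      | succ k' =>
        have h1 : (if i ∈ (Γ k')ᶜ then t (k' + 1) else 0) ≤
            ∑ j ∈ Finset.range L, if i ∈ (Γ j)ᶜ then t (j + 1) else 0 :=
          Finset.single_le_sum (f := fun j => if i ∈ (Γ j)ᶜ then t (j + 1) else 0) (hFnn i)
            (Finset.mem_range.mpr (by omega))
        rw [if_pos (hkmin k' (by omega))] at h1
        simp only [hF]
        have := ht0 0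
        linarith
    have hMi := hM i
    have hE0 : 0 ≤ E₀ i := by
      have h1 : 0 ≤ ∫ x in lcell K y u' i, ϱ x := integral_nonneg fun x => hϱ.nonneg x
      have h2 : 0 ≤ (volume (lcell K y u' i)).toReal := ENNReal.toReal_nonneg
      simp only [hE₀]
      positivity
    have hd0 : (0 : ℝ) ≤ d := Nat.cast_nonneg d
    have hFpos : 0 ≤ F i := (ht0 k).le.trans hkF
    by_cases hin : i ∈ Γ k
    · obtain ⟨p, hp⟩ := (hΓmem k i).mp hin
      have h1 := moment_contact (d := d) hK hconv hϱ (ht0 k)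
        (by have := htmono k hkL; linarith) hε0.le hε1 (hwmix k) hp
        (D := D) (fun x hx => hD x hx p hp.1) (hvol i) (hmass' i)
      refine h1.trans ?_
      apply mul_le_mul_of_nonneg_left _ hD0
      have h2 : (2 * (d : ℝ) + 1) * t k * M i ≤ (2 * d + 4) * F i * M i := by
        apply mul_le_mul_of_nonneg_right _ hMi.le
        apply mul_le_mul (by linarith) hkF (ht0 k).le (by positivity)
      linarith
    · have hkeq : k = L := by
        rcases hkspec with h | h
        · exact absurd h hin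
        · exact h
      have h1 := moment_trivial (d := d) hK (isDens_one (d := d)) hσ (u := u) (u' := u') (i := i)
        (p := p₀) (D := D) (y := y) (fun x hx => hD x hx p₀ hp₀) (m := M i) (hu i) (hu' i)
      refine h1.trans ?_
      have h2 : 1 / 2 ≤ F i := by rw [← htL, ← hkeq]; exact hkF
      have h3 : 2 * D * M i = D * (4 * (1 / 2) * M i) := by ring
      rw [h3]
      apply mul_le_mul_of_nonneg_left _ hD0
      have h4 : 4 * (1 / 2 : ℝ) * M i ≤ (2 * d + 4) * F i * M i := by
        apply mul_le_mul_of_nonneg_right _ hMi.le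
        apply mul_le_mul (by linarith) h2 (by norm_num) (by positivity)
      linarith
  -- summation
  have hvsum : ∑ i, (volume (lcell K y u' i)).toReal = V := by
    rw [← ENNReal.toReal_sum fun i _ => (isCompact_lcell hK y u' i).measure_lt_top.ne,
      sum_volume_lcell hK.isClosed hy, hV]
  have hrsum : ∑ i, ∫ x in lcell K y u' i, ϱ x = V := by
    rw [← hϱV]
    exact (integral_eq_sum_lcell hK.isClosed hy (hϱ.integrableOn hK)).symm
  have hE : ∑ i, E₀ i = 3 * ε * V := by
    simp only [hE₀]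
    rw [← Finset.mul_sum, Finset.sum_add_distrib, Finset.sum_add_distrib, hsum, hvsum, hrsum]
    ring
  have hFsum : ∑ i, F i * M i ≤ 2 * ε * V + 16 * ε * V * (J + 2) := by
    have h1 : ∑ i, F i * M i = t 0 * V +
        ∑ j ∈ Finset.range L, t (j + 1) * ∑ i ∈ (Γ j)ᶜ, M i := by
      simp only [hF, add_mul, Finset.sum_add_distrib, ← Finset.mul_sum, hsum, Finset.sum_mul]
      congr 1
      rw [Finset.sum_comm]
      apply Finset.sum_congr rfl
      intro j _
      simp only [ite_mul, zero_mul]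
      rw [Finset.sum_ite_mem, Finset.univ_inter, Finset.mul_sum]
    rw [h1]
    have ht00 : t 0 = 2 * ε := by simp only [ht]; ring
    rw [ht00]
    have h2 : ∑ j ∈ Finset.range L, t (j + 1) * ∑ i ∈ (Γ j)ᶜ, M i ≤
        ∑ j ∈ Finset.range L, 16 * ε * V * min 1 ((2 : ℝ) ^ J / 2 ^ j) :=
      Finset.sum_le_sum fun j hj => hNbound j (Finset.mem_range.mp hj).le
    rw [← Finset.mul_sum] at h2
    have h3 := sum_min_dyadic J L
    have h4 : 16 * ε * V * ∑ j ∈ Finset.range L, min 1 ((2 : ℝ) ^ J / 2 ^ j) ≤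
        16 * ε * V * (J + 2) := mul_le_mul_of_nonneg_left h3 (by positivity)
    linarith
  calc ∑ i, ‖cmom K y (fun x => (1 - ε) + ε * ϱ x) u' i - cmom K y (fun _ => 1) u i‖
      ≤ ∑ i, D * ((2 * d + 4) * F i * M i + E₀ i) := Finset.sum_le_sum fun i _ => hidx i
    _ = D * ((2 * d + 4) * ∑ i, F i * M i + ∑ i, E₀ i) := by
        rw [← Finset.mul_sum, Finset.sum_add_distrib, Finset.mul_sum]
        congr 2
        apply Finset.sum_congr rfl
        intro i _
        ring
    _ ≤ D * ((2 * d + 4) * (2 * ε * V + 16 * ε * V * (J + 2)) + 3 * ε * V) := by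
        rw [hE]
        gcongr
    _ = D * ε * V * ((2 * d + 4) * (2 + 16 * (J + 2)) + 3) := by ring

end fsl

end Vale.Agent.Lib.P074
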