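import Vale.Agent.Lib.P074.XStep
import Vale.Agent.Lib.P074.W1

open MeasureTheory Set Filter Topology
open scoped ENNReal NNReal RealInnerProductSpace

namespace Vale.Agent.Lib.P074

variable {d : ℕ} {ι : Type*}

/-- A selection map of a maximum of affine functions is a gradient of a convex function. -/
theorem IsLMap.isGradConvex [Fintype ι] [Nonempty ι] {y : ι → E d} {u : ι → ℝ} {T : E d → E d}
    (hT : IsLMap y u T) {K : Set (E d)} (hK : MeasurableSet K) : IsGradConvex K T := by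
  refine ⟨lmax y u, ?_⟩
  filter_upwards [ae_restrict_mem hK] with x hx
  refine ⟨hx, fun z _ => ?_⟩
  have := hT.subgrad x z
  rwa [real_inner_comm] at this

/-- The triangle inequality for the `L²` distance. -/
theorem L2Dist_triangle {ρ : Measure (E d)} {S T U : E d → E d} (hS : Measurable S)
    (hT : Measurable T) (hU : Measurable U) :
    L2Dist ρ S U ≤ L2Dist ρ S T + L2Dist ρ T U := by
  unfold L2Dist
  have hf : AEMeasurable (fun x => ENNReal.ofReal ‖S x - T x‖) ρ :=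
    (hS.sub hT).norm.ennreal_ofReal.aemeasurable
  have hg : AEMeasurable (fun x => ENNReal.ofReal ‖T x - U x‖) ρ :=
    (hT.sub hU).norm.ennreal_ofReal.aemeasurable
  have h := ENNReal.lintegral_Lp_add_le (p := 2) hf hg (by norm_num)
  have e : ∀ (A B : E d → E d) (x : E d), ENNReal.ofReal ‖A x - B x‖ ^ (2 : ℝ) =
      ENNReal.ofReal (‖A x - B x‖ ^ 2) := by
    intro A B x
    rw [ENNReal.ofReal_rpow_of_nonneg (norm_nonneg _) (by norm_num)]
    congr 1
    rw [Real.rpow_two]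
  simp_rw [e] at h
  refine le_trans ?_ h
  apply ENNReal.rpow_le_rpow _ (by norm_num)
  apply lintegral_mono
  intro x
  simp only [Pi.add_apply]
  have h1 : ‖S x - U x‖ ≤ ‖S x - T x‖ + ‖T x - U x‖ := norm_sub_le_norm_sub_add_norm_sub _ _ _
  rw [← ENNReal.ofReal_add (norm_nonneg _) (norm_nonneg _),
    ENNReal.ofReal_rpow_of_nonneg (by positivity) (by norm_num)]
  apply ENNReal.ofReal_le_ofReal
  rw [Real.rpow_two]
  gcongr

/-- Pushforward of a measure under a map with values in a finite set. -/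
theorem map_eq_sum_dirac {X : Type*} [MeasurableSpace X] [Fintype ι] (m : Measure X)
    (D : ι → Set X) (hDm : ∀ i, MeasurableSet (D i))
    (hdisj : Pairwise (Function.onFun (AEDisjoint m) D)) (hcov : m (⋃ i, D i)ᶜ = 0)
    {R : X → E d} (hR : Measurable R) {a : ι → E d}
    (hRa : ∀ i, ∀ᵐ x ∂(m.restrict (D i)), R x = a i) :
    m.map R = ∑ i, m (D i) • Measure.dirac (a i) := by
  classical
  ext A hA
  rw [Measure.map_apply hR hA, Measure.finset_sum_apply]
  have hsplit : m (R ⁻¹' A) = ∑ i, m (R ⁻¹' A ∩ D i) := by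
    have h1 : m (R ⁻¹' A) = m (R ⁻¹' A ∩ ⋃ i, D i) := by
      apply le_antisymm _ (measure_mono inter_subset_left)
      calc m (R ⁻¹' A) ≤ m ((R ⁻¹' A ∩ ⋃ i, D i) ∪ (⋃ i, D i)ᶜ) := by
            apply measure_mono
            intro x hx
            by_cases h : x ∈ ⋃ i, D i
            · exact Or.inl ⟨hx, h⟩
            · exact Or.inr h
        _ ≤ m (R ⁻¹' A ∩ ⋃ i, D i) + m (⋃ i, D i)ᶜ := measure_union_le _ _
        _ = m (R ⁻¹' A ∩ ⋃ i, D i) := by rw [hcov, add_zero]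
    rw [h1, inter_iUnion, measure_iUnion₀, tsum_fintype]
    · intro i j hij
      exact (hdisj hij).mono inter_subset_right inter_subset_right
    · intro i
      exact ((hR hA).inter (hDm i)).nullMeasurableSet
  rw [hsplit]
  apply Finset.sum_congr rfl
  intro i _
  rw [Measure.smul_apply, Measure.dirac_apply' _ hA, smul_eq_mul, ← Measure.restrict_apply (hR hA)]
  by_cases hi : a i ∈ A
  · rw [indicator_of_mem hi]
    have h0 : (m.restrict (D i)) (R ⁻¹' A)ᶜ = 0 := by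
      apply measure_mono_null (t := {x | R x ≠ a i})
      · intro x hx h
        apply hx
        change R x ∈ A
        rw [h]
        exact hi
      · exact hRa i
    have : (m.restrict (D i)) (R ⁻¹' A) = (m.restrict (D i)) univ :=
      measure_congr (ae_eq_univ.mpr h0)
    rw [this, Measure.restrict_apply_univ]
    simp
  · rw [indicator_of_notMem hi]
    have : (m.restrict (D i)) (R ⁻¹' A) = 0 := by
      apply measure_mono_null (t := {x | R x ≠ a i})
      · intro x hx h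
        apply hi
        rw [← h]
        exact hx
      · exact hRa i
    rw [this]
    simp

/-- A finite measurable net of a ball. -/
theorem exists_net (R : ℝ) (hR : 0 ≤ R) {η : ℝ} (hη : 0 < η) :
    ∃ q : SimpleFunc (E d) (E d), (∀ y, ‖y‖ ≤ R → ‖q y - y‖ ≤ η) ∧ ∀ y, ‖q y‖ ≤ R := by
  classical
  have hind : ∀ t : Finset (E d), (∀ c ∈ t, ‖c‖ ≤ R) →
      ∃ q : SimpleFunc (E d) (E d), (∀ y, (∃ c ∈ t, y ∈ Metric.ball c η) → ‖q y - y‖ ≤ η) ∧
        ∀ y, ‖q y‖ ≤ R := by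
    intro t
    induction t using Finset.induction_on with
    | empty =>
      intro _
      refine ⟨SimpleFunc.const _ 0, ?_, ?_⟩
      · rintro y ⟨c, hc, -⟩
        simp at hc
      · intro y
        simpa using hR
    | insert c t _ ih =>
      intro hc
      obtain ⟨q, hq1, hq2⟩ := ih (fun c' hc' => hc c' (Finset.mem_insert_of_mem hc'))
      refine ⟨SimpleFunc.piecewise (Metric.ball c η) Metric.isOpen_ball.measurableSet
        (SimpleFunc.const _ c) q, ?_, ?_⟩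
      · rintro y ⟨c', hc', hy⟩
        by_cases hyc : y ∈ Metric.ball c η
        · rw [SimpleFunc.piecewise_apply, if_pos hyc]
          simp only [SimpleFunc.const_apply]
          rw [Metric.mem_ball, dist_eq_norm] at hyc
          rw [norm_sub_rev]
          exact hyc.le
        · rw [SimpleFunc.piecewise_apply, if_neg hyc]
          rcases Finset.mem_insert.mp hc' with rfl | h
          · exact absurd hy hyc
          · exact hq1 y ⟨c', h, hy⟩
      · intro y
        by_cases hyc : y ∈ Metric.ball c η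
        · rw [SimpleFunc.piecewise_apply, if_pos hyc]
          exact hc c (Finset.mem_insert_self _ _)
        · rw [SimpleFunc.piecewise_apply, if_neg hyc]
          exact hq2 y
  obtain ⟨t, htsub, htfin, htcov⟩ := (isCompact_closedBall (0 : E d) R).finite_cover_balls hη
  have ht : ∀ c ∈ htfin.toFinset, ‖c‖ ≤ R := by
    intro c hc
    have := htsub (htfin.mem_toFinset.mp hc)
    simpa using this
  obtain ⟨q, hq1, hq2⟩ := hind htfin.toFinset ht
  refine ⟨q, fun y hy => hq1 y ?_, hq2⟩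
  have hy' : y ∈ Metric.closedBall (0 : E d) R := by simpa using hy
  obtain ⟨c, hc, hyc⟩ := mem_iUnion₂.mp (htcov hy')
  exact ⟨c, htfin.mem_toFinset.mpr hc, hyc⟩

/-- Small perturbations which make two families of sites injective. -/
theorem exists_perturbation [Fintype ι] (hd : 1 ≤ d) (n n' : ι → E d) {κ₀ : ℝ} (hκ₀ : 0 < κ₀) :
    ∃ c : ι → E d, (∀ i, ‖c i‖ ≤ κ₀) ∧ Function.Injective (fun i => n i + c i) ∧
      Function.Injective (fun i => n' i + c i) := by
  classical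
  set e₀ : E d := EuclideanSpace.single ⟨0, hd⟩ (1 : ℝ) with he₀
  have he₀n : ‖e₀‖ = 1 := by simp [he₀]
  have he₀ne : e₀ ≠ 0 := by
    intro h
    rw [h, norm_zero] at he₀n
    exact zero_ne_one he₀n
  set ℓ : ι → ℝ := fun i => ((Fintype.equivFin ι i : ℕ) : ℝ) with hℓ
  have hℓinj : Function.Injective ℓ := by
    intro i j h
    simp only [hℓ, Nat.cast_inj] at h
    exact (Fintype.equivFin ι).injective (Fin.ext h)
  have hℓ0 : ∀ i, 0 ≤ ℓ i := fun i => Nat.cast_nonneg _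
  have hℓb : ∀ i, ℓ i ≤ Fintype.card ι := fun i => by
    simp only [hℓ]
    exact_mod_cast (Fintype.equivFin ι i).is_lt.le
  -- the bad set for a family
  have hbad : ∀ w : ι → E d, {κ : ℝ | ¬ Function.Injective fun i => w i + (κ * ℓ i) • e₀}.Finite := by
    intro w
    have hsub : {κ : ℝ | ¬ Function.Injective fun i => w i + (κ * ℓ i) • e₀} ⊆
        ⋃ p : ι × ι, {κ : ℝ | p.1 ≠ p.2 ∧ w p.1 + (κ * ℓ p.1) • e₀ = w p.2 + (κ * ℓ p.2) • e₀} := by
      intro κ hκ
      simp only [mem_ofPred_eq, Function.Injective] at hκ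
      push Not at hκ
      obtain ⟨i, j, h1, h2⟩ := hκ
      exact mem_iUnion.mpr ⟨(i, j), h2, h1⟩
    refine (finite_iUnion fun p => ?_).subset hsub
    apply Set.Subsingleton.finite
    rintro κ₁ ⟨h1, h2⟩ κ₂ ⟨-, h3⟩
    have h4 : (κ₁ * ℓ p.1) • e₀ - (κ₁ * ℓ p.2) • e₀ = (κ₂ * ℓ p.1) • e₀ - (κ₂ * ℓ p.2) • e₀ := by
      have h5 : (κ₁ * ℓ p.1) • e₀ - (κ₁ * ℓ p.2) • e₀ = w p.2 - w p.1 := by
        rw [sub_eq_sub_iff_add_eq_add]
        rw [add_comm]
        rw [h2]
      have h6 : (κ₂ * ℓ p.1) • e₀ - (κ₂ * ℓ p.2) • e₀ = w p.2 - w p.1 := by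
        rw [sub_eq_sub_iff_add_eq_add]
        rw [add_comm]
        rw [h3]
      rw [h5, h6]
    rw [← sub_smul, ← sub_smul] at h4
    have h7 : (κ₁ * ℓ p.1 - κ₁ * ℓ p.2) = (κ₂ * ℓ p.1 - κ₂ * ℓ p.2) := smul_left_injective _ he₀ne h4
    have h8 : ℓ p.1 - ℓ p.2 ≠ 0 := sub_ne_zero.mpr fun h => h1 (hℓinj h)
    have h9 : (κ₁ - κ₂) * (ℓ p.1 - ℓ p.2) = 0 := by linarith
    have h10 := (mul_eq_zero.mp h9).resolve_right h8
    linarith
  have hκ₁ : 0 < κ₀ / (Fintype.card ι + 1) := by positivity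
  have hinf : (Ioo 0 (κ₀ / (Fintype.card ι + 1))).Infinite := Ioo_infinite hκ₁
  obtain ⟨κ, hκ, hκbad⟩ := (hinf.sdiff ((hbad n).union (hbad n'))).nonempty
  have hκ1 : ¬ ¬ Function.Injective fun i => n i + (κ * ℓ i) • e₀ := fun h =>
    hκbad (Or.inl h)
  have hκ2 : ¬ ¬ Function.Injective fun i => n' i + (κ * ℓ i) • e₀ := fun h =>
    hκbad (Or.inr h)
  refine ⟨fun i => (κ * ℓ i) • e₀, fun i => ?_, not_not.mp hκ1, not_not.mp hκ2⟩
  rw [norm_smul, he₀n, mul_one, Real.norm_eq_abs, abs_of_nonneg (mul_nonneg hκ.1.le (hℓ0 i))]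
  have h1 := hκ.2
  rw [lt_div_iff₀ (by positivity)] at h1
  have h2 := hℓb i
  have h3 := hκ.1
  nlinarith

/-- The nonnull fibres of a simple function. -/
theorem fibres_data {X Z : Type*} [MeasurableSpace X] (π : Measure X) [IsProbabilityMeasure π]
    (Qs : SimpleFunc X Z) :
    ∃ P : Finset Z, (∀ w ∈ P, π (Qs ⁻¹' {w}) ≠ 0) ∧ (∀ᵐ p ∂π, Qs p ∈ P) ∧ P.Nonempty ∧
      ∑ w ∈ P, π (Qs ⁻¹' {w}) = 1 := by
  classical
  set P : Finset Z := Qs.range.filter fun w => π (Qs ⁻¹' {w}) ≠ 0 with hP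
  have hmem : ∀ w ∈ P, π (Qs ⁻¹' {w}) ≠ 0 := fun w hw => (Finset.mem_filter.mp hw).2
  have hsum : ∑ w ∈ P, π (Qs ⁻¹' {w}) = 1 := by
    have h1 := Qs.sum_range_measure_preimage_singleton π
    rw [measure_univ] at h1
    rw [← h1]
    apply Finset.sum_subset (Finset.filter_subset _ _)
    intro w hw hw'
    by_contra hne
    exact hw' (Finset.mem_filter.mpr ⟨hw, hne⟩)
  have hae : ∀ᵐ p ∂π, Qs p ∈ P := by
    have h1 : ∀ w ∈ Qs.range \ P, ∀ᵐ p ∂π, Qs p ≠ w := by
      intro w hw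
      rw [Finset.mem_sdiff] at hw
      have h0 : π (Qs ⁻¹' {w}) = 0 := by
        by_contra hne
        exact hw.2 (Finset.mem_filter.mpr ⟨hw.1, hne⟩)
      rw [ae_iff]
      refine measure_mono_null ?_ h0
      intro p hp
      simpa using hp
    have h2 := (Finset.eventually_all (Qs.range \ P)).mpr h1
    filter_upwards [h2] with p hp
    by_contra hnot
    exact hp (Qs p) (Finset.mem_sdiff.mpr ⟨Qs.mem_range_self p, hnot⟩) rfl
  have hne : P.Nonempty := by
    by_contra hemp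
    rw [Finset.not_nonempty_iff_eq_empty] at hemp
    rw [hemp, Finset.sum_empty] at hsum
    exact zero_ne_one hsum
  exact ⟨P, hmem, hae, hne, hsum⟩

/-- Discretisation of a coupling. -/
theorem exists_discretisation (hd : 1 ≤ d) {π : Measure (E d × E d)} [IsProbabilityMeasure π]
    {R η s : ℝ} (hR : 0 ≤ R) (hη : 0 < η) (hs : 0 < s) (hηs : 4 * η ≤ s)
    (h1 : ∀ᵐ p ∂π, ‖p.1‖ ≤ R) (h2 : ∀ᵐ p ∂π, ‖p.2‖ ≤ R) :
    ∃ (ι : Type) (_ : Fintype ι) (_ : Nonempty ι) (a b : ι → E d) (m : ι → ℝ)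
      (ra rb : E d × E d → E d),
      Function.Injective a ∧ Function.Injective b ∧ (∀ i, ‖a i‖ ≤ R + η) ∧ (∀ i, ‖b i‖ ≤ R + η) ∧
      (∀ i, ‖b i - a i‖ ≤ s) ∧ (∀ i, 0 < m i) ∧ ∑ i, m i = 1 ∧ Measurable ra ∧ Measurable rb ∧
      π.map ra = ∑ i, ENNReal.ofReal (m i) • Measure.dirac (a i) ∧
      π.map rb = ∑ i, ENNReal.ofReal (m i) • Measure.dirac (b i) ∧
      (∀ᵐ p ∂π, ‖p.1 - ra p‖ ≤ 2 * η) ∧
      (∀ᵐ p ∂π, ‖rb p - p.2‖ ≤ 2 * η + (2 / s) * ‖p.1 - p.2‖ ^ 2) := by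
  classical
  obtain ⟨q, hq1, hq2⟩ := exists_net (d := d) R hR hη
  obtain ⟨Qs, hQs⟩ : ∃ Qs : SimpleFunc (E d × E d) (E d × E d), ∀ p, Qs p = (q p.1, q p.2) :=
    ⟨(q.comp Prod.fst measurable_fst).pair (q.comp Prod.snd measurable_snd), fun p => rfl⟩
  obtain ⟨P, hPne0, hPae, hPne, hPsum⟩ := fibres_data π Qs
  -- the index type
  have : Nonempty { w // w ∈ P } := hPne.to_subtype
  set n : { w // w ∈ P } → E d := fun w => w.1.1 with hn
  set n' : { w // w ∈ P } → E d := fun w => if ‖w.1.1 - w.1.2‖ ≤ s then w.1.2 else w.1.1 with hn'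
  obtain ⟨c, hc, hcn, hcn'⟩ := exists_perturbation hd n n' hη
  set a : { w // w ∈ P } → E d := fun i => n i + c i with ha
  set b : { w // w ∈ P } → E d := fun i => n' i + c i with hb
  set m : { w // w ∈ P } → ℝ := fun i => (π (Qs ⁻¹' {i.1})).toReal with hm
  have hfin : ∀ S : Set (E d × E d), π S ≠ ∞ := fun S => measure_ne_top π S
  have hmpos : ∀ i, 0 < m i := fun i => ENNReal.toReal_pos (hPne0 i.1 i.2) (hfin _)
  have hofm : ∀ i, ENNReal.ofReal (m i) = π (Qs ⁻¹' {i.1}) := fun i =>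
    ENNReal.ofReal_toReal (hfin _)
  have hmsum : ∑ i, m i = 1 := by
    have h3 : ∑ i : { w // w ∈ P }, π (Qs ⁻¹' {i.1}) = 1 := by
      rw [← hPsum]
      exact Finset.sum_coe_sort P (fun w => π (Qs ⁻¹' {w}))
    have h4 : ENNReal.ofReal (∑ i, m i) = 1 := by
      rw [ENNReal.ofReal_sum_of_nonneg (fun i _ => (hmpos i).le)]
      simp_rw [hofm]
      exact h3
    have h5 : ∑ i, m i = (ENNReal.ofReal (∑ i, m i)).toReal :=
      (ENNReal.toReal_ofReal (Finset.sum_nonneg fun i _ => (hmpos i).le)).symm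
    rw [h5, h4]
    rfl
  -- the maps
  set i₀ : { w // w ∈ P } := Classical.arbitrary _ with hi₀
  set Ga : E d × E d → E d := fun w => if h : w ∈ P then a ⟨w, h⟩ else a i₀ with hGa
  set Gb : E d × E d → E d := fun w => if h : w ∈ P then b ⟨w, h⟩ else b i₀ with hGb
  have hram : Measurable (Ga ∘ Qs) := by
    have := (Qs.map Ga).measurable
    rwa [SimpleFunc.coe_map] at this
  have hrbm : Measurable (Gb ∘ Qs) := by
    have := (Qs.map Gb).measurable
    rwa [SimpleFunc.coe_map] at this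
  have hDm : ∀ i : { w // w ∈ P }, MeasurableSet (Qs ⁻¹' {i.1}) := fun i => Qs.measurableSet_fiber _
  have hdisj : Pairwise (Function.onFun (AEDisjoint π) fun i : { w // w ∈ P } => Qs ⁻¹' {i.1}) := by
    intro i j hij
    apply Disjoint.aedisjoint
    rw [Set.disjoint_left]
    intro x hx hx'
    apply hij
    apply Subtype.ext
    have h3 : Qs x = i.1 := hx
    have h4 : Qs x = j.1 := hx'
    rw [← h3, ← h4]
  have hcov : π (⋃ i : { w // w ∈ P }, Qs ⁻¹' {i.1})ᶜ = 0 := by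
    have h3 : π {p | ¬ Qs p ∈ P} = 0 := ae_iff.mp hPae
    refine measure_mono_null ?_ h3
    intro x hx hxP
    apply hx
    exact mem_iUnion.mpr ⟨⟨Qs x, hxP⟩, rfl⟩
  have hGaval : ∀ i : { w // w ∈ P }, Ga i.1 = a i := fun i => by
    simp only [hGa, i.2, dif_pos]
  have hGbval : ∀ i : { w // w ∈ P }, Gb i.1 = b i := fun i => by
    simp only [hGb, i.2, dif_pos]
  have hPval : ∀ w ∈ P, ‖w.1‖ ≤ R ∧ ‖w.2‖ ≤ R := by
    intro w hw
    have hne : (Qs ⁻¹' {w}).Nonempty := by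
      by_contra hemp
      rw [not_nonempty_iff_eq_empty] at hemp
      exact hPne0 w hw (by rw [hemp, measure_empty])
    obtain ⟨x, hx⟩ := hne
    have h3 : Qs x = w := hx
    rw [← h3, hQs]
    exact ⟨hq2 _, hq2 _⟩
  have hbn' : ∀ i, ‖n' i‖ ≤ R := fun i => by
    simp only [hn']
    split_ifs
    · exact (hPval i.1 i.2).2
    · exact (hPval i.1 i.2).1
  refine ⟨{ w // w ∈ P }, inferInstance, inferInstance, a, b, m, Ga ∘ Qs, Gb ∘ Qs, hcn, hcn', ?_, ?_,
    ?_, hmpos, hmsum, hram, hrbm, ?_, ?_, ?_, ?_⟩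
  · intro i
    have h3 := (hPval i.1 i.2).1
    have h4 := hc i
    have h5 := norm_add_le (n i) (c i)
    simp only [ha]
    simp only [hn] at h5
    linarith
  · intro i
    have h3 := hbn' i
    have h4 := hc i
    have h5 := norm_add_le (n' i) (c i)
    simp only [hb]
    linarith
  · intro i
    have e : b i - a i = n' i - n i := by
      simp only [ha, hb]
      abel
    rw [e]
    simp only [hn', hn]
    split_ifs with h3
    · rw [norm_sub_rev]; exact h3
    · simpa using hs.le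
  · simp_rw [hofm]
    refine map_eq_sum_dirac π _ hDm hdisj hcov hram fun i => ?_
    filter_upwards [ae_restrict_mem (hDm i)] with x hx
    have h3 : Qs x = i.1 := hx
    simp only [Function.comp, h3, hGaval]
  · simp_rw [hofm]
    refine map_eq_sum_dirac π _ hDm hdisj hcov hrbm fun i => ?_
    filter_upwards [ae_restrict_mem (hDm i)] with x hx
    have h3 : Qs x = i.1 := hx
    simp only [Function.comp, h3, hGbval]
  · filter_upwards [h1, hPae] with p hp1 hpP
    obtain ⟨i, hi⟩ : ∃ i : { w // w ∈ P }, i.1 = Qs p := ⟨⟨Qs p, hpP⟩, rfl⟩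
    have h3 : (Ga ∘ Qs) p = a i := by
      simp only [Function.comp, ← hi, hGaval]
    rw [h3]
    have e : n i = q p.1 := by
      simp only [hn, hi, hQs]
    have h4 := hq1 _ hp1
    have h5 := hc i
    have h6 : p.1 - a i = -(q p.1 - p.1) - c i := by
      simp only [ha, e]
      abel
    rw [h6]
    have h7 := norm_sub_le (-(q p.1 - p.1)) (c i)
    rw [norm_neg] at h7
    linarith
  · filter_upwards [h1, h2, hPae] with p hp1 hp2 hpP
    obtain ⟨i, hi⟩ : ∃ i : { w // w ∈ P }, i.1 = Qs p := ⟨⟨Qs p, hpP⟩, rfl⟩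
    have h3 : (Gb ∘ Qs) p = b i := by
      simp only [Function.comp, ← hi, hGbval]
    rw [h3]
    have e : n' i = if ‖q p.1 - q p.2‖ ≤ s then q p.2 else q p.1 := by
      simp only [hn', hi, hQs]
    have h4 := hq1 _ hp1
    have h4' := hq1 _ hp2
    have h5 := hc i
    have hnonneg : 0 ≤ (2 / s) * ‖p.1 - p.2‖ ^ 2 := by positivity
    by_cases hcase : ‖q p.1 - q p.2‖ ≤ s
    · rw [if_pos hcase] at e
      have h6 : b i - p.2 = (q p.2 - p.2) + c i := by
        simp only [hb, e]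
        abel
      rw [h6]
      have h7 := norm_add_le (q p.2 - p.2) (c i)
      linarith
    · rw [if_neg hcase] at e
      have h6 : b i - p.2 = (q p.1 - p.1) + c i + (p.1 - p.2) := by
        simp only [hb, e]
        abel
      rw [h6]
      have h7 := norm_add₃_le (a := q p.1 - p.1) (b := c i) (c := p.1 - p.2)
      push Not at hcase
      have h8 : q p.1 - q p.2 = (q p.1 - p.1) + (p.1 - p.2) - (q p.2 - p.2) := by abel
      have h9 : ‖q p.1 - q p.2‖ ≤ ‖q p.1 - p.1‖ + ‖p.1 - p.2‖ + ‖q p.2 - p.2‖ := by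
        rw [h8]
        exact (norm_sub_le _ _).trans (by gcongr; exact norm_add_le _ _)
      have h10 : s / 2 ≤ ‖p.1 - p.2‖ := by linarith
      have h11 : ‖p.1 - p.2‖ ≤ (2 / s) * ‖p.1 - p.2‖ ^ 2 := by
        have h12 : 0 ≤ ‖p.1 - p.2‖ := norm_nonneg _
        rw [div_mul_eq_mul_div, le_div_iff₀ hs]
        nlinarith
      linarith

theorem uniformProb_null {K S : Set (E d)} (h : volume S = 0) : uniformProb K S = 0 := by
  apply uniformProb_ac
  exact le_antisymm ((Measure.restrict_apply_le K S).trans h.le) zero_le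

/-- The map of an atomic target. -/
theorem exists_atomic_map [Fintype ι] [Nonempty ι] {K : Set (E d)} (hK : IsCompact K) {V RK RY : ℝ}
    (hVpos : 0 < V) (hV : (volume K).toReal = V) (hRK : ∀ x ∈ K, ‖x‖ ≤ RK) (hRK0 : 0 ≤ RK)
    {a : ι → E d} (ha : Function.Injective a) (haY : ∀ i, ‖a i‖ ≤ RY) (hRY0 : 0 ≤ RY)
    {m : ι → ℝ} (hm : ∀ i, 0 < m i) (hmsum : ∑ i, m i = 1) :
    ∃ (u : ι → ℝ) (T : E d → E d), Solves K (fun i => V * m i) a (fun _ => 1) u ∧ IsLMap a u T ∧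
      (uniformProb K).map T = ∑ i, ENNReal.ofReal (m i) • Measure.dirac (a i) := by
  classical
  have hone := isDens_one (d := d)
  have hint1 : ∫ _ in K, (1 : ℝ) = V := by
    rw [setIntegral_const, smul_eq_mul, mul_one, Measure.real]; exact hV
  obtain ⟨u, hu⟩ := exists_solves (M := fun i => V * m i) hK ha hone
    (fun i => mul_pos hVpos (hm i)) (by rw [← Finset.mul_sum, hmsum, mul_one, hint1]) hRK haY hRK0 hRY0
  obtain ⟨T, hT⟩ := exists_isLMap a u
  refine ⟨u, T, hu, hT, ?_⟩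
  have hcell : ∀ i, uniformProb K (lcell K a u i) = ENNReal.ofReal (m i) := by
    intro i
    have hc := isCompact_lcell (y := a) (u := u) hK i
    have h1 : (volume (lcell K a u i)).toReal = V * m i := by
      have := hu i
      rwa [setIntegral_const, smul_eq_mul, mul_one, Measure.real] at this
    have hV' : volume K = ENNReal.ofReal V := by
      rw [← hV, ENNReal.ofReal_toReal hK.measure_lt_top.ne]
    have h2 : volume (lcell K a u i) = ENNReal.ofReal (V * m i) := by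
      rw [← h1, ENNReal.ofReal_toReal hc.measure_lt_top.ne]
    simp only [uniformProb, Measure.smul_apply, smul_eq_mul]
    rw [Measure.restrict_apply hc.measurableSet, inter_eq_left.mpr (lcell_subset K a u i), h2, hV',
      ENNReal.ofReal_mul hVpos.le, ← mul_assoc, ENNReal.inv_mul_cancel (by simpa using hVpos)
      ENNReal.ofReal_ne_top, one_mul]
  simp_rw [← hcell]
  refine map_eq_sum_dirac _ _ (fun i => measurableSet_lcell hK.isClosed a u i) ?_ ?_ hT.meas ?_
  · intro i j hij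
    exact uniformProb_null (volume_lcell_inter ha hij)
  · rw [iUnion_lcell]
    simp only [uniformProb, Measure.smul_apply, smul_eq_mul]
    rw [Measure.restrict_apply hK.measurableSet.compl]
    simp
  · intro i
    have hc := isCompact_lcell (y := a) (u := u) hK i
    have hbad : uniformProb K (⋃ j : { j // j ≠ i }, lcell K a u i ∩ lcell K a u j) = 0 := by
      apply uniformProb_null
      apply measure_iUnion_null
      intro j
      exact volume_lcell_inter ha (Ne.symm j.2)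
    have hae : ∀ᵐ x ∂(uniformProb K), x ∉ ⋃ j : { j // j ≠ i }, lcell K a u i ∩ lcell K a u j :=
      measure_eq_zero_iff_ae_notMem.mp hbad
    have hae2 := ae_restrict_of_ae (s := lcell K a u i) hae
    filter_upwards [hae2, ae_restrict_mem hc.measurableSet] with x hx hxi
    obtain ⟨j, hj1, hj2⟩ := hT.spec x
    rw [hj1]
    by_cases hji : j = i
    · rw [hji]
    · exfalso
      apply hx
      refine mem_iUnion.mpr ⟨⟨j, hji⟩, hxi, hxi.1, fun k => ?_⟩
      rw [← hj2]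
      exact lplane_le_lmax a u k x

/-- The `L²` distance from the integral over `K`. -/
theorem L2Dist_eq_of_integral {K : Set (E d)} {S T : E d → E d} (hS : Measurable S)
    (hT : Measurable T) {R : ℝ} (hSb : ∀ x, ‖S x‖ ≤ R) (hTb : ∀ x, ‖T x‖ ≤ R)
    [IsProbabilityMeasure (uniformProb K)] :
    L2Dist (uniformProb K) S T =
      ENNReal.ofReal (Real.sqrt (((volume K).toReal)⁻¹ * ∫ x in K, ‖S x - T x‖ ^ 2)) := by
  have hint : Integrable (fun x => ‖S x - T x‖ ^ 2) (uniformProb K) := by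
    refine Integrable.of_bound (C := (R + R) ^ 2) (by fun_prop) ?_
    filter_upwards with x
    rw [Real.norm_eq_abs, abs_of_nonneg (by positivity)]
    have := norm_sub_le (S x) (T x)
    have h0 := hSb x
    have h1 := hTb x
    gcongr
    linarith
  have hI0 : 0 ≤ ∫ x, ‖S x - T x‖ ^ 2 ∂(uniformProb K) := integral_nonneg fun _ => by positivity
  unfold L2Dist
  rw [← ofReal_integral_eq_lintegral_ofReal hint
    (Filter.Eventually.of_forall fun _ => by positivity),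
    ENNReal.ofReal_rpow_of_nonneg hI0 (by norm_num), integral_uniformProb, Real.sqrt_eq_rpow]

/-- The constant in the atomic estimate. -/
noncomputable def WJ (d : ℕ) (R δ D : ℝ) (J : ℕ) : ℝ :=
  d * (2 * (8 * R * (d / δ) + 1) * (D * ((2 * d + 4) * (2 + 16 * (J + 2)) + 3) + 1) +
    12 * R ^ 2 * (d / δ))

/-- The main estimate for a single coupling and a single discretisation scale. -/
theorem coupling_bound {K : Set (E d)} (hK : IsCompact K) (hconv : Convex ℝ K) {c₀ : E d} {δ : ℝ}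
    (hδ : 0 < δ) (hball : Metric.closedBall c₀ δ ⊆ K) (hd : 1 ≤ d) {RK D R : ℝ}
    (hRK : ∀ x ∈ K, ‖x‖ ≤ RK) (hD : ∀ x ∈ K, ∀ x' ∈ K, ‖x - x'‖ ≤ D) (hR0 : 0 ≤ R)
    {S₀ S₁ : E d → E d} (hS₀m : Measurable S₀) (hS₁m : Measurable S₁)
    (hS₀b : ∀ x, ‖S₀ x‖ ≤ R) (hS₁b : ∀ x, ‖S₁ x‖ ≤ R)
    (hS₀g : IsGradConvex K S₀) (hS₁g : IsGradConvex K S₁)
    {π : Measure (E d × E d)} (hπ₀ : π.map Prod.fst = (uniformProb K).map S₀)
    (hπ₁ : π.map Prod.snd = (uniformProb K).map S₁)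
    {η s : ℝ} (hη : 0 < η) (hη1 : η ≤ 1) (hs : 0 < s) (hηs : 4 * η ≤ s) {J : ℕ}
    (hJ : (4 * (R + 1) + s) / s ≤ (2 : ℝ) ^ J) :
    L2Dist (uniformProb K) S₀ S₁ ≤
      ENNReal.ofReal (Real.sqrt (2 * (R + 1) * d * (2 * RK + 6 * (R + 1) * d / δ))) *
          ENNReal.ofReal (2 * η) ^ (1 / 4 : ℝ) +
        ENNReal.ofReal (Real.sqrt (s * WJ d (R + 1) δ D J)) +
        ENNReal.ofReal (Real.sqrt (2 * (R + 1) * d * (2 * RK + 6 * (R + 1) * d / δ))) *
          (ENNReal.ofReal (2 * η) + ENNReal.ofReal (2 / s) *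
            ∫⁻ p, ENNReal.ofReal (‖p.1 - p.2‖ ^ 2) ∂π) ^ (1 / 4 : ℝ) := by
  classical
  have hKfin : volume K ≠ ∞ := hK.measure_lt_top.ne
  have hKpos : volume K ≠ 0 :=
    (lt_of_lt_of_le (Metric.measure_closedBall_pos volume c₀ hδ) (measure_mono hball)).ne'
  have hprob : IsProbabilityMeasure (uniformProb K) := isProb_uniformProb hKpos hKfin
  obtain ⟨V, hV⟩ : ∃ V, (volume K).toReal = V := ⟨_, rfl⟩
  have hVpos : 0 < V := by
    rw [← hV]; exact ENNReal.toReal_pos hKpos hKfin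
  have hc₀K : c₀ ∈ K := hball (Metric.mem_closedBall_self hδ.le)
  have hRK0 : 0 ≤ RK := (norm_nonneg _).trans (hRK c₀ hc₀K)
  have hR'0 : 0 ≤ R + 1 := by linarith
  have hπprob : IsProbabilityMeasure π := by
    constructor
    have h1 : (π.map Prod.fst) univ = π univ := by
      rw [Measure.map_apply measurable_fst MeasurableSet.univ, preimage_univ]
    rw [← h1, hπ₀, Measure.map_apply hS₀m MeasurableSet.univ, preimage_univ]
    exact measure_univ
  have hcl : MeasurableSet (Metric.closedBall (0 : E d) R) :=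
    Metric.isClosed_closedBall.measurableSet
  have hae₀ : ∀ᵐ p ∂π, ‖p.1‖ ≤ R := by
    have h1 : ∀ᵐ y ∂(π.map Prod.fst), y ∈ Metric.closedBall (0 : E d) R := by
      rw [hπ₀]
      exact (ae_map_iff (p := fun y => y ∈ Metric.closedBall (0 : E d) R) hS₀m.aemeasurable
        hcl).mpr (Filter.Eventually.of_forall fun x => by simpa using hS₀b x)
    have h2 := (ae_map_iff (p := fun y => y ∈ Metric.closedBall (0 : E d) R)
      measurable_fst.aemeasurable hcl).mp h1
    filter_upwards [h2] with p hp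
    simpa using hp
  have hae₁ : ∀ᵐ p ∂π, ‖p.2‖ ≤ R := by
    have h1 : ∀ᵐ y ∂(π.map Prod.snd), y ∈ Metric.closedBall (0 : E d) R := by
      rw [hπ₁]
      exact (ae_map_iff (p := fun y => y ∈ Metric.closedBall (0 : E d) R) hS₁m.aemeasurable
        hcl).mpr (Filter.Eventually.of_forall fun x => by simpa using hS₁b x)
    have h2 := (ae_map_iff (p := fun y => y ∈ Metric.closedBall (0 : E d) R)
      measurable_snd.aemeasurable hcl).mp h1
    filter_upwards [h2] with p hp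
    simpa using hp
  obtain ⟨ι', _, _, a, b, m, ra, rb, ha, hb, haY, hbY, hab, hm, hmsum, hram, hrbm, hramap, hrbmap,
    hrab, hrbb⟩ := exists_discretisation hd hR0 hη hs hηs hae₀ hae₁
  have haY' : ∀ i, ‖a i‖ ≤ R + 1 := fun i => (haY i).trans (by linarith)
  have hbY' : ∀ i, ‖b i‖ ≤ R + 1 := fun i => (hbY i).trans (by linarith)
  obtain ⟨ua, Ta, hua, hTa, hTamap⟩ := exists_atomic_map hK hVpos hV hRK hRK0 ha haY' hR'0 hm hmsum
  obtain ⟨ub, Tb, hub, hTb, hTbmap⟩ := exists_atomic_map hK hVpos hV hRK hRK0 hb hbY' hR'0 hm hmsum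
  have hTab : ∀ x, ‖Ta x‖ ≤ R + 1 := hTa.norm_le haY'
  have hTbb : ∀ x, ‖Tb x‖ ≤ R + 1 := hTb.norm_le hbY'
  have hS₀b' : ∀ x, ‖S₀ x‖ ≤ R + 1 := fun x => (hS₀b x).trans (by linarith)
  have hS₁b' : ∀ x, ‖S₁ x‖ ≤ R + 1 := fun x => (hS₁b x).trans (by linarith)
  -- the middle term
  have hmid : L2Dist (uniformProb K) Ta Tb ≤ ENNReal.ofReal (Real.sqrt (s * WJ d (R + 1) δ D J)) := by
    rw [L2Dist_eq_of_integral hTa.meas hTb.meas hTab hTbb]
    apply ENNReal.ofReal_le_ofReal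
    apply Real.sqrt_le_sqrt
    have hat := atomic_L2 (M := fun i => V * m i) (V := V) hK hconv hδ hball hd hRK hD ha hb haY'
      hbY' hab (fun i => mul_pos hVpos (hm i)) (by rw [← Finset.mul_sum, hmsum, mul_one]) hV hua hub
      hTa hTb hs J hJ
    rw [hV]
    have hVinv : 0 ≤ V⁻¹ := by positivity
    refine (mul_le_mul_of_nonneg_left hat hVinv).trans (le_of_eq ?_)
    simp only [WJ]
    field_simp
    ring
  -- the first coupling
  have hcoupA : L2Dist (uniformProb K) S₀ Ta ≤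
      ENNReal.ofReal (Real.sqrt (2 * (R + 1) * d * (2 * RK + 6 * (R + 1) * d / δ))) *
        ENNReal.ofReal (2 * η) ^ (1 / 4 : ℝ) := by
    have hpair : Measurable fun p : E d × E d => (p.1, ra p) := measurable_fst.prodMk hram
    have h1 := L2Dist_le_of_coupling_W1 hK hconv hδ hball hd hRK hS₀m hTa.meas hS₀b' hTab hS₀g
      (hTa.isGradConvex hK.measurableSet) (π.map fun p => (p.1, ra p))
      (by
        rw [Measure.map_map measurable_fst hpair, ← hπ₀]
        rfl)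
      (by
        rw [Measure.map_map measurable_snd hpair, hTamap, ← hramap]
        rfl)
    refine h1.trans ?_
    gcongr
    rw [lintegral_map (by fun_prop) hpair]
    calc ∫⁻ p, ENNReal.ofReal ‖p.1 - ra p‖ ∂π ≤ ∫⁻ _, ENNReal.ofReal (2 * η) ∂π := by
          apply lintegral_mono_ae
          filter_upwards [hrab] with p hp
          exact ENNReal.ofReal_le_ofReal hp
      _ = ENNReal.ofReal (2 * η) := by simp
  -- the second coupling
  have hcoupB : L2Dist (uniformProb K) Tb S₁ ≤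
      ENNReal.ofReal (Real.sqrt (2 * (R + 1) * d * (2 * RK + 6 * (R + 1) * d / δ))) *
        (ENNReal.ofReal (2 * η) + ENNReal.ofReal (2 / s) *
          ∫⁻ p, ENNReal.ofReal (‖p.1 - p.2‖ ^ 2) ∂π) ^ (1 / 4 : ℝ) := by
    have hpair : Measurable fun p : E d × E d => (rb p, p.2) := hrbm.prodMk measurable_snd
    have h1 := L2Dist_le_of_coupling_W1 hK hconv hδ hball hd hRK hTb.meas hS₁m hTbb hS₁b'
      (hTb.isGradConvex hK.measurableSet) hS₁g (π.map fun p => (rb p, p.2))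
      (by
        rw [Measure.map_map measurable_fst hpair, hTbmap, ← hrbmap]
        rfl)
      (by
        rw [Measure.map_map measurable_snd hpair, ← hπ₁]
        rfl)
    refine h1.trans ?_
    gcongr
    rw [lintegral_map (by fun_prop) hpair]
    have hmeas : Measurable fun p : E d × E d => ENNReal.ofReal (‖p.1 - p.2‖ ^ 2) := by fun_prop
    calc ∫⁻ p, ENNReal.ofReal ‖rb p - p.2‖ ∂π
        ≤ ∫⁻ p, (ENNReal.ofReal (2 * η) + ENNReal.ofReal (2 / s) * ENNReal.ofReal (‖p.1 - p.2‖ ^ 2)) ∂π := by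
          apply lintegral_mono_ae
          filter_upwards [hrbb] with p hp
          rw [← ENNReal.ofReal_mul (by positivity), ← ENNReal.ofReal_add (by positivity)
            (by positivity)]
          exact ENNReal.ofReal_le_ofReal hp
      _ = _ := by
          rw [lintegral_add_left measurable_const, lintegral_const, measure_univ, mul_one,
            lintegral_const_mul _ hmeas]
  calc L2Dist (uniformProb K) S₀ S₁ ≤ L2Dist (uniformProb K) S₀ Ta + L2Dist (uniformProb K) Ta S₁ :=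
        L2Dist_triangle hS₀m hTa.meas hS₁m
    _ ≤ L2Dist (uniformProb K) S₀ Ta + (L2Dist (uniformProb K) Ta Tb + L2Dist (uniformProb K) Tb S₁) := by
        gcongr
        exact L2Dist_triangle hTa.meas hTb.meas hS₁m
    _ ≤ _ := by
        rw [← add_assoc]
        gcongr

/-- Truncation of an optimal map to the compact set of the target. -/
theorem exists_trunc {K Y : Set (E d)} (hK : IsCompact K) (hconv : Convex ℝ K)
    (hint : (interior K).Nonempty) (hY : IsCompact Y) (hYne : Y.Nonempty) {R : ℝ}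
    (hR : ∀ y ∈ Y, ‖y‖ ≤ R) {T : E d → E d} {η : Measure (E d)} (hη : ∀ᵐ y ∂η, y ∈ Y)
    (hopt : IsOptimalMap (uniformProb K) η T) :
    ∃ S : E d → E d, Measurable S ∧ (∀ x, ‖S x‖ ≤ R) ∧ (S =ᵐ[uniformProb K] T) ∧
      (uniformProb K).map S = η ∧ IsGradConvex K S := by
  classical
  obtain ⟨y₀, hy₀⟩ := id hYne
  have hKfin : volume K ≠ ∞ := hK.measure_lt_top.ne
  have hYm : MeasurableSet Y := hY.isClosed.measurableSet
  have hg := isGradConvex_of_optimal hK hconv hint hY hYne hη hopt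
  obtain ⟨hT, hmap, -⟩ := hopt
  have hae : ∀ᵐ x ∂(uniformProb K), T x ∈ Y := by
    rw [← hmap] at hη
    exact (ae_map_iff (p := fun y => y ∈ Y) hT.aemeasurable hYm).mp hη
  have heq : (fun x => if T x ∈ Y then T x else y₀) =ᵐ[uniformProb K] T := by
    filter_upwards [hae] with x hx
    simp [hx]
  refine ⟨fun x => if T x ∈ Y then T x else y₀, Measurable.ite (hT hYm) hT measurable_const, ?_, heq,
    ?_, ?_⟩
  · intro x
    by_cases h : T x ∈ Y
    · simp only [h, if_true]; exact hR _ h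
    · simp only [h, if_false]; exact hR _ hy₀
  · rw [← hmap]; exact Measure.map_congr heq
  · obtain ⟨φ, hφ⟩ := hg
    refine ⟨φ, ?_⟩
    have hae' : ∀ᵐ x ∂(volume.restrict K), T x ∈ Y :=
      (volume_restrict_ac_uniformProb hKfin).ae_le hae
    filter_upwards [hφ, hae'] with x h1 h2
    simpa [h2] using h1

/-- The choice of `J` for the scale `s = t ^ (2/3)`. -/
theorem exists_J {R' t : ℝ} (hR' : 0 ≤ R') (ht0 : 0 < t) (ht1 : t ≤ 1) :
    ∃ J : ℕ, (4 * R' + t ^ (2 / 3 : ℝ)) / t ^ (2 / 3 : ℝ) ≤ (2 : ℝ) ^ J ∧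
      (J : ℝ) ≤ (Real.logb 2 (1 + 4 * R') + 2) * (1 + Real.log (1 / t)) := by
  set s : ℝ := t ^ (2 / 3 : ℝ) with hs
  have hs0 : 0 < s := by positivity
  have hs1 : s ≤ 1 := Real.rpow_le_one ht0.le ht1 (by norm_num)
  have hlog0 : 0 ≤ Real.log (1 / t) := Real.log_nonneg (by
    rw [le_div_iff₀ ht0]; linarith)
  have hQ : (4 * R' + s) / s ≤ (1 + 4 * R') / s := by
    apply div_le_div_of_nonneg_right _ hs0.le
    linarith
  have hQ1 : 1 ≤ (4 * R' + s) / s := by
    rw [le_div_iff₀ hs0]; linarith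
  have hQ0 : 0 < (1 + 4 * R') / s := by positivity
  refine ⟨⌈Real.logb 2 ((1 + 4 * R') / s)⌉₊, ?_, ?_⟩
  · refine hQ.trans ?_
    have h1 : Real.logb 2 ((1 + 4 * R') / s) ≤ (⌈Real.logb 2 ((1 + 4 * R') / s)⌉₊ : ℝ) :=
      Nat.le_ceil _
    have h2 := (Real.logb_le_iff_le_rpow (b := 2) (by norm_num) hQ0).mp h1
    rwa [Real.rpow_natCast] at h2
  · have hq1 : 1 ≤ (1 + 4 * R') / s := hQ1.trans hQ
    have hl0 : 0 ≤ Real.logb 2 ((1 + 4 * R') / s) := Real.logb_nonneg (by norm_num) hq1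
    have h1 : (⌈Real.logb 2 ((1 + 4 * R') / s)⌉₊ : ℝ) ≤ Real.logb 2 ((1 + 4 * R') / s) + 1 :=
      (Nat.ceil_lt_add_one hl0).le
    refine h1.trans ?_
    have hlog2 : 1 / 2 ≤ Real.log 2 := by
      have := Real.log_two_gt_d9
      linarith
    have h2 : Real.logb 2 ((1 + 4 * R') / s) =
        Real.logb 2 (1 + 4 * R') + (2 / 3) * (Real.log (1 / t) / Real.log 2) := by
      rw [Real.logb_div (by positivity) hs0.ne']
      have hlogs : Real.logb 2 s = -((2 / 3) * (Real.log (1 / t) / Real.log 2)) := by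
        rw [Real.logb, hs, Real.log_rpow ht0, one_div, Real.log_inv]
        ring
      rw [hlogs]
      ring
    have hl2 : 0 ≤ Real.logb 2 (1 + 4 * R') := Real.logb_nonneg (by norm_num) (by linarith)
    have h3 : Real.log (1 / t) / Real.log 2 ≤ 2 * Real.log (1 / t) := by
      rw [div_le_iff₀ (by linarith)]
      nlinarith
    rw [h2]
    nlinarith [mul_nonneg hl2 hlog0]

theorem WJ_linear (d : ℕ) (R δ D : ℝ) (J : ℕ) :
    WJ d R δ D J = WJ d R δ D 0 +
      (d * (2 * (8 * R * (d / δ) + 1) * (D * ((2 * d + 4) * 16)))) * J := by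
  simp only [WJ]
  push_cast
  ring

/-- The estimate for a coupling of small cost. -/
theorem coupling_bound_t {K : Set (E d)} (hK : IsCompact K) (hconv : Convex ℝ K) {c₀ : E d} {δ : ℝ}
    (hδ : 0 < δ) (hball : Metric.closedBall c₀ δ ⊆ K) (hd : 1 ≤ d) {RK D R : ℝ}
    (hRK : ∀ x ∈ K, ‖x‖ ≤ RK) (hD : ∀ x ∈ K, ∀ x' ∈ K, ‖x - x'‖ ≤ D) (hR0 : 0 ≤ R)
    {S₀ S₁ : E d → E d} (hS₀m : Measurable S₀) (hS₁m : Measurable S₁)
    (hS₀b : ∀ x, ‖S₀ x‖ ≤ R) (hS₁b : ∀ x, ‖S₁ x‖ ≤ R)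
    (hS₀g : IsGradConvex K S₀) (hS₁g : IsGradConvex K S₁)
    {π : Measure (E d × E d)} (hπ₀ : π.map Prod.fst = (uniformProb K).map S₀)
    (hπ₁ : π.map Prod.snd = (uniformProb K).map S₁) {t : ℝ} (ht0 : 0 < t) (ht1 : t ≤ 1)
    (hcost : ∫⁻ p, ENNReal.ofReal (‖p.1 - p.2‖ ^ 2) ∂π ≤ ENNReal.ofReal (t ^ 2)) :
    L2Dist (uniformProb K) S₀ S₁ ≤ ENNReal.ofReal
      ((Real.sqrt (WJ d (R + 1) δ D 0 + (d * (2 * (8 * (R + 1) * (d / δ) + 1) * (D * ((2 * d + 4) * 16)))) *
            (Real.logb 2 (1 + 4 * (R + 1)) + 2)) +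
          2 * Real.sqrt (2 * (R + 1) * d * (2 * RK + 6 * (R + 1) * d / δ))) *
        t ^ (1 / 3 : ℝ) * Real.sqrt (1 + Real.log (1 / t))) := by
  obtain ⟨C₃, hC₃⟩ : ∃ C₃, C₃ = Real.sqrt (2 * (R + 1) * d * (2 * RK + 6 * (R + 1) * d / δ)) := ⟨_, rfl⟩
  have hC₃0 : 0 ≤ C₃ := by rw [hC₃]; exact Real.sqrt_nonneg _
  rw [← hC₃]
  obtain ⟨a₁, ha₁⟩ : ∃ a₁, a₁ = (d * (2 * (8 * (R + 1) * (d / δ) + 1) * (D * ((2 * d + 4) * 16)))) :=
    ⟨_, rfl⟩
  rw [← ha₁]
  have hc₀K : c₀ ∈ K := hball (Metric.mem_closedBall_self hδ.le)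
  have hD0 : 0 ≤ D := (norm_nonneg _).trans (hD c₀ hc₀K c₀ hc₀K)
  have ha₁0 : 0 ≤ a₁ := by rw [ha₁]; positivity
  have hW00 : 0 ≤ WJ d (R + 1) δ D 0 := by
    simp only [WJ]
    positivity
  obtain ⟨L, hL⟩ : ∃ L, L = Real.logb 2 (1 + 4 * (R + 1)) := ⟨_, rfl⟩
  have hL0 : 0 ≤ L := by rw [hL]; exact Real.logb_nonneg (by norm_num) (by linarith)
  rw [← hL]
  obtain ⟨ℓ, hℓ⟩ : ∃ ℓ, ℓ = Real.log (1 / t) := ⟨_, rfl⟩
  have hℓ0 : 0 ≤ ℓ := by
    rw [hℓ]
    exact Real.log_nonneg (by rw [le_div_iff₀ ht0]; linarith)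
  rw [← hℓ]
  obtain ⟨s, hs⟩ : ∃ s, s = t ^ (2 / 3 : ℝ) := ⟨_, rfl⟩
  have hs0 : 0 < s := by rw [hs]; positivity
  obtain ⟨τ, hτ⟩ : ∃ τ, τ = t ^ (1 / 3 : ℝ) := ⟨_, rfl⟩
  have hτ0 : 0 < τ := by rw [hτ]; positivity
  rw [← hτ]
  have hsτ : s = τ ^ 2 := by
    rw [hs, hτ, ← Real.rpow_natCast, ← Real.rpow_mul ht0.le]
    norm_num
  have htτ : t = τ ^ 3 := by
    rw [hτ, ← Real.rpow_natCast, ← Real.rpow_mul ht0.le]
    norm_num
  obtain ⟨J, hJ1, hJ2⟩ := exists_J (R' := R + 1) (by linarith) ht0 ht1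
  rw [← hs, ← hL, ← hℓ] at *
  -- the value of `W`
  have hW : WJ d (R + 1) δ D J ≤ (WJ d (R + 1) δ D 0 + a₁ * (L + 2)) * (1 + ℓ) := by
    rw [WJ_linear, ← ha₁]
    have h1 : a₁ * J ≤ a₁ * ((L + 2) * (1 + ℓ)) := mul_le_mul_of_nonneg_left hJ2 ha₁0
    nlinarith
  obtain ⟨C₄, hC₄⟩ : ∃ C₄, C₄ = WJ d (R + 1) δ D 0 + a₁ * (L + 2) := ⟨_, rfl⟩
  rw [← hC₄] at hW ⊢
  have hC₄0 : 0 ≤ C₄ := by rw [hC₄]; positivity
  have h1ℓ : 1 ≤ Real.sqrt (1 + ℓ) := by
    rw [Real.one_le_sqrt]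
    linarith
  -- the bound for all scales
  obtain ⟨B, hB⟩ : ∃ B, B = Real.sqrt (s * WJ d (R + 1) δ D J) + 2 * C₃ * τ := ⟨_, rfl⟩
  have hB0 : 0 ≤ B := by rw [hB]; positivity
  have hscale : ∀ η : ℝ, 0 < η → η < min 1 (s / 4) →
      L2Dist (uniformProb K) S₀ S₁ ≤ ENNReal.ofReal (B + 2 * C₃ * (2 * η) ^ (1 / 4 : ℝ)) := by
    intro η hη hηlt
    have hη1 : η ≤ 1 := (hηlt.trans_le (min_le_left _ _)).le
    have hηs : 4 * η ≤ s := by
      have := hηlt.trans_le (min_le_right _ _)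
      linarith
    have hcb := coupling_bound hK hconv hδ hball hd hRK hD hR0 hS₀m hS₁m hS₀b hS₁b hS₀g hS₁g hπ₀ hπ₁
      hη hη1 hs0 hηs (J := J) hJ1
    rw [← hC₃] at hcb
    refine hcb.trans ?_
    have h2η : 0 ≤ 2 * η := by positivity
    have hsub : (ENNReal.ofReal (2 * η) + ENNReal.ofReal (2 / s) *
        ∫⁻ p, ENNReal.ofReal (‖p.1 - p.2‖ ^ 2) ∂π) ^ (1 / 4 : ℝ) ≤
        ENNReal.ofReal ((2 * η) ^ (1 / 4 : ℝ)) + ENNReal.ofReal (2 * τ) := by
      refine (ENNReal.rpow_add_le_add_rpow _ _ (by norm_num) (by norm_num)).trans ?_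
      rw [ENNReal.ofReal_rpow_of_nonneg h2η (by norm_num)]
      gcongr
      have h3 : ENNReal.ofReal (2 / s) * ∫⁻ p, ENNReal.ofReal (‖p.1 - p.2‖ ^ 2) ∂π ≤
          ENNReal.ofReal (2 * τ ^ 4) := by
        calc _ ≤ ENNReal.ofReal (2 / s) * ENNReal.ofReal (t ^ 2) := by gcongr
          _ = ENNReal.ofReal (2 * τ ^ 4) := by
              rw [← ENNReal.ofReal_mul (by positivity), hsτ, htτ]
              congr 1
              field_simp
      refine (ENNReal.rpow_le_rpow h3 (by norm_num)).trans ?_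
      rw [ENNReal.ofReal_rpow_of_nonneg (by positivity) (by norm_num)]
      apply ENNReal.ofReal_le_ofReal
      rw [Real.mul_rpow (by norm_num) (by positivity), ← Real.rpow_natCast τ 4,
        ← Real.rpow_mul hτ0.le]
      have h5 : (2 : ℝ) ^ (1 / 4 : ℝ) ≤ 2 := by
        calc (2 : ℝ) ^ (1 / 4 : ℝ) ≤ 2 ^ (1 : ℝ) :=
              Real.rpow_le_rpow_of_exponent_le (by norm_num) (by norm_num)
          _ = 2 := Real.rpow_one 2
      have h6 : ((4 : ℕ) : ℝ) * (1 / 4) = 1 := by norm_num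
      rw [h6, Real.rpow_one]
      exact mul_le_mul_of_nonneg_right h5 hτ0.le
    rw [ENNReal.ofReal_rpow_of_nonneg h2η (by norm_num)]
    obtain ⟨a, ha⟩ : ∃ a, a = (2 * η) ^ (1 / 4 : ℝ) := ⟨_, rfl⟩
    have ha0 : 0 ≤ a := by rw [ha]; positivity
    rw [← ha] at hsub ⊢
    calc _ ≤ ENNReal.ofReal C₃ * ENNReal.ofReal a + ENNReal.ofReal (Real.sqrt (s * WJ d (R + 1) δ D J)) +
          ENNReal.ofReal C₃ * (ENNReal.ofReal a + ENNReal.ofReal (2 * τ)) := by gcongr
      _ = ENNReal.ofReal (B + 2 * C₃ * a) := by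
          rw [← ENNReal.ofReal_add ha0 (by positivity), ← ENNReal.ofReal_mul hC₃0,
            ← ENNReal.ofReal_mul hC₃0, ← ENNReal.ofReal_add (by positivity) (by positivity),
            ← ENNReal.ofReal_add (by positivity) (by positivity), hB]
          congr 1
          ring
  -- passing to the limit
  have hlimit : L2Dist (uniformProb K) S₀ S₁ ≤ ENNReal.ofReal B := by
    have hcont : Continuous fun η : ℝ => ENNReal.ofReal (B + 2 * C₃ * (2 * η) ^ (1 / 4 : ℝ)) := by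
      apply ENNReal.continuous_ofReal.comp
      apply Continuous.add continuous_const
      apply Continuous.mul continuous_const
      exact (continuous_const.mul continuous_id).rpow_const fun _ => Or.inr (by norm_num)
    have h0 : ENNReal.ofReal (B + 2 * C₃ * (2 * (0 : ℝ)) ^ (1 / 4 : ℝ)) = ENNReal.ofReal B := by
      simp
    rw [← h0]
    have hm : (0 : ℝ) < min 1 (s / 4) := lt_min one_pos (by positivity)
    apply ge_of_tendsto ((hcont.tendsto 0).mono_left (nhdsWithin_le_nhds (s := Ioi 0)))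
    filter_upwards [Ioo_mem_nhdsGT hm] with η hη
    exact hscale η hη.1 hη.2
  refine hlimit.trans (ENNReal.ofReal_le_ofReal ?_)
  rw [hB]
  have h1 : Real.sqrt (s * WJ d (R + 1) δ D J) ≤ Real.sqrt C₄ * τ * Real.sqrt (1 + ℓ) := by
    have h2 : s * WJ d (R + 1) δ D J ≤ τ ^ 2 * (C₄ * (1 + ℓ)) := by
      rw [hsτ]
      gcongr
    refine (Real.sqrt_le_sqrt h2).trans (le_of_eq ?_)
    rw [Real.sqrt_mul (by positivity), Real.sqrt_sq hτ0.le, Real.sqrt_mul hC₄0]
    ring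
  have h2 : 2 * C₃ * τ ≤ 2 * C₃ * τ * Real.sqrt (1 + ℓ) := by
    have : 0 ≤ 2 * C₃ * τ := by positivity
    nlinarith
  calc _ ≤ Real.sqrt C₄ * τ * Real.sqrt (1 + ℓ) + 2 * C₃ * τ * Real.sqrt (1 + ℓ) := add_le_add h1 h2
    _ = _ := by ring

/-- Stability with exponent `1/3` up to a logarithm, for the uniform measure on a convex body. -/
theorem stability_log (hd : 1 ≤ d) {K : Set (E d)} (hK : IsCompact K) (hconv : Convex ℝ K)
    (hint : (interior K).Nonempty) {Y : Set (E d)} (hY : IsCompact Y) (hYne : Y.Nonempty) :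
    ∃ C : ℝ, 0 ≤ C ∧ ∀ μ ν : Measure (E d), IsProbabilityMeasure μ → IsProbabilityMeasure ν →
      (∀ᵐ y ∂μ, y ∈ Y) → (∀ᵐ y ∂ν, y ∈ Y) →
      ∀ Tμ Tν : E d → E d, IsOptimalMap (uniformProb K) μ Tμ → IsOptimalMap (uniformProb K) ν Tν →
      ∀ t : ℝ, 0 < t → t ≤ 1 → W2 μ ν < ENNReal.ofReal t →
        L2Dist (uniformProb K) Tμ Tν ≤
          ENNReal.ofReal (C * t ^ (1 / 3 : ℝ) * Real.sqrt (1 + Real.log (1 / t))) := by
  obtain ⟨c₀, hc₀⟩ := id hint
  obtain ⟨δ, hδ, hball⟩ := Metric.nhds_basis_closedBall.mem_iff.mp (mem_interior_iff_mem_nhds.mp hc₀)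
  obtain ⟨RK, hRK⟩ := hK.isBounded.exists_norm_le
  obtain ⟨R, hR⟩ := hY.isBounded.exists_norm_le
  obtain ⟨y₀, hy₀⟩ := id hYne
  have hR0 : 0 ≤ R := (norm_nonneg _).trans (hR y₀ hy₀)
  have hc₀K : c₀ ∈ K := interior_subset hc₀
  have hRK0 : 0 ≤ RK := (norm_nonneg _).trans (hRK c₀ hc₀K)
  have hD : ∀ x ∈ K, ∀ x' ∈ K, ‖x - x'‖ ≤ 2 * RK := fun x hx x' hx' => by
    have h1 := norm_sub_le x x'
    have h2 := hRK x hx
    have h3 := hRK x' hx'
    linarith
  refine ⟨Real.sqrt (WJ d (R + 1) δ (2 * RK) 0 +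
      (d * (2 * (8 * (R + 1) * (d / δ) + 1) * ((2 * RK) * ((2 * d + 4) * 16)))) *
        (Real.logb 2 (1 + 4 * (R + 1)) + 2)) +
      2 * Real.sqrt (2 * (R + 1) * d * (2 * RK + 6 * (R + 1) * d / δ)), by positivity,
    fun μ ν _ _ hμ hν Tμ Tν hTμ hTν t ht0 ht1 hW => ?_⟩
  · obtain ⟨S₀, hS₀m, hS₀b, hS₀e, hS₀map, hS₀g⟩ := exists_trunc hK hconv hint hY hYne hR hμ hTμ
    obtain ⟨S₁, hS₁m, hS₁b, hS₁e, hS₁map, hS₁g⟩ := exists_trunc hK hconv hint hY hYne hR hν hTν
    have hL : L2Dist (uniformProb K) Tμ Tν = L2Dist (uniformProb K) S₀ S₁ := by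
      unfold L2Dist
      congr 1
      apply lintegral_congr_ae
      filter_upwards [hS₀e, hS₁e] with x h0 h1
      rw [h0, h1]
    rw [hL]
    have hcost : ∃ π : Measure (E d × E d), π.map Prod.fst = μ ∧ π.map Prod.snd = ν ∧
        ∫⁻ p, ENNReal.ofReal (‖p.1 - p.2‖ ^ 2) ∂π ≤ ENNReal.ofReal (t ^ 2) := by
      unfold W2 at hW
      have hlt : (⨅ (π : Measure (E d × E d)) (_ : π.map Prod.fst = μ ∧ π.map Prod.snd = ν),
          ∫⁻ p, ENNReal.ofReal (‖p.1 - p.2‖ ^ 2) ∂π) < ENNReal.ofReal (t ^ 2) := by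
        by_contra hcon
        push Not at hcon
        have h1 := ENNReal.rpow_le_rpow hcon (by norm_num : (0 : ℝ) ≤ 1 / 2)
        rw [ENNReal.ofReal_rpow_of_nonneg (by positivity) (by norm_num), ← Real.sqrt_eq_rpow,
          Real.sqrt_sq ht0.le] at h1
        exact absurd hW (not_lt.mpr h1)
      obtain ⟨π, hπ'⟩ := iInf_lt_iff.mp hlt
      obtain ⟨hπ, hc⟩ := iInf_lt_iff.mp hπ'
      exact ⟨π, hπ.1, hπ.2, hc.le⟩
    obtain ⟨π, hπ₀, hπ₁, hc⟩ := hcost
    exact coupling_bound_t hK hconv hδ hball hd hRK hD hR0 hS₀m hS₁m hS₀b hS₁b hS₀g hS₁g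
      (by rw [hπ₀, hS₀map]) (by rw [hπ₁, hS₁map]) ht0 ht1 hc

/-- The elementary bound of the logarithm by powers. -/
theorem sqrt_log_le {α t : ℝ} (hα : α < 1 / 3) (ht0 : 0 < t) (ht1 : t ≤ 1) :
    t ^ (1 / 3 : ℝ) * Real.sqrt (1 + Real.log (1 / t)) ≤
      Real.sqrt (1 + 1 / (2 * (1 / 3 - α))) * t ^ α := by
  obtain ⟨β, hβ⟩ : ∃ β, β = 2 * (1 / 3 - α) := ⟨_, rfl⟩
  have hβ0 : 0 < β := by rw [hβ]; linarith
  rw [← hβ]
  have h1t : 1 ≤ 1 / t := by rw [le_div_iff₀ ht0]; linarith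
  have hlog := Real.log_le_rpow_div (x := 1 / t) (by positivity) hβ0
  obtain ⟨w, hw⟩ : ∃ w, w = (1 / t) ^ β := ⟨_, rfl⟩
  have hw1 : 1 ≤ w := by
    rw [hw]
    exact Real.one_le_rpow h1t hβ0.le
  rw [← hw] at hlog
  have h2 : 1 + Real.log (1 / t) ≤ (1 + 1 / β) * w := by
    have h3 : w / β = (1 / β) * w := by ring
    rw [h3] at hlog
    nlinarith
  have h3 : Real.sqrt (1 + Real.log (1 / t)) ≤ Real.sqrt (1 + 1 / β) * Real.sqrt w := by
    rw [← Real.sqrt_mul (by positivity)]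
    exact Real.sqrt_le_sqrt h2
  have h4 : Real.sqrt w = t ^ (-(1 / 3 - α)) := by
    rw [hw, Real.sqrt_eq_rpow, ← Real.rpow_mul (by positivity), one_div, Real.inv_rpow ht0.le,
      ← Real.rpow_neg ht0.le, hβ]
    congr 1
    ring
  have h5 : t ^ (1 / 3 : ℝ) * t ^ (-(1 / 3 - α)) = t ^ α := by
    rw [← Real.rpow_add ht0]
    congr 1
    ring
  calc t ^ (1 / 3 : ℝ) * Real.sqrt (1 + Real.log (1 / t))
      ≤ t ^ (1 / 3 : ℝ) * (Real.sqrt (1 + 1 / β) * Real.sqrt w) := by gcongr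
    _ = Real.sqrt (1 + 1 / β) * (t ^ (1 / 3 : ℝ) * t ^ (-(1 / 3 - α))) := by rw [h4]; ring
    _ = _ := by rw [h5]

/-- Every exponent below `1/3` is admissible. -/
theorem admissible_of_lt_third (hd : 1 ≤ d) {α : ℝ} (hα0 : 0 < α) (hα : α < 1 / 3) :
    Admissible d α := by
  intro K hK hconv hint Y hY hYne
  obtain ⟨C, hC0, hC⟩ := stability_log hd hK hconv hint hY hYne
  obtain ⟨R, hR⟩ := hY.isBounded.exists_norm_le
  obtain ⟨y₀, hy₀⟩ := id hYne
  have hR0 : 0 ≤ R := (norm_nonneg _).trans (hR y₀ hy₀)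
  obtain ⟨c, hc⟩ : ∃ c, c = Real.sqrt (1 + 1 / (2 * (1 / 3 - α))) := ⟨_, rfl⟩
  have hc0 : 0 ≤ c := by rw [hc]; exact Real.sqrt_nonneg _
  refine ⟨(C * c).toNNReal + (2 * R).toNNReal, ?_⟩
  intro μ ν _ _ hμ hν Tμ Tν hTμ hTν
  by_cases hW : W2 μ ν < 1
  · -- small distance
    have hwfin : W2 μ ν ≠ ∞ := (hW.trans ENNReal.one_lt_top).ne
    obtain ⟨w, hw⟩ : ∃ w, w = (W2 μ ν).toReal := ⟨_, rfl⟩
    have hw0 : 0 ≤ w := by rw [hw]; exact ENNReal.toReal_nonneg
    have hwe : W2 μ ν = ENNReal.ofReal w := by rw [hw, ENNReal.ofReal_toReal hwfin]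
    have hw1 : w < 1 := by
      rw [hwe, ← ENNReal.ofReal_one] at hW
      exact (ENNReal.ofReal_lt_ofReal_iff one_pos).mp hW
    have hbound : ∀ t ∈ Ioo w 1, L2Dist (uniformProb K) Tμ Tν ≤ ENNReal.ofReal (C * c * t ^ α) := by
      intro t ht
      have ht0 : 0 < t := hw0.trans_lt ht.1
      have h1 := hC μ ν inferInstance inferInstance hμ hν Tμ Tν hTμ hTν t ht0 ht.2.le (by
        rw [hwe]
        exact (ENNReal.ofReal_lt_ofReal_iff ht0).mpr ht.1)
      refine h1.trans (ENNReal.ofReal_le_ofReal ?_)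
      have h2 := sqrt_log_le hα ht0 ht.2.le
      rw [← hc] at h2
      calc C * t ^ (1 / 3 : ℝ) * Real.sqrt (1 + Real.log (1 / t))
          = C * (t ^ (1 / 3 : ℝ) * Real.sqrt (1 + Real.log (1 / t))) := by ring
        _ ≤ C * (c * t ^ α) := mul_le_mul_of_nonneg_left h2 hC0
        _ = C * c * t ^ α := by ring
    have hlim : L2Dist (uniformProb K) Tμ Tν ≤ ENNReal.ofReal (C * c * w ^ α) := by
      have hcont : Continuous fun t : ℝ => ENNReal.ofReal (C * c * t ^ α) := by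
        apply ENNReal.continuous_ofReal.comp
        apply Continuous.mul continuous_const
        exact Real.continuous_rpow_const hα0.le
      apply ge_of_tendsto ((hcont.tendsto w).mono_left (nhdsWithin_le_nhds (s := Ioi w)))
      filter_upwards [Ioo_mem_nhdsGT hw1] with t ht
      exact hbound t ht
    refine hlim.trans ?_
    rw [hwe, ENNReal.ofReal_rpow_of_nonneg hw0 hα0.le, ENNReal.ofReal_mul (by positivity)]
    gcongr
    rw [ENNReal.ofReal]
    push_cast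
    exact le_self_add
  · -- large distance
    push Not at hW
    have hKfin : volume K ≠ ∞ := hK.measure_lt_top.ne
    obtain ⟨c₀, hc₀⟩ := id hint
    obtain ⟨δ, hδ, hball⟩ := Metric.nhds_basis_closedBall.mem_iff.mp (mem_interior_iff_mem_nhds.mp hc₀)
    have hKpos : volume K ≠ 0 :=
      (lt_of_lt_of_le (Metric.measure_closedBall_pos volume c₀ hδ) (measure_mono hball)).ne'
    have hprob := isProb_uniformProb hKpos hKfin
    obtain ⟨S₀, hS₀m, hS₀b, hS₀e, -, -⟩ := exists_trunc hK hconv hint hY hYne hR hμ hTμ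
    obtain ⟨S₁, hS₁m, hS₁b, hS₁e, -, -⟩ := exists_trunc hK hconv hint hY hYne hR hν hTν
    have hL : L2Dist (uniformProb K) Tμ Tν = L2Dist (uniformProb K) S₀ S₁ := by
      unfold L2Dist
      congr 1
      apply lintegral_congr_ae
      filter_upwards [hS₀e, hS₁e] with x h0 h1
      rw [h0, h1]
    rw [hL]
    have hbd : L2Dist (uniformProb K) S₀ S₁ ≤ ENNReal.ofReal (2 * R) := by
      unfold L2Dist
      calc (∫⁻ x, ENNReal.ofReal (‖S₀ x - S₁ x‖ ^ 2) ∂(uniformProb K)) ^ (1 / 2 : ℝ)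
          ≤ (∫⁻ _, ENNReal.ofReal ((2 * R) ^ 2) ∂(uniformProb K)) ^ (1 / 2 : ℝ) := by
            apply ENNReal.rpow_le_rpow _ (by norm_num)
            apply lintegral_mono
            intro x
            apply ENNReal.ofReal_le_ofReal
            have h1 := norm_sub_le (S₀ x) (S₁ x)
            have h2 := hS₀b x
            have h3 := hS₁b x
            apply pow_le_pow_left₀ (norm_nonneg _)
            linarith
        _ = ENNReal.ofReal (2 * R) := by
            rw [lintegral_const, measure_univ, mul_one,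
              ENNReal.ofReal_rpow_of_nonneg (by positivity) (by norm_num), ← Real.sqrt_eq_rpow,
              Real.sqrt_sq (by positivity)]
    refine hbd.trans ?_
    have h1 : 1 ≤ W2 μ ν ^ α := ENNReal.one_le_rpow hW hα0
    calc ENNReal.ofReal (2 * R) = ((2 * R).toNNReal : ℝ≥0∞) * 1 := by
          rw [mul_one]; rfl
      _ ≤ (((C * c).toNNReal + (2 * R).toNNReal : ℝ≥0) : ℝ≥0∞) * W2 μ ν ^ α := by
          gcongr
          exact le_add_self

end Vale.Agent.Lib.P074
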