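import Vale.Agent.Lib.P074.XFSL

open MeasureTheory Set Filter Topology
open scoped ENNReal NNReal RealInnerProductSpace

namespace Vale.Agent.Lib.P074

variable {d : ℕ} {ι : Type*}

/-- The telescoping estimate along a grid. -/
theorem telescope (N : ℕ) (τ J0 Je g0 ge : ℕ → ℝ) {η B G : ℝ}
    (hτ : ∀ k < N, 0 < τ (k + 1) - τ k ∧ τ (k + 1) - τ k ≤ η) (hsum : τ N - τ 0 = 1)
    (h0l : ∀ k < N, (τ (k + 1) - τ k) * g0 k ≤ J0 (k + 1) - J0 k)
    (h0u : ∀ k < N, J0 (k + 1) - J0 k ≤ (τ (k + 1) - τ k) * g0 (k + 1))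
    (hel : ∀ k < N, (τ (k + 1) - τ k) * ge k ≤ Je (k + 1) - Je k)
    (heu : ∀ k < N, Je (k + 1) - Je k ≤ (τ (k + 1) - τ k) * ge (k + 1))
    (hclose : ∀ k ≤ N, |ge k - g0 k| ≤ B) (hg0 : ∀ k ≤ N, |g0 k| ≤ G) :
    |(Je N - Je 0) - (J0 N - J0 0)| ≤ B + 2 * η * G := by
  have hmono : ∀ k < N, 0 ≤ g0 (k + 1) - g0 k := by
    intro k hk
    have h1 := h0l k hk
    have h2 := h0u k hk
    have h3 := (hτ k hk).1
    have h4 : (τ (k + 1) - τ k) * g0 k ≤ (τ (k + 1) - τ k) * g0 (k + 1) := h1.trans h2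
    have := le_of_mul_le_mul_left h4 h3
    linarith
  have hS : (Je N - Je 0) - (J0 N - J0 0) =
      ∑ k ∈ Finset.range N, ((Je (k + 1) - Je k) - (J0 (k + 1) - J0 k)) := by
    rw [Finset.sum_sub_distrib, Finset.sum_range_sub, Finset.sum_range_sub]
  have hhsum : ∑ k ∈ Finset.range N, (τ (k + 1) - τ k) = 1 := by
    rw [Finset.sum_range_sub]; exact hsum
  have hgsum : ∑ k ∈ Finset.range N, (g0 (k + 1) - g0 k) = g0 N - g0 0 := Finset.sum_range_sub _ _
  have hgN : g0 N - g0 0 ≤ 2 * G := by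
    have h1 := le_abs_self (g0 N)
    have h2 := neg_abs_le (g0 0)
    have h3 := hg0 N le_rfl
    have h4 := hg0 0 (Nat.zero_le _)
    linarith
  have hη0 : ∀ k < N, 0 ≤ η := fun k hk => (hτ k hk).1.le.trans (hτ k hk).2
  have hηg : η * (g0 N - g0 0) ≤ 2 * η * G := by
    rcases Nat.eq_zero_or_pos N with rfl | hN
    · simp at hsum
    · have := hη0 0 hN
      nlinarith
  rw [hS, abs_le]
  constructor
  · have hpt : ∀ k ∈ Finset.range N, -(B * (τ (k + 1) - τ k)) - η * (g0 (k + 1) - g0 k) ≤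
        (Je (k + 1) - Je k) - (J0 (k + 1) - J0 k) := by
      intro k hk
      have hk' := Finset.mem_range.mp hk
      have h1 := hel k hk'
      have h2 := h0u k hk'
      have hh := hτ k hk'
      have h3 := hclose k hk'.le
      have h4 : -B ≤ ge k - g0 k := (abs_le.mp h3).1
      have h5 : (τ (k + 1) - τ k) * (-B) ≤ (τ (k + 1) - τ k) * (ge k - g0 k) :=
        mul_le_mul_of_nonneg_left h4 hh.1.le
      have h6 : (τ (k + 1) - τ k) * (g0 (k + 1) - g0 k) ≤ η * (g0 (k + 1) - g0 k) :=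
        mul_le_mul_of_nonneg_right hh.2 (hmono k hk')
      nlinarith
    have := Finset.sum_le_sum hpt
    rw [Finset.sum_sub_distrib, Finset.sum_neg_distrib, ← Finset.mul_sum, ← Finset.mul_sum, hhsum,
      hgsum] at this
    linarith
  · have hpt : ∀ k ∈ Finset.range N, (Je (k + 1) - Je k) - (J0 (k + 1) - J0 k) ≤
        B * (τ (k + 1) - τ k) + η * (g0 (k + 1) - g0 k) := by
      intro k hk
      have hk' := Finset.mem_range.mp hk
      have h1 := heu k hk'
      have h2 := h0l k hk'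
      have hh := hτ k hk'
      have h3 := hclose (k + 1) hk'
      have h4 : ge (k + 1) - g0 (k + 1) ≤ B := (abs_le.mp h3).2
      have h5 : (τ (k + 1) - τ k) * (ge (k + 1) - g0 (k + 1)) ≤ (τ (k + 1) - τ k) * B :=
        mul_le_mul_of_nonneg_left h4 hh.1.le
      have h6 : (τ (k + 1) - τ k) * (g0 (k + 1) - g0 k) ≤ η * (g0 (k + 1) - g0 k) :=
        mul_le_mul_of_nonneg_right hh.2 (hmono k hk')
      nlinarith
    have := Finset.sum_le_sum hpt
    rw [Finset.sum_add_distrib, ← Finset.mul_sum, ← Finset.mul_sum, hhsum, hgsum] at this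
    linarith

/-- The straight path between two families of sites. -/
def ypath (a b : ι → E d) (τ : ℝ) (i : ι) : E d := a i + τ • (b i - a i)

theorem ypath_zero (a b : ι → E d) : ypath a b 0 = a := by
  funext i; simp [ypath]

theorem ypath_one (a b : ι → E d) : ypath a b 1 = b := by
  funext i; simp [ypath]

theorem ypath_sub (a b : ι → E d) (τ τ' : ℝ) (i : ι) :
    ypath a b τ' i - ypath a b τ i = (τ' - τ) • (b i - a i) := by
  simp only [ypath, sub_smul]
  abel

theorem norm_ypath_le {a b : ι → E d} {R : ℝ} (ha : ∀ i, ‖a i‖ ≤ R) (hb : ∀ i, ‖b i‖ ≤ R) {τ : ℝ}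
    (h0 : 0 ≤ τ) (h1 : τ ≤ 1) (i : ι) : ‖ypath a b τ i‖ ≤ R := by
  have e : ypath a b τ i = (1 - τ) • a i + τ • b i := by
    simp only [ypath, smul_sub, sub_smul, one_smul]
    abel
  rw [e]
  calc ‖(1 - τ) • a i + τ • b i‖ ≤ ‖(1 - τ) • a i‖ + ‖τ • b i‖ := norm_add_le _ _
    _ = (1 - τ) * ‖a i‖ + τ * ‖b i‖ := by
        rw [norm_smul, norm_smul, Real.norm_eq_abs, Real.norm_eq_abs, abs_of_nonneg h0,
          abs_of_nonneg (by linarith)]
    _ ≤ (1 - τ) * R + τ * R := by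
        have := ha i
        have := hb i
        gcongr
    _ = R := by ring

/-- Only finitely many times on the path are bad. -/
theorem finite_bad_times [Finite ι] {a b : ι → E d} (ha : Function.Injective a) :
    {τ : ℝ | ¬ Function.Injective (ypath a b τ)}.Finite := by
  have hsub : {τ : ℝ | ¬ Function.Injective (ypath a b τ)} ⊆
      ⋃ p : ι × ι, {τ : ℝ | p.1 ≠ p.2 ∧ ypath a b τ p.1 = ypath a b τ p.2} := by
    intro τ hτ
    simp only [mem_ofPred_eq, Function.Injective] at hτ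
    push Not at hτ
    obtain ⟨i, j, h1, h2⟩ := hτ
    exact mem_iUnion.mpr ⟨(i, j), h2, h1⟩
  refine (finite_iUnion fun p => ?_).subset hsub
  apply Set.Subsingleton.finite
  rintro τ₁ ⟨h1, h2⟩ τ₂ ⟨-, h3⟩
  by_contra hne
  have hsubne : τ₁ - τ₂ ≠ 0 := sub_ne_zero.mpr hne
  have h4 : (τ₁ - τ₂) • ((b p.1 - a p.1) - (b p.2 - a p.2)) = 0 := by
    have h5 : ypath a b τ₁ p.1 - ypath a b τ₂ p.1 = ypath a b τ₁ p.2 - ypath a b τ₂ p.2 := by
      rw [h2, h3]
    rw [ypath_sub, ypath_sub] at h5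
    rw [smul_sub, h5, sub_self]
  have h6 : (b p.1 - a p.1) - (b p.2 - a p.2) = 0 :=
    (smul_eq_zero.mp h4).resolve_left hsubne
  have h7 : b p.1 - a p.1 = b p.2 - a p.2 := sub_eq_zero.mp h6
  apply h1
  apply ha
  simp only [ypath] at h2
  rw [h7] at h2
  exact add_right_cancel h2

/-- A grid in `[0, 1]` which avoids the bad times. -/
theorem exists_grid [Finite ι] {a b : ι → E d} (ha : Function.Injective a)
    (hb : Function.Injective b) {N : ℕ} (hN : 0 < N) :
    ∃ τ : ℕ → ℝ, τ 0 = 0 ∧ τ N = 1 ∧ (∀ k, 0 ≤ τ k ∧ τ k ≤ 1) ∧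
      (∀ k < N, 0 < τ (k + 1) - τ k ∧ τ (k + 1) - τ k ≤ 2 / N) ∧
      ∀ k, Function.Injective (ypath a b (τ k)) := by
  classical
  have hNpos : (0 : ℝ) < N := by exact_mod_cast hN
  have hbad := finite_bad_times (a := a) (b := b) ha
  have hex : ∀ k : ℕ, ∃ x, x ∈ Ioo ((k : ℝ) / N) (((k : ℝ) + 1) / N) ∧
      Function.Injective (ypath a b x) := by
    intro k
    have hlt : (k : ℝ) / N < ((k : ℝ) + 1) / N := by
      apply div_lt_div_of_pos_right _ hNpos
      linarith
    obtain ⟨x, hx1, hx2⟩ := ((Ioo_infinite hlt).sdiff hbad).nonempty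
    refine ⟨x, hx1, ?_⟩
    simpa using hx2
  choose c hc1 hc2 using hex
  set τ : ℕ → ℝ := fun k => if k = 0 then 0 else if N ≤ k then 1 else c k with hτ
  have hτ0 : τ 0 = 0 := by simp [hτ]
  have hτN : τ N = 1 := by simp [hτ, hN.ne']
  -- bounds
  have hlow : ∀ k, k ≤ N → (k : ℝ) / N ≤ τ k := by
    intro k hk
    simp only [hτ]
    split_ifs with h0 h1
    · simp [h0]
    · rw [div_le_one hNpos]
      exact_mod_cast hk
    · exact (hc1 k).1.le
  have hup : ∀ k, k < N → τ k < ((k : ℝ) + 1) / N := by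
    intro k hk
    simp only [hτ]
    split_ifs with h0 h1
    · positivity
    · omega
    · exact (hc1 k).2
  refine ⟨τ, hτ0, hτN, ?_, ?_, ?_⟩
  · intro k
    by_cases h0 : k = 0
    · simp [hτ, h0]
    by_cases h1 : N ≤ k
    · simp [hτ, h0, h1]
    · push Not at h1
      have h2 := hlow k h1.le
      have h3 := hup k h1
      have h4 : ((k : ℝ) + 1) / N ≤ 1 := by
        rw [div_le_one hNpos]
        exact_mod_cast h1
      have h5 : 0 ≤ (k : ℝ) / N := by positivity
      exact ⟨h5.trans h2, by linarith⟩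
  · intro k hk
    have h1 := hup k hk
    have h2 := hlow (k + 1) hk
    push_cast at h2
    constructor
    · linarith
    · have h3 : τ (k + 1) ≤ ((k : ℝ) + 2) / N := by
        by_cases hk1 : k + 1 < N
        · have := hup (k + 1) hk1
          push_cast at this
          have e : ((k : ℝ) + 1 + 1) = (k : ℝ) + 2 := by ring
          rw [e] at this
          exact this.le
        · have hkN : k + 1 = N := by omega
          rw [hkN, hτN, le_div_iff₀ hNpos]
          have : (N : ℝ) = (k : ℝ) + 1 := by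
            rw [← hkN]; push_cast; ring
          rw [this]
          linarith
      have h4 := hlow k hk.le
      calc τ (k + 1) - τ k ≤ ((k : ℝ) + 2) / N - (k : ℝ) / N := by linarith
        _ = 2 / N := by ring
  · intro k
    simp only [hτ]
    split_ifs with h0 h1
    · rwa [ypath_zero]
    · rwa [ypath_one]
    · exact hc2 k

section pathBound

variable [Fintype ι] [Nonempty ι] {K : Set (E d)} {M : ι → ℝ} {a b : ι → E d} {ϱ : E d → ℝ}
  {V RK RY D s : ℝ}

/-- The values of the dual along a path: bound of the mixed second difference. -/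
theorem path_bound (hK : IsCompact K) (hconv : Convex ℝ K) (hKne : K.Nonempty)
    (hRK : ∀ x ∈ K, ‖x‖ ≤ RK) (hD : ∀ x ∈ K, ∀ x' ∈ K, ‖x - x'‖ ≤ D)
    (ha : Function.Injective a) (hb : Function.Injective b) (haY : ∀ i, ‖a i‖ ≤ RY)
    (hbY : ∀ i, ‖b i‖ ≤ RY) (hs : ∀ i, ‖b i - a i‖ ≤ s)
    (hM : ∀ i, 0 < M i) (hsum : ∑ i, M i = V) (hV : (volume K).toReal = V)
    (J : ℕ) (hϱ : IsDens ϱ ((2 : ℝ) ^ J)) (hϱV : ∫ x in K, ϱ x = V) {n : ℕ} (hn : 2 ≤ n)
    {ua ub za zb : ι → ℝ} (hua : Solves K M a (fun _ => 1) ua) (hub : Solves K M b (fun _ => 1) ub)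
    (hza : Solves K M a (fun x => (1 - (1 / 2 : ℝ) ^ n) + (1 / 2 : ℝ) ^ n * ϱ x) za)
    (hzb : Solves K M b (fun x => (1 - (1 / 2 : ℝ) ^ n) + (1 / 2 : ℝ) ^ n * ϱ x) zb) :
    |(dualF K M b (fun x => (1 - (1 / 2 : ℝ) ^ n) + (1 / 2 : ℝ) ^ n * ϱ x) zb -
        dualF K M a (fun x => (1 - (1 / 2 : ℝ) ^ n) + (1 / 2 : ℝ) ^ n * ϱ x) za) -
      (dualF K M b (fun _ => 1) ub - dualF K M a (fun _ => 1) ua)| ≤
      s * (1 / 2 : ℝ) ^ n * V * (D * ((2 * d + 4) * (2 + 16 * (J + 2)) + 3) + 1) := by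
  classical
  set ε : ℝ := (1 / 2 : ℝ) ^ n with hεdef
  have hε0 : 0 < ε := by positivity
  have hε1 : ε ≤ 1 := pow_le_one₀ (by norm_num) (by norm_num)
  have h1ε : 0 ≤ 1 - ε := by linarith
  set σ : E d → ℝ := fun x => (1 - ε) + ε * ϱ x with hσdef
  obtain ⟨x₀, hx₀⟩ := id hKne
  have hRK0 : 0 ≤ RK := (norm_nonneg _).trans (hRK x₀ hx₀)
  have hi₀ : ι := Classical.arbitrary ι
  have hRY0 : 0 ≤ RY := (norm_nonneg _).trans (haY hi₀)
  have hs0 : 0 ≤ s := (norm_nonneg _).trans (hs hi₀)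
  have hD0 : 0 ≤ D := (norm_nonneg _).trans (hD x₀ hx₀ x₀ hx₀)
  have hV0 : 0 ≤ V := by rw [← hsum]; exact Finset.sum_nonneg fun i _ => (hM i).le
  have hσ : IsDens σ ((1 - ε) + ε * (2 : ℝ) ^ J) :=
    ⟨(hϱ.meas.const_mul ε).const_add _,
      fun x => add_nonneg h1ε (mul_nonneg hε0.le (hϱ.nonneg x)),
      fun x => by
        have := mul_le_mul_of_nonneg_left (hϱ.le x) hε0.le
        simp only [hσdef]
        linarith⟩
  have hone := isDens_one (d := d)
  have hint1 : ∫ _ in K, (1 : ℝ) = V := by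
    rw [setIntegral_const, smul_eq_mul, mul_one, Measure.real]; exact hV
  have hintσ : ∫ x in K, σ x = V := by
    have hi1 : IntegrableOn (fun _ : E d => (1 - ε)) K := integrableOn_const hK.measure_lt_top.ne
    have hi2 : IntegrableOn (fun x => ε * ϱ x) K := (hϱ.integrableOn hK).const_mul _
    simp only [hσdef]
    rw [integral_add hi1 hi2, integral_const_mul, hϱV, setIntegral_const, smul_eq_mul, Measure.real,
      hV]
    ring
  -- choosing the grid
  set C₁ : ℝ := (2 * d + 4) * (2 + 16 * (J + 2)) + 3 with hC₁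
  set N : ℕ := ⌈4 * RK / ε⌉₊ + 1 with hN
  have hNpos : 0 < N := Nat.succ_pos _
  have hNreal : (0 : ℝ) < N := by exact_mod_cast hNpos
  have hNge : 4 * RK / ε ≤ N := by
    rw [hN]
    push_cast
    have := Nat.le_ceil (4 * RK / ε)
    linarith
  obtain ⟨τ, hτ0, hτN, hτb, hτinc, hτinj⟩ := exists_grid ha hb hNpos
  set y : ℕ → ι → E d := fun k => ypath a b (τ k) with hy
  have hyY : ∀ k i, ‖y k i‖ ≤ RY := fun k i => norm_ypath_le haY hbY (hτb k).1 (hτb k).2 i
  have hy0 : y 0 = a := by simp only [hy, hτ0, ypath_zero]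
  have hyN : y N = b := by simp only [hy, hτN, ypath_one]
  have hsol1 : ∀ k, ∃ u, Solves K M (y k) (fun _ => 1) u := fun k =>
    exists_solves hK (hτinj k) hone hM (by rw [hsum, hint1]) hRK (hyY k) hRK0 hRY0
  have hsolσ : ∀ k, ∃ u, Solves K M (y k) σ u := fun k =>
    exists_solves hK (hτinj k) hσ hM (by rw [hsum, hintσ]) hRK (hyY k) hRK0 hRY0
  choose p hp using hsol1
  choose q hq using hsolσ
  set e : ι → E d := fun i => b i - a i with he
  have hstep : ∀ k k' i, y k' i - y k i = (τ k' - τ k) • e i := fun k k' i => ypath_sub a b _ _ i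
  set J0 : ℕ → ℝ := fun k => dualF K M (y k) (fun _ => 1) (p k) with hJ0
  set Je : ℕ → ℝ := fun k => dualF K M (y k) σ (q k) with hJe
  set g0 : ℕ → ℝ := fun k => ∑ i, ⟪cmom K (y k) (fun _ => 1) (p k) i, e i⟫ with hg0
  set ge : ℕ → ℝ := fun k => ∑ i, ⟪cmom K (y k) σ (q k) i, e i⟫ with hge
  -- the subgradient inequalities
  have hsub : ∀ (ς : E d → ℝ) (Q : ℝ) (r : ℕ → ι → ℝ), IsDens ς Q →
      (∀ k, Solves K M (y k) ς (r k)) → ∀ k k',
      (τ k' - τ k) * ∑ i, ⟪cmom K (y k) ς (r k) i, e i⟫ ≤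
        dualF K M (y k') ς (r k') - dualF K M (y k) ς (r k) := by
    intro ς Q r hς hr k k'
    have h1 := dualF_sub_ge hK (hτinj k) hς (hr k) (y k') (r k')
    have h2 : ∑ i, ⟪cmom K (y k) ς (r k) i, y k' i - y k i⟫ =
        (τ k' - τ k) * ∑ i, ⟪cmom K (y k) ς (r k) i, e i⟫ := by
      rw [Finset.mul_sum]
      apply Finset.sum_congr rfl
      intro i _
      rw [hstep, inner_smul_right]
    rwa [h2] at h1
  have h0l : ∀ k < N, (τ (k + 1) - τ k) * g0 k ≤ J0 (k + 1) - J0 k := fun k _ =>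
    hsub _ _ p hone hp k (k + 1)
  have hel : ∀ k < N, (τ (k + 1) - τ k) * ge k ≤ Je (k + 1) - Je k := fun k _ =>
    hsub _ _ q hσ hq k (k + 1)
  have h0u : ∀ k < N, J0 (k + 1) - J0 k ≤ (τ (k + 1) - τ k) * g0 (k + 1) := fun k _ => by
    have h : (τ k - τ (k + 1)) * g0 (k + 1) ≤ J0 k - J0 (k + 1) := hsub _ _ p hone hp (k + 1) k
    linarith
  have heu : ∀ k < N, Je (k + 1) - Je k ≤ (τ (k + 1) - τ k) * ge (k + 1) := fun k _ => by
    have h : (τ k - τ (k + 1)) * ge (k + 1) ≤ Je k - Je (k + 1) := hsub _ _ q hσ hq (k + 1) k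
    linarith
  -- the stability estimate at each grid point
  have hclose : ∀ k ≤ N, |ge k - g0 k| ≤ s * (D * ε * V * C₁) := by
    intro k _
    have hfsl := fsl hK hconv hKne (hτinj k) hM hsum hV (hp k) J hϱ hϱV hn (hq k) hD
    simp only [hge, hg0]
    rw [← Finset.sum_sub_distrib]
    calc |∑ i, (⟪cmom K (y k) σ (q k) i, e i⟫ - ⟪cmom K (y k) (fun _ => 1) (p k) i, e i⟫)|
        ≤ ∑ i, |⟪cmom K (y k) σ (q k) i, e i⟫ - ⟪cmom K (y k) (fun _ => 1) (p k) i, e i⟫| :=
          Finset.abs_sum_le_sum_abs _ _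
      _ ≤ ∑ i, s * ‖cmom K (y k) σ (q k) i - cmom K (y k) (fun _ => 1) (p k) i‖ := by
          apply Finset.sum_le_sum
          intro i _
          rw [← inner_sub_left]
          refine (abs_real_inner_le_norm _ _).trans ?_
          rw [mul_comm]
          exact mul_le_mul_of_nonneg_right (hs i) (norm_nonneg _)
      _ = s * ∑ i, ‖cmom K (y k) σ (q k) i - cmom K (y k) (fun _ => 1) (p k) i‖ :=
          (Finset.mul_sum _ _ _).symm
      _ ≤ s * (D * ε * V * C₁) := mul_le_mul_of_nonneg_left hfsl hs0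
  have hg0b : ∀ k ≤ N, |g0 k| ≤ s * (RK * V) := by
    intro k _
    simp only [hg0]
    calc |∑ i, ⟪cmom K (y k) (fun _ => 1) (p k) i, e i⟫|
        ≤ ∑ i, |⟪cmom K (y k) (fun _ => 1) (p k) i, e i⟫| := Finset.abs_sum_le_sum_abs _ _
      _ ≤ ∑ i, s * (RK * M i) := by
          apply Finset.sum_le_sum
          intro i _
          refine (abs_real_inner_le_norm _ _).trans ?_
          rw [mul_comm]
          have h1 := norm_cmom_le hK hone hRK (y k) (p k) i
          rw [hp k i] at h1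
          exact mul_le_mul (hs i) h1 (norm_nonneg _) hs0
      _ = s * (RK * V) := by
          rw [← Finset.mul_sum, ← Finset.mul_sum, hsum]
  have hB0 : 0 ≤ s * (D * ε * V * C₁) := by
    have : 0 ≤ C₁ := by rw [hC₁]; positivity
    positivity
  have htel := telescope N τ J0 Je g0 ge hτinc (by rw [hτN, hτ0]; ring) h0l h0u hel heu hclose hg0b
  -- the end points
  have hJe0 : Je 0 = dualF K M a σ za := by
    simp only [hJe]
    rw [hy0]
    apply le_antisymm
    · exact dualF_le_of_solves hK ha hσ (hy0 ▸ hq 0) za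
    · exact dualF_le_of_solves hK ha hσ hza _
  have hJeN : Je N = dualF K M b σ zb := by
    simp only [hJe]
    rw [hyN]
    apply le_antisymm
    · exact dualF_le_of_solves hK hb hσ (hyN ▸ hq N) zb
    · exact dualF_le_of_solves hK hb hσ hzb _
  have hJ00 : J0 0 = dualF K M a (fun _ => 1) ua := by
    simp only [hJ0]
    rw [hy0]
    apply le_antisymm
    · exact dualF_le_of_solves hK ha hone (hy0 ▸ hp 0) ua
    · exact dualF_le_of_solves hK ha hone hua _
  have hJ0N : J0 N = dualF K M b (fun _ => 1) ub := by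
    simp only [hJ0]
    rw [hyN]
    apply le_antisymm
    · exact dualF_le_of_solves hK hb hone (hyN ▸ hp N) ub
    · exact dualF_le_of_solves hK hb hone hub _
  rw [hJe0, hJeN, hJ00, hJ0N] at htel
  refine htel.trans ?_
  -- choice of the mesh
  have hmesh : 2 * (2 / (N : ℝ)) * (s * (RK * V)) ≤ s * ε * V := by
    have h1 : 4 * RK ≤ N * ε := by
      rw [div_le_iff₀ hε0] at hNge
      exact hNge
    have h2 : 2 * (2 / (N : ℝ)) * (s * (RK * V)) = (s * V) * (4 * RK / N) := by ring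
    have h3 : 4 * RK / N ≤ ε := by
      rw [div_le_iff₀ hNreal]
      linarith
    rw [h2]
    calc (s * V) * (4 * RK / N) ≤ (s * V) * ε := mul_le_mul_of_nonneg_left h3 (by positivity)
      _ = s * ε * V := by ring
  calc s * (D * ε * V * C₁) + 2 * (2 / (N : ℝ)) * (s * (RK * V))
      ≤ s * (D * ε * V * C₁) + s * ε * V := by linarith
    _ = s * ε * V * (D * C₁ + 1) := by ring

end pathBound

end Vale.Agent.Lib.P074
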