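import Vale.Agent.Lib.P074.XTest
import Vale.Agent.Lib.P074.Transl

open MeasureTheory Set Filter Topology
open scoped ENNReal NNReal RealInnerProductSpace

namespace Vale.Agent.Lib.P074

variable {d : ℕ} {ι : Type*}

section selection

variable [Fintype ι] [Nonempty ι] {y : ι → E d} {u : ι → ℝ} {T : E d → E d}

/-- A measurable selection of a gradient of the maximum of affine functions. -/
structure IsLMap (y : ι → E d) (u : ι → ℝ) (T : E d → E d) : Prop where
  meas : Measurable T
  spec : ∀ x, ∃ i, T x = y i ∧ lmax y u x = lplane y u i x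

theorem exists_isLMap (y : ι → E d) (u : ι → ℝ) : ∃ T, IsLMap y u T := by
  classical
  have hA : ∀ i, MeasurableSet {x : E d | lmax y u x = lplane y u i x} := fun i =>
    (isClosed_eq (continuous_lmax y u) (continuous_lplane y u i)).measurableSet
  have hind : ∀ s : Finset ι, ∃ T : E d → E d, Measurable T ∧
      ∀ x, (∃ i ∈ s, lmax y u x = lplane y u i x) → ∃ i, T x = y i ∧ lmax y u x = lplane y u i x := by
    intro s
    induction s using Finset.induction_on with
    | empty =>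
      refine ⟨fun _ => y (Classical.arbitrary ι), measurable_const, ?_⟩
      rintro x ⟨i, hi, -⟩
      simp at hi
    | insert i s _ ih =>
      obtain ⟨T, hT, hspec⟩ := ih
      refine ⟨fun x => if lmax y u x = lplane y u i x then y i else T x,
        Measurable.ite (hA i) measurable_const hT, ?_⟩
      rintro x ⟨j, hj, hjx⟩
      by_cases h : lmax y u x = lplane y u i x
      · exact ⟨i, by simp [h], h⟩
      · simp only [h, if_false]
        rcases Finset.mem_insert.mp hj with rfl | hj'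
        · exact absurd hjx h
        · exact hspec x ⟨j, hj', hjx⟩
  obtain ⟨T, hT, hspec⟩ := hind Finset.univ
  refine ⟨T, hT, fun x => hspec x ?_⟩
  obtain ⟨i, hi⟩ := exists_lmax_eq y u x
  exact ⟨i, Finset.mem_univ i, hi⟩

theorem IsLMap.subgrad (hT : IsLMap y u T) (x z : E d) :
    lmax y u x + ⟪z - x, T x⟫ ≤ lmax y u z := by
  obtain ⟨i, hi, hx⟩ := hT.spec x
  have h1 := lplane_le_lmax y u i z
  rw [hx, hi, inner_sub_left]
  unfold lplane at h1 ⊢
  linarith

theorem IsLMap.norm_le (hT : IsLMap y u T) {R : ℝ} (hR : ∀ i, ‖y i‖ ≤ R) (x : E d) : ‖T x‖ ≤ R := by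
  obtain ⟨i, hi, -⟩ := hT.spec x
  rw [hi]
  exact hR i

/-- Monotonicity. -/
theorem IsLMap.mono (hT : IsLMap y u T) (x z : E d) : 0 ≤ ⟪T z - T x, z - x⟫ := by
  have h1 := hT.subgrad x z
  have h2 := hT.subgrad z x
  rw [inner_sub_left, real_inner_comm, real_inner_comm (z - x) (T x)]
  have h3 : ⟪x - z, T z⟫ = -⟪z - x, T z⟫ := by
    rw [← inner_neg_left, neg_sub]
  rw [h3] at h2
  linarith

end selection

section signed

variable [Fintype ι] [Nonempty ι] {K : Set (E d)} {M : ι → ℝ} {a b : ι → E d}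
  {V RK RY D s : ℝ}

/-- Products of continuous and bounded measurable functions are integrable on compact sets. -/
theorem integrableOn_cont_mul {S : Set (E d)} (hS : IsCompact S) {g ψ : E d → ℝ} (hg : Continuous g)
    (hψ : Measurable ψ) {B : ℝ} (hB : ∀ x, |ψ x| ≤ B) : IntegrableOn (fun x => g x * ψ x) S := by
  obtain ⟨C, hC⟩ := hS.exists_bound_of_continuousOn hg.continuousOn
  refine Measure.integrableOn_of_bounded (M := C * B) hS.measure_lt_top.ne
    (hg.measurable.mul hψ).aestronglyMeasurable ?_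
  filter_upwards [ae_restrict_mem hS.measurableSet] with x hx
  rw [norm_mul, Real.norm_eq_abs (ψ x)]
  exact mul_le_mul (hC x hx) (hB x) (abs_nonneg _) ((norm_nonneg _).trans (hC x hx))

/-- Bounded measurable functions are integrable on sets of finite measure. -/
theorem integrableOn_of_abs_le {S : Set (E d)} (hS : volume S ≠ ∞) {ψ : E d → ℝ}
    (hψ : Measurable ψ) {B : ℝ} (hB : ∀ x, |ψ x| ≤ B) : IntegrableOn ψ S := by
  refine Measure.integrableOn_of_bounded (M := B) hS hψ.aestronglyMeasurable ?_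
  filter_upwards with x
  exact hB x

/-- The test lemma for signed functions of mean zero. -/
theorem test_signed (hK : IsCompact K) (hconv : Convex ℝ K) (hint : (interior K).Nonempty)
    (hRK : ∀ x ∈ K, ‖x‖ ≤ RK) (hD : ∀ x ∈ K, ∀ x' ∈ K, ‖x - x'‖ ≤ D)
    (ha : Function.Injective a) (hb : Function.Injective b) (haY : ∀ i, ‖a i‖ ≤ RY)
    (hbY : ∀ i, ‖b i‖ ≤ RY) (hs : ∀ i, ‖b i - a i‖ ≤ s)
    (hM : ∀ i, 0 < M i) (hsum : ∑ i, M i = V) (hV : (volume K).toReal = V)
    {ua ub : ι → ℝ} (hua : Solves K M a (fun _ => 1) ua) (hub : Solves K M b (fun _ => 1) ub)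
    {Ψ : E d → ℝ} (hΨm : Measurable Ψ) {B : ℝ} (hΨB : ∀ x, |Ψ x| ≤ B)
    (hΨ0 : ∫ x in K, Ψ x = 0) {κ : ℝ} (hκ : 0 < κ) (J : ℕ) (hJ : (B + κ) / κ ≤ (2 : ℝ) ^ J) :
    |∫ x in K, (lmax a ua x - lmax b ub x) * Ψ x| ≤
      2 * ((∫ x in K, |Ψ x|) + κ * V) * s *
        (D * ((2 * d + 4) * (2 + 16 * (J + 2)) + 3) + 1) := by
  classical
  have hKfin : volume K ≠ ∞ := hK.measure_lt_top.ne
  have hi₀ : ι := Classical.arbitrary ι
  have hVpos : 0 < V := by
    rw [← hsum]
    exact Finset.sum_pos (fun i _ => hM i) Finset.univ_nonempty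
  have hs0 : 0 ≤ s := (norm_nonneg _).trans (hs hi₀)
  have hB0 : 0 ≤ B := (abs_nonneg _).trans (hΨB 0)
  set Ψp : E d → ℝ := fun x => max (Ψ x) 0 with hΨp
  set Ψn : E d → ℝ := fun x => max (-Ψ x) 0 with hΨn
  have hpm : Measurable Ψp := hΨm.max measurable_const
  have hnm : Measurable Ψn := hΨm.neg.max measurable_const
  have hp0 : ∀ x, 0 ≤ Ψp x := fun x => le_max_right _ _
  have hn0 : ∀ x, 0 ≤ Ψn x := fun x => le_max_right _ _
  have hpB : ∀ x, Ψp x ≤ B := fun x =>
    max_le ((le_abs_self _).trans (hΨB x)) hB0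
  have hnB : ∀ x, Ψn x ≤ B := fun x =>
    max_le ((neg_le_abs _).trans (hΨB x)) hB0
  have hdec : ∀ x, Ψ x = Ψp x - Ψn x := fun x => by
    simp only [hΨp, hΨn]
    rcases le_total (Ψ x) 0 with h | h
    · rw [max_eq_right h, max_eq_left (by linarith)]; ring
    · rw [max_eq_left h, max_eq_right (by linarith)]; ring
  have hpab : ∀ x, |Ψp x| ≤ B := fun x => by
    rw [abs_of_nonneg (hp0 x)]; exact hpB x
  have hnab : ∀ x, |Ψn x| ≤ B := fun x => by
    rw [abs_of_nonneg (hn0 x)]; exact hnB x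
  have hpi : IntegrableOn Ψp K := integrableOn_of_abs_le hKfin hpm hpab
  have hni : IntegrableOn Ψn K := integrableOn_of_abs_le hKfin hnm hnab
  have hint0 : ∫ x in K, Ψp x = ∫ x in K, Ψn x := by
    have : ∫ x in K, (Ψp x - Ψn x) = 0 := by
      rw [← hΨ0]
      apply integral_congr_ae
      filter_upwards with x
      exact (hdec x).symm
    rw [integral_sub hpi hni] at this
    linarith
  set G : ℝ := (∫ x in K, Ψp x) + κ * V with hG
  have hI0 : 0 ≤ ∫ x in K, Ψp x := integral_nonneg hp0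
  have hGpos : 0 < G := by positivity
  have hκV : κ * V ≤ G := by rw [hG]; linarith
  have hconst : ∫ _ in K, κ = κ * V := by
    rw [setIntegral_const, smul_eq_mul, Measure.real, hV]; ring
  -- the two densities
  have hdens : ∀ ψ : E d → ℝ, Measurable ψ → (∀ x, 0 ≤ ψ x) → (∀ x, ψ x ≤ B) →
      (∫ x in K, ψ x) + κ * V = G →
      IsDens (fun x => (ψ x + κ) * (V / G)) ((2 : ℝ) ^ J) ∧
        ∫ x in K, (ψ x + κ) * (V / G) = V := by
    intro ψ hm h0 hle hint
    have habs : ∀ x, |ψ x| ≤ B := fun x => by rw [abs_of_nonneg (h0 x)]; exact hle x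
    have hψi : IntegrableOn ψ K := integrableOn_of_abs_le hKfin hm habs
    have hVG0 : 0 ≤ V / G := by positivity
    refine ⟨⟨(hm.add_const κ).mul_const _, fun x => mul_nonneg (add_nonneg (h0 x) hκ.le) hVG0,
      fun x => ?_⟩, ?_⟩
    · have h1 : V / G ≤ 1 / κ := by
        rw [div_le_div_iff₀ hGpos hκ]
        linarith
      calc (ψ x + κ) * (V / G) ≤ (B + κ) * (1 / κ) :=
            mul_le_mul (by linarith [hle x]) h1 hVG0 (by positivity)
        _ = (B + κ) / κ := by ring
        _ ≤ _ := hJ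
    · rw [integral_mul_const, integral_add hψi (integrableOn_const hKfin), hconst, hint]
      field_simp
  obtain ⟨hϱp, hϱpV⟩ := hdens Ψp hpm hp0 hpB rfl
  obtain ⟨hϱn, hϱnV⟩ := hdens Ψn hnm hn0 hnB (by rw [← hint0])
  have htp := test_lemma hK hconv hint hRK hD ha hb haY hbY hs hM hsum hV J hϱp hϱpV hua hub
  have htn := test_lemma hK hconv hint hRK hD ha hb haY hbY hs hM hsum hV J hϱn hϱnV hua hub
  set C₂ : ℝ := D * ((2 * d + 4) * (2 + 16 * (J + 2)) + 3) + 1 with hC₂
  -- identification of the pairing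
  have hpair : ∀ (y : ι → E d) (u : ι → ℝ),
      Tfun K (fun x => (Ψp x + κ) * (V / G)) y u - Tfun K (fun x => (Ψn x + κ) * (V / G)) y u =
        (V / G) * ∫ x in K, lmax y u x * Ψ x := by
    intro y u
    unfold Tfun
    have hc := continuous_lmax y u
    have h1 := hϱp.integrableOn_mul hK hc
    have h2 := hϱn.integrableOn_mul hK hc
    have e : (∫ x in K, lmax y u x * ((Ψp x + κ) * (V / G))) -
        (∫ x in K, lmax y u x * ((Ψn x + κ) * (V / G))) =
        ∫ x in K, (V / G) * (lmax y u x * Ψ x) := by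
      rw [← integral_sub h1 h2]
      apply integral_congr_ae
      filter_upwards with x
      rw [hdec x]
      ring
    rw [integral_const_mul] at e
    linarith
  have hpa := hpair a ua
  have hpb := hpair b ub
  have hcomb : (V / G) * ∫ x in K, (lmax a ua x - lmax b ub x) * Ψ x =
      (Tfun K (fun x => (Ψp x + κ) * (V / G)) a ua - Tfun K (fun x => (Ψn x + κ) * (V / G)) a ua) -
      (Tfun K (fun x => (Ψp x + κ) * (V / G)) b ub - Tfun K (fun x => (Ψn x + κ) * (V / G)) b ub) := by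
    rw [hpa, hpb, ← mul_sub, ← integral_sub
      (integrableOn_cont_mul hK (continuous_lmax a ua) hΨm hΨB)
      (integrableOn_cont_mul hK (continuous_lmax b ub) hΨm hΨB)]
    congr 2
    ext x
    ring
  have hbound : |(V / G) * ∫ x in K, (lmax a ua x - lmax b ub x) * Ψ x| ≤ 2 * (s * V * C₂) := by
    rw [hcomb]
    have h1 := abs_le.mp htp
    have h2 := abs_le.mp htn
    rw [abs_le]
    constructor <;> linarith [h1.1, h1.2, h2.1, h2.2]
  rw [abs_mul, abs_of_pos (by positivity : 0 < V / G)] at hbound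
  have hC₂0 : 0 ≤ C₂ := by
    have h1 : 0 ≤ D := by
      obtain ⟨x₀, hx₀⟩ := hint
      exact (norm_nonneg _).trans (hD x₀ (interior_subset hx₀) x₀ (interior_subset hx₀))
    rw [hC₂]
    positivity
  have hI : ∫ x in K, Ψp x ≤ ∫ x in K, |Ψ x| := by
    apply setIntegral_mono hpi (integrableOn_of_abs_le hKfin hΨm.abs (B := B) (fun x => by
      rw [abs_abs]; exact hΨB x))
    intro x
    simp only [hΨp]
    exact max_le (le_abs_self _) (abs_nonneg _)
  have hfinal : |∫ x in K, (lmax a ua x - lmax b ub x) * Ψ x| ≤ 2 * G * s * C₂ := by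
    have h1 : (V / G) * |∫ x in K, (lmax a ua x - lmax b ub x) * Ψ x| ≤
        (V / G) * (2 * G * s * C₂) := by
      calc _ ≤ 2 * (s * V * C₂) := hbound
        _ = (V / G) * (2 * G * s * C₂) := by field_simp
    exact le_of_mul_le_mul_left h1 (by positivity)
  refine hfinal.trans ?_
  have hG2 : G ≤ (∫ x in K, |Ψ x|) + κ * V := by rw [hG]; linarith
  have h3 : 0 ≤ s * C₂ := by positivity
  calc 2 * G * s * C₂ = 2 * G * (s * C₂) := by ring
    _ ≤ 2 * ((∫ x in K, |Ψ x|) + κ * V) * (s * C₂) := by gcongr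
    _ = _ := by ring

end signed

section direction

/-- The identity for the test function. -/
theorem psi_identity {K S : Set (E d)} (hSc : IsCompact S) (hSK : S ⊆ K) {v : E d}
    (hSp : ∀ x ∈ S, x + v ∈ K) {g : E d → ℝ} (hgm : Measurable g) {G : ℝ} (hgb : ∀ x, |g x| ≤ G)
    {φ : E d → ℝ} (hφ : Continuous φ) :
    ∫ z in K, φ z * (((fun z => z - v) ⁻¹' S).indicator (fun z => g (z - v)) z - S.indicator g z) =
      ∫ x in S, g x * (φ (x + v) - φ x) := by
  have hScl : IsClosed S := hSc.isClosed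
  have hSm : MeasurableSet S := hScl.measurableSet
  have hS'cl : IsClosed ((fun z => z - v) ⁻¹' S) := hScl.preimage (continuous_id.sub continuous_const)
  have hS'm : MeasurableSet ((fun z => z - v) ⁻¹' S) := hS'cl.measurableSet
  have hS'K : (fun z => z - v) ⁻¹' S ⊆ K := by
    intro z hz
    have := hSp _ hz
    simpa using this
  have hS'c : IsCompact ((fun z => z - v) ⁻¹' S) := by
    have hcimg : IsCompact ((fun z => z + v) '' S) :=
      hSc.image (continuous_id.add continuous_const)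
    refine hcimg.of_isClosed_subset hS'cl ?_
    rintro z hz
    exact ⟨z - v, hz, by simp⟩
  have hg' : Measurable fun z => g (z - v) := hgm.comp (measurable_id.sub_const v)
  have h1 : IntegrableOn (fun z => φ z * g (z - v)) ((fun z => z - v) ⁻¹' S) :=
    integrableOn_cont_mul hS'c hφ hg' (fun z => hgb (z - v))
  have h2 : IntegrableOn (fun z => φ z * g z) S := integrableOn_cont_mul hSc hφ hgm hgb
  have h3 : IntegrableOn (fun z => φ (z + v) * g z) S :=
    integrableOn_cont_mul hSc (hφ.comp (continuous_id.add continuous_const)) hgm hgb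
  have e1 : ∀ z, φ z * (((fun z => z - v) ⁻¹' S).indicator (fun z => g (z - v)) z -
      S.indicator g z) = ((fun z => z - v) ⁻¹' S).indicator (fun z => φ z * g (z - v)) z -
      S.indicator (fun z => φ z * g z) z := by
    intro z
    simp only [mul_sub, indicator, mul_ite, mul_zero]
  simp_rw [e1]
  have hi1 : IntegrableOn (((fun z => z - v) ⁻¹' S).indicator fun z => φ z * g (z - v)) K :=
    (h1.integrable_indicator hS'm).integrableOn
  have hi2 : IntegrableOn (S.indicator fun z => φ z * g z) K :=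
    (h2.integrable_indicator hSm).integrableOn
  rw [integral_sub hi1 hi2, setIntegral_indicator hS'm, setIntegral_indicator hSm,
    inter_eq_right.mpr hS'K, inter_eq_right.mpr hSK]
  have htr : ∫ z in (fun z => z - v) ⁻¹' S, φ z * g (z - v) = ∫ x in S, φ (x + v) * g x := by
    have hmp := measurePreserving_sub_right (volume : Measure (E d)) v
    have hemb : MeasurableEmbedding (fun x : E d => x - v) := measurableEmbedding_subRight v
    have := hmp.setIntegral_preimage_emb hemb (fun x => φ (x + v) * g x) S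
    simpa using this
  rw [htr, ← integral_sub h3 h2]
  apply integral_congr_ae
  filter_upwards with x
  ring

/-- The size of the test function. -/
theorem psi_abs {K S : Set (E d)} (hK : IsCompact K) (hSc : IsCompact S) (hSK : S ⊆ K) {v : E d}
    (hSp : ∀ x ∈ S, x + v ∈ K) (hSn : ∀ x ∈ S, x - v ∈ K)
    {g : E d → ℝ} (hgm : Measurable g) {G : ℝ} (hgb : ∀ x, |g x| ≤ G)
    {A : E d → ℝ} (hAi : IntegrableOn A S) (hgA : ∀ x, |g x - g (x + v)| ≤ A x) {ρ : ℝ}
    (hρ : (volume (K \ S)).toReal = ρ) :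
    ∫ z in K, |((fun z => z - v) ⁻¹' S).indicator (fun z => g (z - v)) z - S.indicator g z| ≤
      (∫ x in S, A x) + 2 * G * ρ := by
  have hKfin : volume K ≠ ∞ := hK.measure_lt_top.ne
  have hSm : MeasurableSet S := hSc.measurableSet
  have hSfin : volume S ≠ ∞ := hSc.measure_lt_top.ne
  have hrim : volume (K \ S) ≠ ∞ := measure_ne_top_of_subset sdiff_subset hKfin
  have hG0 : 0 ≤ G := (abs_nonneg _).trans (hgb 0)
  obtain ⟨S', hS'⟩ : ∃ S', S' = (fun z => z - v) ⁻¹' S := ⟨_, rfl⟩
  rw [← hS']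
  have hS'cl : IsClosed S' := by
    rw [hS']; exact hSc.isClosed.preimage (continuous_id.sub continuous_const)
  have hS'm : MeasurableSet S' := hS'cl.measurableSet
  have hS'K : S' ⊆ K := by
    intro z hz
    rw [hS'] at hz
    have := hSp _ hz
    simpa using this
  have hS'c : IsCompact S' := hK.of_isClosed_subset hS'cl hS'K
  have hg' : Measurable fun z => g (z - v) := hgm.comp (measurable_id.sub_const v)
  obtain ⟨F₁, hF₁⟩ : ∃ F₁ : E d → ℝ, F₁ = fun z => |g (z - v) - g z| := ⟨_, rfl⟩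
  have hF₁m : Measurable F₁ := by rw [hF₁]; exact (hg'.sub hgm).abs
  have hF₁b : ∀ z, |F₁ z| ≤ 2 * G := fun z => by
    simp only [hF₁, abs_abs]
    have := abs_sub (g (z - v)) (g z)
    have h1 := hgb (z - v)
    have h2 := hgb z
    linarith
  have hpt : ∀ z, |S'.indicator (fun z => g (z - v)) z - S.indicator g z| ≤ S'.indicator F₁ z +
      (S' \ S).indicator (fun _ => G) z + (S \ S').indicator (fun _ => G) z := by
    intro z
    by_cases h1 : z ∈ S' <;> by_cases h2 : z ∈ S
    · simp [h1, h2, hF₁]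
    · have h3 := hgb (z - v)
      have h4 : 0 ≤ |g (z - v) - g z| := abs_nonneg _
      simp only [indicator, h1, h2, Set.mem_sdiff, hF₁, if_true, if_false, not_false_eq_true,
        and_self, not_true_eq_false, and_false, sub_zero, add_zero]
      linarith
    · simp only [indicator, h1, h2, Set.mem_sdiff, hF₁, if_true, if_false, not_false_eq_true,
        and_self, not_true_eq_false, and_false, zero_sub, add_zero, zero_add, abs_neg, false_and]
      exact hgb z
    · simp [h1, h2]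
  have hi1 : IntegrableOn (S'.indicator F₁) K :=
    ((integrableOn_of_abs_le hS'c.measure_lt_top.ne hF₁m hF₁b).integrable_indicator
      hS'm).integrableOn
  have hT1m : MeasurableSet (S' \ S) := hS'm.diff hSm
  have hT2m : MeasurableSet (S \ S') := hSm.diff hS'm
  have hT1f : volume (S' \ S) ≠ ∞ := measure_ne_top_of_subset (sdiff_subset.trans hS'K) hKfin
  have hT2f : volume (S \ S') ≠ ∞ := measure_ne_top_of_subset (sdiff_subset.trans hSK) hKfin
  have hi2 : IntegrableOn ((S' \ S).indicator fun _ => G) K :=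
    ((integrableOn_const hT1f).integrable_indicator hT1m).integrableOn
  have hi3 : IntegrableOn ((S \ S').indicator fun _ => G) K :=
    ((integrableOn_const hT2f).integrable_indicator hT2m).integrableOn
  have hΨm : Measurable fun z => S'.indicator (fun z => g (z - v)) z - S.indicator g z :=
    (hg'.indicator hS'm).sub (hgm.indicator hSm)
  have hindb : ∀ (T : Set (E d)) (F : E d → ℝ), (∀ z, |F z| ≤ G) → ∀ z,
      |T.indicator F z| ≤ G := by
    intro T F hF z
    by_cases hz : z ∈ T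
    · rw [indicator_of_mem hz]; exact hF z
    · rw [indicator_of_notMem hz, abs_zero]; exact hG0
  have hi0 : IntegrableOn
      (fun z => |S'.indicator (fun z => g (z - v)) z - S.indicator g z|) K := by
    apply integrableOn_of_abs_le hKfin hΨm.abs (B := 2 * G)
    intro z
    rw [abs_abs]
    have h1 := hindb S' _ (fun z => hgb (z - v)) z
    have h2 := hindb S g hgb z
    have := abs_sub (S'.indicator (fun z => g (z - v)) z) (S.indicator g z)
    linarith
  have hi12 : IntegrableOn (fun x => S'.indicator F₁ x + (S' \ S).indicator (fun _ => G) x) K :=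
    hi1.add hi2
  have hmono' : ∫ x in K, |S'.indicator (fun z => g (z - v)) x - S.indicator g x| ≤
      ∫ x in K, (S'.indicator F₁ x + (S' \ S).indicator (fun _ => G) x +
        (S \ S').indicator (fun _ => G) x) :=
    setIntegral_mono hi0 (hi12.add hi3) hpt
  refine hmono'.trans ?_
  rw [integral_add hi12 hi3, integral_add hi1 hi2, setIntegral_indicator hS'm,
    setIntegral_indicator hT1m, setIntegral_indicator hT2m, inter_eq_right.mpr hS'K,
    inter_eq_right.mpr (sdiff_subset.trans hS'K), inter_eq_right.mpr (sdiff_subset.trans hSK),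
    setIntegral_const, setIntegral_const, smul_eq_mul, smul_eq_mul, Measure.real, Measure.real]
  have hvol1 : (volume (S' \ S)).toReal ≤ ρ := by
    rw [← hρ]
    apply ENNReal.toReal_mono hrim
    apply measure_mono
    exact sdiff_subset_sdiff_left hS'K
  have hvol2 : (volume (S \ S')).toReal ≤ ρ := by
    rw [← hρ]
    apply ENNReal.toReal_mono hrim
    have hsub : S \ S' ⊆ (fun z => z - v) ⁻¹' (K \ S) := by
      rintro z ⟨hz1, hz2⟩
      rw [hS'] at hz2
      exact ⟨hSn z hz1, hz2⟩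
    calc volume (S \ S') ≤ volume ((fun z => z - v) ⁻¹' (K \ S)) := measure_mono hsub
      _ = volume (K \ S) := by
          simp only [sub_eq_add_neg]
          exact measure_preimage_add_right _ _ _
  have hF₁int : ∫ x in S', F₁ x ≤ ∫ x in S, A x := by
    have htr : ∫ z in S', F₁ z = ∫ x in S, |g x - g (x + v)| := by
      have hmp := measurePreserving_sub_right (volume : Measure (E d)) v
      have hemb : MeasurableEmbedding (fun x : E d => x - v) := measurableEmbedding_subRight v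
      have := hmp.setIntegral_preimage_emb hemb (fun x => |g x - g (x + v)|) S
      rw [hS', hF₁]
      simpa using this
    rw [htr]
    apply setIntegral_mono (integrableOn_of_abs_le hSfin
      (hgm.sub (hgm.comp (measurable_id.add_const v))).abs (B := 2 * G) (fun x => by
        rw [abs_abs]
        change |g x - g (x + v)| ≤ 2 * G
        have := abs_sub (g x) (g (x + v))
        have h1 := hgb x
        have h2 := hgb (x + v)
        linarith)) hAi hgA
  calc _ ≤ (∫ x in S, A x) + ρ * G + ρ * G := by gcongr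
    _ = _ := by ring

/-- The abstract estimate in one direction. -/
theorem direction_core {K S : Set (E d)} (hK : IsCompact K) (hSc : IsCompact S) (hSK : S ⊆ K)
    {v : E d} (hSp : ∀ x ∈ S, x + v ∈ K) (hSn : ∀ x ∈ S, x - v ∈ K)
    {g f A : E d → ℝ} (hgm : Measurable g) {G : ℝ} (hgb : ∀ x, |g x| ≤ G) (hfc : Continuous f)
    (hAi : IntegrableOn A S) (hA0 : ∀ x, 0 ≤ A x) {r : ℝ} (hr : 0 < r)
    (hcomp : ∀ x, |r * g x - (f (x + v) - f x)| ≤ r * A x) (hgA : ∀ x, |g x - g (x + v)| ≤ A x)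
    {ρ V Z a₀ : ℝ} (hρ : (volume (K \ S)).toReal = ρ) (hAint : ∫ x in S, A x ≤ 2 * G * ρ)
    (hρle : ρ ≤ a₀ * r) (hZ0 : 0 ≤ Z)
    (htest : ∀ Ψ : E d → ℝ, Measurable Ψ → (∀ x, |Ψ x| ≤ 2 * G) → ∫ x in K, Ψ x = 0 →
      |∫ x in K, f x * Ψ x| ≤ 2 * ((∫ x in K, |Ψ x|) + r * V) * Z) :
    ∫ x in K, g x ^ 2 ≤ 2 * (4 * G * a₀ + V) * Z + 3 * G ^ 2 * a₀ * r := by
  have hKfin : volume K ≠ ∞ := hK.measure_lt_top.ne
  have hSm : MeasurableSet S := hSc.measurableSet
  have hSfin : volume S ≠ ∞ := hSc.measure_lt_top.ne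
  have hrim : volume (K \ S) ≠ ∞ := measure_ne_top_of_subset sdiff_subset hKfin
  have hG0 : 0 ≤ G := (abs_nonneg _).trans (hgb 0)
  have hρ0 : 0 ≤ ρ := by rw [← hρ]; exact ENNReal.toReal_nonneg
  have hS'm : MeasurableSet ((fun z => z - v) ⁻¹' S) :=
    (hSc.isClosed.preimage (continuous_id.sub continuous_const)).measurableSet
  have hg' : Measurable fun z => g (z - v) := hgm.comp (measurable_id.sub_const v)
  obtain ⟨Ψ, hΨ⟩ : ∃ Ψ : E d → ℝ, Ψ = fun z =>
      ((fun z => z - v) ⁻¹' S).indicator (fun z => g (z - v)) z - S.indicator g z := ⟨_, rfl⟩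
  have hΨm : Measurable Ψ := by
    rw [hΨ]; exact (hg'.indicator hS'm).sub (hgm.indicator hSm)
  have hindb : ∀ (T : Set (E d)) (F : E d → ℝ), (∀ z, |F z| ≤ G) → ∀ z,
      |T.indicator F z| ≤ G := by
    intro T F hF z
    by_cases hz : z ∈ T
    · rw [indicator_of_mem hz]; exact hF z
    · rw [indicator_of_notMem hz, abs_zero]; exact hG0
  have hΨB : ∀ z, |Ψ z| ≤ 2 * G := fun z => by
    rw [hΨ]
    have h1 := hindb ((fun z => z - v) ⁻¹' S) _ (fun z => hgb (z - v)) z
    have h2 := hindb S g hgb z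
    have := abs_sub (((fun z => z - v) ⁻¹' S).indicator (fun z => g (z - v)) z) (S.indicator g z)
    simp only
    linarith
  have hident : ∀ φ : E d → ℝ, Continuous φ →
      ∫ z in K, φ z * Ψ z = ∫ x in S, g x * (φ (x + v) - φ x) := fun φ hφ => by
    rw [hΨ]
    exact psi_identity hSc hSK hSp hgm hgb hφ
  have hΨ0 : ∫ x in K, Ψ x = 0 := by
    have := hident (fun _ => 1) continuous_const
    simpa using this
  have hΨabs : ∫ x in K, |Ψ x| ≤ 4 * G * ρ := by
    have := psi_abs hK hSc hSK hSp hSn hgm hgb hAi hgA hρ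
    rw [hΨ]
    simp only
    linarith
  have hgh : ∫ x in S, g x * (f (x + v) - f x) ≤ 2 * (4 * G * ρ + r * V) * Z := by
    rw [← hident f hfc]
    refine (le_abs_self _).trans ((htest Ψ hΨm hΨB hΨ0).trans ?_)
    gcongr
  have hgg : ∀ T : Set (E d), volume T ≠ ∞ → IntegrableOn (fun x => g x ^ 2) T := fun T hT =>
    integrableOn_of_abs_le hT (hgm.pow_const 2) (B := G ^ 2) (fun x => by
      rw [abs_pow]
      exact pow_le_pow_left₀ (abs_nonneg _) (hgb x) 2)
  have hghi : IntegrableOn (fun x => g x * (f (x + v) - f x)) S := by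
    have hc : Continuous fun x => f (x + v) - f x :=
      (hfc.comp (continuous_id.add continuous_const)).sub hfc
    have := integrableOn_cont_mul hSc hc hgm hgb
    simpa [mul_comm] using this
  have hmainS : r * ∫ x in S, g x ^ 2 ≤ (∫ x in S, g x * (f (x + v) - f x)) + G * r * (2 * G * ρ) := by
    rw [← integral_const_mul]
    have hpt : ∀ x, r * g x ^ 2 ≤ g x * (f (x + v) - f x) + (G * r) * A x := by
      intro x
      have h1 := hcomp x
      have h2 := hgb x
      have h3 := hA0 x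
      have h4 : g x * (r * g x - (f (x + v) - f x)) ≤ |g x| * |r * g x - (f (x + v) - f x)| := by
        rw [← abs_mul]; exact le_abs_self _
      have h5 : |g x| * |r * g x - (f (x + v) - f x)| ≤ G * (r * A x) :=
        mul_le_mul h2 h1 (abs_nonneg _) hG0
      nlinarith
    calc ∫ x in S, r * g x ^ 2 ≤ ∫ x in S, (g x * (f (x + v) - f x) + (G * r) * A x) :=
          setIntegral_mono ((hgg S hSfin).const_mul r) (hghi.add (hAi.const_mul _)) hpt
      _ = (∫ x in S, g x * (f (x + v) - f x)) + G * r * ∫ x in S, A x := by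
          rw [integral_add hghi (hAi.const_mul _), integral_const_mul]
      _ ≤ _ := by
          have : 0 ≤ G * r := by positivity
          gcongr
  have hIS : ∫ x in S, g x ^ 2 ≤ 2 * (4 * G * a₀ + V) * Z + 2 * G ^ 2 * a₀ * r := by
    have h1 : r * ∫ x in S, g x ^ 2 ≤ r * (2 * (4 * G * a₀ + V) * Z + 2 * G ^ 2 * a₀ * r) := by
      have h2 : 2 * (4 * G * ρ + r * V) * Z ≤ 2 * (4 * G * (a₀ * r) + r * V) * Z := by
        gcongr
      have h3 : G * r * (2 * G * ρ) ≤ G * r * (2 * G * (a₀ * r)) := by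
        gcongr
      calc r * ∫ x in S, g x ^ 2 ≤ _ := hmainS
        _ ≤ 2 * (4 * G * (a₀ * r) + r * V) * Z + G * r * (2 * G * (a₀ * r)) := by linarith
        _ = _ := by ring
    exact le_of_mul_le_mul_left h1 hr
  have hrest : ∫ x in K \ S, g x ^ 2 ≤ G ^ 2 * ρ := by
    calc ∫ x in K \ S, g x ^ 2 ≤ ∫ _ in K \ S, G ^ 2 := by
          apply setIntegral_mono (hgg _ hrim) (integrableOn_const hrim)
          intro x
          have := hgb x
          simp only
          rw [← sq_abs]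
          exact pow_le_pow_left₀ (abs_nonneg _) this 2
      _ = G ^ 2 * ρ := by
          rw [setIntegral_const, smul_eq_mul, Measure.real, hρ]
          ring
  have hsplit : ∫ x in K, g x ^ 2 = (∫ x in S, g x ^ 2) + ∫ x in K \ S, g x ^ 2 := by
    rw [← setIntegral_union disjoint_sdiff_right (hK.measurableSet.diff hSm) (hgg S hSfin)
      (hgg _ hrim), union_sdiff_cancel hSK]
  rw [hsplit]
  have h4 : G ^ 2 * ρ ≤ G ^ 2 * (a₀ * r) := by gcongr
  nlinarith

variable [Fintype ι] [Nonempty ι] {K : Set (E d)} {M : ι → ℝ} {a b : ι → E d}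
  {V RK RY D s : ℝ}

theorem IsLMap.transl {y : ι → E d} {u : ι → ℝ} {T : E d → E d} (hT : IsLMap y u T) {e : E d}
    (r : ℝ) (x : E d) :
    r * ⟪T x, e⟫ ≤ lmax y u (x + r • e) - lmax y u x ∧
      lmax y u (x + r • e) - lmax y u x ≤ r * ⟪T (x + r • e), e⟫ := by
  have h1 := hT.subgrad x (x + r • e)
  have h2 := hT.subgrad (x + r • e) x
  have e1 : ⟪(x + r • e) - x, T x⟫ = r * ⟪T x, e⟫ := by
    rw [add_sub_cancel_left, inner_smul_left, real_inner_comm]
    simp
  have e2 : ⟪x - (x + r • e), T (x + r • e)⟫ = -(r * ⟪T (x + r • e), e⟫) := by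
    have e3 : x - (x + r • e) = -(r • e) := by abel
    rw [e3, inner_neg_left, inner_smul_left, real_inner_comm]
    simp
  rw [e1] at h1
  rw [e2] at h2
  constructor <;> linarith

/-- The bound in a single direction. -/
theorem direction_bound (hK : IsCompact K) (hconv : Convex ℝ K) {c₀ : E d} {δ : ℝ} (hδ : 0 < δ)
    (hball : Metric.closedBall c₀ δ ⊆ K) (hd : 1 ≤ d)
    (hRK : ∀ x ∈ K, ‖x‖ ≤ RK) (hD : ∀ x ∈ K, ∀ x' ∈ K, ‖x - x'‖ ≤ D)
    (ha : Function.Injective a) (hb : Function.Injective b) (haY : ∀ i, ‖a i‖ ≤ RY)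
    (hbY : ∀ i, ‖b i‖ ≤ RY) (hs : ∀ i, ‖b i - a i‖ ≤ s)
    (hM : ∀ i, 0 < M i) (hsum : ∑ i, M i = V) (hV : (volume K).toReal = V)
    {ua ub : ι → ℝ} (hua : Solves K M a (fun _ => 1) ua) (hub : Solves K M b (fun _ => 1) ub)
    {Ta Tb : E d → E d} (hTa : IsLMap a ua Ta) (hTb : IsLMap b ub Tb)
    {e : E d} (he : ‖e‖ = 1) {r : ℝ} (hr : 0 < r) (J : ℕ) (hJ : (4 * RY + r) / r ≤ (2 : ℝ) ^ J) :
    ∫ x in K, ⟪Ta x - Tb x, e⟫ ^ 2 ≤
      2 * (4 * (2 * RY) * ((d / δ) * V) + V) * (s * (D * ((2 * d + 4) * (2 + 16 * (J + 2)) + 3) + 1)) +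
        3 * (2 * RY) ^ 2 * ((d / δ) * V) * r := by
  classical
  have hint : (interior K).Nonempty := by
    refine ⟨c₀, ?_⟩
    rw [mem_interior]
    exact ⟨Metric.ball c₀ δ, Metric.ball_subset_closedBall.trans hball, Metric.isOpen_ball,
      Metric.mem_ball_self hδ⟩
  have hKfin : volume K ≠ ∞ := hK.measure_lt_top.ne
  have hi₀ : ι := Classical.arbitrary ι
  have hRY0 : 0 ≤ RY := (norm_nonneg _).trans (haY hi₀)
  have hs0 : 0 ≤ s := (norm_nonneg _).trans (hs hi₀)
  have hc₀K : c₀ ∈ K := hball (Metric.mem_closedBall_self hδ.le)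
  have hD0 : 0 ≤ D := (norm_nonneg _).trans (hD c₀ hc₀K c₀ hc₀K)
  obtain ⟨S, hS⟩ : ∃ S, S = shrinkSet K r e := ⟨_, rfl⟩
  have hScl : IsClosed S := hS ▸ isClosed_shrinkSet hK.isClosed r e
  have hSK : S ⊆ K := hS ▸ shrinkSet_subset K r e
  have hSc : IsCompact S := hK.of_isClosed_subset hScl hSK
  have hSfin : volume S ≠ ∞ := hSc.measure_lt_top.ne
  have hSp : ∀ x ∈ S, x + r • e ∈ K := fun x hx => by rw [hS] at hx; exact hx.2.1
  have hSn : ∀ x ∈ S, x - r • e ∈ K := fun x hx => by rw [hS] at hx; exact hx.2.2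
  obtain ⟨ρ, hρ⟩ : ∃ ρ, (volume (K \ S)).toReal = ρ := ⟨_, rfl⟩
  have hρle : ρ ≤ ((d / δ) * V) * r := by
    have := volume_diff_shrinkSet_le hK hconv hδ hball he hr hd
    rw [hV, ← hS, hρ] at this
    refine this.trans (le_of_eq ?_)
    field_simp
  have hinner : Measurable fun y : E d => ⟪y, e⟫ := by fun_prop
  have hnorm : ∀ y : E d, |⟪y, e⟫| ≤ ‖y‖ := fun y => by
    have := abs_real_inner_le_norm y e
    rwa [he, mul_one] at this
  obtain ⟨Ga, hGa⟩ : ∃ Ga : E d → ℝ, Ga = fun x => ⟪Ta x, e⟫ := ⟨_, rfl⟩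
  obtain ⟨Gb, hGb⟩ : ∃ Gb : E d → ℝ, Gb = fun x => ⟪Tb x, e⟫ := ⟨_, rfl⟩
  have hGam : Measurable Ga := by rw [hGa]; exact hinner.comp hTa.meas
  have hGbm : Measurable Gb := by rw [hGb]; exact hinner.comp hTb.meas
  have hGab : ∀ x, |Ga x| ≤ RY := fun x => by
    rw [hGa]; exact (hnorm _).trans (hTa.norm_le haY x)
  have hGbb : ∀ x, |Gb x| ≤ RY := fun x => by
    rw [hGb]; exact (hnorm _).trans (hTb.norm_le hbY x)
  obtain ⟨g, hg⟩ : ∃ g : E d → ℝ, g = fun x => Ga x - Gb x := ⟨_, rfl⟩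
  have hgm : Measurable g := by rw [hg]; exact hGam.sub hGbm
  have hgb : ∀ x, |g x| ≤ 2 * RY := fun x => by
    have := abs_sub (Ga x) (Gb x)
    have h1 := hGab x
    have h2 := hGbb x
    rw [hg]
    simp only
    linarith
  have hge : ∀ x, ⟪Ta x - Tb x, e⟫ = g x := fun x => by
    rw [hg, hGa, hGb]
    simp only [inner_sub_left]
  obtain ⟨f, hf⟩ : ∃ f : E d → ℝ, f = fun x => lmax a ua x - lmax b ub x := ⟨_, rfl⟩
  have hfc : Continuous f := by
    rw [hf]; exact (continuous_lmax a ua).sub (continuous_lmax b ub)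
  obtain ⟨A₁, hA₁⟩ : ∃ A₁ : E d → ℝ, A₁ = fun x => Ga (x + r • e) - Ga x := ⟨_, rfl⟩
  obtain ⟨A₂, hA₂⟩ : ∃ A₂ : E d → ℝ, A₂ = fun x => Gb (x + r • e) - Gb x := ⟨_, rfl⟩
  have hmono : ∀ {y : ι → E d} {u : ι → ℝ} {T : E d → E d}, IsLMap y u T → ∀ x,
      0 ≤ ⟪T (x + r • e), e⟫ - ⟪T x, e⟫ := by
    intro y u T hT x
    have h1 := hT.mono x (x + r • e)
    rw [add_sub_cancel_left, inner_smul_right, inner_sub_left] at h1
    exact nonneg_of_mul_nonneg_right h1 hr
  have hA₁0 : ∀ x, 0 ≤ A₁ x := fun x => by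
    rw [hA₁, hGa]; exact hmono hTa x
  have hA₂0 : ∀ x, 0 ≤ A₂ x := fun x => by
    rw [hA₂, hGb]; exact hmono hTb x
  have hA₁m : Measurable A₁ := by
    rw [hA₁]; exact (hGam.comp (measurable_id.add_const _)).sub hGam
  have hA₂m : Measurable A₂ := by
    rw [hA₂]; exact (hGbm.comp (measurable_id.add_const _)).sub hGbm
  have hA₁b : ∀ x, |A₁ x| ≤ 2 * RY := fun x => by
    have := abs_sub (Ga (x + r • e)) (Ga x)
    have h1 := hGab (x + r • e)
    have h2 := hGab x
    rw [hA₁]
    simp only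
    linarith
  have hA₂b : ∀ x, |A₂ x| ≤ 2 * RY := fun x => by
    have := abs_sub (Gb (x + r • e)) (Gb x)
    have h1 := hGbb (x + r • e)
    have h2 := hGbb x
    rw [hA₂]
    simp only
    linarith
  have hA₁i : IntegrableOn A₁ S := integrableOn_of_abs_le hSfin hA₁m hA₁b
  have hA₂i : IntegrableOn A₂ S := integrableOn_of_abs_le hSfin hA₂m hA₂b
  have hSm : MeasurableSet S := hSc.measurableSet
  have hQ₁ : ∫ x in S, A₁ x ≤ 2 * RY * ρ := by
    rw [hA₁, ← hρ]
    exact setIntegral_transl_sub_le hK.measurableSet hKfin hSm hSK hSp hGam hGab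
  have hQ₂ : ∫ x in S, A₂ x ≤ 2 * RY * ρ := by
    rw [hA₂, ← hρ]
    exact setIntegral_transl_sub_le hK.measurableSet hKfin hSm hSK hSp hGbm hGbb
  have hJ' := hJ
  have hZ0 : 0 ≤ s * (D * ((2 * d + 4) * (2 + 16 * (J + 2)) + 3) + 1) := by positivity
  have hcore := direction_core (K := K) (S := S) (v := r • e) (g := g) (f := f)
    (A := fun x => A₁ x + A₂ x) (G := 2 * RY) (r := r) (ρ := ρ) (V := V)
    (Z := s * (D * ((2 * d + 4) * (2 + 16 * (J + 2)) + 3) + 1)) (a₀ := (d / δ) * V)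
    hK hSc hSK hSp hSn hgm hgb hfc (hA₁i.add hA₂i) (fun x => add_nonneg (hA₁0 x) (hA₂0 x)) hr
    (by
      intro x
      obtain ⟨h1, h2⟩ := hTa.transl (e := e) r x
      obtain ⟨h3, h4⟩ := hTb.transl (e := e) r x
      have e1 : f (x + r • e) - f x = (lmax a ua (x + r • e) - lmax a ua x) -
          (lmax b ub (x + r • e) - lmax b ub x) := by
        rw [hf]; simp only; ring
      have e2 : r * g x = r * ⟪Ta x, e⟫ - r * ⟪Tb x, e⟫ := by
        rw [hg, hGa, hGb]; simp only; ring
      have e3 : r * (A₁ x + A₂ x) = (r * ⟪Ta (x + r • e), e⟫ - r * ⟪Ta x, e⟫) +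
          (r * ⟪Tb (x + r • e), e⟫ - r * ⟪Tb x, e⟫) := by
        rw [hA₁, hA₂, hGa, hGb]; simp only; ring
      rw [e1, e2, e3, abs_le]
      constructor <;> linarith)
    (by
      intro x
      have e1 : g x - g (x + r • e) = A₂ x - A₁ x := by
        rw [hg, hA₁, hA₂]; simp only; ring
      rw [e1, abs_le]
      constructor <;> linarith [hA₁0 x, hA₂0 x])
    hρ
    (by
      rw [integral_add hA₁i hA₂i]
      linarith)
    hρle hZ0
    (by
      intro Ψ hΨm hΨB hΨ0
      have hJ2 : (2 * (2 * RY) + r) / r ≤ (2 : ℝ) ^ J := by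
        have e : 2 * (2 * RY) = 4 * RY := by ring
        rw [e]; exact hJ'
      have := test_signed hK hconv hint hRK hD ha hb haY hbY hs hM hsum hV hua hub hΨm hΨB hΨ0 hr
        J hJ2
      rw [hf]
      refine this.trans (le_of_eq ?_)
      ring)
  simp_rw [hge]
  exact hcore

/-- The main estimate for atomic targets: the optimal maps for nearby sites and equal masses. -/
theorem atomic_L2 (hK : IsCompact K) (hconv : Convex ℝ K) {c₀ : E d} {δ : ℝ} (hδ : 0 < δ)
    (hball : Metric.closedBall c₀ δ ⊆ K) (hd : 1 ≤ d)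
    (hRK : ∀ x ∈ K, ‖x‖ ≤ RK) (hD : ∀ x ∈ K, ∀ x' ∈ K, ‖x - x'‖ ≤ D)
    (ha : Function.Injective a) (hb : Function.Injective b) (haY : ∀ i, ‖a i‖ ≤ RY)
    (hbY : ∀ i, ‖b i‖ ≤ RY) (hs : ∀ i, ‖b i - a i‖ ≤ s)
    (hM : ∀ i, 0 < M i) (hsum : ∑ i, M i = V) (hV : (volume K).toReal = V)
    {ua ub : ι → ℝ} (hua : Solves K M a (fun _ => 1) ua) (hub : Solves K M b (fun _ => 1) ub)
    {Ta Tb : E d → E d} (hTa : IsLMap a ua Ta) (hTb : IsLMap b ub Tb)
    {r : ℝ} (hr : 0 < r) (J : ℕ) (hJ : (4 * RY + r) / r ≤ (2 : ℝ) ^ J) :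
    ∫ x in K, ‖Ta x - Tb x‖ ^ 2 ≤ d *
      (2 * (4 * (2 * RY) * ((d / δ) * V) + V) * (s * (D * ((2 * d + 4) * (2 + 16 * (J + 2)) + 3) + 1)) +
        3 * (2 * RY) ^ 2 * ((d / δ) * V) * r) := by
  have hKfin : volume K ≠ ∞ := hK.measure_lt_top.ne
  have hi₀ : ι := Classical.arbitrary ι
  have hRY0 : 0 ≤ RY := (norm_nonneg _).trans (haY hi₀)
  have hTm : Measurable fun x => Ta x - Tb x := hTa.meas.sub hTb.meas
  have hint : ∀ i : Fin d, IntegrableOn
      (fun x => ⟪Ta x - Tb x, (EuclideanSpace.single i (1 : ℝ) : E d)⟫ ^ 2) K := by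
    intro i
    have hinner : Measurable fun y : E d => ⟪y, (EuclideanSpace.single i (1 : ℝ) : E d)⟫ := by
      fun_prop
    refine integrableOn_of_abs_le hKfin ((hinner.comp hTm).pow_const 2) (B := (RY + RY) ^ 2)
      (fun x => ?_)
    rw [abs_pow]
    apply pow_le_pow_left₀ (abs_nonneg _)
    have h1 := abs_real_inner_le_norm (Ta x - Tb x) (EuclideanSpace.single i (1 : ℝ) : E d)
    have h2 : ‖(EuclideanSpace.single i (1 : ℝ) : E d)‖ = 1 := by simp
    rw [h2, mul_one] at h1
    have h3 := norm_sub_le (Ta x) (Tb x)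
    have h4 := hTa.norm_le haY x
    have h5 := hTb.norm_le hbY x
    linarith
  have hsq : ∀ x, ‖Ta x - Tb x‖ ^ 2 =
      ∑ i : Fin d, ⟪Ta x - Tb x, (EuclideanSpace.single i (1 : ℝ) : E d)⟫ ^ 2 := by
    intro x
    rw [EuclideanSpace.real_norm_sq_eq]
    apply Finset.sum_congr rfl
    intro i _
    congr 1
    simp [EuclideanSpace.inner_single_right]
  simp_rw [hsq]
  rw [integral_finset_sum _ fun i _ => hint i]
  calc _ ≤ ∑ _i : Fin d, (2 * (4 * (2 * RY) * ((d / δ) * V) + V) *
        (s * (D * ((2 * d + 4) * (2 + 16 * (J + 2)) + 3) + 1)) +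
        3 * (2 * RY) ^ 2 * ((d / δ) * V) * r) := by
        apply Finset.sum_le_sum
        intro i _
        have h2 : ‖(EuclideanSpace.single i (1 : ℝ) : E d)‖ = 1 := by simp
        exact direction_bound hK hconv hδ hball hd hRK hD ha hb haY hbY hs hM hsum hV hua hub hTa hTb
          h2 hr J hJ
    _ = _ := by
        rw [Finset.sum_const, Finset.card_univ, Fintype.card_fin, nsmul_eq_mul]

end direction

end Vale.Agent.Lib.P074
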