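import Vale.Agent.Lib.P074.XPath

open MeasureTheory Set Filter Topology
open scoped ENNReal NNReal RealInnerProductSpace

namespace Vale.Agent.Lib.P074

variable {d : ℕ} {ι : Type*}

section tfun

variable [Fintype ι] [Nonempty ι] {K : Set (E d)} {M : ι → ℝ} {y a b : ι → E d} {ϱ : E d → ℝ}
  {V RK RY D s Q : ℝ}

/-- The pairing of the potential with `ϱ - 1`. -/
noncomputable def Tfun (K : Set (E d)) (ϱ : E d → ℝ) (y : ι → E d) (u : ι → ℝ) : ℝ :=
  (∫ x in K, lmax y u x * ϱ x) - ∫ x in K, lmax y u x * 1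

theorem dualF_sigma (hK : IsCompact K) (hϱ : IsDens ϱ Q) (ε : ℝ) (y : ι → E d) (u : ι → ℝ) :
    dualF K M y (fun x => (1 - ε) + ε * ϱ x) u = dualF K M y (fun _ => 1) u + ε * Tfun K ϱ y u := by
  unfold dualF Tfun
  have h1 : IntegrableOn (fun x => lmax y u x * ϱ x) K :=
    hϱ.integrableOn_mul hK (continuous_lmax y u)
  have h2 : IntegrableOn (fun x => lmax y u x * 1) K :=
    isDens_one.integrableOn_mul hK (continuous_lmax y u)
  have e : ∀ x, lmax y u x * ((1 - ε) + ε * ϱ x) =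
      (1 - ε) * (lmax y u x * 1) + ε * (lmax y u x * ϱ x) := fun x => by ring
  simp_rw [e]
  rw [integral_add (h2.const_mul _) (h1.const_mul _), integral_const_mul, integral_const_mul]
  ring

theorem Tfun_add_const (hK : IsCompact K) (hϱ : IsDens ϱ Q) (hV : (volume K).toReal = V)
    (hϱV : ∫ x in K, ϱ x = V) (u : ι → ℝ) (c : ℝ) :
    Tfun K ϱ y (fun i => u i + c) = Tfun K ϱ y u := by
  unfold Tfun
  simp_rw [lmax_add_const, sub_mul]
  have h1 : IntegrableOn (fun x => lmax y u x * ϱ x) K :=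
    hϱ.integrableOn_mul hK (continuous_lmax y u)
  have h2 : IntegrableOn (fun x => lmax y u x * 1) K :=
    isDens_one.integrableOn_mul hK (continuous_lmax y u)
  have h3 : IntegrableOn (fun x => c * ϱ x) K := (hϱ.integrableOn hK).const_mul c
  have h4 : IntegrableOn (fun _ : E d => c * 1) K := integrableOn_const hK.measure_lt_top.ne
  rw [integral_sub h1 h3, integral_sub h2 h4, integral_const_mul, hϱV, setIntegral_const,
    smul_eq_mul, Measure.real, hV]
  ring

theorem continuous_Tfun (hK : IsCompact K) (hϱ : IsDens ϱ Q) :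
    Continuous fun u : ι → ℝ => Tfun K ϱ y u :=
  (continuous_integral_lmax hK hϱ).sub (continuous_integral_lmax hK isDens_one)

/-- Convergence of the pairing along the perturbed solutions. -/
theorem T_limit (hK : IsCompact K) (hconv : Convex ℝ K) (hint : (interior K).Nonempty)
    (hRK : ∀ x ∈ K, ‖x‖ ≤ RK) (hy : Function.Injective y) (hyY : ∀ i, ‖y i‖ ≤ RY)
    (hM : ∀ i, 0 < M i) (hsum : ∑ i, M i = V) (hV : (volume K).toReal = V)
    (hϱ : IsDens ϱ Q) (hϱV : ∫ x in K, ϱ x = V)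
    {p : ι → ℝ} (hp : Solves K M y (fun _ => 1) p) {z : ℕ → ι → ℝ}
    (hz : ∀ n, Solves K M y (fun x => (1 - (1 / 2 : ℝ) ^ (n + 2)) + (1 / 2 : ℝ) ^ (n + 2) * ϱ x) (z n))
    {η : ℝ} (hη : 0 < η) (N₀ : ℕ) :
    ∃ n, N₀ ≤ n ∧ |Tfun K ϱ y (z n) - Tfun K ϱ y p| ≤ η := by
  classical
  have hone := isDens_one (d := d)
  obtain ⟨x₀, hx₀⟩ := hint
  have hx₀K := interior_subset hx₀
  have hRK0 : 0 ≤ RK := (norm_nonneg _).trans (hRK x₀ hx₀K)
  have hi₀ : ι := Classical.arbitrary ι
  have hRY0 : 0 ≤ RY := (norm_nonneg _).trans (hyY hi₀)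
  have hV0 : 0 ≤ V := by rw [← hsum]; exact Finset.sum_nonneg fun i _ => (hM i).le
  set ε : ℕ → ℝ := fun n => (1 / 2 : ℝ) ^ (n + 2) with hε
  have hε0 : ∀ n, 0 < ε n := fun n => by simp only [hε]; positivity
  have hε1 : ∀ n, ε n ≤ 1 := fun n => pow_le_one₀ (by norm_num) (by norm_num)
  set σ : ℕ → E d → ℝ := fun n x => (1 - ε n) + ε n * ϱ x with hσ
  have hσd : ∀ n, IsDens (σ n) ((1 - ε n) + ε n * Q) := fun n =>
    ⟨(hϱ.meas.const_mul _).const_add _,
      fun x => add_nonneg (by linarith [hε1 n]) (mul_nonneg (hε0 n).le (hϱ.nonneg x)),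
      fun x => by
        have := mul_le_mul_of_nonneg_left (hϱ.le x) (hε0 n).le
        simp only [hσ]
        linarith⟩
  have hintσ : ∀ n, ∫ x in K, σ n x = V := fun n => by
    have hi1 : IntegrableOn (fun _ : E d => (1 - ε n)) K := integrableOn_const hK.measure_lt_top.ne
    have hi2 : IntegrableOn (fun x => ε n * ϱ x) K := (hϱ.integrableOn hK).const_mul _
    simp only [hσ]
    rw [integral_add hi1 hi2, integral_const_mul, hϱV, setIntegral_const, smul_eq_mul, Measure.real,
      hV]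
    ring
  -- normalisation
  have hmin : ∀ n, ∃ i₀, ∀ i, z n i₀ ≤ z n i := fun n => Finite.exists_min (z n)
  choose i₀ hi₀min using hmin
  set z' : ℕ → ι → ℝ := fun n i => z n i + (-(z n (i₀ n))) with hz'
  have hz'0 : ∀ n i, 0 ≤ z' n i := fun n i => by
    have := hi₀min n i
    simp only [hz']
    linarith
  set C : ℝ := RK * RY * V with hC
  have hC0 : 0 ≤ C := by positivity
  set R₀ : ℝ := ∑ j, 2 * C / M j with hR₀
  have hR₀j : ∀ j, 2 * C / M j ≤ R₀ := fun j =>
    Finset.single_le_sum (f := fun j => 2 * C / M j)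
      (fun j _ => div_nonneg (by positivity) (hM j).le) (Finset.mem_univ j)
  have hz'R : ∀ n i, z' n i ≤ R₀ := by
    intro n j
    have h1 := dualF_coercive (y := y) hK (hσd n) hM (by rw [hsum, hintσ]) hRK hyY (hi₀min n) j
    have h2 := dualF_le_of_solves hK hy (hσd n) (hz n) (fun _ => 0)
    have h3 : dualF K M y (σ n) (fun _ => 0) ≤ C := by
      unfold dualF
      have := integral_lmax_zero_le (y := y) hK (hσd n) hRK hyY
      rw [hintσ] at this
      simpa using this
    rw [hintσ, ← hC] at h1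
    have h4 : M j * (z n j - z n (i₀ n)) ≤ 2 * C := by linarith
    have h5 : z' n j = z n j - z n (i₀ n) := by simp only [hz']; ring
    rw [h5]
    have h6 : z n j - z n (i₀ n) ≤ 2 * C / M j := by
      rw [le_div_iff₀ (hM j)]
      linarith
    exact h6.trans (hR₀j j)
  have hcomp : IsCompact (Set.pi univ fun _ : ι => Icc (0 : ℝ) R₀) :=
    isCompact_univ_pi fun _ => isCompact_Icc
  have hmem : ∀ n, z' n ∈ Set.pi univ fun _ : ι => Icc (0 : ℝ) R₀ :=
    fun n i _ => ⟨hz'0 n i, hz'R n i⟩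
  obtain ⟨a, -, φ, hφ, hlim⟩ := hcomp.tendsto_subseq hmem
  -- the inequality along the sequence
  have hineq : ∀ n, dualF K M y (fun _ => 1) (z' n) + ε n * Tfun K ϱ y (z' n) ≤
      dualF K M y (fun _ => 1) p + ε n * Tfun K ϱ y p := by
    intro n
    have h1 := dualF_le_of_solves hK hy (hσd n) (hz n) p
    have h2 : dualF K M y (σ n) (z' n) = dualF K M y (σ n) (z n) :=
      dualF_add_const hK (hσd n) (by rw [hsum, hintσ]) (z n) _
    rw [← dualF_sigma hK hϱ, ← dualF_sigma hK hϱ]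
    rw [← h2] at h1
    exact h1
  have hεlim : Tendsto (fun k => ε (φ k)) atTop (𝓝 0) := by
    have h1 : Tendsto (fun n : ℕ => (1 / 2 : ℝ) ^ n) atTop (𝓝 0) :=
      tendsto_pow_atTop_nhds_zero_of_lt_one (by norm_num) (by norm_num)
    have h2 : Tendsto (fun k => φ k + 2) atTop atTop :=
      tendsto_atTop_mono (fun k => Nat.le_add_right _ _) hφ.tendsto_atTop
    exact h1.comp h2
  have hFc : Continuous fun u : ι → ℝ => dualF K M y (fun _ => 1) u :=
    continuous_dualF hK hone
  have hTc : Continuous fun u : ι → ℝ => Tfun K ϱ y u := continuous_Tfun hK hϱ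
  have hFlim : Tendsto (fun k => dualF K M y (fun _ => 1) (z' (φ k))) atTop
      (𝓝 (dualF K M y (fun _ => 1) a)) := (hFc.tendsto a).comp hlim
  have hTlim : Tendsto (fun k => Tfun K ϱ y (z' (φ k))) atTop (𝓝 (Tfun K ϱ y a)) :=
    (hTc.tendsto a).comp hlim
  have hle : dualF K M y (fun _ => 1) a ≤ dualF K M y (fun _ => 1) p := by
    have hL : Tendsto (fun k => dualF K M y (fun _ => 1) (z' (φ k)) +
        ε (φ k) * Tfun K ϱ y (z' (φ k))) atTop (𝓝 (dualF K M y (fun _ => 1) a + 0 * Tfun K ϱ y a)) :=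
      hFlim.add (hεlim.mul hTlim)
    have hR : Tendsto (fun k => dualF K M y (fun _ => 1) p + ε (φ k) * Tfun K ϱ y p) atTop
        (𝓝 (dualF K M y (fun _ => 1) p + 0 * Tfun K ϱ y p)) :=
      tendsto_const_nhds.add (hεlim.mul tendsto_const_nhds)
    have := le_of_tendsto_of_tendsto' hL hR (fun k => hineq (φ k))
    simpa using this
  obtain ⟨c, hc⟩ := lmax_sub_const_of_le hK hconv ⟨x₀, hx₀⟩ hy hp hle
  have hTa : Tfun K ϱ y a = Tfun K ϱ y p := by
    have h1 : ∀ x ∈ K, lmax y a x = lmax y p x + c := fun x hx => by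
      have := hc x hx
      linarith
    unfold Tfun
    have e1 : ∫ x in K, lmax y a x * ϱ x = ∫ x in K, (lmax y p x * ϱ x + c * ϱ x) := by
      apply setIntegral_congr_fun hK.measurableSet
      intro x hx
      simp only [h1 x hx]
      ring
    have e2 : ∫ x in K, lmax y a x * 1 = ∫ x in K, (lmax y p x * 1 + c * 1) := by
      apply setIntegral_congr_fun hK.measurableSet
      intro x hx
      simp only [h1 x hx]
      ring
    have h3 : IntegrableOn (fun x => lmax y p x * ϱ x) K :=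
      hϱ.integrableOn_mul hK (continuous_lmax y p)
    have h4 : IntegrableOn (fun x => c * ϱ x) K := (hϱ.integrableOn hK).const_mul c
    have h5 : IntegrableOn (fun x => lmax y p x * 1) K :=
      hone.integrableOn_mul hK (continuous_lmax y p)
    have h6 : IntegrableOn (fun _ : E d => c * 1) K := integrableOn_const hK.measure_lt_top.ne
    rw [e1, e2, integral_add h3 h4, integral_add h5 h6, integral_const_mul, hϱV, setIntegral_const,
      smul_eq_mul, Measure.real, hV]
    ring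
  rw [hTa] at hTlim
  obtain ⟨k₀, hk₀⟩ := Metric.tendsto_atTop.mp hTlim η hη
  set k := max k₀ N₀ with hk
  refine ⟨φ k, (le_max_right k₀ N₀).trans (hφ.le_apply), ?_⟩
  have h1 := hk₀ k (le_max_left _ _)
  rw [Real.dist_eq] at h1
  have h2 : Tfun K ϱ y (z' (φ k)) = Tfun K ϱ y (z (φ k)) :=
    Tfun_add_const hK hϱ hV hϱV (z (φ k)) _
  rw [h2] at h1
  exact h1.le

/-- The test lemma: the potentials of two nearby families of sites have nearly the same pairing
with every bounded density. -/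
theorem test_lemma (hK : IsCompact K) (hconv : Convex ℝ K) (hint : (interior K).Nonempty)
    (hRK : ∀ x ∈ K, ‖x‖ ≤ RK) (hD : ∀ x ∈ K, ∀ x' ∈ K, ‖x - x'‖ ≤ D)
    (ha : Function.Injective a) (hb : Function.Injective b) (haY : ∀ i, ‖a i‖ ≤ RY)
    (hbY : ∀ i, ‖b i‖ ≤ RY) (hs : ∀ i, ‖b i - a i‖ ≤ s)
    (hM : ∀ i, 0 < M i) (hsum : ∑ i, M i = V) (hV : (volume K).toReal = V)
    (J : ℕ) (hϱ : IsDens ϱ ((2 : ℝ) ^ J)) (hϱV : ∫ x in K, ϱ x = V)
    {ua ub : ι → ℝ} (hua : Solves K M a (fun _ => 1) ua) (hub : Solves K M b (fun _ => 1) ub) :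
    |Tfun K ϱ b ub - Tfun K ϱ a ua| ≤
      s * V * (D * ((2 * d + 4) * (2 + 16 * (J + 2)) + 3) + 1) := by
  classical
  obtain ⟨x₀, hx₀⟩ := id hint
  have hKne : K.Nonempty := ⟨x₀, interior_subset hx₀⟩
  have hRK0 : 0 ≤ RK := (norm_nonneg _).trans (hRK x₀ (interior_subset hx₀))
  have hi₀ : ι := Classical.arbitrary ι
  have hRY0 : 0 ≤ RY := (norm_nonneg _).trans (haY hi₀)
  set ε : ℕ → ℝ := fun n => (1 / 2 : ℝ) ^ (n + 2) with hε
  have hε0 : ∀ n, 0 < ε n := fun n => by simp only [hε]; positivity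
  have hε1 : ∀ n, ε n ≤ 1 := fun n => pow_le_one₀ (by norm_num) (by norm_num)
  set σ : ℕ → E d → ℝ := fun n x => (1 - ε n) + ε n * ϱ x with hσ
  have hσd : ∀ n, IsDens (σ n) ((1 - ε n) + ε n * (2 : ℝ) ^ J) := fun n =>
    ⟨(hϱ.meas.const_mul _).const_add _,
      fun x => add_nonneg (by linarith [hε1 n]) (mul_nonneg (hε0 n).le (hϱ.nonneg x)),
      fun x => by
        have := mul_le_mul_of_nonneg_left (hϱ.le x) (hε0 n).le
        simp only [hσ]
        linarith⟩
  have hintσ : ∀ n, ∫ x in K, σ n x = V := fun n => by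
    have hi1 : IntegrableOn (fun _ : E d => (1 - ε n)) K := integrableOn_const hK.measure_lt_top.ne
    have hi2 : IntegrableOn (fun x => ε n * ϱ x) K := (hϱ.integrableOn hK).const_mul _
    simp only [hσ]
    rw [integral_add hi1 hi2, integral_const_mul, hϱV, setIntegral_const, smul_eq_mul, Measure.real,
      hV]
    ring
  have hsola : ∀ n, ∃ u, Solves K M a (σ n) u := fun n =>
    exists_solves hK ha (hσd n) hM (by rw [hsum, hintσ]) hRK haY hRK0 hRY0
  have hsolb : ∀ n, ∃ u, Solves K M b (σ n) u := fun n =>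
    exists_solves hK hb (hσd n) hM (by rw [hsum, hintσ]) hRK hbY hRK0 hRY0
  choose za hza using hsola
  choose zb hzb using hsolb
  set Υ : ℝ := V * (D * ((2 * d + 4) * (2 + 16 * (J + 2)) + 3) + 1) with hΥ
  -- two one sided estimates
  have hone := isDens_one (d := d)
  have hsand : ∀ (y : ι → E d) (u z : ι → ℝ) (n : ℕ), Function.Injective y →
      Solves K M y (fun _ => 1) u → Solves K M y (σ n) z →
      ε n * Tfun K ϱ y z ≤ dualF K M y (σ n) z - dualF K M y (fun _ => 1) u ∧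
      dualF K M y (σ n) z - dualF K M y (fun _ => 1) u ≤ ε n * Tfun K ϱ y u := by
    intro y u z n hy hu hz
    have e1 : dualF K M y (σ n) z = dualF K M y (fun _ => 1) z + ε n * Tfun K ϱ y z :=
      dualF_sigma hK hϱ _ y z
    have e2 : dualF K M y (σ n) u = dualF K M y (fun _ => 1) u + ε n * Tfun K ϱ y u :=
      dualF_sigma hK hϱ _ y u
    have h1 := dualF_le_of_solves hK hy hone hu z
    have h2 := dualF_le_of_solves hK hy (hσd n) hz u
    constructor <;> linarith
  have hmain : ∀ n, |(dualF K M b (σ n) (zb n) - dualF K M a (σ n) (za n)) -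
      (dualF K M b (fun _ => 1) ub - dualF K M a (fun _ => 1) ua)| ≤ s * ε n * Υ := by
    intro n
    have := path_bound hK hconv hKne hRK hD ha hb haY hbY hs hM hsum hV J hϱ hϱV
      (n := n + 2) (by omega) hua hub (hza n) (hzb n)
    simp only [hΥ]
    calc _ ≤ _ := this
      _ = _ := by simp only [hε]; ring
  have hlow : ∀ n, -(s * Υ) ≤ Tfun K ϱ b ub - Tfun K ϱ a (za n) := by
    intro n
    have h1 := (hsand a ua (za n) n ha hua (hza n)).1
    have h2 := (hsand b ub (zb n) n hb hub (hzb n)).2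
    have h3 := (abs_le.mp (hmain n)).1
    have h4 : ε n * (-(s * Υ)) ≤ ε n * (Tfun K ϱ b ub - Tfun K ϱ a (za n)) := by
      rw [mul_sub]
      nlinarith
    exact le_of_mul_le_mul_left h4 (hε0 n)
  have hup : ∀ n, Tfun K ϱ b (zb n) - Tfun K ϱ a ua ≤ s * Υ := by
    intro n
    have h1 := (hsand a ua (za n) n ha hua (hza n)).2
    have h2 := (hsand b ub (zb n) n hb hub (hzb n)).1
    have h3 := (abs_le.mp (hmain n)).2
    have h4 : ε n * (Tfun K ϱ b (zb n) - Tfun K ϱ a ua) ≤ ε n * (s * Υ) := by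
      rw [mul_sub]
      nlinarith
    exact le_of_mul_le_mul_left h4 (hε0 n)
  have hfinal : |Tfun K ϱ b ub - Tfun K ϱ a ua| ≤ s * Υ := by
    rw [abs_le]
    constructor
    · apply le_of_forall_pos_le_add
      intro η hη
      obtain ⟨n, -, hn⟩ := T_limit hK hconv ⟨x₀, hx₀⟩ hRK ha haY hM hsum hV hϱ hϱV hua hza hη 0
      have h1 := hlow n
      have h2 := (abs_le.mp hn).1
      linarith
    · apply le_of_forall_pos_le_add
      intro η hη
      obtain ⟨n, -, hn⟩ := T_limit hK hconv ⟨x₀, hx₀⟩ hRK hb hbY hM hsum hV hϱ hϱV hub hzb hη 0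
      have h1 := hup n
      have h2 := (abs_le.mp hn).1
      linarith
  calc _ ≤ _ := hfinal
    _ = _ := by simp only [hΥ]; ring

end tfun

end Vale.Agent.Lib.P074
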